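import Vale.Agent.P143.CoupKer

open MeasureTheory ProbabilityTheory Set Filter Topology
open scoped ENNReal unitInterval

namespace Vale.Agent.P143

section Q

variable {E : Type*} {μ : Measure (Set E)} [IsProbabilityMeasure μ] {τ : E → ℝ}
  {p : E → Set E → unitInterval} {η : Kernel (E → unitInterval) (Set E)} [IsMarkovKernel η]

omit [IsProbabilityMeasure μ] in
theorem lintegral_Qc (η : Kernel (E → unitInterval) (Set E)) [IsMarkovKernel η]
    (R : (E → unitInterval) × (Set E × Set E) → ℝ≥0∞) (hR : Measurable R) :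
    ∫⁻ x, R x ∂(Qc η) = ∫⁻ v, ∫⁻ t, ∫⁻ t', R (v, (t, t')) ∂(η v) ∂(η v) ∂(iidU E) := by
  unfold Qc
  rw [Measure.lintegral_compProd hR]
  refine lintegral_congr fun v => ?_
  exact Kernel.lintegral_prod _ _ _ (g := fun z => R (v, z))
    (hR.comp (measurable_const.prodMk measurable_id))

instance isProb_Qc (η : Kernel (E → unitInterval) (Set E)) [IsMarkovKernel η] :
    IsProbabilityMeasure (Qc η) := by
  unfold Qc
  infer_instance

/-- symmetry of `Q` -/
theorem lintegral_Qc_swap (η : Kernel (E → unitInterval) (Set E)) [IsMarkovKernel η]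
    (R : (E → unitInterval) × (Set E × Set E) → ℝ≥0∞) (hR : Measurable R) :
    ∫⁻ x, R (x.1, (x.2.2, x.2.1)) ∂(Qc η) = ∫⁻ x, R x ∂(Qc η) := by
  have hm : Measurable (fun x : (E → unitInterval) × (Set E × Set E) =>
      (x.1, (x.2.2, x.2.1))) :=
    measurable_fst.prodMk ((measurable_snd.comp measurable_snd).prodMk
      (measurable_fst.comp measurable_snd))
  rw [lintegral_Qc η (fun x => R (x.1, (x.2.2, x.2.1))) (hR.comp hm), lintegral_Qc η R hR]
  refine lintegral_congr fun v => ?_
  rw [lintegral_lintegral_swap]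
  refine Measurable.aemeasurable ?_
  exact hR.comp (measurable_const.prodMk (measurable_snd.prodMk measurable_fst))

theorem K0 (hA : Adapted μ τ p) : (kap μ p).fst = iidU E := by
  have hprob := isProb_kap (μ := μ) hA.meas
  refine Measure.ext_of_lintegral _ fun f hf => ?_
  unfold Measure.fst
  rw [lintegral_map hf measurable_fst]
  have hD : Down τ (∅ : Set E) := fun _ he => absurd he (notMem_empty _)
  have h := lintegral_law_mix hA hD (fun y => f y.1) (hf.comp measurable_fst)
  simp only at h
  rw [h]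
  have h1 : ∀ v w : E → unitInterval, mix (∅ : Set E) v w = w := by
    intro v w
    funext e
    simp [mix]
  simp_rw [h1]
  simp

omit [IsProbabilityMeasure μ] in
theorem lintegral_kap_snd (hp : ∀ g, Measurable (p g)) (f : Set E → ℝ≥0∞) (hf : Measurable f) :
    ∫⁻ y, f y.2 ∂(kap μ p) = ∫⁻ T, f T ∂μ := by
  rw [lintegral_kap hp (fun y => f y.2) (hf.comp measurable_snd)]
  simp

theorem K1a (hA : Adapted μ τ p) (hη : (iidU E) ⊗ₘ η = kap μ p) :
    (Qc η).map (fun x => x.2.1) = μ := by
  have hm : Measurable (fun x : (E → unitInterval) × (Set E × Set E) => x.2.1) :=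
    measurable_fst.comp measurable_snd
  refine Measure.ext_of_lintegral _ fun f hf => ?_
  rw [lintegral_map hf hm, lintegral_Qc η (fun x => f x.2.1) (hf.comp hm)]
  simp only [lintegral_const, measure_univ, mul_one]
  rw [← lintegral_kap_snd hA.meas f hf, lintegral_kap_eta hη (fun y => f y.2)
    (hf.comp measurable_snd)]

theorem K1b (hA : Adapted μ τ p) (hη : (iidU E) ⊗ₘ η = kap μ p) :
    (Qc η).map (fun x => x.2.2) = μ := by
  have hm : Measurable (fun x : (E → unitInterval) × (Set E × Set E) => x.2.2) :=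
    measurable_snd.comp measurable_snd
  have hm' : Measurable (fun x : (E → unitInterval) × (Set E × Set E) => x.2.1) :=
    measurable_fst.comp measurable_snd
  refine Measure.ext_of_lintegral _ fun f hf => ?_
  rw [lintegral_map hf hm, ← K1a hA hη, lintegral_map hf hm']
  exact (lintegral_Qc_swap η (fun x => f x.2.1) (hf.comp hm'))

/-- `V_g ≥ p` if `g ∉ T` -/
theorem le_Vmap_of_notMem {T : Set E} {g : E} (h : g ∉ T) (ξ : E → unitInterval) :
    p g T ≤ Vmap p T ξ g := by
  rw [Vmap_notMem h]
  have h1 : unitInterval.symm (p g T) * unitInterval.symm (ξ g) ≤ unitInterval.symm (p g T) :=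
    unitInterval.mul_le_left
  have h2 := unitInterval.symm_le_symm.2 h1
  rwa [unitInterval.symm_symm] at h2

/-- threshold description of the edge `g` -/
theorem ae_kap_iff (hA : Adapted μ τ p) (g : E) :
    ∀ᵐ y ∂(kap μ p), (g ∈ y.2 ↔ y.1 g < p g y.2) := by
  have hpm : Measurable (fun y : (E → unitInterval) × Set E => p g y.2) :=
    (hA.meas g).comp measurable_snd
  have hvm : Measurable (fun y : (E → unitInterval) × Set E => y.1 g) :=
    (measurable_pi_apply g).comp measurable_fst
  have hlt : MeasurableSet {y : (E → unitInterval) × Set E | y.1 g < p g y.2} :=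
    measurableSet_lt hvm hpm
  have hgm : MeasurableSet {y : (E → unitInterval) × Set E | g ∈ y.2} :=
    measurable_snd (measurableSet_memg g)
  -- the bad set
  have hbad : (kap μ p) {y : (E → unitInterval) × Set E | g ∈ y.2 ∧ p g y.2 ≤ y.1 g} = 0 := by
    have hle : MeasurableSet {y : (E → unitInterval) × Set E | p g y.2 ≤ y.1 g} :=
      measurableSet_le hpm hvm
    have hbm : MeasurableSet {y : (E → unitInterval) × Set E | g ∈ y.2 ∧ p g y.2 ≤ y.1 g} :=
      hgm.inter hle
    rw [← lintegral_indicator_one hbm, lintegral_kap hA.meas _ (measurable_one.indicator hbm)]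
    let Φ : Set E → (E → unitInterval) → unitInterval → ℝ≥0∞ := fun T _ x =>
      {x : unitInterval | p g T ≤ x}.indicator 1 x
    have hΦ : Stage τ g Φ := by
      constructor
      · have h1 : MeasurableSet {z : (Set E × (E → unitInterval)) × unitInterval |
            p g z.1.1 ≤ z.2} :=
          measurableSet_le ((hA.meas g).comp (measurable_fst.comp measurable_fst)) measurable_snd
        exact measurable_one.indicator h1
      · intro T T' ξ ξ' x hT _
        simp only [Φ, hA.dep g T T' hT]
    have h2 := core_mem hA hΦ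
    have h3 : ∫⁻ T, ∫⁻ ξ, (∫⁻ x in Iio (p g T), Φ T ξ x) ∂(iidU E) ∂μ = 0 := by
      have : ∀ T ξ, (∫⁻ x in Iio (p g T), Φ T ξ x) = 0 := by
        intro T ξ
        rw [setLIntegral_congr_fun (g := fun _ => 0) measurableSet_Iio]
        · simp
        · intro x hx
          have : ¬ (p g T ≤ x) := not_le.2 hx
          simp [Φ, this]
      simp_rw [this]
      simp
    rw [h3] at h2
    rw [← h2, ← lintegral_indicator (measurableSet_memg g)]
    refine lintegral_congr fun T => ?_
    by_cases hT : g ∈ T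
    · have : T ∈ {T : Set E | g ∈ T} := hT
      rw [Set.indicator_of_mem this]
      refine lintegral_congr fun ξ => ?_
      by_cases h4 : p g T ≤ Vmap p T ξ g <;> simp [Φ, hT, h4, Set.indicator]
    · have : T ∉ {T : Set E | g ∈ T} := hT
      rw [Set.indicator_of_notMem this]
      simp [hT]
  -- the other direction holds everywhere in terms of (T, ξ)
  have hbad2 : (kap μ p) {y : (E → unitInterval) × Set E | g ∉ y.2 ∧ y.1 g < p g y.2} = 0 := by
    have hbm : MeasurableSet {y : (E → unitInterval) × Set E | g ∉ y.2 ∧ y.1 g < p g y.2} :=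
      hgm.compl.inter hlt
    rw [← lintegral_indicator_one hbm, lintegral_kap hA.meas _ (measurable_one.indicator hbm)]
    have : ∀ T ξ, ({y : (E → unitInterval) × Set E | g ∉ y.2 ∧ y.1 g < p g y.2}.indicator 1
        (Vmap p T ξ, T) : ℝ≥0∞) = 0 := by
      intro T ξ
      refine Set.indicator_of_notMem ?_ _
      rintro ⟨h1, h2⟩
      exact absurd h2 (not_lt.2 (le_Vmap_of_notMem h1 ξ))
    simp_rw [this]
    simp
  have h1 : ∀ᵐ y ∂(kap μ p), ¬ (g ∈ y.2 ∧ p g y.2 ≤ y.1 g) := by
    rw [ae_iff]
    simpa using hbad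
  have h2 : ∀ᵐ y ∂(kap μ p), ¬ (g ∉ y.2 ∧ y.1 g < p g y.2) := by
    rw [ae_iff]
    simpa using hbad2
  filter_upwards [h1, h2] with y hy1 hy2
  constructor
  · intro h
    by_contra hc
    exact hy1 ⟨h, not_lt.1 hc⟩
  · intro h
    by_contra hc
    exact hy2 ⟨hc, h⟩

theorem ae_eta_iff (hA : Adapted μ τ p) (hη : (iidU E) ⊗ₘ η = kap μ p) (g : E) :
    ∀ᵐ v ∂(iidU E), ∀ᵐ t ∂(η v), (g ∈ t ↔ v g < p g t) := by
  have h := ae_kap_iff hA g
  rw [← hη] at h
  exact Measure.ae_ae_of_ae_compProd h

/-- law of the smaller part below the threshold -/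
noncomputable def rG (η : Kernel (E → unitInterval) (Set E)) (τ : E → ℝ)
    (p : E → Set E → unitInterval) (g : E) (G : Set E → ℝ≥0∞)
    (v : E → unitInterval) (x : unitInterval) : ℝ≥0∞ :=
  ∫⁻ t, {t : Set E | p g t ≤ x}.indicator G t ∂(etaB η (Iset τ g) v)

noncomputable def sG (η : Kernel (E → unitInterval) (Set E)) (τ : E → ℝ)
    (p : E → Set E → unitInterval) (g : E) (G : Set E → ℝ≥0∞)
    (v : E → unitInterval) (x : unitInterval) : ℝ≥0∞ :=
  ∫⁻ t, {t : Set E | x < p g t}.indicator G t ∂(etaB η (Iset τ g) v)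

omit [IsProbabilityMeasure μ] in
theorem measurable_rG (hA : Adapted μ τ p) (g : E) {G : Set E → ℝ≥0∞} (hG : Measurable G) :
    Measurable (fun z : (E → unitInterval) × unitInterval => rG η τ p g G z.1 z.2) := by
  let K : Kernel ((E → unitInterval) × unitInterval) (Set E) :=
    (etaB η (Iset τ g)).comap Prod.fst measurable_fst
  have : (fun z : (E → unitInterval) × unitInterval => rG η τ p g G z.1 z.2) = fun z =>
      ∫⁻ t, {t : Set E | p g t ≤ z.2}.indicator G t ∂(K z) := by
    funext z
    simp only [K, Kernel.comap_apply, rG]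
  rw [this]
  have hs : MeasurableSet {y : ((E → unitInterval) × unitInterval) × Set E | p g y.2 ≤ y.1.2} :=
    measurableSet_le ((hA.meas g).comp measurable_snd) (measurable_snd.comp measurable_fst)
  have h2 : Measurable (fun y : ((E → unitInterval) × unitInterval) × Set E =>
      {t : Set E | p g t ≤ y.1.2}.indicator G y.2) := by
    have : (fun y : ((E → unitInterval) × unitInterval) × Set E =>
        {t : Set E | p g t ≤ y.1.2}.indicator G y.2)
        = {y : ((E → unitInterval) × unitInterval) × Set E | p g y.2 ≤ y.1.2}.indicator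
          (fun y => G y.2) := by
      funext y
      by_cases h : p g y.2 ≤ y.1.2 <;> simp [h]
    rw [this]
    exact (hG.comp measurable_snd).indicator hs
  exact h2.lintegral_kernel_prod_right'

omit [IsProbabilityMeasure μ] in
theorem measurable_sG (hA : Adapted μ τ p) (g : E) {G : Set E → ℝ≥0∞} (hG : Measurable G) :
    Measurable (fun z : (E → unitInterval) × unitInterval => sG η τ p g G z.1 z.2) := by
  let K : Kernel ((E → unitInterval) × unitInterval) (Set E) :=
    (etaB η (Iset τ g)).comap Prod.fst measurable_fst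
  have : (fun z : (E → unitInterval) × unitInterval => sG η τ p g G z.1 z.2) = fun z =>
      ∫⁻ t, {t : Set E | z.2 < p g t}.indicator G t ∂(K z) := by
    funext z
    simp only [K, Kernel.comap_apply, sG]
  rw [this]
  have hs : MeasurableSet {y : ((E → unitInterval) × unitInterval) × Set E | y.1.2 < p g y.2} :=
    measurableSet_lt (measurable_snd.comp measurable_fst) ((hA.meas g).comp measurable_snd)
  have h2 : Measurable (fun y : ((E → unitInterval) × unitInterval) × Set E =>
      {t : Set E | y.1.2 < p g t}.indicator G y.2) := by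
    have : (fun y : ((E → unitInterval) × unitInterval) × Set E =>
        {t : Set E | y.1.2 < p g t}.indicator G y.2)
        = {y : ((E → unitInterval) × unitInterval) × Set E | y.1.2 < p g y.2}.indicator
          (fun y => G y.2) := by
      funext y
      by_cases h : y.1.2 < p g y.2 <;> simp [h]
    rw [this]
    exact (hG.comp measurable_snd).indicator hs
  exact h2.lintegral_kernel_prod_right'

omit [IsProbabilityMeasure μ] in
theorem V_eq_on (hA : Adapted μ τ p) {g : E} {T T' : Set E} {ξ ξ' : E → unitInterval}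
    (hT : ∀ e ∈ Iset τ g, (e ∈ T ↔ e ∈ T')) (hξ : ∀ e ∈ Iset τ g, ξ e = ξ' e) :
    ∀ e ∈ Iset τ g, Vmap p T ξ e = Vmap p T' ξ' e := by
  intro e he
  exact Vmap_congr hA (fun f hf => hT f (down_Iset τ g e he f hf)) (hξ e he)

omit [IsProbabilityMeasure μ] in
theorem stage_rG (hA : Adapted μ τ p) (g : E) {G : Set E → ℝ≥0∞} (hG : Measurable G) :
    Stage τ g (fun T ξ x => rG η τ p g G (Vmap p T ξ) x) := by
  have h1 := measurable_rG (η := η) hA g hG
  have h2 : Measurable (fun z : (Set E × (E → unitInterval)) × unitInterval =>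
      (Vmap p z.1.1 z.1.2, z.2)) :=
    ((measurable_Vmap hA.meas).comp measurable_fst).prodMk measurable_snd
  have h3 := h1.comp h2
  constructor
  · exact h3
  · intro T T' ξ ξ' x hT hξ
    simp only [rG]
    rw [etaB_congr η (V_eq_on hA hT hξ)]

omit [IsProbabilityMeasure μ] in
theorem stage_sG (hA : Adapted μ τ p) (g : E) {G : Set E → ℝ≥0∞} (hG : Measurable G) :
    Stage τ g (fun T ξ x => sG η τ p g G (Vmap p T ξ) x) := by
  have h1 := measurable_sG (η := η) hA g hG
  have h2 : Measurable (fun z : (Set E × (E → unitInterval)) × unitInterval =>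
      (Vmap p z.1.1 z.1.2, z.2)) :=
    ((measurable_Vmap hA.meas).comp measurable_fst).prodMk measurable_snd
  have h3 := h1.comp h2
  constructor
  · exact h3
  · intro T T' ξ ξ' x hT hξ
    simp only [sG]
    rw [etaB_congr η (V_eq_on hA hT hξ)]

theorem dep_indicator {G : Set E → ℝ≥0∞} {s : Set (Set E)} {J : Set E} (hG : DependsOn' G J)
    (hs : DependsOn' (fun T => T ∈ s) J) : DependsOn' (s.indicator G) J := by
  intro T T' h
  have h1 := hG T T' h
  have h2 := hs T T' h
  simp only [eq_iff_iff] at h2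
  by_cases hT : T ∈ s
  · rw [Set.indicator_of_mem hT, Set.indicator_of_mem (h2.1 hT), h1]
  · rw [Set.indicator_of_notMem hT, Set.indicator_of_notMem (fun h => hT (h2.2 h))]

variable [Countable E]

/-- conditional form of the complementary configuration -/
theorem eta_notMem (hA : Adapted μ τ p) (hη : (iidU E) ⊗ₘ η = kap μ p) (g : E)
    {G : Set E → ℝ≥0∞} (hG : Measurable G) (hGd : DependsOn' G (Iset τ g)) :
    ∀ᵐ v ∂(iidU E), ∫⁻ t, {t : Set E | g ∉ t}.indicator G t ∂(η v) = rG η τ p g G v (v g) := by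
  filter_upwards [ae_eta_iff hA hη g, eta_avg hA hη (down_Iset τ g)] with v hv1 hv2
  unfold rG
  rw [← hv2 _ (hG.indicator (measurableSet_le (hA.meas g) measurable_const))
    (dep_indicator hGd (fun T T' h => by simp only [mem_ofPred_eq, hA.dep g T T' h]))]
  refine lintegral_congr_ae ?_
  filter_upwards [hv1] with t ht
  by_cases h : g ∈ t
  · have h1 : ¬ (p g t ≤ v g) := not_le.2 (ht.1 h)
    simp [h, h1]
  · have h1 : p g t ≤ v g := not_lt.1 fun h2 => h (ht.2 h2)
    simp [h, h1]

theorem eta_mem (hA : Adapted μ τ p) (hη : (iidU E) ⊗ₘ η = kap μ p) (g : E)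
    {G : Set E → ℝ≥0∞} (hG : Measurable G) (hGd : DependsOn' G (Iset τ g)) :
    ∀ᵐ v ∂(iidU E), ∫⁻ t, {t : Set E | g ∈ t}.indicator G t ∂(η v) = sG η τ p g G v (v g) := by
  filter_upwards [ae_eta_iff hA hη g, eta_avg hA hη (down_Iset τ g)] with v hv1 hv2
  unfold sG
  rw [← hv2 _ (hG.indicator (measurableSet_lt measurable_const (hA.meas g)))
    (dep_indicator hGd (fun T T' h => by simp only [mem_ofPred_eq, hA.dep g T T' h]))]
  refine lintegral_congr_ae ?_
  filter_upwards [hv1] with t ht
  by_cases h : g ∈ t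
  · have h1 : v g < p g t := ht.1 h
    simp [h, h1]
  · have h1 : ¬ v g < p g t := fun h2 => h (ht.2 h2)
    simp [h, h1]

/-- event `g ∈ T`, `g ∉ T'` -/
def misP (g : E) : Set ((E → unitInterval) × (Set E × Set E)) := {x | g ∈ x.2.1 ∧ g ∉ x.2.2}

omit [Countable E] in
theorem measurableSet_misP (g : E) : MeasurableSet (misP g) := by
  have h1 : MeasurableSet {x : (E → unitInterval) × (Set E × Set E) | g ∈ x.2.1} :=
    (measurable_fst.comp measurable_snd) (measurableSet_memg g)
  have h2 : MeasurableSet {x : (E → unitInterval) × (Set E × Set E) | g ∈ x.2.2} :=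
    (measurable_snd.comp measurable_snd) (measurableSet_memg g)
  exact h1.inter h2.compl

theorem Q_plus_left (hA : Adapted μ τ p) (hη : (iidU E) ⊗ₘ η = kap μ p) (g : E)
    {F G : Set E → ℝ≥0∞} (hF : Measurable F) (hG : Measurable G)
    (hGd : DependsOn' G (Iset τ g)) :
    ∫⁻ x in misP g, F x.2.1 * G x.2.2 ∂(Qc η)
      = ∫⁻ T in {T | g ∈ T}, F T * ∫⁻ ξ, rG η τ p g G (Vmap p T ξ) (Vmap p T ξ g) ∂(iidU E) ∂μ := by
  classical
  have hrm := measurable_rG (η := η) hA g hG
  have hFG : Measurable (fun x : (E → unitInterval) × (Set E × Set E) => F x.2.1 * G x.2.2) :=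
    (hF.comp (measurable_fst.comp measurable_snd)).mul (hG.comp (measurable_snd.comp measurable_snd))
  rw [← lintegral_indicator (measurableSet_misP g),
    lintegral_Qc η _ (hFG.indicator (measurableSet_misP g))]
  have hmem := measurableSet_memg g
  have hnot : MeasurableSet {t : Set E | g ∉ t} := hmem.compl
  have h1 : ∀ v t, (∫⁻ t', (misP g).indicator (fun x => F x.2.1 * G x.2.2) (v, (t, t')) ∂(η v))
      = {t : Set E | g ∈ t}.indicator F t * ∫⁻ t', {t : Set E | g ∉ t}.indicator G t' ∂(η v) := by
    intro v t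
    rw [← lintegral_const_mul _ (hG.indicator hnot)]
    refine lintegral_congr fun t' => ?_
    by_cases h2 : g ∈ t <;> by_cases h3 : g ∈ t' <;> simp [misP, Set.indicator, h2, h3]
  simp_rw [h1]
  have h2 : ∀ v, (∫⁻ t, {t : Set E | g ∈ t}.indicator F t *
      ∫⁻ t', {t : Set E | g ∉ t}.indicator G t' ∂(η v) ∂(η v))
      = (∫⁻ t, {t : Set E | g ∈ t}.indicator F t ∂(η v)) *
        ∫⁻ t', {t : Set E | g ∉ t}.indicator G t' ∂(η v) := fun v =>
    lintegral_mul_const _ (hF.indicator hmem)
  simp_rw [h2]
  have h3 : ∫⁻ v, (∫⁻ t, {t : Set E | g ∈ t}.indicator F t ∂(η v)) *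
        ∫⁻ t', {t : Set E | g ∉ t}.indicator G t' ∂(η v) ∂(iidU E)
      = ∫⁻ v, ∫⁻ t, {t : Set E | g ∈ t}.indicator F t * rG η τ p g G v (v g) ∂(η v) ∂(iidU E) := by
    refine lintegral_congr_ae ?_
    filter_upwards [eta_notMem hA hη g hG hGd] with v hv
    rw [hv, lintegral_mul_const _ (hF.indicator hmem)]
  have hpair : Measurable (fun y : (E → unitInterval) × Set E => (y.1, y.1 g)) :=
    measurable_fst.prodMk ((measurable_pi_apply g).comp measurable_fst)
  have hrp := hrm.comp hpair
  have hm4 : Measurable (fun y : (E → unitInterval) × Set E =>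
      {t : Set E | g ∈ t}.indicator F y.2 * rG η τ p g G y.1 (y.1 g)) := by
    have h5 := ((hF.indicator hmem).comp (measurable_snd (α := E → unitInterval))).mul hrp
    exact h5
  rw [h3, ← lintegral_kap_eta hη (fun y => {t : Set E | g ∈ t}.indicator F y.2 *
      rG η τ p g G y.1 (y.1 g)) hm4, lintegral_kap hA.meas _ hm4,
    ← lintegral_indicator hmem]
  refine lintegral_congr fun T => ?_
  have hm5 : Measurable (fun ξ : E → unitInterval =>
      rG η τ p g G (Vmap p T ξ) (Vmap p T ξ g)) := by
    have hV : Measurable (fun ξ : E → unitInterval => Vmap p T ξ) :=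
      (measurable_Vmap hA.meas).comp (measurable_const.prodMk measurable_id)
    have h5 := hrm.comp (hV.prodMk ((measurable_pi_apply g).comp hV))
    exact h5
  change (∫⁻ ξ, {t : Set E | g ∈ t}.indicator F T *
    rG η τ p g G (Vmap p T ξ) (Vmap p T ξ g) ∂(iidU E)) = _
  rw [lintegral_const_mul _ hm5]
  by_cases h : g ∈ T <;> simp [h]

theorem Q_plus_right (hA : Adapted μ τ p) (hη : (iidU E) ⊗ₘ η = kap μ p) (g : E)
    {F G : Set E → ℝ≥0∞} (hF : Measurable F) (hG : Measurable G)
    (hGd : DependsOn' G (Iset τ g)) :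
    ∫⁻ x in misP g, G x.2.1 * F x.2.2 ∂(Qc η)
      = ∫⁻ T in {T | g ∉ T}, F T * ∫⁻ ξ, sG η τ p g G (Vmap p T ξ) (Vmap p T ξ g) ∂(iidU E) ∂μ := by
  classical
  have hmem := measurableSet_memg g
  have hnot : MeasurableSet {t : Set E | g ∉ t} := hmem.compl
  have hrm := measurable_sG (η := η) hA g hG
  have hGF : Measurable (fun x : (E → unitInterval) × (Set E × Set E) => G x.2.1 * F x.2.2) :=
    (hG.comp (measurable_fst.comp measurable_snd)).mul (hF.comp (measurable_snd.comp measurable_snd))
  rw [← lintegral_indicator (measurableSet_misP g),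
    ← lintegral_Qc_swap η _ (hGF.indicator (measurableSet_misP g))]
  have hm0 : Measurable (fun x : (E → unitInterval) × (Set E × Set E) =>
      (misP g).indicator (fun x => G x.2.1 * F x.2.2) (x.1, (x.2.2, x.2.1))) := by
    have hm : Measurable (fun x : (E → unitInterval) × (Set E × Set E) =>
        (x.1, (x.2.2, x.2.1))) :=
      measurable_fst.prodMk ((measurable_snd.comp measurable_snd).prodMk
        (measurable_fst.comp measurable_snd))
    exact (hGF.indicator (measurableSet_misP g)).comp hm
  rw [lintegral_Qc η _ hm0]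
  have h1 : ∀ v t, (∫⁻ t', (misP g).indicator (fun x => G x.2.1 * F x.2.2) (v, (t', t)) ∂(η v))
      = {t : Set E | g ∉ t}.indicator F t * ∫⁻ t', {t : Set E | g ∈ t}.indicator G t' ∂(η v) := by
    intro v t
    rw [← lintegral_const_mul _ (hG.indicator hmem)]
    refine lintegral_congr fun t' => ?_
    by_cases h2 : g ∈ t <;> by_cases h3 : g ∈ t' <;> simp [misP, Set.indicator, h2, h3, mul_comm]
  simp_rw [h1]
  have h2 : ∀ v, (∫⁻ t, {t : Set E | g ∉ t}.indicator F t *
      ∫⁻ t', {t : Set E | g ∈ t}.indicator G t' ∂(η v) ∂(η v))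
      = (∫⁻ t, {t : Set E | g ∉ t}.indicator F t ∂(η v)) *
        ∫⁻ t', {t : Set E | g ∈ t}.indicator G t' ∂(η v) := fun v =>
    lintegral_mul_const _ (hF.indicator hnot)
  simp_rw [h2]
  have h3 : ∫⁻ v, (∫⁻ t, {t : Set E | g ∉ t}.indicator F t ∂(η v)) *
        ∫⁻ t', {t : Set E | g ∈ t}.indicator G t' ∂(η v) ∂(iidU E)
      = ∫⁻ v, ∫⁻ t, {t : Set E | g ∉ t}.indicator F t * sG η τ p g G v (v g) ∂(η v) ∂(iidU E) := by
    refine lintegral_congr_ae ?_
    filter_upwards [eta_mem hA hη g hG hGd] with v hv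
    rw [hv, lintegral_mul_const _ (hF.indicator hnot)]
  have hpair : Measurable (fun y : (E → unitInterval) × Set E => (y.1, y.1 g)) :=
    measurable_fst.prodMk ((measurable_pi_apply g).comp measurable_fst)
  have hrp := hrm.comp hpair
  have hm4 : Measurable (fun y : (E → unitInterval) × Set E =>
      {t : Set E | g ∉ t}.indicator F y.2 * sG η τ p g G y.1 (y.1 g)) := by
    have h5 := ((hF.indicator hnot).comp (measurable_snd (α := E → unitInterval))).mul hrp
    exact h5
  rw [h3, ← lintegral_kap_eta hη (fun y => {t : Set E | g ∉ t}.indicator F y.2 *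
      sG η τ p g G y.1 (y.1 g)) hm4, lintegral_kap hA.meas _ hm4,
    ← lintegral_indicator (s := {T : Set E | g ∉ T}) hmem.compl]
  refine lintegral_congr fun T => ?_
  have hm5 : Measurable (fun ξ : E → unitInterval =>
      sG η τ p g G (Vmap p T ξ) (Vmap p T ξ g)) := by
    have hV : Measurable (fun ξ : E → unitInterval => Vmap p T ξ) :=
      (measurable_Vmap hA.meas).comp (measurable_const.prodMk measurable_id)
    have h5 := hrm.comp (hV.prodMk ((measurable_pi_apply g).comp hV))
    exact h5
  change (∫⁻ ξ, {t : Set E | g ∉ t}.indicator F T *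
    sG η τ p g G (Vmap p T ξ) (Vmap p T ξ g) ∂(iidU E)) = _
  rw [lintegral_const_mul _ hm5]
  by_cases h : g ∈ T <;> simp [h]

end Q

end Vale.Agent.P143
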