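import Vale.Agent.P143.CoupTheta

open MeasureTheory ProbabilityTheory Set Filter Topology
open scoped ENNReal unitInterval

namespace Vale.Agent.P143

section fin

variable {E : Type*} [Countable E] {μ : Measure (Set E)} [IsProbabilityMeasure μ]
  {τ : E → ℝ} {p : E → Set E → unitInterval}
  {η : Kernel (E → unitInterval) (Set E)} [IsMarkovKernel η]

omit [Countable E] in
theorem measurable_swapQ : Measurable (fun x : (E → unitInterval) × (Set E × Set E) =>
    (x.1, (x.2.2, x.2.1))) :=
  measurable_fst.prodMk ((measurable_snd.comp measurable_snd).prodMk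
    (measurable_fst.comp measurable_snd))

omit [Countable E] in
/-- set integrals over the mirrored event -/
theorem setLIntegral_swap (η : Kernel (E → unitInterval) (Set E)) [IsMarkovKernel η]
    (s s' : Set ((E → unitInterval) × (Set E × Set E))) (hs : MeasurableSet s)
    (hs' : MeasurableSet s') (hss : ∀ x, x ∈ s' ↔ (x.1, (x.2.2, x.2.1)) ∈ s)
    (f f' : (E → unitInterval) × (Set E × Set E) → ℝ≥0∞) (hf : Measurable f)
    (hff : ∀ x, f' x = f (x.1, (x.2.2, x.2.1))) :
    ∫⁻ x in s', f' x ∂(Qc η) = ∫⁻ x in s, f x ∂(Qc η) := by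
  rw [← lintegral_indicator hs', ← lintegral_indicator hs,
    ← lintegral_Qc_swap η _ (hf.indicator hs)]
  refine lintegral_congr fun x => ?_
  by_cases h : x ∈ s'
  · rw [Set.indicator_of_mem h, Set.indicator_of_mem ((hss x).1 h), hff]
  · rw [Set.indicator_of_notMem h, Set.indicator_of_notMem (fun h' => h ((hss x).2 h'))]

theorem K3a (hA : Adapted μ τ p) (hη : (iidU E) ⊗ₘ η = kap μ p) (g : E) :
    Qc η {x | g ∈ x.2.1 ∧ g ∉ x.2.2}
      = ∫⁻ x, ENNReal.ofReal ((p g x.2.1 : ℝ) - p g x.2.2) ∂(Qc η) := by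
  have hst := stage_rG (η := η) hA g (G := fun _ => 1) measurable_const
  have h0 : Qc η {x | g ∈ x.2.1 ∧ g ∉ x.2.2} = Qc η (misP g) := rfl
  rw [h0, Q_misP_left hA hη, core_mem hA hst]
  -- inner computation
  have hin : ∀ (v : E → unitInterval) (q : unitInterval),
      (∫⁻ x in Iio q, rG η τ p g (fun _ => 1) v x)
        = ∫⁻ t, ENNReal.ofReal ((q : ℝ) - p g t) ∂(etaB η (Iset τ g) v) := by
    intro v q
    unfold rG
    rw [← lintegral_indicator measurableSet_Iio]
    have e1 : ∀ x : unitInterval, (Iio q).indicator (fun x => ∫⁻ t,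
        {t : Set E | p g t ≤ x}.indicator (fun _ => (1 : ℝ≥0∞)) t ∂(etaB η (Iset τ g) v)) x
        = ∫⁻ t, {z : unitInterval × Set E | p g z.2 ≤ z.1 ∧ z.1 < q}.indicator
            (fun _ => (1 : ℝ≥0∞)) (x, t) ∂(etaB η (Iset τ g) v) := by
      intro x
      by_cases hx : x < q
      · have hx' : x ∈ Iio q := hx
        rw [Set.indicator_of_mem hx']
        refine lintegral_congr fun t => ?_
        by_cases ht : p g t ≤ x <;> simp [Set.indicator, ht, hx]
      · have hx' : x ∉ Iio q := hx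
        rw [Set.indicator_of_notMem hx']
        simp [Set.indicator, hx]
    have e1' : ∫⁻ x : unitInterval, (Iio q).indicator (fun x => ∫⁻ t,
        {t : Set E | p g t ≤ x}.indicator (fun _ => (1 : ℝ≥0∞)) t ∂(etaB η (Iset τ g) v)) x
        = ∫⁻ x : unitInterval, ∫⁻ t,
          {z : unitInterval × Set E | p g z.2 ≤ z.1 ∧ z.1 < q}.indicator
            (fun _ => (1 : ℝ≥0∞)) (x, t) ∂(etaB η (Iset τ g) v) := lintegral_congr e1
    rw [e1']
    have hms : MeasurableSet {z : unitInterval × Set E | p g z.2 ≤ z.1 ∧ z.1 < q} := by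
      have h1 : MeasurableSet {z : unitInterval × Set E | p g z.2 ≤ z.1} :=
        measurableSet_le ((hA.meas g).comp measurable_snd) measurable_fst
      have h2 : MeasurableSet {z : unitInterval × Set E | z.1 < q} :=
        measurableSet_lt measurable_fst measurable_const
      exact h1.inter h2
    have hmf : Measurable ({z : unitInterval × Set E | p g z.2 ≤ z.1 ∧ z.1 < q}.indicator
        (fun _ => (1 : ℝ≥0∞))) := measurable_const.indicator hms
    have hsw := lintegral_lintegral_swap (μ := (volume : Measure unitInterval))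
      (ν := etaB η (Iset τ g) v)
      (f := fun (x : unitInterval) (t : Set E) =>
        {z : unitInterval × Set E | p g z.2 ≤ z.1 ∧ z.1 < q}.indicator
          (fun _ => (1 : ℝ≥0∞)) (x, t)) hmf.aemeasurable
    rw [hsw]
    refine lintegral_congr fun t => ?_
    have e2 : ∀ x : unitInterval, {z : unitInterval × Set E | p g z.2 ≤ z.1 ∧ z.1 < q}.indicator
        (fun _ => (1 : ℝ≥0∞)) (x, t) = (Ico (p g t) q).indicator 1 x := by
      intro x
      by_cases h1 : p g t ≤ x <;> by_cases h2 : x < q <;> simp [Set.indicator, h1, h2]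
    simp_rw [e2]
    rw [lintegral_indicator_one measurableSet_Ico, unitInterval.volume_Ico]
  have hin' : ∀ T ξ, (∫⁻ x in Iio (p g T), rG η τ p g (fun _ => 1) (Vmap p T ξ) x)
      = ∫⁻ t, ENNReal.ofReal ((p g T : ℝ) - p g t) ∂(etaB η (Iset τ g) (Vmap p T ξ)) :=
    fun T ξ => hin _ _
  simp_rw [hin']
  -- pass to `kap`
  have hF : Measurable (fun y : (E → unitInterval) × Set E =>
      ∫⁻ t, ENNReal.ofReal ((p g y.2 : ℝ) - p g t) ∂(etaB η (Iset τ g) y.1)) := by
    let K : Kernel ((E → unitInterval) × Set E) (Set E) :=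
      (etaB η (Iset τ g)).comap Prod.fst measurable_fst
    have e3 : (fun y : (E → unitInterval) × Set E =>
        ∫⁻ t, ENNReal.ofReal ((p g y.2 : ℝ) - p g t) ∂(etaB η (Iset τ g) y.1))
        = fun y => ∫⁻ t, ENNReal.ofReal ((p g y.2 : ℝ) - p g t) ∂(K y) := by
      funext y
      simp only [K, Kernel.comap_apply]
    rw [e3]
    have h4 : Measurable (fun z : ((E → unitInterval) × Set E) × Set E =>
        ENNReal.ofReal ((p g z.1.2 : ℝ) - p g z.2)) := by
      have h5 : Measurable (fun z : ((E → unitInterval) × Set E) × Set E => (p g z.1.2 : ℝ)) :=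
        measurable_subtype_coe.comp ((hA.meas g).comp (measurable_snd.comp measurable_fst))
      have h6 : Measurable (fun z : ((E → unitInterval) × Set E) × Set E => (p g z.2 : ℝ)) :=
        measurable_subtype_coe.comp ((hA.meas g).comp measurable_snd)
      exact (h5.sub h6).ennreal_ofReal
    exact h4.lintegral_kernel_prod_right'
  have hk := lintegral_kap (μ := μ) hA.meas _ hF
  have hk' : ∫⁻ T, ∫⁻ ξ, ∫⁻ t, ENNReal.ofReal ((p g T : ℝ) - p g t)
      ∂(etaB η (Iset τ g) (Vmap p T ξ)) ∂(iidU E) ∂μ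
      = ∫⁻ y, ∫⁻ t, ENNReal.ofReal ((p g y.2 : ℝ) - p g t) ∂(etaB η (Iset τ g) y.1)
        ∂(kap μ p) := hk.symm
  rw [hk', lintegral_kap_eta hη _ hF]
  have hR : Measurable (fun x : (E → unitInterval) × (Set E × Set E) =>
      ENNReal.ofReal ((p g x.2.1 : ℝ) - p g x.2.2)) := by
    have h5 : Measurable (fun z : (E → unitInterval) × (Set E × Set E) => (p g z.2.1 : ℝ)) :=
      measurable_subtype_coe.comp ((hA.meas g).comp (measurable_fst.comp measurable_snd))
    have h6 : Measurable (fun z : (E → unitInterval) × (Set E × Set E) => (p g z.2.2 : ℝ)) :=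
      measurable_subtype_coe.comp ((hA.meas g).comp (measurable_snd.comp measurable_snd))
    exact (h5.sub h6).ennreal_ofReal
  rw [lintegral_Qc η _ hR]
  refine lintegral_congr_ae ?_
  filter_upwards [eta_avg hA hη (down_Iset τ g)] with v hv
  refine lintegral_congr fun t => ?_
  symm
  refine hv _ ?_ ?_
  · have h6 : Measurable (fun s : Set E => (p g s : ℝ)) :=
      measurable_subtype_coe.comp (hA.meas g)
    exact (measurable_const.sub h6).ennreal_ofReal
  · intro T T' hT
    simp only [hA.dep g T T' hT]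

theorem K3b (hA : Adapted μ τ p) (hη : (iidU E) ⊗ₘ η = kap μ p) (g : E) :
    Qc η {x | g ∉ x.2.1 ∧ g ∈ x.2.2}
      = ∫⁻ x, ENNReal.ofReal ((p g x.2.2 : ℝ) - p g x.2.1) ∂(Qc η) := by
  have hR : Measurable (fun x : (E → unitInterval) × (Set E × Set E) =>
      ENNReal.ofReal ((p g x.2.1 : ℝ) - p g x.2.2)) := by
    have h5 : Measurable (fun z : (E → unitInterval) × (Set E × Set E) => (p g z.2.1 : ℝ)) :=
      measurable_subtype_coe.comp ((hA.meas g).comp (measurable_fst.comp measurable_snd))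
    have h6 : Measurable (fun z : (E → unitInterval) × (Set E × Set E) => (p g z.2.2 : ℝ)) :=
      measurable_subtype_coe.comp ((hA.meas g).comp (measurable_snd.comp measurable_snd))
    exact (h5.sub h6).ennreal_ofReal
  have h1 := K3a hA hη g
  have h2 := lintegral_Qc_swap η _ hR
  have hm : MeasurableSet {x : (E → unitInterval) × (Set E × Set E) | g ∉ x.2.1 ∧ g ∈ x.2.2} :=
    measurable_swapQ (measurableSet_misP g) |> fun h => by
      have e : {x : (E → unitInterval) × (Set E × Set E) | g ∉ x.2.1 ∧ g ∈ x.2.2}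
          = (fun x : (E → unitInterval) × (Set E × Set E) => (x.1, (x.2.2, x.2.1))) ⁻¹' misP g := by
        ext x
        simp [misP, and_comm]
      rw [e]
      exact h
  have h3 := setLIntegral_swap η (misP g) {x | g ∉ x.2.1 ∧ g ∈ x.2.2} (measurableSet_misP g) hm
    (fun x => by simp [misP, and_comm]) (fun _ => 1) (fun _ => 1) measurable_const (fun _ => rfl)
  simp only [lintegral_const, Measure.restrict_apply MeasurableSet.univ, univ_inter, one_mul] at h3
  rw [h3]
  refine h1.trans ?_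
  exact h2.symm

theorem K2 (hA : Adapted μ τ p) (hη : (iidU E) ⊗ₘ η = kap μ p) (g : E) (Ξ : Set E → ℝ≥0∞)
    (hm : Measurable Ξ)
    (h1 : ∀ h : Set E → ℝ≥0∞, Measurable h → DependsOn' h (Iset τ g) →
      ∫⁻ T in {T | g ∈ T}, h T * Ξ T ∂μ ≤ ∫⁻ T in {T | g ∉ T}, h T ∂μ)
    (h2 : ∀ h : Set E → ℝ≥0∞, Measurable h → DependsOn' h (Iset τ g) →
      ∫⁻ T in {T | g ∉ T}, h T * Ξ T ∂μ ≤ ∫⁻ T in {T | g ∈ T}, h T ∂μ) :
    ∫⁻ x in {x | ¬ (g ∈ x.2.1 ↔ g ∈ x.2.2)}, (Ξ x.2.1 * Ξ x.2.2) ^ (1 / 2 : ℝ) ∂(Qc η)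
      ≤ Qc η {x | ¬ (g ∈ x.2.1 ↔ g ∈ x.2.2)} := by
  have hP := K2_plus hA hη g Ξ hm h1 h2
  set M : Set ((E → unitInterval) × (Set E × Set E)) := {x | g ∉ x.2.1 ∧ g ∈ x.2.2} with hM
  have hMm : MeasurableSet M := by
    have e : M
        = (fun x : (E → unitInterval) × (Set E × Set E) => (x.1, (x.2.2, x.2.1))) ⁻¹' misP g := by
      ext x
      simp [hM, misP, and_comm]
    rw [e]
    exact measurable_swapQ (measurableSet_misP g)
  have hf : Measurable (fun x : (E → unitInterval) × (Set E × Set E) =>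
      (Ξ x.2.1 * Ξ x.2.2) ^ (1 / 2 : ℝ)) :=
    ((hm.comp (measurable_fst.comp measurable_snd)).mul
      (hm.comp (measurable_snd.comp measurable_snd))).pow_const _
  have hswap : ∀ x, x ∈ M ↔ (x.1, (x.2.2, x.2.1)) ∈ misP g := by
    intro x
    simp [hM, misP, and_comm]
  have hI := setLIntegral_swap η (misP g) M (measurableSet_misP g) hMm hswap
    (fun x => (Ξ x.2.1 * Ξ x.2.2) ^ (1 / 2 : ℝ)) (fun x => (Ξ x.2.1 * Ξ x.2.2) ^ (1 / 2 : ℝ)) hf
    (fun x => by rw [mul_comm])
  have hQ := setLIntegral_swap η (misP g) M (measurableSet_misP g) hMm hswap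
    (fun _ => 1) (fun _ => 1) measurable_const (fun _ => rfl)
  simp only [lintegral_const, Measure.restrict_apply MeasurableSet.univ, univ_inter, one_mul] at hQ
  have hU : {x : (E → unitInterval) × (Set E × Set E) | ¬ (g ∈ x.2.1 ↔ g ∈ x.2.2)}
      = misP g ∪ M := by
    ext x
    simp only [mem_ofPred_eq, mem_union, misP, hM]
    tauto
  have hd : Disjoint (misP g) M := by
    rw [Set.disjoint_left]
    rintro x ⟨h3, -⟩ ⟨h4, -⟩
    exact h4 h3
  rw [hU, lintegral_union hMm hd, measure_union hd hMm, hI, hQ]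
  exact add_le_add hP hP

end fin

end Vale.Agent.P143
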