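import Vale.Agent.P143.GDefs

open MeasureTheory ProbabilityTheory Set Filter Topology
open scoped ENNReal

namespace Vale.Agent.P143

theorem stdWin_isWin (E : Type*) [Encodable E] : IsWin (stdWin E) where
  mono := by
    classical
    intro m n hmn e he
    unfold stdWin at *
    rw [Finset.mem_eraseNone, Finset.mem_image] at *
    obtain ⟨k, hk, hk2⟩ := he
    exact ⟨k, Finset.range_mono hmn hk, hk2⟩
  exh := by
    classical
    intro e
    refine ⟨Encodable.encode e + 1, ?_⟩
    unfold stdWin
    rw [Finset.mem_eraseNone, Finset.mem_image]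
    exact ⟨Encodable.encode e, by simp, Encodable.encodek e⟩

section

theorem measurableSet_mem_pred {α : Type*} [MeasurableSpace α] {A : α → Set Ed} (hA : Measurable A)
    (e : Ed) : MeasurableSet {a | e ∈ A a} := by
  have := measurable_set_iff.1 hA e
  exact measurableSet_setOfPred.2 this

variable (μF : Kernel (SimpleGraph ℕ) (Set Ed)) [IsMarkovKernel μF]

theorem measurable_Pm_comp {α : Type*} [MeasurableSpace α] {Gm : α → SimpleGraph ℕ}
    (hG : Measurable Gm) {S : α → Finset Ed} (hS : ∀ e, MeasurableSet {a | e ∈ S a})
    {A : α → Set Ed} (hA : Measurable A) :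
    Measurable (fun a => Pm (μF (Gm a)) (S a) (A a)) := by
  unfold Pm
  have hset : MeasurableSet {y : α × Set Ed | ∀ e : Ed, e ∈ S y.1 → (e ∈ y.2 ↔ e ∈ A y.1)} := by
    rw [show {y : α × Set Ed | ∀ e : Ed, e ∈ S y.1 → (e ∈ y.2 ↔ e ∈ A y.1)}
      = ⋂ e : Ed, {y : α × Set Ed | e ∈ S y.1 → (e ∈ y.2 ↔ e ∈ A y.1)} by
        ext y; simp]
    apply MeasurableSet.iInter
    intro e
    have h1 : MeasurableSet {y : α × Set Ed | e ∈ S y.1} := measurable_fst (hS e)
    have h2 : MeasurableSet {y : α × Set Ed | e ∈ y.2} :=
      measurableSet_mem_pred measurable_snd e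
    have h3 : MeasurableSet {y : α × Set Ed | e ∈ A y.1} :=
      measurableSet_mem_pred (hA.comp measurable_fst) e
    have h4 : MeasurableSet {y : α × Set Ed | e ∈ y.2 ↔ e ∈ A y.1} :=
      measurableSet_setOfPred.2 (Measurable.iff (measurableSet_setOfPred.1 h2) (measurableSet_setOfPred.1 h3))
    exact measurableSet_setOfPred.2 (Measurable.imp (measurableSet_setOfPred.1 h1)
      (measurableSet_setOfPred.1 h4))
  have h := Kernel.measurable_kernel_prodMk_left (κ := μF.comap Gm hG) hset
  simp only [measureReal_def]
  exact h.ennreal_toReal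

theorem measurableSet_mem_JW {α : Type*} [MeasurableSpace α] {J : α → Set Ed} (hJ : Measurable J)
    (n : ℕ) (e : Ed) : MeasurableSet {a | e ∈ JW WE (J a) n} := by
  unfold JW
  by_cases h : e ∈ WE n
  · simp only [Finset.mem_filter, h, true_and]
    exact measurableSet_mem_pred hJ e
  · simp only [Finset.mem_filter, h, false_and, Set.ofPred_false, MeasurableSet.empty]

theorem measurableSet_mem_insert {α : Type*} [MeasurableSpace α] [DecidableEq Ed]
    {S : α → Finset Ed}
    (hS : ∀ e, MeasurableSet {a | e ∈ S a}) (f : Ed) (e : Ed) :
    MeasurableSet {a | e ∈ insert f (S a)} := by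
  by_cases h : e = f
  · subst h; simp
  · simp only [Finset.mem_insert, h, false_or]
    exact hS e

theorem measurable_insert' {α : Type*} [MeasurableSpace α] {A : α → Set Ed} (hA : Measurable A)
    (g : Ed) : Measurable (fun a => insert g (A a)) := by
  rw [measurable_set_iff]
  intro e
  by_cases h : e = g
  · subst h; simp
  · simp only [Set.mem_insert_iff, h, false_or]
    exact measurable_set_iff.1 hA e

theorem measurable_sdiff' {α : Type*} [MeasurableSpace α] {A : α → Set Ed} (hA : Measurable A)
    (g : Ed) : Measurable (fun a => A a \ {g}) := by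
  rw [measurable_set_iff]
  intro e
  by_cases h : e = g
  · subst h; simp
  · simp only [Set.mem_sdiff, Set.mem_singleton_iff, h, not_false_eq_true, and_true]
    exact measurable_set_iff.1 hA e

theorem measurable_pJ_comp {α : Type*} [MeasurableSpace α] {Gm : α → SimpleGraph ℕ}
    (hG : Measurable Gm) {J : α → Set Ed} (hJ : Measurable J) {T : α → Set Ed} (hT : Measurable T)
    (f : Ed) : Measurable (fun a => pJ (Pm (μF (Gm a))) WE (J a) (T a) f) := by
  unfold pJ
  apply Measurable.limsup
  intro n
  unfold pr
  apply Measurable.div
  · exact measurable_Pm_comp μF hG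
      (measurableSet_mem_insert (measurableSet_mem_JW hJ n) f) (measurable_insert' hT f)
  · exact measurable_Pm_comp μF hG (measurableSet_mem_JW hJ n) hT

theorem measurable_CJ_comp {α : Type*} [MeasurableSpace α] {Gm : α → SimpleGraph ℕ}
    (hG : Measurable Gm) {J : α → Set Ed} (hJ : Measurable J) {T : α → Set Ed} (hT : Measurable T)
    (g f : Ed) : Measurable (fun a => CJ (Pm (μF (Gm a))) WE (J a) (T a) g f) := by
  unfold CJ
  apply Measurable.limsup
  intro n
  apply Measurable.ennreal_ofReal
  unfold CW
  have hS := measurableSet_mem_insert (measurableSet_mem_JW hJ n) f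
  apply Measurable.div
  · apply Measurable.sub
    · apply Measurable.mul
      · exact measurable_Pm_comp μF hG hS (measurable_insert' (measurable_sdiff' hT f) g)
      · exact measurable_Pm_comp μF hG hS (measurable_insert' (measurable_sdiff' hT g) f)
    · apply Measurable.mul
      · exact measurable_Pm_comp μF hG hS (measurable_insert' (measurable_insert' hT f) g)
      · exact measurable_Pm_comp μF hG hS (measurable_sdiff' (measurable_sdiff' hT f) g)
  · exact (measurable_Pm_comp μF hG (measurableSet_mem_JW hJ n) hT).pow_const 2

end

section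

theorem measurableSet_adj (x y : ℕ) : MeasurableSet {G : SimpleGraph ℕ | G.Adj x y} := by
  have h : Measurable (fun G : SimpleGraph ℕ => G.Adj) := comap_measurable _
  have h2 : Measurable (fun G : SimpleGraph ℕ => G.Adj x y) :=
    (measurable_pi_apply y).comp ((measurable_pi_apply x).comp h)
  exact measurableSet_setOfPred.2 h2

theorem measurable_degE (x : ℕ) : Measurable (fun G : SimpleGraph ℕ => degE G x) := by
  classical
  unfold degE
  apply Measurable.ennreal_tsum
  intro y
  exact Measurable.ite (measurableSet_adj x y) measurable_const measurable_const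

theorem measurable_wG (e : Ed) : Measurable (fun G : SimpleGraph ℕ => wG G e) := by
  classical
  unfold wG
  induction e using Sym2.ind with
  | _ x y =>
    apply Measurable.ite
    · exact measurableSet_adj x y
    · apply Measurable.inv
      apply Measurable.ennreal_toReal
      show Measurable (fun G => degE G x + degE G y)
      exact (measurable_degE x).add (measurable_degE y)
    · exact measurable_const

theorem measurable_tauG (e : Ed) :
    Measurable (fun y : SimpleGraph ℕ × (Ed → unitInterval) => tauG y.1 y.2 e) := by
  unfold tauG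
  apply Measurable.div
  · have : Measurable (fun y : SimpleGraph ℕ × (Ed → unitInterval) => ((y.2 e : unitInterval) : ℝ)) := by
      fun_prop
    exact this.log.neg
  · exact (measurable_wG e).comp measurable_fst

theorem measurable_Jt {α : Type*} [MeasurableSpace α] {Gm : α → SimpleGraph ℕ}
    (hG : Measurable Gm) {X : α → (Ed → unitInterval)} (hX : Measurable X) {s : α → ℝ}
    (hs : Measurable s) : Measurable (fun a => Jt (Gm a) (X a) (s a)) := by
  rw [measurable_set_iff]
  intro e
  have h1 : Measurable (fun a => tauG (Gm a) (X a) e) := (measurable_tauG e).comp (hG.prodMk hX)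
  exact measurableSet_setOfPred.1 (measurableSet_lt h1 hs)

theorem measurable_Iset {α : Type*} [MeasurableSpace α] {Gm : α → SimpleGraph ℕ}
    (hG : Measurable Gm) {X : α → (Ed → unitInterval)} (hX : Measurable X) (g : Ed) :
    Measurable (fun a => Iset (tauG (Gm a) (X a)) g) := by
  rw [measurable_set_iff]
  intro e
  have h1 : ∀ e, Measurable (fun a => tauG (Gm a) (X a) e) :=
    fun e => (measurable_tauG e).comp (hG.prodMk hX)
  exact measurableSet_setOfPred.1 (measurableSet_lt (h1 e) (h1 g))

variable (μF : Kernel (SimpleGraph ℕ) (Set Ed)) [IsMarkovKernel μF]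

theorem measurable_kapMap : Measurable (kapMap μF) := by
  classical
  unfold kapMap
  apply Measurable.prodMk _ (measurable_fst.comp measurable_snd)
  rw [measurable_pi_iff]
  intro g
  unfold Vmap
  have hp : Measurable (fun y : (SimpleGraph ℕ × (Ed → unitInterval)) ×
      (Set Ed × (Ed → unitInterval)) => pG μF y.1.1 y.1.2 g y.2.1) := by
    unfold pG
    apply continuous_projIcc.measurable.comp
    exact measurable_pJ_comp μF (measurable_fst.comp measurable_fst)
      (measurable_Iset (measurable_fst.comp measurable_fst) (measurable_snd.comp measurable_fst) g)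
      (measurable_fst.comp measurable_snd) g
  have hξ : Measurable (fun y : (SimpleGraph ℕ × (Ed → unitInterval)) ×
      (Set Ed × (Ed → unitInterval)) => y.2.2 g) := by fun_prop
  apply Measurable.ite
  · exact measurableSet_mem_pred (measurable_fst.comp measurable_snd) g
  · exact hp.mul hξ
  · exact unitInterval.measurable_symm.comp ((unitInterval.measurable_symm.comp hp).mul
      (unitInterval.measurable_symm.comp hξ))

theorem kapK_apply (G : SimpleGraph ℕ) (x : Ed → unitInterval) :
    kapK μF (G, x) = kap (μF G) (pG μF G x) := by
  unfold kapK kap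
  rw [Kernel.map_apply _ (measurable_kapMap μF), Kernel.prod_apply, Kernel.id_apply,
    Kernel.prod_apply, Kernel.comap_apply, Kernel.const_apply, Measure.dirac_prod,
    Measure.map_map (measurable_kapMap μF) measurable_prodMk_left]
  rfl

end

end Vale.Agent.P143
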