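import Vale.Agent.P143.StaticA

open MeasureTheory ProbabilityTheory Set Filter Topology
open scoped ENNReal

namespace Vale.Agent.P143

section MartGen

variable {E : Type*}

theorem setIntegral_cyl_of_dep (μ : Measure (Set E)) (S : Finset E) (A : Set E) (X : Set E → ℝ)
    (hd : DependsOn' X (S : Set E)) : ∫ T in cyl S A, X T ∂μ = X A * μ.real (cyl S A) := by
  have : ∫ T in cyl S A, X T ∂μ = ∫ T in cyl S A, X A ∂μ := by
    refine setIntegral_congr_fun (measurableSet_cyl S A) fun T hT => ?_
    exact hd T A fun e he => hT e (by simpa using he)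
  rw [this, setIntegral_const, smul_eq_mul, mul_comm]

theorem setLIntegral_cyl_of_dep (μ : Measure (Set E)) (S : Finset E) (A : Set E) (X : Set E → ℝ≥0∞)
    (hd : DependsOn' X (S : Set E)) : ∫⁻ T in cyl S A, X T ∂μ = X A * μ (cyl S A) := by
  have : ∫⁻ T in cyl S A, X T ∂μ = ∫⁻ T in cyl S A, X A ∂μ := by
    refine setLIntegral_congr_fun (measurableSet_cyl S A) fun T hT => ?_
    exact hd T A fun e he => hT e (by simpa using he)
  rw [this, setLIntegral_const]

theorem setIntegral_eq_of_cyl {μ : Measure (Set E)} (S : Finset E) {F G : Set E → ℝ}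
    (hF : Integrable F μ) (hG : Integrable G μ)
    (h : ∀ A : Set E, ∫ T in cyl S A, F T ∂μ = ∫ T in cyl S A, G T ∂μ)
    {s : Set (Set E)} (hs : MeasurableSet[FI (S : Set E)] s) :
    ∫ T in s, F T ∂μ = ∫ T in s, G T ∂μ := by
  rw [integral_eq_sum_cyl (μ.restrict s) S F hF.integrableOn,
    integral_eq_sum_cyl (μ.restrict s) S G hG.integrableOn]
  refine Finset.sum_congr rfl fun A _ => ?_
  rw [Measure.restrict_restrict (measurableSet_cyl S _)]
  have hd := measurableSet_FI_iff_dep.1 hs
  by_cases hA : (A : Set E) ∈ s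
  · have : cyl S (A : Set E) ∩ s = cyl S (A : Set E) := by
      refine Set.inter_eq_left.2 fun T hT => ?_
      have h1 := hd T A fun e he => hT e (by simpa using he)
      exact Eq.mpr h1 hA
    rw [this]
    exact h A
  · have : cyl S (A : Set E) ∩ s = ∅ := by
      rw [Set.eq_empty_iff_forall_notMem]
      rintro T ⟨hT, hTs⟩
      have h1 := hd T A fun e he => hT e (by simpa using he)
      exact hA (Eq.mp h1 hTs)
    simp [this]

theorem measure_eq_of_cyl {μ ν : Measure (Set E)} (S : Finset E)
    (h : ∀ A : Set E, μ (cyl S A) = ν (cyl S A))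
    {s : Set (Set E)} (hs : MeasurableSet[FI (S : Set E)] s) : μ s = ν s := by
  rw [measure_eq_sum_cyl μ S, measure_eq_sum_cyl ν S]
  refine Finset.sum_congr rfl fun A _ => ?_
  have hd := measurableSet_FI_iff_dep.1 hs
  by_cases hA : (A : Set E) ∈ s
  · have : s ∩ cyl S (A : Set E) = cyl S (A : Set E) := by
      refine Set.inter_eq_right.2 fun T hT => ?_
      have h1 := hd T A fun e he => hT e (by simpa using he)
      exact Eq.mpr h1 hA
    rw [this]
    exact h A
  · have : s ∩ cyl S (A : Set E) = ∅ := by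
      rw [Set.eq_empty_iff_forall_notMem]
      rintro T ⟨hTs, hT⟩
      have h1 := hd T A fun e he => hT e (by simpa using he)
      exact hA (Eq.mp h1 hTs)
    simp [this]

variable [DecidableEq E] {W : ℕ → Finset E}

theorem martingale_of_cyl (hW : IsWin W) (J : Set E) (μ : Measure (Set E)) [IsProbabilityMeasure μ]
    (X : ℕ → Set E → ℝ) (hd : ∀ n, DependsOn' (X n) (JW W J n : Set E))
    (hb : ∀ n T, |X n T| ≤ 1)
    (hm : ∀ n m, n ≤ m → ∀ A, ∫ T in cyl (JW W J n) A, X m T ∂μ
      = X n A * μ.real (cyl (JW W J n) A)) : Martingale X (filt hW J) μ := by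
  have hmeas : ∀ n, Measurable[FI (JW W J n : Set E)] (X n) := fun n =>
    measurable_FI_of_dep (measurable_of_dep _ _ (hd n)) (hd n)
  have hint : ∀ n, Integrable (X n) μ := fun n =>
    Integrable.of_bound (measurable_of_dep _ _ (hd n)).aestronglyMeasurable 1
      (ae_of_all _ fun T => by simpa using hb n T)
  refine ⟨fun n => (hmeas n).stronglyMeasurable, fun n m hnm => ?_⟩
  refine (ae_eq_condExp_of_forall_setIntegral_eq ((filt hW J).le n) (hint m)
    (fun s _ _ => (hint n).integrableOn) ?_
    (hmeas n).stronglyMeasurable.aestronglyMeasurable).symm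
  intro s hs _
  refine setIntegral_eq_of_cyl (JW W J n) (hint n) (hint m) (fun A => ?_) hs
  rw [hm n m hnm A, setIntegral_cyl_of_dep _ _ _ _ (hd n)]

theorem exists_lim (hW : IsWin W) (J : Set E) (μ : Measure (Set E)) [IsProbabilityMeasure μ]
    (X : ℕ → Set E → ℝ) (hd : ∀ n, DependsOn' (X n) (JW W J n : Set E))
    (hb : ∀ n T, |X n T| ≤ 1)
    (hm : ∀ n m, n ≤ m → ∀ A, ∫ T in cyl (JW W J n) A, X m T ∂μ
      = X n A * μ.real (cyl (JW W J n) A)) :
    ∃ L : Set E → ℝ, Measurable[FI J] L ∧ (∀ T, |L T| ≤ 1) ∧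
      (∀ᵐ T ∂μ, Tendsto (fun n => X n T) atTop (𝓝 (L T))) ∧
      ∀ n A, ∫ T in cyl (JW W J n) A, L T ∂μ = X n A * μ.real (cyl (JW W J n) A) := by
  have hmart := martingale_of_cyl hW J μ X hd hb hm
  have hbdd : ∀ n, eLpNorm (X n) 1 μ ≤ (1 : NNReal) := by
    intro n
    refine (eLpNorm_le_of_ae_bound (C := 1) (ae_of_all _ fun T => by simpa using hb n T)).trans ?_
    simp
  have hlim := hmart.submartingale.ae_tendsto_limitProcess hbdd
  set L0 := (filt hW J).limitProcess X μ with hL0
  have hL0m : Measurable[FI J] L0 := by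
    have h1 : StronglyMeasurable[⨆ n, (filt hW J) n] L0 := Filtration.stronglyMeasurable_limitProcess
    rw [iSup_filt hW J] at h1
    exact h1.measurable
  let L : Set E → ℝ := fun T => max (-1) (min (L0 T) 1)
  have hLm : Measurable[FI J] L := by
    let _ := FI (E := E) J
    exact measurable_const.max (hL0m.min measurable_const)
  have hLb : ∀ T, |L T| ≤ 1 := by
    intro T
    rw [abs_le]
    exact ⟨le_max_left _ _, max_le (by norm_num) (min_le_right _ _)⟩
  have hlim' : ∀ᵐ T ∂μ, Tendsto (fun n => X n T) atTop (𝓝 (L T)) := by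
    filter_upwards [hlim] with T hT
    have h1 : |L0 T| ≤ 1 := le_of_tendsto hT.abs (Eventually.of_forall fun n => hb n T)
    have h2 : L T = L0 T := by
      rw [abs_le] at h1
      simp only [L]
      rw [min_eq_left h1.2, max_eq_right h1.1]
    rw [h2]
    exact hT
  refine ⟨L, hLm, hLb, hlim', ?_⟩
  intro n A
  have h1 : Tendsto (fun m => ∫ T in cyl (JW W J n) A, X m T ∂μ) atTop
      (𝓝 (∫ T in cyl (JW W J n) A, L T ∂μ)) := by
    refine tendsto_integral_of_dominated_convergence (fun _ => 1)
      (fun m => (measurable_of_dep _ _ (hd m)).aestronglyMeasurable)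
      (integrable_const _) (fun m => ae_of_all _ fun T => by simpa using hb m T)
      (ae_restrict_of_ae hlim')
  have h2 : Tendsto (fun m => ∫ T in cyl (JW W J n) A, X m T ∂μ) atTop
      (𝓝 (X n A * μ.real (cyl (JW W J n) A))) := by
    refine tendsto_const_nhds.congr' ?_
    filter_upwards [eventually_ge_atTop n] with m hm'
    exact (hm n m hm' A).symm
  exact tendsto_nhds_unique h1 h2

theorem measure_FI_eq (hW : IsWin W) (J : Set E) {μ ν : Measure (Set E)} [IsFiniteMeasure μ]
    [IsFiniteMeasure ν] (h : ∀ n A, μ (cyl (JW W J n) A) = ν (cyl (JW W J n) A))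
    {s : Set (Set E)} (hs : MeasurableSet[FI J] s) : μ s = ν s := by
  have hpi : IsPiSystem {s | ∃ n, MeasurableSet[(filt hW J) n] s} := by
    rw [Set.ofPred_exists]
    exact isPiSystem_iUnion_of_monotone _ (fun n ↦ ((filt hW J) n).isPiSystem_measurableSet)
      fun _ _ ↦ (filt hW J).mono
  have huniv : μ univ = ν univ := by
    have := h 0 ∅
    exact measure_eq_of_cyl (JW W J 0) (h 0) MeasurableSet.univ
  rw [← iSup_filt hW J] at hs
  have hle : (⨆ n, (filt hW J) n) ≤ (inferInstance : MeasurableSpace (Set E)) :=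
    iSup_le fun n => (filt hW J).le n
  induction s, hs
    using MeasurableSpace.induction_on_inter (MeasurableSpace.measurableSpace_iSup_eq _) hpi with
  | empty => simp
  | basic s hs =>
    rcases hs with ⟨n, hn⟩
    exact measure_eq_of_cyl (JW W J n) (h n) hn
  | compl t htmeas ht =>
    rw [measure_compl (hle _ htmeas) (measure_ne_top _ _),
      measure_compl (hle _ htmeas) (measure_ne_top _ _), ht, huniv]
  | iUnion f hf hfmeas heq =>
    rw [measure_iUnion hf fun n => hle _ (hfmeas n), measure_iUnion hf fun n => hle _ (hfmeas n)]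
    exact tsum_congr heq

theorem lintegral_FI_eq (hW : IsWin W) (J : Set E) {μ ν : Measure (Set E)} [IsFiniteMeasure μ]
    [IsFiniteMeasure ν] (h : ∀ n A, μ (cyl (JW W J n) A) = ν (cyl (JW W J n) A))
    {F : Set E → ℝ≥0∞} (hF : Measurable[FI J] F) : ∫⁻ T, F T ∂μ = ∫⁻ T, F T ∂ν := by
  have h1 : μ.trim (FI_le J) = ν.trim (FI_le J) := by
    refine @Measure.ext _ (FI J) _ _ fun s hs => ?_
    rw [trim_measurableSet_eq _ hs, trim_measurableSet_eq _ hs]
    exact measure_FI_eq hW J h hs
  rw [← lintegral_trim (FI_le J) hF, ← lintegral_trim (FI_le J) hF, h1]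

end MartGen

end Vale.Agent.P143
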