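import Vale.Agent.P143.K4b
import Vale.Agent.P143.StaticB
import Vale.Agent.P143.Meas

open MeasureTheory ProbabilityTheory Set Filter Topology
open scoped ENNReal unitInterval

namespace Vale.Agent.P143

namespace CpB

section

variable {E : Type*} [Countable E] {μ : Measure (Set E)} [IsProbabilityMeasure μ]
  {τ : E → ℝ} {p : E → Set E → unitInterval}

theorem measurable_kapmap (hA : Adapted μ τ p) :
    Measurable (fun z : Set E × (E → unitInterval) => (Vmap p z.1 z.2, z.1)) :=
  (measurable_Vmap' hA).prodMk measurable_fst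

theorem lintegral_kap (hA : Adapted μ τ p) (F : (E → unitInterval) × Set E → ℝ≥0∞)
    (hF : Measurable F) :
    ∫⁻ y, F y ∂(kap μ p) = ∫⁻ T, ∫⁻ ξ, F (Vmap p T ξ, T) ∂(iidU E) ∂μ := by
  unfold kap
  have hm : Measurable (fun z : Set E × (E → unitInterval) => F (Vmap p z.1 z.2, z.1)) :=
    hF.comp (measurable_kapmap hA)
  rw [lintegral_map hF (measurable_kapmap hA), lintegral_prod _ hm.aemeasurable]

theorem isProb_kap (hA : Adapted μ τ p) : IsProbabilityMeasure (kap μ p) := by
  unfold kap
  exact Measure.isProbabilityMeasure_map (measurable_kapmap hA).aemeasurable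

/-- the part of a box probability inside the region -/
noncomputable def boxY (p : E → Set E → unitInterval) (C : Set (Set E)) (D : Finset E)
    (t : E → Set unitInterval) (T : Set E) (ξ : E → unitInterval) : ℝ≥0∞ :=
  C.indicator (fun _ => (1 : ℝ≥0∞)) T
    * ∏ d ∈ D, (t d).indicator (fun _ => (1 : ℝ≥0∞)) (Vmap p T ξ d)

omit [Countable E] in
theorem prod_indicator_pi (D : Finset E) (t : E → Set unitInterval) (V : E → unitInterval) :
    ((D : Set E).pi t).indicator (fun _ => (1 : ℝ≥0∞)) V
      = ∏ d ∈ D, (t d).indicator (fun _ => (1 : ℝ≥0∞)) (V d) := by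
  classical
  by_cases h : V ∈ (D : Set E).pi t
  · rw [Set.indicator_of_mem h, Finset.prod_eq_one]
    intro d hd
    rw [Set.indicator_of_mem (h d hd)]
  · rw [Set.indicator_of_notMem h]
    have : ∃ d ∈ D, V d ∉ t d := by
      by_contra hcon
      push Not at hcon
      exact h (fun d hd => hcon d hd)
    obtain ⟨d, hd, hd2⟩ := this
    symm
    apply Finset.prod_eq_zero hd
    rw [Set.indicator_of_notMem hd2]

open Classical in
/-- box probabilities under `kap` -/
theorem kap_box (hA : Adapted μ τ p) (s : ℝ) (C : Set (Set E)) (hC : MeasurableSet C)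
    (hCd : DependsOn' (fun T => T ∈ C) {e | τ e < s}) (D : Finset E) (t : E → Set unitInterval)
    (ht : ∀ e, MeasurableSet (t e)) :
    kap μ p (((D : Set E).pi t) ×ˢ C)
      = (∫⁻ T, ∫⁻ ξ, boxY p C (D.filter (fun d => τ d < s)) t T ξ ∂(iidU E) ∂μ)
        * ∏ d ∈ D.filter (fun d => ¬ τ d < s), volume (t d) := by
  have hind : ∀ e, Measurable ((t e).indicator (fun _ => (1 : ℝ≥0∞))) :=
    fun e => measurable_const.indicator (ht e)
  have hBm : MeasurableSet (((D : Set E).pi t) ×ˢ C) :=
    (MeasurableSet.pi D.countable_toSet (fun i _ => ht i)).prod hC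
  have hYm : Measurable (Function.uncurry (boxY p C (D.filter (fun d => τ d < s)) t)) := by
    unfold boxY Function.uncurry
    apply Measurable.mul
    · exact (measurable_const.indicator hC).comp measurable_fst
    · exact Finset.measurable_prod _ (fun d _ => (hind d).comp (measurable_V hA d))
  have hYd : Dep2 (boxY p C (D.filter (fun d => τ d < s)) t) {e | τ e < s} := by
    intro T T' ξ ξ' hh
    unfold boxY
    have e1 : C.indicator (fun _ => (1 : ℝ≥0∞)) T = C.indicator (fun _ => (1 : ℝ≥0∞)) T' := by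
      have h1 := hCd T T' (fun e he => (hh e he).1)
      have h1' : (T ∈ C) = (T' ∈ C) := h1
      by_cases hT : T ∈ C
      · have hT' : T' ∈ C := by rw [← h1']; exact hT
        rw [Set.indicator_of_mem hT, Set.indicator_of_mem hT']
      · have hT' : T' ∉ C := by
          intro h2; apply hT
          rw [h1']; exact h2
        rw [Set.indicator_of_notMem hT, Set.indicator_of_notMem hT']
    rw [e1]
    congr 1
    apply Finset.prod_congr rfl
    intro d hd
    rw [Finset.mem_filter] at hd
    have hV := dep2_V hA d {e | τ e < s} (fun e he => lt_trans he hd.2) hd.2 T T' ξ ξ' hh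
    have hV' : Vmap p T ξ d = Vmap p T' ξ' d := hV
    rw [hV']
  have hM2 := M2 hA {e | τ e < s} (fun e => (t e).indicator (fun _ => (1 : ℝ≥0∞))) hind
    (boxY p C (D.filter (fun d => τ d < s)) t) hYm hYd _ (D.filter (fun d => ¬ τ d < s)) rfl
    (by
      intro d hd j hj
      rw [Finset.mem_filter] at hd
      exact lt_of_lt_of_le hj (not_lt.1 hd.2))
  have hvol : ∀ d, ∫⁻ r : unitInterval, (t d).indicator (fun _ => (1 : ℝ≥0∞)) r ∂volume
      = volume (t d) := by
    intro d
    exact lintegral_indicator_one (ht d)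
  simp only [hvol] at hM2
  rw [← hM2, ← lintegral_indicator_one hBm, lintegral_kap hA _ (measurable_one.indicator hBm)]
  apply lintegral_congr
  intro T
  apply lintegral_congr
  intro ξ
  unfold boxY
  rw [mul_assoc, Finset.prod_filter_mul_prod_filter_not, ← prod_indicator_pi]
  by_cases h1 : T ∈ C
  · by_cases h2 : Vmap p T ξ ∈ (D : Set E).pi t
    · rw [Set.indicator_of_mem h1, Set.indicator_of_mem h2, Set.indicator_of_mem (by exact ⟨h2, h1⟩)]
      simp
    · rw [Set.indicator_of_notMem h2, Set.indicator_of_notMem (by exact fun h => h2 h.1), mul_zero]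
  · rw [Set.indicator_of_notMem h1, Set.indicator_of_notMem (by exact fun h => h1 h.2), zero_mul]

theorem kap_box_eq (hA : Adapted μ τ p) {τ' : E → ℝ} {p' : E → Set E → unitInterval}
    (hA' : Adapted μ τ' p') (s s' : ℝ)
    (hJ : {f | τ f < s} = {f | τ' f < s'}) (hp : ∀ g, τ g < s → p g = p' g)
    (C : Set (Set E)) (hC : MeasurableSet C)
    (hCd : DependsOn' (fun T => T ∈ C) {e | τ e < s}) (D : Finset E) (t : E → Set unitInterval)
    (ht : ∀ e, MeasurableSet (t e)) :
    kap μ p (((D : Set E).pi t) ×ˢ C) = kap μ p' (((D : Set E).pi t) ×ˢ C) := by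
  classical
  have hiff : ∀ e, τ e < s ↔ τ' e < s' := by
    intro e
    have : e ∈ {f | τ f < s} ↔ e ∈ {f | τ' f < s'} := by rw [hJ]
    exact this
  rw [kap_box hA s C hC hCd D t ht, kap_box hA' s' C hC (hJ ▸ hCd) D t ht]
  have e1 : D.filter (fun d => τ d < s) = D.filter (fun d => τ' d < s') :=
    Finset.filter_congr (fun d _ => hiff d)
  have e2 : D.filter (fun d => ¬ τ d < s) = D.filter (fun d => ¬ τ' d < s') :=
    Finset.filter_congr (fun d _ => not_congr (hiff d))
  rw [e2]
  congr 1
  apply lintegral_congr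
  intro T
  apply lintegral_congr
  intro ξ
  unfold boxY
  rw [e1]
  congr 1
  apply Finset.prod_congr rfl
  intro d hd
  rw [Finset.mem_filter, ← hiff] at hd
  unfold Vmap
  rw [hp d hd.2]

theorem kap_prod_eq (hA : Adapted μ τ p) {τ' : E → ℝ} {p' : E → Set E → unitInterval}
    (hA' : Adapted μ τ' p') (s s' : ℝ)
    (hJ : {f | τ f < s} = {f | τ' f < s'}) (hp : ∀ g, τ g < s → p g = p' g)
    (C : Set (Set E)) (hC : MeasurableSet C)
    (hCd : DependsOn' (fun T => T ∈ C) {e | τ e < s}) (B : Set (E → unitInterval))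
    (hB : MeasurableSet B) :
    kap μ p (B ×ˢ C) = kap μ p' (B ×ˢ C) := by
  haveI := isProb_kap hA
  haveI := isProb_kap hA'
  set ν : Measure (E → unitInterval) := ((kap μ p).restrict (univ ×ˢ C)).map Prod.fst with hν
  set ν' : Measure (E → unitInterval) := ((kap μ p').restrict (univ ×ˢ C)).map Prod.fst with hν'
  have hval : ∀ (κ : Measure ((E → unitInterval) × Set E)) (B : Set (E → unitInterval)),
      MeasurableSet B → (κ.restrict (univ ×ˢ C)).map Prod.fst B = κ (B ×ˢ C) := by
    intro κ B hB
    rw [Measure.map_apply measurable_fst hB, Measure.restrict_apply (measurable_fst hB)]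
    congr 1
    ext y
    simp only [mem_inter_iff, mem_preimage, mem_prod, mem_univ, true_and]
  have hext : ν = ν' := by
    have hpi : IsPiSystem (squareCylinders (fun _ : E => {s : Set unitInterval | MeasurableSet s})) :=
      isPiSystem_squareCylinders (fun _ => MeasurableSpace.isPiSystem_measurableSet)
        (fun _ => by exact (MeasurableSet.univ : MeasurableSet (univ : Set unitInterval)))
    have hgen : (MeasurableSpace.pi : MeasurableSpace (E → unitInterval))
        = MeasurableSpace.generateFrom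
          (squareCylinders (fun _ : E => {s : Set unitInterval | MeasurableSet s})) :=
      generateFrom_squareCylinders.symm
    haveI : IsFiniteMeasure ν := by rw [hν]; infer_instance
    refine ext_of_generate_finite _ hgen hpi ?_ ?_
    · rintro S ⟨D, t, ht, rfl⟩
      have ht' : ∀ e, MeasurableSet (t e) := fun e => ht e (mem_univ e)
      rw [hν, hν', hval _ _ (MeasurableSet.pi D.countable_toSet (fun i _ => ht' i)),
        hval _ _ (MeasurableSet.pi D.countable_toSet (fun i _ => ht' i))]
      exact kap_box_eq hA hA' s s' hJ hp C hC hCd D t ht'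
    · rw [hν, hν', hval _ _ MeasurableSet.univ, hval _ _ MeasurableSet.univ]
      have := kap_box_eq hA hA' s s' hJ hp C hC hCd ∅ (fun _ => univ) (fun _ => MeasurableSet.univ)
      simpa using this
  rw [← hval _ B hB, ← hval _ B hB, ← hν, ← hν', hext]

theorem eta_cyl_eq (hA : Adapted μ τ p) {τ' : E → ℝ} {p' : E → Set E → unitInterval}
    (hA' : Adapted μ τ' p')
    {η : Kernel (E → unitInterval) (Set E)} [IsMarkovKernel η] (hη : (iidU E) ⊗ₘ η = kap μ p)
    {η' : Kernel (E → unitInterval) (Set E)} [IsMarkovKernel η']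
    (hη' : (iidU E) ⊗ₘ η' = kap μ p') (s s' : ℝ)
    (hJ : {f | τ f < s} = {f | τ' f < s'}) (hp : ∀ g, τ g < s → p g = p' g)
    (C : Set (Set E)) (hC : MeasurableSet C)
    (hCd : DependsOn' (fun T => T ∈ C) {e | τ e < s}) :
    ∀ᵐ V ∂(iidU E), η V C = η' V C := by
  apply ae_eq_of_forall_setLIntegral_eq_of_sigmaFinite (η.measurable_coe hC) (η'.measurable_coe hC)
  intro B hB _
  rw [← Measure.compProd_apply_prod hB hC, ← Measure.compProd_apply_prod hB hC, hη, hη']
  exact kap_prod_eq hA hA' s s' hJ hp C hC hCd B hB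

end

end CpB

section

variable {E : Type*} [Countable E] {μ : Measure (Set E)} [IsProbabilityMeasure μ]
  {τ : E → ℝ} {p : E → Set E → unitInterval} (hA : Adapted μ τ p)
  {η : Kernel (E → unitInterval) (Set E)} [IsMarkovKernel η] (hη : (iidU E) ⊗ₘ η = kap μ p)

include hA hη in
theorem K4 {τ' : E → ℝ} {p' : E → Set E → unitInterval} (hA' : Adapted μ τ' p')
    {η' : Kernel (E → unitInterval) (Set E)} [IsMarkovKernel η']
    (hη' : (iidU E) ⊗ₘ η' = kap μ p') (s s' : ℝ)
    (hJ : {f | τ f < s} = {f | τ' f < s'}) (hp : ∀ g, τ g < s → p g = p' g)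
    (F : Set E × Set E → ℝ≥0∞) (hF : Measurable F)
    (hd : ∀ A A' B B' : Set E, (∀ e, τ e < s → (e ∈ A ↔ e ∈ A')) →
      (∀ e, τ e < s → (e ∈ B ↔ e ∈ B')) → F (A, B) = F (A', B')) :
    ∫⁻ x, F x.2 ∂(Qc η) = ∫⁻ x, F x.2 ∂(Qc η') := by
  classical
  haveI : Encodable E := Encodable.ofCountable E
  set J : Set E := {f | τ f < s} with hJdef
  have hW : IsWin (stdWin E) := stdWin_isWin E
  have h1 : ∀ᵐ V ∂(iidU E), ∀ (n : ℕ) (A : Finset E),
      η V (cyl (JW (stdWin E) J n) (A : Set E)) = η' V (cyl (JW (stdWin E) J n) (A : Set E)) := by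
    rw [ae_all_iff]; intro n
    rw [ae_all_iff]; intro A
    apply CpB.eta_cyl_eq hA hA' hη hη' s s' hJ hp _ (measurableSet_cyl _ _)
    intro T T' hT
    apply propext
    have hsub := JW_sub (W := stdWin E) J n
    constructor
    · intro h e he
      exact (hT e (hsub he)).symm.trans (h e he)
    · intro h e he
      exact (hT e (hsub he)).trans (h e he)
  have h2 : ∀ (η : Kernel (E → unitInterval) (Set E)) [IsMarkovKernel η],
      ∫⁻ x, F x.2 ∂(Qc η) = ∫⁻ V, ∫⁻ A, ∫⁻ B, F (A, B) ∂(η V) ∂(η V) ∂(iidU E) := by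
    intro η _
    unfold Qc
    have hm : Measurable (fun x : (E → unitInterval) × (Set E × Set E) => F x.2) :=
      hF.comp measurable_snd
    rw [Measure.lintegral_compProd hm]
    apply lintegral_congr
    intro V
    rw [Kernel.prod_apply, lintegral_prod _ hF.aemeasurable]
  rw [h2 η, h2 η']
  apply lintegral_congr_ae
  filter_upwards [h1] with V hV
  have h3 : ∀ n A, η V (cyl (JW (stdWin E) J n) A) = η' V (cyl (JW (stdWin E) J n) A) := by
    intro n A
    have : cyl (JW (stdWin E) J n) A
        = cyl (JW (stdWin E) J n) (((JW (stdWin E) J n).filter (fun e => e ∈ A) : Finset E) : Set E) := by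
      apply cyl_congr
      intro e he
      simp [he]
    rw [this]
    exact hV n _
  have hFA : ∀ A, Measurable[FI J] (fun B => F (A, B)) := by
    intro A
    apply measurable_FI_of_dep (hF.comp measurable_prodMk_left)
    intro B B' hB
    exact hd A A B B' (fun e _ => Iff.rfl) hB
  have h4 : ∀ A, ∫⁻ B, F (A, B) ∂(η V) = ∫⁻ B, F (A, B) ∂(η' V) :=
    fun A => lintegral_FI_eq hW J h3 (hFA A)
  simp_rw [h4]
  apply lintegral_FI_eq hW J h3
  apply measurable_FI_of_dep
  · exact Measurable.lintegral_prod_right' (f := F) hF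
  · intro A A' hA
    apply lintegral_congr
    intro B
    exact hd A A' B B hA (fun e _ => Iff.rfl)

end

end Vale.Agent.P143
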