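import Vale.Agent.P143.GDefs

open MeasureTheory ProbabilityTheory Set Filter Topology
open scoped ENNReal

namespace Vale.Agent.P143

section General

variable {E : Type*} [DecidableEq E]

theorem iidU_update (e : E) :
    ((iidU E).prod (volume : Measure unitInterval)).map
      (fun y : (E → unitInterval) × unitInterval => Function.update y.1 e y.2) = iidU E := by
  unfold iidU
  apply Measure.eq_infinitePi
  intro s t ht
  have hmeas : Measurable (fun y : (E → unitInterval) × unitInterval =>
      Function.update y.1 e y.2) := by
    rw [measurable_pi_iff]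
    intro a
    by_cases h : a = e
    · subst h; simp only [Function.update_self]; fun_prop
    · simp only [Function.update_of_ne h]; fun_prop
  rw [Measure.map_apply hmeas (.pi s.countable_toSet fun _ _ ↦ ht _)]
  have hpre : (fun y : (E → unitInterval) × unitInterval => Function.update y.1 e y.2) ⁻¹'
      ((s : Set E).pi t)
      = (((s.erase e : Finset E) : Set E).pi t) ×ˢ (if e ∈ s then t e else univ) := by
    ext y
    simp only [mem_preimage, Set.mem_pi, Finset.mem_coe, mem_prod, Finset.mem_erase]
    constructor
    · intro h
      refine ⟨fun i hi => ?_, ?_⟩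
      · have := h i hi.2
        rwa [Function.update_of_ne hi.1] at this
      · split_ifs with he
        · have := h e he
          rwa [Function.update_self] at this
        · trivial
    · rintro ⟨h1, h2⟩ i hi
      by_cases hie : i = e
      · subst hie
        rw [Function.update_self]
        rw [if_pos hi] at h2
        exact h2
      · rw [Function.update_of_ne hie]
        exact h1 i ⟨hie, hi⟩
  rw [hpre, Measure.prod_prod, Measure.infinitePi_pi _ (fun i _ => ht i)]
  by_cases he : e ∈ s
  · rw [if_pos he, Finset.prod_erase_mul _ _ he]
  · rw [if_neg he, measure_univ, mul_one, Finset.erase_eq_of_notMem he]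

theorem measurable_update' (e : E) : Measurable (fun y : (E → unitInterval) × unitInterval =>
    Function.update y.1 e y.2) := by
  rw [measurable_pi_iff]
  intro a
  by_cases h : a = e
  · subst h; simp only [Function.update_self]; fun_prop
  · simp only [Function.update_of_ne h]; fun_prop

theorem lintegral_iidU_update (e : E) (F : (E → unitInterval) → ℝ≥0∞) (hF : Measurable F) :
    ∫⁻ x, F x ∂(iidU E)
      = ∫⁻ x, ∫⁻ r : unitInterval, F (Function.update x e r) ∂volume ∂(iidU E) := by
  conv_lhs => rw [← iidU_update e]
  rw [lintegral_map hF (measurable_update' e)]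
  exact lintegral_prod _ ((hF.comp (measurable_update' e)).aemeasurable)

end General

theorem map_log_eq_exp (w : ℝ) (hw : 0 < w) :
    (volume : Measure unitInterval).map (fun r : unitInterval => - Real.log (r : ℝ) / w)
      = expMeasure w := by
  have hm : Measurable (fun r : unitInterval => - Real.log (r : ℝ) / w) := by fun_prop
  haveI : IsProbabilityMeasure ((volume : Measure unitInterval).map
      (fun r : unitInterval => - Real.log (r : ℝ) / w)) := Measure.isProbabilityMeasure_map hm.aemeasurable
  haveI := isProbabilityMeasure_expMeasure hw
  apply Measure.eq_of_cdf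
  ext x
  rw [cdf_expMeasure_eq hw, cdf_eq_real, measureReal_def, Measure.map_apply hm measurableSet_Iic]
  split_ifs with hx
  · have h1 : (fun r : unitInterval => - Real.log (r : ℝ) / w) ⁻¹' Iic x
        =ᵐ[volume] Ici (⟨Real.exp (-(w * x)), ⟨(Real.exp_pos _).le, by
          rw [Real.exp_le_one_iff]; nlinarith⟩⟩ : unitInterval) := by
      have h0 : ∀ᵐ r : unitInterval ∂volume, r ≠ 0 := by
        rw [ae_iff]; simp
      filter_upwards [h0] with r hr
      have hr' : (0 : ℝ) < (r : ℝ) := by
        rcases lt_or_eq_of_le r.2.1 with h | h
        · exact h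
        · exact absurd (Subtype.ext h.symm) hr
      apply propext
      show (- Real.log (r : ℝ) / w ≤ x) ↔ (_ ≤ r)
      rw [← Subtype.coe_le_coe, div_le_iff₀ hw, neg_le, ← Real.log_le_log_iff (Real.exp_pos _) hr',
        Real.log_exp, mul_comm]
    rw [measure_congr h1, unitInterval.volume_Ici, ENNReal.toReal_ofReal]
    simp only [sub_nonneg, Real.exp_le_one_iff, Left.neg_nonpos_iff]
    positivity
  · have h1 : (fun r : unitInterval => - Real.log (r : ℝ) / w) ⁻¹' Iic x = ∅ := by
      ext r
      simp only [mem_preimage, mem_Iic, mem_empty_iff_false, iff_false, not_le]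
      push Not at hx
      refine lt_of_lt_of_le hx ?_
      apply div_nonneg _ hw.le
      rw [neg_nonneg]
      exact Real.log_nonpos r.2.1 r.2.2
    rw [h1]; simp

end Vale.Agent.P143
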