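import Vale.Agent.P143.StaticE

open MeasureTheory ProbabilityTheory Set Filter Topology
open scoped ENNReal

namespace Vale.Agent.P143

section Aux

variable {E : Type*} [DecidableEq E] {W : ℕ → Finset E}
  {μ : Measure (Set E)} [IsProbabilityMeasure μ] {u : Finset E → Set E → E → E → ℝ}

theorem L2_le (hG : Good (Pm μ) u) {g f : E} {S : Finset E} {U : Set E → ℝ} (hUm : Measurable U)
    (hUb : ∀ T, |U T| ≤ 1)
    (hU : ∀ A, ∫ T in cyl S A, U T ∂μ = u S A g f * μ.real (cyl S A)) :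
    ∫⁻ T, ENNReal.ofReal ((u S T g f) ^ 2) ∂μ ≤ ∫⁻ T, ENNReal.ofReal ((U T) ^ 2) ∂μ := by
  have hum : Measurable (fun T => u S T g f) := measurable_of_dep _ _ (u_dep hG S g f)
  have hub : ∀ T, |u S T g f| ≤ 1 := fun T => hG.u_abs S T g f
  have i1 : Integrable (fun T => (U T) ^ 2) μ :=
    Integrable.of_bound (hUm.pow_const 2).aestronglyMeasurable 1 (ae_of_all _ fun T => by
      rw [Real.norm_eq_abs, abs_pow]
      exact pow_le_one₀ (abs_nonneg _) (hUb T))
  have i2 : Integrable (fun T => (u S T g f) ^ 2) μ :=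
    Integrable.of_bound (hum.pow_const 2).aestronglyMeasurable 1 (ae_of_all _ fun T => by
      rw [Real.norm_eq_abs, abs_pow]
      exact pow_le_one₀ (abs_nonneg _) (hub T))
  have i3 : Integrable (fun T => u S T g f * U T) μ :=
    Integrable.of_bound (hum.mul hUm).aestronglyMeasurable 1 (ae_of_all _ fun T => by
      rw [Real.norm_eq_abs, abs_mul]
      exact mul_le_one₀ (hub T) (abs_nonneg _) (hUb T))
  have e1 : ∫ T, u S T g f * U T ∂μ = ∫ T, (u S T g f) ^ 2 ∂μ := by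
    rw [integral_eq_sum_cyl μ S _ i3, integral_eq_sum_cyl μ S _ i2]
    refine Finset.sum_congr rfl fun A _ => ?_
    have h1 : ∫ T in cyl S (A : Set E), u S T g f * U T ∂μ
        = ∫ T in cyl S (A : Set E), u S A g f * U T ∂μ := by
      refine setIntegral_congr_fun (measurableSet_cyl S _) fun T hT => ?_
      have : u S T g f = u S A g f := u_dep hG S g f T A fun e he => hT e (by simpa using he)
      simp only [this]
    rw [h1, integral_const_mul, hU, setIntegral_cyl_of_dep]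
    · ring
    · intro T T' h
      have : u S T g f = u S T' g f := u_dep hG S g f T T' h
      simp only [this]
  have e2 : 0 ≤ ∫ T, ((U T) ^ 2 - 2 * (u S T g f * U T) + (u S T g f) ^ 2) ∂μ := by
    refine integral_nonneg fun T => ?_
    have : (U T) ^ 2 - 2 * (u S T g f * U T) + (u S T g f) ^ 2 = (U T - u S T g f) ^ 2 := by ring
    simp only [this]
    positivity
  have i4 : Integrable (fun T => (U T) ^ 2 - 2 * (u S T g f * U T)) μ := i1.sub (i3.const_mul 2)
  rw [integral_add i4 i2, integral_sub i1 (i3.const_mul 2), integral_const_mul, e1] at e2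
  rw [← ofReal_integral_eq_lintegral_ofReal i1 (ae_of_all _ fun T => sq_nonneg _),
    ← ofReal_integral_eq_lintegral_ofReal i2 (ae_of_all _ fun T => sq_nonneg _)]
  exact ENNReal.ofReal_le_ofReal (by linarith)

theorem sqrt_ofReal_mul (a b : ℝ) :
    (ENNReal.ofReal (a ^ 2) * ENNReal.ofReal (b ^ 2)) ^ (1/2 : ℝ) = ENNReal.ofReal (|a| * |b|) := by
  rw [← ENNReal.ofReal_mul (sq_nonneg a), ENNReal.ofReal_rpow_of_nonneg (by positivity) (by norm_num),
    ← mul_pow, ← Real.sqrt_eq_rpow, Real.sqrt_sq_eq_abs, abs_mul]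

end Aux

section Task3

variable {E : Type*} [Countable E] [DecidableEq E] {W : ℕ → Finset E} (hW : IsWin W)
  {μ : Measure (Set E)} [IsProbabilityMeasure μ] {u : Finset E → Set E → E → E → ℝ}
  (hG : Good (Pm μ) u)

include hW in
theorem pJ_mem (J T : Set E) (f : E) (hf : f ∉ J) : pJ (Pm μ) W J T f ∈ Icc (0:ℝ) 1 := by
  have h : ∀ n, pr (Pm μ) (JW W J n) T f ∈ Icc (0:ℝ) 1 := fun n =>
    pr_mem_Icc (fun h => hf (mem_JW.1 h).2) T
  constructor
  · refine le_limsup_of_frequently_le (Frequently.of_forall fun n => (h n).1) ?_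
    exact ⟨1, by simpa using ⟨0, fun n _ => (h n).2⟩⟩
  · refine limsup_le_of_le ?_ (Eventually.of_forall fun n => (h n).2)
    exact IsBoundedUnder.isCoboundedUnder_le ⟨0, by simpa using ⟨0, fun n _ => (h n).1⟩⟩

theorem pJ_dep (J : Set E) (f : E) : DependsOn' (fun T => pJ (Pm μ) W J T f) J := by
  intro T T' h
  have : ∀ n, pr (Pm μ) (JW W J n) T f = pr (Pm μ) (JW W J n) T' f := fun n =>
    pr_dep (μ := μ) (JW W J n) f T T' fun e he => h e (JW_sub J n he)
  simp only [pJ, this]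

theorem pJ_meas (J : Set E) (f : E) : Measurable (fun T => pJ (Pm μ) W J T f) := by
  unfold pJ
  exact Measurable.limsup fun n => measurable_of_dep _ _ (pr_dep (μ := μ) (JW W J n) f)

theorem CJ_dep (J : Set E) (g f : E) (hg : g ∈ J) :
    DependsOn' (fun T => CJ (Pm μ) W J T g f) J := by
  intro T T' h
  have : ∀ n, CW (Pm μ) (JW W J n) T g f = CW (Pm μ) (JW W J n) T' g f := fun n =>
    CW_dep (μ := μ) (JW W J n) g f T T' fun e he => h e (JW_sub J n he)
  simp only [CJ, this]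

theorem CJ_meas (J : Set E) (g f : E) : Measurable (fun T => CJ (Pm μ) W J T g f) :=
  CJ_meas_aux J g f

include hW hG in
theorem J1 (J : Set E) (f : E) (hf : f ∉ J) (h : Set E → ℝ≥0∞) (hm : Measurable h)
    (hd : DependsOn' h J) :
    ∫⁻ T in {T | f ∈ T}, h T ∂μ = ∫⁻ T, h T * ENNReal.ofReal (pJ (Pm μ) W J T f) ∂μ := by
  obtain ⟨L, h1, h2, h3, h4, h5, h6⟩ := pJ_lim (μ := μ) hW hf
  have hLm : Measurable L := h1.mono (FI_le J) le_rfl
  have hLi : Integrable L μ := Integrable.of_bound hLm.aestronglyMeasurable 1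
      (ae_of_all _ fun T => by simpa using h2 T)
  have e1 : ∫⁻ T, h T * ENNReal.ofReal (pJ (Pm μ) W J T f) ∂μ
      = ∫⁻ T, h T ∂(μ.withDensity fun T => ENNReal.ofReal (L T)) := by
    rw [lintegral_withDensity_eq_lintegral_mul _ hLm.ennreal_ofReal hm]
    refine lintegral_congr_ae ?_
    filter_upwards [h5 W hW] with T hT
    rw [hT, Pi.mul_apply, mul_comm]
  have hfin : IsFiniteMeasure (μ.withDensity fun T => ENNReal.ofReal (L T)) :=
    isFiniteMeasure_withDensity_ofReal hLi.2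
  rw [e1]
  refine lintegral_FI_eq hW J (fun n A => ?_) (measurable_FI_of_dep hm hd)
  have hmf : MeasurableSet {T : Set E | f ∈ T} := measurableSet_mem f
  rw [Measure.restrict_apply (measurableSet_cyl _ _), withDensity_apply _ (measurableSet_cyl _ _),
    ← ofReal_integral_eq_lintegral_ofReal hLi.integrableOn (ae_restrict_of_ae h6),
    h4 _ (JW_sub J n) A, ofReal_measureReal (measure_ne_top _ _)]

include hW hG in
theorem J3a (J : Set E) (g : E) (hg : g ∈ J) (I₀ : Set E) (hI : I₀ ⊆ J \ {g})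
    (h : Set E → ℝ≥0∞) (hm : Measurable h) (hd : DependsOn' h I₀) :
    ∫⁻ T in {T | g ∈ T}, h T * (∑' f : (Jᶜ : Set E), CJ (Pm μ) W J T g f) ∂μ
      ≤ ∫⁻ T in {T | g ∉ T}, h T ∂μ :=
  J3_gen hW hG hg hI (fun _ hgS F hF h hd => J3a_fin hG hgS F hF h hd) h hm hd

include hW hG in
theorem J3b (J : Set E) (g : E) (hg : g ∈ J) (I₀ : Set E) (hI : I₀ ⊆ J \ {g})
    (h : Set E → ℝ≥0∞) (hm : Measurable h) (hd : DependsOn' h I₀) :
    ∫⁻ T in {T | g ∉ T}, h T * (∑' f : (Jᶜ : Set E), CJ (Pm μ) W J T g f) ∂μ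
      ≤ ∫⁻ T in {T | g ∈ T}, h T ∂μ :=
  J3_gen hW hG hg hI (fun _ hgS F hF h hd => J3b_fin hG hgS F hF h hd) h hm hd

include hW hG in
theorem J5 (J : Set E) (g : E) (hg : g ∈ J) :
    ∑' f : (Jᶜ : Set E), ∫⁻ T, CJ (Pm μ) W J T g f ∂μ ≤ 1 := by
  have hmg : MeasurableSet {T : Set E | g ∈ T} := measurableSet_mem g
  rw [← lintegral_tsum fun f : (Jᶜ : Set E) => (CJ_meas_aux J g (f : E)).aemeasurable,
    ← lintegral_add_compl _ hmg]
  have h1 := J3a hW hG J g hg ∅ (by simp) (fun _ => 1) measurable_const (fun _ _ _ => rfl)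
  have h2 := J3b hW hG J g hg ∅ (by simp) (fun _ => 1) measurable_const (fun _ _ _ => rfl)
  simp only [one_mul, setLIntegral_one] at h1 h2
  have h3 : {T : Set E | g ∈ T}ᶜ = {T | g ∉ T} := rfl
  rw [h3]
  refine (add_le_add h1 h2).trans (le_of_eq ?_)
  rw [← h3, add_comm, measure_add_measure_compl hmg, measure_univ]

include hW hG in
theorem J6p {W' : ℕ → Finset E} (hW' : IsWin W') (J : Set E) (f : E) (hf : f ∉ J) :
    ∀ᵐ T ∂μ, pJ (Pm μ) W J T f = pJ (Pm μ) W' J T f := by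
  obtain ⟨L, h1, h2, h3, h4, h5, h6⟩ := pJ_lim (μ := μ) hW hf
  filter_upwards [h5 W hW, h5 W' hW'] with T hT hT'
  rw [hT, hT']

include hW hG in
theorem J6C {W' : ℕ → Finset E} (hW' : IsWin W') (J : Set E) (g f : E) (hg : g ∈ J) (hf : f ∉ J) :
    ∀ᵐ T ∂μ, CJ (Pm μ) W J T g f = CJ (Pm μ) W' J T g f := by
  obtain ⟨U, _, _, _, _, h5⟩ := CJ_lim hW hG hg hf
  filter_upwards [h5 W hW, h5 W' hW'] with T hT hT'
  rw [hT, hT']

theorem tendsto_tsum_dom {ι : Type*} [Countable ι] {A : ℕ → ι → ℝ≥0∞} {A' b : ι → ℝ≥0∞}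
    (hb : ∑' i, b i ≠ ∞) (h : ∀ n i, A n i ≤ b i)
    (hl : ∀ i, Tendsto (fun n => A n i) atTop (𝓝 (A' i))) :
    Tendsto (fun n => ∑' i, A n i) atTop (𝓝 (∑' i, A' i)) := by
  let _ : MeasurableSpace ι := ⊤
  have h1 : ∀ F : ι → ℝ≥0∞, ∑' i, F i = ∫⁻ i, F i ∂(Measure.count : Measure ι) := fun F =>
    (lintegral_count F).symm
  simp_rw [h1] at hb ⊢
  exact tendsto_lintegral_of_dominated_convergence b (fun n => measurable_from_top)
    (fun n => ae_of_all _ fun i => h n i) hb (ae_of_all _ hl)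

include hW hG in
theorem J4 {Ω : Type*} [MeasurableSpace Ω] (Q : Measure Ω) [IsProbabilityMeasure Q]
    (T T' : Ω → Set E) (hT : Measurable T) (hT' : Measurable T')
    (hQ : Q.map T = μ) (hQ' : Q.map T' = μ) (J : Set E) (f : E) (hf : f ∉ J)
    (hfin : ∑' g : J, ∫⁻ T, CJ (Pm μ) W J T g f ∂μ ≠ ∞) :
    ∫⁻ ω, ENNReal.ofReal |pJ (Pm μ) W J (T ω) f - pJ (Pm μ) W J (T' ω) f| ∂Q
      ≤ ∑' g : J, ∫⁻ ω in {ω | ¬ ((g : E) ∈ T ω ↔ (g : E) ∈ T' ω)},
          (CJ (Pm μ) W J (T ω) g f * CJ (Pm μ) W J (T' ω) g f) ^ (1/2 : ℝ) ∂Q := by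
  classical
  have aeT : ∀ {p : Set E → Prop}, (∀ᵐ S ∂μ, p S) → ∀ᵐ ω ∂Q, p (T ω) := by
    intro p hp
    rw [← hQ] at hp
    exact ae_of_ae_map hT.aemeasurable hp
  have aeT' : ∀ {p : Set E → Prop}, (∀ᵐ S ∂μ, p S) → ∀ᵐ ω ∂Q, p (T' ω) := by
    intro p hp
    rw [← hQ'] at hp
    exact ae_of_ae_map hT'.aemeasurable hp
  obtain ⟨L, h1, h2, h3, h4, h5, h6⟩ := pJ_lim (μ := μ) hW hf
  have hU : ∀ g : J, ∃ U : Set E → ℝ, Measurable[FI J] U ∧ (∀ T, |U T| ≤ 1) ∧
      (∀ W' : ℕ → Finset E, IsWin W' →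
        ∀ᵐ T ∂μ, Tendsto (fun n => u (JW W' J n) T g f) atTop (𝓝 (U T))) ∧
      (∀ S : Finset E, (g : E) ∈ S → (S : Set E) ⊆ J → ∀ A,
        ∫ T in cyl S A, U T ∂μ = u S A g f * μ.real (cyl S A)) ∧
      (∀ W' : ℕ → Finset E, IsWin W' → ∀ᵐ T ∂μ,
        CJ (Pm μ) W' J T g f = ENNReal.ofReal ((U T) ^ 2)) := fun g => CJ_lim hW hG g.2 hf
  choose U hU1 hU2 hU3 hU4 hU5 using hU
  have hUm : ∀ g, Measurable (U g) := fun g => (hU1 g).mono (FI_le J) le_rfl
  have hmm : ∀ g : E, MeasurableSet {ω | ¬ (g ∈ T ω ↔ g ∈ T' ω)} := by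
    intro g
    have m1 : MeasurableSet {ω | g ∈ T ω} := hT (measurableSet_mem g)
    have m2 : MeasurableSet {ω | g ∈ T' ω} := hT' (measurableSet_mem g)
    exact (m1.iff m2).compl
  have hum : ∀ n (g : E), Measurable (fun S => u (JW W J n) S g f) := fun n g =>
    measurable_of_dep _ _ (u_dep hG (JW W J n) g f)
  have hpm : ∀ n, Measurable (fun S => pr (Pm μ) (JW W J n) S f) := fun n =>
    measurable_of_dep _ _ (pr_dep (μ := μ) (JW W J n) f)
  let A : ℕ → J → ℝ≥0∞ := fun n g => if (g : E) ∈ JW W J n then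
    ∫⁻ ω in {ω | ¬ ((g : E) ∈ T ω ↔ (g : E) ∈ T' ω)},
      ENNReal.ofReal (|u (JW W J n) (T ω) g f| * |u (JW W J n) (T' ω) g f|) ∂Q else 0
  have step1 : ∀ n, ∫⁻ ω, ENNReal.ofReal |pr (Pm μ) (JW W J n) (T ω) f
      - pr (Pm μ) (JW W J n) (T' ω) f| ∂Q ≤ ∑' g : J, A n g := by
    intro n
    have hb : ∀ᵐ ω ∂Q, ENNReal.ofReal |pr (Pm μ) (JW W J n) (T ω) f
        - pr (Pm μ) (JW W J n) (T' ω) f| ≤ ∑ g ∈ JW W J n,
          ({ω | ¬ (g ∈ T ω ↔ g ∈ T' ω)}.indicator (fun ω => ENNReal.ofReal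
            (|u (JW W J n) (T ω) g f| * |u (JW W J n) (T' ω) g f|)) ω) := by
      filter_upwards [aeT (ae_pos μ (JW W J n)), aeT' (ae_pos μ (JW W J n))] with ω hω hω'
      have h7 := hG.main (JW W J n) (T ω) (T' ω) f (fun h => hf (mem_JW.1 h).2) hω hω'
      refine (ENNReal.ofReal_le_ofReal h7).trans ?_
      rw [ENNReal.ofReal_sum_of_nonneg (fun g _ => by positivity), Finset.sum_filter]
      refine Finset.sum_le_sum fun g _ => ?_
      by_cases hg : ¬ (g ∈ T ω ↔ g ∈ T' ω)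
      · rw [if_pos hg, Set.indicator_of_mem (by exact hg)]
      · rw [if_neg hg]; exact zero_le
    calc _ ≤ _ := lintegral_mono_ae hb
      _ = ∑ g ∈ JW W J n, ∫⁻ ω in {ω | ¬ (g ∈ T ω ↔ g ∈ T' ω)},
            ENNReal.ofReal (|u (JW W J n) (T ω) g f| * |u (JW W J n) (T' ω) g f|) ∂Q := by
          rw [lintegral_finsetSum]
          · refine Finset.sum_congr rfl fun g _ => ?_
            rw [lintegral_indicator (hmm g)]
          · intro g _
            refine Measurable.indicator ?_ (hmm g)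
            exact (((hum n g).comp hT).abs.mul ((hum n g).comp hT').abs).ennreal_ofReal
      _ = ∑ g ∈ (JW W J n).subtype (fun e => e ∈ J), A n g := by
          rw [← Finset.sum_subtype_of_mem (p := fun e => e ∈ J) _ fun g hg => (mem_JW.1 hg).2]
          refine Finset.sum_congr rfl fun g hg => ?_
          have : (g : E) ∈ JW W J n := by simpa using hg
          simp only [A, if_pos this]
      _ ≤ ∑' g : J, A n g := ENNReal.sum_le_tsum _
  have step2 : Tendsto (fun n => ∫⁻ ω, ENNReal.ofReal |pr (Pm μ) (JW W J n) (T ω) f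
      - pr (Pm μ) (JW W J n) (T' ω) f| ∂Q) atTop
      (𝓝 (∫⁻ ω, ENNReal.ofReal |pJ (Pm μ) W J (T ω) f - pJ (Pm μ) W J (T' ω) f| ∂Q)) := by
    refine tendsto_lintegral_of_dominated_convergence (fun _ => 1) ?_ ?_ ?_ ?_
    · intro n
      exact (((hpm n).comp hT).sub ((hpm n).comp hT')).abs.ennreal_ofReal
    · intro n
      refine ae_of_all _ fun ω => ?_
      have a1 := pr_mem_Icc (μ := μ) (f := f) (S := JW W J n) (fun h => hf (mem_JW.1 h).2) (T ω)
      have a2 := pr_mem_Icc (μ := μ) (f := f) (S := JW W J n) (fun h => hf (mem_JW.1 h).2) (T' ω)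
      refine ENNReal.ofReal_le_of_le_toReal ?_
      rw [ENNReal.toReal_one, abs_le]
      constructor
      · linarith [a1.1, a2.2]
      · linarith [a1.2, a2.1]
    · simp
    · filter_upwards [aeT (h3 W hW), aeT' (h3 W hW), aeT (h5 W hW), aeT' (h5 W hW)]
        with ω t1 t2 t3 t4
      rw [t3, t4]
      exact ENNReal.tendsto_ofReal (t1.sub t2).abs
  have step3 : ∀ g : J, Tendsto (fun n => A n g) atTop
      (𝓝 (∫⁻ ω in {ω | ¬ ((g : E) ∈ T ω ↔ (g : E) ∈ T' ω)},
          (CJ (Pm μ) W J (T ω) g f * CJ (Pm μ) W J (T' ω) g f) ^ (1/2 : ℝ) ∂Q)) := by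
    intro g
    obtain ⟨k, hk⟩ := JW_exh hW g.2
    have h7 : Tendsto (fun n => ∫⁻ ω in {ω | ¬ ((g : E) ∈ T ω ↔ (g : E) ∈ T' ω)},
      ENNReal.ofReal (|u (JW W J n) (T ω) g f| * |u (JW W J n) (T' ω) g f|) ∂Q) atTop
      (𝓝 (∫⁻ ω in {ω | ¬ ((g : E) ∈ T ω ↔ (g : E) ∈ T' ω)},
          (CJ (Pm μ) W J (T ω) g f * CJ (Pm μ) W J (T' ω) g f) ^ (1/2 : ℝ) ∂Q)) := by
      refine tendsto_lintegral_of_dominated_convergence (fun _ => 1) ?_ ?_ ?_ ?_
      · intro n
        exact (((hum n g).comp hT).abs.mul ((hum n g).comp hT').abs).ennreal_ofReal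
      · intro n
        refine ae_of_all _ fun ω => ?_
        refine ENNReal.ofReal_le_of_le_toReal ?_
        rw [ENNReal.toReal_one]
        exact mul_le_one₀ (hG.u_abs _ _ _ _) (abs_nonneg _) (hG.u_abs _ _ _ _)
      · rw [setLIntegral_one]
        exact measure_ne_top _ _
      · refine ae_restrict_of_ae ?_
        filter_upwards [aeT (hU3 g W hW), aeT' (hU3 g W hW), aeT (hU5 g W hW), aeT' (hU5 g W hW)]
          with ω t1 t2 t3 t4
        rw [t3, t4, sqrt_ofReal_mul]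
        exact ENNReal.tendsto_ofReal (t1.abs.mul t2.abs)
    refine h7.congr' ?_
    filter_upwards [eventually_ge_atTop k] with n hn
    simp only [A, if_pos (JW_mono hW J hn hk)]
  have step4 : ∀ n (g : J), A n g ≤ ∫⁻ T, CJ (Pm μ) W J T g f ∂μ := by
    intro n g
    by_cases hg : (g : E) ∈ JW W J n
    · simp only [A, if_pos hg]
      have hCU : ∫⁻ T, CJ (Pm μ) W J T g f ∂μ = ∫⁻ S, ENNReal.ofReal ((U g S) ^ 2) ∂μ := by
        refine lintegral_congr_ae ?_
        filter_upwards [hU5 g W hW] with S hS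
        exact hS
      have hL2 := L2_le hG (hUm g) (hU2 g) (hU4 g (JW W J n) hg (JW_sub J n))
      rw [hCU]
      refine (setLIntegral_le_lintegral _ _).trans ?_
      have msq : Measurable (fun S => ENNReal.ofReal ((u (JW W J n) S g f) ^ 2)) :=
        ((hum n g).pow_const 2).ennreal_ofReal
      have b1 : ∫⁻ ω, ENNReal.ofReal ((u (JW W J n) (T ω) g f) ^ 2) ∂Q
          = ∫⁻ S, ENNReal.ofReal ((u (JW W J n) S g f) ^ 2) ∂μ := by
        rw [← hQ, lintegral_map msq hT]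
      have b2 : ∫⁻ ω, ENNReal.ofReal ((u (JW W J n) (T' ω) g f) ^ 2) ∂Q
          = ∫⁻ S, ENNReal.ofReal ((u (JW W J n) S g f) ^ 2) ∂μ := by
        rw [← hQ', lintegral_map msq hT']
      calc ∫⁻ ω, ENNReal.ofReal (|u (JW W J n) (T ω) g f| * |u (JW W J n) (T' ω) g f|) ∂Q
          ≤ ∫⁻ ω, ((2:ℝ≥0∞)⁻¹ * ENNReal.ofReal ((u (JW W J n) (T ω) g f) ^ 2)
            + (2:ℝ≥0∞)⁻¹ * ENNReal.ofReal ((u (JW W J n) (T' ω) g f) ^ 2)) ∂Q := by
            refine lintegral_mono fun ω => ?_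
            have c1 : (2:ℝ≥0∞)⁻¹ = ENNReal.ofReal (1/2) := by
              rw [ENNReal.ofReal_div_of_pos (by norm_num)]
              simp
            dsimp only
            rw [c1, ← ENNReal.ofReal_mul (by norm_num), ← ENNReal.ofReal_mul (by norm_num),
              ← ENNReal.ofReal_add (by positivity) (by positivity)]
            refine ENNReal.ofReal_le_ofReal ?_
            have c2 := two_mul_le_add_sq |u (JW W J n) (T ω) g f| |u (JW W J n) (T' ω) g f|
            rw [sq_abs, sq_abs] at c2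
            linarith
        _ = ∫⁻ S, ENNReal.ofReal ((u (JW W J n) S g f) ^ 2) ∂μ := by
            rw [lintegral_add_left, lintegral_const_mul, lintegral_const_mul, b1, b2, ← add_mul,
              ENNReal.inv_two_add_inv_two, one_mul]
            · exact msq.comp hT'
            · exact msq.comp hT
            · exact (msq.comp hT).const_mul _
        _ ≤ _ := hL2
    · simp only [A, if_neg hg]
      exact zero_le
  exact le_of_tendsto_of_tendsto' step2 (tendsto_tsum_dom hfin step4 step3) step1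

end Task3

end Vale.Agent.P143
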