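import Vale.Agent.P143.GDefs2
import Vale.Agent.P143.Iid
import Vale.Agent.P143.Static
import Vale.Agent.P143.CoupQ
import Vale.Agent.P143.Coupling
import Vale.Agent.P143.CouplingB
import Vale.Agent.P143.Meas

open MeasureTheory ProbabilityTheory Set Filter Topology
open scoped ENNReal

namespace Vale.Agent.P143

theorem WE_isWin : IsWin WE := stdWin_isWin Ed

theorem degE_ne_top {G : SimpleGraph ℕ} (hG : GoodG G) (x : ℕ) : degE G x ≠ ∞ := by
  classical
  unfold degE
  have hfin := hG.2 x
  have : ∑' y : ℕ, (if G.Adj x y then (1 : ℝ≥0∞) else 0)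
      = ∑ y ∈ hfin.toFinset, (1 : ℝ≥0∞) := by
    rw [tsum_eq_sum (s := hfin.toFinset)]
    · apply Finset.sum_congr rfl
      intro y hy
      rw [Set.Finite.mem_toFinset, SimpleGraph.mem_neighborSet] at hy
      rw [if_pos hy]
    · intro y hy
      rw [Set.Finite.mem_toFinset, SimpleGraph.mem_neighborSet] at hy
      rw [if_neg hy]
  rw [this]
  simp

theorem one_le_degE {G : SimpleGraph ℕ} {x y : ℕ} (h : G.Adj x y) : 1 ≤ degE G x := by
  classical
  unfold degE
  calc (1 : ℝ≥0∞) = (if G.Adj x y then 1 else 0) := by rw [if_pos h]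
    _ ≤ _ := ENNReal.le_tsum y

theorem wG_pos {G : SimpleGraph ℕ} (hG : GoodG G) (e : Ed) : 0 < wG G e := by
  unfold wG
  split_ifs with h
  · induction e using Sym2.ind with
    | _ x y =>
      have hadj : G.Adj x y := h
      rw [inv_pos]
      apply ENNReal.toReal_pos
      · show degE G x + degE G y ≠ 0
        intro h0
        have := one_le_degE hadj
        rw [add_eq_zero] at h0
        rw [h0.1] at this
        simp at this
      · show degE G x + degE G y ≠ ∞
        exact ENNReal.add_ne_top.2 ⟨degE_ne_top hG x, degE_ne_top hG y⟩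
  · exact one_pos

theorem wG_le_one {G : SimpleGraph ℕ} (hG : GoodG G) (e : Ed) : wG G e ≤ 1 := by
  unfold wG
  split_ifs with h
  · induction e using Sym2.ind with
    | _ x y =>
      have hadj : G.Adj x y := h
      apply inv_le_one_of_one_le₀
      have h1 : (1 : ℝ≥0∞) ≤ degE G x + degE G y := le_add_right (one_le_degE hadj)
      have h2 : degE G x + degE G y ≠ ∞ :=
        ENNReal.add_ne_top.2 ⟨degE_ne_top hG x, degE_ne_top hG y⟩
      have h3 := ENNReal.toReal_mono h2 h1
      rw [ENNReal.toReal_one] at h3
      exact h3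
  · exact le_rfl

theorem tau_inj (G : SimpleGraph ℕ) (hG : GoodG G) :
    ∀ᵐ x ∂(iidU Ed), Function.Injective (tauG G x) := by
  classical
  have key : ∀ e f : Ed, e ≠ f → ∀ᵐ x ∂(iidU Ed), tauG G x e ≠ tauG G x f := by
    intro e f hef
    rw [ae_iff]
    have hms : MeasurableSet {x : Ed → unitInterval | ¬ tauG G x e ≠ tauG G x f} := by
      simp only [ne_eq, not_not]
      apply measurableSet_eq_fun
      · exact (measurable_tauG e).comp (measurable_const.prodMk measurable_id)
      · exact (measurable_tauG f).comp (measurable_const.prodMk measurable_id)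
    rw [← iidU_update e, Measure.map_apply (measurable_update' e) hms,
      Measure.measure_prod_null (measurable_update' e hms)]
    apply Eventually.of_forall
    intro x
    show volume _ = 0
    have hsub : (Prod.mk x ⁻¹' ((fun y : (Ed → unitInterval) × unitInterval =>
        Function.update y.1 e y.2) ⁻¹' {x | ¬ tauG G x e ≠ tauG G x f}))
        ⊆ {0} ∪ {r : unitInterval | (r : ℝ) = Real.exp (- (tauG G x f * wG G e))} := by
      intro r hr
      simp only [mem_preimage, ne_eq, not_not, mem_setOf_eq] at hr
      by_cases h0 : r = 0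
      · left; exact h0
      · right
        have hr' : (0 : ℝ) < (r : ℝ) := by
          rcases lt_or_eq_of_le r.2.1 with h | h
          · exact h
          · exact absurd (Subtype.ext h.symm) h0
        have h1 : tauG G (Function.update x e r) e = - Real.log (r : ℝ) / wG G e := by
          unfold tauG; rw [Function.update_self]
        have h2 : tauG G (Function.update x e r) f = tauG G x f := by
          unfold tauG; rw [Function.update_of_ne (Ne.symm hef)]
        rw [h1, h2, div_eq_iff (wG_pos hG e).ne'] at hr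
        show (r : ℝ) = _
        rw [← hr, neg_neg, Real.exp_log hr']
    refine measure_mono_null hsub ?_
    refine (Set.Finite.measure_zero (Set.Finite.union (Set.finite_singleton _) ?_) _)
    apply Set.Subsingleton.finite
    intro a ha b hb
    exact Subtype.ext (ha.trans hb.symm)
  have h2 : ∀ᵐ x ∂(iidU Ed), ∀ e f : Ed, e ≠ f → tauG G x e ≠ tauG G x f := by
    rw [ae_all_iff]; intro e
    rw [ae_all_iff]; intro f
    by_cases hef : e = f
    · exact Eventually.of_forall (fun x h => absurd hef h)
    · filter_upwards [key e f hef] with x hx _ using hx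
  filter_upwards [h2] with x hx e f hef
  by_contra hne
  exact hx e f hne hef

section

variable (μF : Kernel (SimpleGraph ℕ) (Set Ed)) [IsMarkovKernel μF]

theorem not_mem_Iset {E : Type*} (τ : E → ℝ) (g : E) : g ∉ Iset τ g := by
  unfold Iset; simp

theorem pG_coe (G : SimpleGraph ℕ) (x : Ed → unitInterval) (g : Ed) (T : Set Ed) :
    ((pG μF G x g T : unitInterval) : ℝ) = pJ (Pm (μF G)) WE (Iset (tauG G x) g) T g := by
  unfold pG
  rw [Set.projIcc_of_mem zero_le_one (pJ_mem WE_isWin _ _ _ (not_mem_Iset _ _))]

theorem adapted (hF : FK μF) (G : SimpleGraph ℕ) (hG : GoodG G) (x : Ed → unitInterval)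
    (hx : Function.Injective (tauG G x)) :
    Adapted (μF G) (tauG G x) (pG μF G x) where
  inj := hx
  meas := fun g => by
    unfold pG
    exact continuous_projIcc.measurable.comp (pJ_meas _ _)
  dep := fun g T T' hTT' => by
    unfold pG
    exact congrArg _ (pJ_dep (Iset (tauG G x) g) g T T' hTT')
  cond := fun g h hm hd => by
    obtain ⟨u, hu⟩ := hF.good G hG.1
    rw [J1 WE_isWin hu (Iset (tauG G x) g) g (not_mem_Iset _ _) h hm hd]
    simp only [pG_coe]

theorem etaAt_spec (G : SimpleGraph ℕ) (x : Ed → unitInterval)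
    (hA : Adapted (μF G) (tauG G x) (pG μF G x)) :
    (iidU Ed) ⊗ₘ (etaAt μF G x) = kap (μF G) (pG μF G x) := by
  have h1 : (kapK μF).fst ⊗ₖ (kapK μF).condKernel = kapK μF := (kapK μF).disintegrate _
  have h2 : ((kapK μF).fst ⊗ₖ (kapK μF).condKernel) (G, x) = kapK μF (G, x) := by rw [h1]
  rw [Kernel.compProd_apply_eq_compProd_sectR, kapK_apply] at h2
  rw [← h2]
  have h3 : (kapK μF).fst (G, x) = iidU Ed := by
    rw [Kernel.fst_apply, kapK_apply]
    exact K0 hA
  rw [h3]
  rfl

theorem QK_apply (G : SimpleGraph ℕ) (x : Ed → unitInterval) :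
    QK μF (G, x) = Qc (etaAt μF G x) := by
  unfold QK Qc
  haveI : IsMarkovKernel (etaK μF) := by unfold etaK; infer_instance
  rw [Kernel.compProd_apply_eq_compProd_sectR]
  have h1 : (etaK μF ×ₖ etaK μF).sectR (G, x) = etaAt μF G x ×ₖ etaAt μF G x := by
    ext v : 1
    rw [Kernel.sectR_apply, Kernel.prod_apply, Kernel.prod_apply]
    rfl
  rw [h1]
  rfl

end

end Vale.Agent.P143
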