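import Mathlib

open MeasureTheory ProbabilityTheory Set Filter Topology

namespace Vale.Agent.P143

section Abstract

variable {E : Type*}

def cyl (S : Finset E) (A : Set E) : Set (Set E) := {T | ∀ e ∈ S, (e ∈ T ↔ e ∈ A)}

variable [DecidableEq E]

noncomputable def pr (P : Finset E → Set E → ℝ) (S : Finset E) (A : Set E) (f : E) : ℝ :=
  P (insert f S) (insert f A) / P S A

open Classical in
structure Good (P : Finset E → Set E → ℝ) (u : Finset E → Set E → E → E → ℝ) : Prop where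
  P_congr : ∀ S A A', (∀ e ∈ S, (e ∈ A ↔ e ∈ A')) → P S A = P S A'
  P_nonneg : ∀ S A, 0 ≤ P S A
  P_empty : ∀ A, P ∅ A = 1
  P_split : ∀ S A h, h ∉ S → P S A = P (insert h S) (insert h A) + P (insert h S) (A \ {h})
  u_congr : ∀ S A A' g f, (∀ e ∈ S, (e ∈ A ↔ e ∈ A')) → u S A g f = u S A' g f
  u_abs : ∀ S A g f, |u S A g f| ≤ 1
  main : ∀ S A A' f, f ∉ S → 0 < P S A → 0 < P S A' →
    |pr P S A f - pr P S A' f|
      ≤ ∑ g ∈ S with ¬ (g ∈ A ↔ g ∈ A'), |u S A g f| * |u S A' g f|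
  sumrule : ∀ S A g, g ∈ S → 0 < P S A → ∀ F : Finset E, Disjoint F S →
    (∑ f ∈ F, (u S A g f) ^ 2) * P S A ≤ P S (symmDiff A {g})
  mart : ∀ S A g f h, g ∈ S → f ∉ S → h ∉ S → h ≠ f →
    P S A * u S A g f
      = P (insert h S) (insert h A) * u (insert h S) (insert h A) g f
        + P (insert h S) (A \ {h}) * u (insert h S) (A \ {h}) g f
  usq : ∀ S A g f, g ∈ S → f ∉ S →
    (u S A g f) ^ 2 * (P S A) ^ 2
      = P (insert f S) (insert g (A \ {f})) * P (insert f S) (insert f (A \ {g}))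
        - P (insert f S) (insert g (insert f A)) * P (insert f S) ((A \ {f}) \ {g})

end Abstract

section Finite

variable {V : Type*}

def ST (VS : Set V) (T : Set (Sym2 V)) : Prop :=
  ((SimpleGraph.fromEdgeSet T).induce VS).IsTree

open Classical in
noncomputable def NT (VS : Set V) (F : Finset (Sym2 V)) (S : Finset (Sym2 V))
    (A : Set (Sym2 V)) : ℕ :=
  (F.powerset.filter (fun T => ST VS (T : Set (Sym2 V)) ∧
    ∀ e ∈ S, (e ∈ T ↔ e ∈ A))).card

noncomputable def PT (VS : Set V) (F : Finset (Sym2 V)) (S : Finset (Sym2 V))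
    (A : Set (Sym2 V)) : ℝ :=
  (NT VS F S A : ℝ) / (NT VS F ∅ ∅ : ℝ)

end Finite

end Vale.Agent.P143
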