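import Vale.Agent.P143.Iso

open MeasureTheory Filter Topology Set

namespace Vale.Agent.P143

section Group

variable {Γ : Type*} [Group Γ] (S : Finset Γ)

theorem cayley_adj (x y : Γ) :
    (cayleyGraph S).Adj x y ↔ x ≠ y ∧ (x⁻¹ * y ∈ S ∨ y⁻¹ * x ∈ S) := by
  unfold cayleyGraph
  rw [SimpleGraph.fromRel_adj]

theorem cayley_adj_mul (γ x y : Γ) :
    (cayleyGraph S).Adj (γ * x) (γ * y) ↔ (cayleyGraph S).Adj x y := by
  rw [cayley_adj, cayley_adj]
  simp [mul_assoc]

theorem cayley_map_mul (γ : Γ) :
    (cayleyGraph S).map (Equiv.mulLeft γ) = cayleyGraph S := by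
  ext x y
  constructor
  · rintro ⟨hne, a, b, hab, rfl, rfl⟩
    exact (cayley_adj_mul S γ a b).2 hab
  · intro h
    refine ⟨h.ne, γ⁻¹ * x, γ⁻¹ * y, (cayley_adj_mul S γ⁻¹ x y).2 h, by simp, by simp⟩

theorem countable_of_closure (h : Subgroup.closure (S : Set Γ) = ⊤) : Countable Γ := by
  have h1 : Function.Surjective (FreeGroup.lift (fun s : S => (s : Γ))) := by
    rw [FreeGroup.lift_surjective_iff_closure_range_eq_top]
    convert h
    ext x; simp
  exact h1.countable

theorem cayley_connected (h : Subgroup.closure (S : Set Γ) = ⊤) : (cayleyGraph S).Connected := by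
  have key : ∀ γ : Γ, ∀ x : Γ, (cayleyGraph S).Reachable x (x * γ) := by
    intro γ
    have hγ : γ ∈ Subgroup.closure (S : Set Γ) := by rw [h]; trivial
    induction hγ using Subgroup.closure_induction with
    | mem s hs =>
      intro x
      by_cases hx : x = x * s
      · rw [← hx]
      · refine SimpleGraph.Adj.reachable ?_
        rw [cayley_adj]
        refine ⟨hx, Or.inl ?_⟩
        simpa using hs
    | one => intro x; rw [mul_one]
    | mul a b _ _ ha hb =>
      intro x
      have := (ha x).trans (hb (x * a))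
      rwa [mul_assoc] at this
    | inv a _ ha =>
      intro x
      have := (ha (x * a⁻¹)).symm
      simpa using this
  rw [SimpleGraph.connected_iff]
  refine ⟨fun x y => ?_, ⟨1⟩⟩
  have := key (x⁻¹ * y) x
  simpa using this

theorem cayley_finite (x : Γ) : ((cayleyGraph S).neighborSet x).Finite := by
  classical
  refine Set.Finite.subset (Finset.finite_toSet
    (S.image (fun s => x * s) ∪ S.image (fun s => x * s⁻¹))) ?_
  intro y hy
  rw [SimpleGraph.mem_neighborSet, cayley_adj] at hy
  simp only [Finset.coe_union, Finset.coe_image, mem_union, mem_image, Finset.mem_coe]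
  rcases hy.2 with h | h
  · exact Or.inl ⟨_, h, by simp⟩
  · exact Or.inr ⟨_, h, by simp⟩

end Group

theorem cayley_of_unimodular_univ (h : Q1Unimodular) (Γ : Type*) [Group Γ] [Infinite Γ]
    (S : Finset Γ) (hS : Subgroup.closure (S : Set Γ) = ⊤) :
    ∃ μ, IsFUSF (cayleyGraph S) μ ∧ IsFactorOfIID μ := by
  have : Countable Γ := countable_of_closure S hS
  obtain ⟨_⟩ := nonempty_denumerable Γ
  let e : Γ ≃ ℕ := Denumerable.eqv Γ
  let G : SimpleGraph ℕ := (cayleyGraph S).map e
  let φ : cayleyGraph S ≃g G := SimpleGraph.Iso.map e (cayleyGraph S)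
  let σ : Γ → Equiv.Perm ℕ := fun γ => e.symm.trans ((Equiv.mulLeft γ).trans e)
  have hσ : ∀ γ, G.map (σ γ).toEmbedding = G := by
    intro γ
    show ((cayleyGraph S).map e).map (σ γ) = (cayleyGraph S).map e
    rw [SimpleGraph.map_map]
    have : (σ γ : ℕ → ℕ) ∘ e = e ∘ (Equiv.mulLeft γ) := by
      ext x; simp [σ]
    rw [this, ← SimpleGraph.map_map, cayley_map_mul]
  have hσe : ∀ γ x, σ γ (e x) = e (γ * x) := by intro γ x; simp [σ]
  have hσs : ∀ γ n, (σ γ).symm n = e (γ⁻¹ * e.symm n) := by intro γ n; simp [σ]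
  have hsing : MeasurableSingletonClass (SimpleGraph ℕ) := by
    constructor
    intro G₀
    have : ({G₀} : Set (SimpleGraph ℕ)) = ⋂ u : ℕ, ⋂ v : ℕ, {G | G.Adj u v ↔ G₀.Adj u v} := by
      ext G
      simp only [mem_singleton_iff, mem_iInter, mem_ofPred_eq]
      exact ⟨fun h u v => by rw [h], fun h => by ext u v; exact h u v⟩
    rw [this]
    refine MeasurableSet.iInter fun u => MeasurableSet.iInter fun v => ?_
    refine measurableSet_setOfPred.2 (Measurable.iff ?_ measurable_const)
    exact SimpleGraph.measurable_iff_adj.1 measurable_id u v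
  have hU : IsUnimodular (Measure.dirac (G, e 1)) := by
    refine ⟨inferInstance, ?_, ?_, ?_⟩
    · rw [ae_dirac_eq]
      exact φ.connected_iff.1 (cayley_connected S hS)
    · rw [ae_dirac_eq]
      intro v
      refine ((cayley_finite S (e.symm v)).image e).subset ?_
      intro w hw
      refine ⟨e.symm w, ?_, by simp⟩
      exact φ.symm.map_adj_iff.2 hw
    · intro f hf hinv
      rw [lintegral_dirac, lintegral_dirac]
      simp only
      rw [← Equiv.tsum_eq e, ← Equiv.tsum_eq e (fun v => f G v (e 1)), ← Equiv.tsum_eq (Equiv.inv Γ)]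
      congr 1
      ext γ
      have := hinv (σ γ) G (e 1) (e γ⁻¹)
      rw [hσ, hσe, hσe] at this
      simpa using this.symm
  obtain ⟨Φ, hΦm, hΦe, hΦf⟩ := h _ hU
  rw [ae_dirac_eq] at hΦf
  have hF : IsFUSF G ((iidLabels ℕ).map (Φ G)) := hΦf
  have hΦG : Measurable (Φ G) := hΦm.comp (measurable_const.prodMk measurable_id)
  refine ⟨_, hF.map_iso φ.symm, ?_⟩
  refine ⟨fun U => Sym2.map φ.symm '' Φ G (fun n => U (e.symm n)), ?_, ?_, ?_⟩
  · exact (measurable_imC φ.symm.injective).comp (hΦG.comp (by fun_prop))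
  · intro γ U
    have h1 := hΦe (σ γ) G (fun n => U (e.symm n))
    rw [hσ] at h1
    have h2 : (fun n => U (γ⁻¹ * e.symm n)) = fun v => (fun n => U (e.symm n)) ((σ γ).symm v) := by
      ext n; simp [hσs]
    show Sym2.map φ.symm '' Φ G (fun n => U (γ⁻¹ * e.symm n)) = _
    rw [h2, h1, Set.image_image, Set.image_image]
    apply Set.image_congr
    intro a _
    rw [Sym2.map_map, Sym2.map_map]
    congr 1
    ext n
    show φ.symm (σ γ n) = γ * φ.symm n
    have : σ γ n = e (γ * e.symm n) := by simp [σ]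
    rw [this]
    show e.symm _ = _ * e.symm n
    simp
  · have h3 : (iidLabels Γ).map (fun U n => U (e.symm n)) = iidLabels ℕ := by
      unfold iidLabels
      exact Measure.map_infinitePi_infinitePi_of_inj e.symm.injective
    rw [← h3, Measure.map_map hΦG (by fun_prop), Measure.map_map (measurable_imC φ.symm.injective)
      (hΦG.comp (by fun_prop))]
    rfl

theorem cayley_of_unimodular (h : Q1Unimodular) : Q1Cayley := by
  intro Γ _ _ S hS
  exact cayley_of_unimodular_univ h Γ S hS

end Vale.Agent.P143
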