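import Vale.Agent.P143.DefsC

open MeasureTheory ProbabilityTheory Set Filter Topology
open scoped ENNReal unitInterval

namespace Vale.Agent.P143

section mixing

variable {E : Type*}

open Classical in
/-- coordinates of `v` on `J`, of `w` off `J` -/
noncomputable def mix (J : Set E) (v w : E → unitInterval) : E → unitInterval :=
  fun e => if e ∈ J then v e else w e

theorem mix_of_mem {J : Set E} {e : E} (h : e ∈ J) (v w : E → unitInterval) :
    mix J v w e = v e := by simp [mix, h]

theorem mix_of_notMem {J : Set E} {e : E} (h : e ∉ J) (v w : E → unitInterval) :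
    mix J v w e = w e := by simp [mix, h]

theorem mix_mix (J : Set E) (v w : E → unitInterval) : mix J (mix J v w) (mix J w v) = v := by
  funext e
  by_cases h : e ∈ J <;> simp [mix, h]

theorem mix_congr {J : Set E} {v v' : E → unitInterval} (h : ∀ e ∈ J, v e = v' e)
    (w : E → unitInterval) : mix J v w = mix J v' w := by
  funext e
  by_cases he : e ∈ J
  · simp [mix, he, h e he]
  · simp [mix, he]

theorem measurable_mix (J : Set E) :
    Measurable (fun z : (E → unitInterval) × (E → unitInterval) => mix J z.1 z.2) := by
  refine measurable_pi_lambda _ fun e => ?_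
  by_cases h : e ∈ J
  · simp only [mix, h, if_true]
    exact (measurable_pi_apply e).comp measurable_fst
  · simp only [mix, h, if_false]
    exact (measurable_pi_apply e).comp measurable_snd

theorem map_mix_mix (J : Set E) :
    ((iidU E).prod (iidU E)).map (fun z => (mix J z.1 z.2, mix J z.2 z.1))
      = (iidU E).prod (iidU E) := by
  classical
  symm
  let C : Set (Set (E → unitInterval)) :=
    squareCylinders fun _ : E => {s : Set unitInterval | MeasurableSet s}
  have hgen : MeasurableSpace.generateFrom C = MeasurableSpace.pi := generateFrom_squareCylinders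
  have hpi : IsPiSystem C :=
    isPiSystem_squareCylinders (fun _ => MeasurableSpace.isPiSystem_measurableSet)
      (fun _ => by simp)
  have huniv : (Set.univ : Set (E → unitInterval)) ∈ C :=
    ⟨∅, fun _ => Set.univ, by simp, by simp⟩
  have hspan : (iidU E).FiniteSpanningSetsIn C :=
    { set := fun _ => Set.univ
      set_mem := fun _ => huniv
      finite := fun _ => measure_lt_top _ _
      spanning := Set.iUnion_const _ }
  refine Measure.prod_eq_generateFrom hgen hgen hpi hpi hspan hspan ?_
  rintro _ ⟨s, A, hA, rfl⟩ _ ⟨t, B, hB, rfl⟩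
  have hA' : ∀ i, MeasurableSet (A i) := fun i => hA i (Set.mem_univ _)
  have hB' : ∀ i, MeasurableSet (B i) := fun i => hB i (Set.mem_univ _)
  have hm : Measurable (fun z : (E → unitInterval) × (E → unitInterval) =>
      (mix J z.1 z.2, mix J z.2 z.1)) :=
    (measurable_mix J).prodMk ((measurable_mix J).comp measurable_swap)
  have hmA : MeasurableSet ((s : Set E).pi A) := MeasurableSet.pi s.countable_toSet fun i _ => hA' i
  have hmB : MeasurableSet ((t : Set E).pi B) := MeasurableSet.pi t.countable_toSet fun i _ => hB' i
  rw [Measure.map_apply hm (hmA.prod hmB)]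
  let AB : E → Set unitInterval := fun i => if i ∈ J then A i else B i
  let BA : E → Set unitInterval := fun i => if i ∈ J then B i else A i
  let s1 : Finset E := s.filter (fun i => i ∈ J) ∪ t.filter (fun i => i ∉ J)
  let s2 : Finset E := t.filter (fun i => i ∈ J) ∪ s.filter (fun i => i ∉ J)
  have hset : (fun z : (E → unitInterval) × (E → unitInterval) =>
      (mix J z.1 z.2, mix J z.2 z.1)) ⁻¹' ((s : Set E).pi A ×ˢ (t : Set E).pi B)
      = ((s1 : Set E).pi AB) ×ˢ ((s2 : Set E).pi BA) := by
    ext ⟨v, w⟩
    simp only [Set.mem_preimage, Set.mem_prod, Set.mem_pi, Finset.mem_coe, s1, s2,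
      Finset.mem_union, Finset.mem_filter]
    constructor
    · rintro ⟨h1, h2⟩
      refine ⟨fun i hi => ?_, fun i hi => ?_⟩
      · rcases hi with ⟨hi, hJ⟩ | ⟨hi, hJ⟩
        · have := h1 i hi
          rw [mix_of_mem hJ] at this
          simpa [AB, hJ] using this
        · have := h2 i hi
          rw [mix_of_notMem hJ] at this
          simpa [AB, hJ] using this
      · rcases hi with ⟨hi, hJ⟩ | ⟨hi, hJ⟩
        · have := h2 i hi
          rw [mix_of_mem hJ] at this
          simpa [BA, hJ] using this
        · have := h1 i hi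
          rw [mix_of_notMem hJ] at this
          simpa [BA, hJ] using this
    · rintro ⟨h1, h2⟩
      refine ⟨fun i hi => ?_, fun i hi => ?_⟩
      · by_cases hJ : i ∈ J
        · have := h1 i (Or.inl ⟨hi, hJ⟩)
          rw [mix_of_mem hJ]
          simpa [AB, hJ] using this
        · have := h2 i (Or.inr ⟨hi, hJ⟩)
          rw [mix_of_notMem hJ]
          simpa [BA, hJ] using this
      · by_cases hJ : i ∈ J
        · have := h2 i (Or.inl ⟨hi, hJ⟩)
          rw [mix_of_mem hJ]
          simpa [BA, hJ] using this
        · have := h1 i (Or.inr ⟨hi, hJ⟩)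
          rw [mix_of_notMem hJ]
          simpa [AB, hJ] using this
  have hAB : ∀ i, MeasurableSet (AB i) := by
    intro i
    simp only [AB]
    split_ifs
    · exact hA' i
    · exact hB' i
  have hBA : ∀ i, MeasurableSet (BA i) := by
    intro i
    simp only [BA]
    split_ifs
    · exact hB' i
    · exact hA' i
  rw [hset, Measure.prod_prod]
  unfold iidU
  rw [Measure.infinitePi_pi _ (fun i _ => hAB i), Measure.infinitePi_pi _ (fun i _ => hBA i),
    Measure.infinitePi_pi _ (fun i _ => hA' i), Measure.infinitePi_pi _ (fun i _ => hB' i)]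
  have hd1 : Disjoint (s.filter (fun i => i ∈ J)) (t.filter (fun i => i ∉ J)) := by
    rw [Finset.disjoint_left]
    intro i h1 h2
    exact (Finset.mem_filter.1 h2).2 (Finset.mem_filter.1 h1).2
  have hd2 : Disjoint (t.filter (fun i => i ∈ J)) (s.filter (fun i => i ∉ J)) := by
    rw [Finset.disjoint_left]
    intro i h1 h2
    exact (Finset.mem_filter.1 h2).2 (Finset.mem_filter.1 h1).2
  rw [Finset.prod_union hd1, Finset.prod_union hd2]
  have e1 : ∏ i ∈ s.filter (fun i => i ∈ J), (volume : Measure unitInterval) (AB i)
      = ∏ i ∈ s.filter (fun i => i ∈ J), (volume : Measure unitInterval) (A i) :=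
    Finset.prod_congr rfl fun i hi => by simp [AB, (Finset.mem_filter.1 hi).2]
  have e2 : ∏ i ∈ t.filter (fun i => i ∉ J), (volume : Measure unitInterval) (AB i)
      = ∏ i ∈ t.filter (fun i => i ∉ J), (volume : Measure unitInterval) (B i) :=
    Finset.prod_congr rfl fun i hi => by simp [AB, (Finset.mem_filter.1 hi).2]
  have e3 : ∏ i ∈ t.filter (fun i => i ∈ J), (volume : Measure unitInterval) (BA i)
      = ∏ i ∈ t.filter (fun i => i ∈ J), (volume : Measure unitInterval) (B i) :=
    Finset.prod_congr rfl fun i hi => by simp [BA, (Finset.mem_filter.1 hi).2]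
  have e4 : ∏ i ∈ s.filter (fun i => i ∉ J), (volume : Measure unitInterval) (BA i)
      = ∏ i ∈ s.filter (fun i => i ∉ J), (volume : Measure unitInterval) (A i) :=
    Finset.prod_congr rfl fun i hi => by simp [BA, (Finset.mem_filter.1 hi).2]
  rw [e1, e2, e3, e4, ← Finset.prod_filter_mul_prod_filter_not s (fun i => i ∈ J)
      (fun i => (volume : Measure unitInterval) (A i)),
    ← Finset.prod_filter_mul_prod_filter_not t (fun i => i ∈ J)
      (fun i => (volume : Measure unitInterval) (B i))]
  ring

theorem lintegral_mix_mix (J : Set E)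
    (R : (E → unitInterval) × (E → unitInterval) → ℝ≥0∞) (hR : Measurable R) :
    ∫⁻ z, R (mix J z.1 z.2, mix J z.2 z.1) ∂((iidU E).prod (iidU E))
      = ∫⁻ z, R z ∂((iidU E).prod (iidU E)) := by
  have hm : Measurable (fun z : (E → unitInterval) × (E → unitInterval) =>
      (mix J z.1 z.2, mix J z.2 z.1)) :=
    (measurable_mix J).prodMk ((measurable_mix J).comp measurable_swap)
  conv_rhs => rw [← map_mix_mix J]
  rw [lintegral_map hR hm]

theorem lintegral_mix (J : Set E) (f : (E → unitInterval) → ℝ≥0∞) (hf : Measurable f) :
    ∫⁻ v, ∫⁻ w, f (mix J v w) ∂(iidU E) ∂(iidU E) = ∫⁻ v, f v ∂(iidU E) := by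
  rw [← lintegral_prod (fun z : (E → unitInterval) × (E → unitInterval) => f (mix J z.1 z.2))
    ((hf.comp (measurable_mix J)).aemeasurable)]
  rw [lintegral_mix_mix J (fun z => f z.1) (hf.comp measurable_fst)]
  rw [lintegral_prod (fun z : (E → unitInterval) × (E → unitInterval) => f z.1)
    (hf.comp measurable_fst).aemeasurable]
  simp

open Classical in
theorem measurable_upd (g : E) :
    Measurable (fun z : (E → unitInterval) × unitInterval => Function.update z.1 g z.2) := by
  refine measurable_pi_lambda _ fun e => ?_
  by_cases h : e = g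
  · subst h
    simp only [Function.update_self]
    exact measurable_snd
  · simp only [Function.update_of_ne h]
    exact (measurable_pi_apply e).comp measurable_fst

open Classical in
/-- resampling one coordinate -/
theorem lintegral_update (g : E) (f : (E → unitInterval) → ℝ≥0∞) (hf : Measurable f) :
    ∫⁻ v, f v ∂(iidU E)
      = ∫⁻ v, (∫⁻ x : unitInterval, f (Function.update v g x)) ∂(iidU E) := by
  rw [← lintegral_mix {g}ᶜ f hf]
  refine lintegral_congr fun v => ?_
  have h1 : ∀ w : E → unitInterval, mix {g}ᶜ v w = Function.update v g (w g) := by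
    intro w
    funext e
    by_cases h : e = g
    · subst h
      simp [mix]
    · simp [mix, h]
  simp_rw [h1]
  have h2 := (measurePreserving_eval_infinitePi (fun _ : E => (volume : Measure unitInterval)) g)
  exact h2.lintegral_comp (f := fun x : unitInterval => f (Function.update v g x))
    (hf.comp ((measurable_upd g).comp (measurable_const.prodMk measurable_id)))

end mixing

section scaling

theorem map_scale (p : unitInterval) :
    (ENNReal.ofReal (p : ℝ)) • (volume : Measure unitInterval).map (fun x => p * x)
      = (volume : Measure unitInterval).restrict (Iio p) := by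
  have hm : Measurable (fun x : unitInterval => p * x) := by fun_prop
  have hfin : IsFiniteMeasure
      ((ENNReal.ofReal (p : ℝ)) • (volume : Measure unitInterval).map (fun x => p * x)) := by
    refine ⟨?_⟩
    rw [Measure.smul_apply, Measure.map_apply hm MeasurableSet.univ]
    simp
  refine Measure.ext_of_Iic _ _ fun a => ?_
  rw [Measure.smul_apply, Measure.map_apply hm measurableSet_Iic,
    Measure.restrict_apply measurableSet_Iic, smul_eq_mul]
  by_cases hap : a < p
  · have hp0 : (0 : ℝ) < p := lt_of_le_of_lt a.2.1 hap
    have hq : (a : ℝ) / p ∈ Icc (0 : ℝ) 1 := ⟨div_nonneg a.2.1 hp0.le, (div_le_one hp0).2 hap.le⟩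
    have h1 : (fun x : unitInterval => p * x) ⁻¹' Iic a = Iic (⟨(a : ℝ) / p, hq⟩ : unitInterval) := by
      ext x
      simp only [mem_preimage, mem_Iic]
      rw [← Subtype.coe_le_coe, ← Subtype.coe_le_coe]
      change (p : ℝ) * (x : ℝ) ≤ a ↔ (x : ℝ) ≤ (a : ℝ) / p
      rw [le_div_iff₀ hp0, mul_comm]
    have h2 : Iic a ∩ Iio p = Iic a := by
      ext x
      simp only [mem_inter_iff, mem_Iic, mem_Iio]
      exact ⟨fun h => h.1, fun h => ⟨h, lt_of_le_of_lt h hap⟩⟩
    rw [h1, h2, unitInterval.volume_Iic, unitInterval.volume_Iic, ← ENNReal.ofReal_mul p.2.1]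
    congr 1
    field_simp
  · push Not at hap
    have h1 : (fun x : unitInterval => p * x) ⁻¹' Iic a = univ := by
      ext x
      simp only [mem_preimage, mem_Iic, mem_univ, iff_true]
      exact le_trans unitInterval.mul_le_left hap
    have h2 : Iic a ∩ Iio p = Iio p := by
      ext x
      simp only [mem_inter_iff, mem_Iic, mem_Iio]
      exact ⟨fun h => h.2, fun h => ⟨h.le.trans hap, h⟩⟩
    rw [h1, h2, unitInterval.volume_Iio]
    simp

theorem scale1 (p : unitInterval) (φ : unitInterval → ℝ≥0∞) (hφ : Measurable φ) :
    ENNReal.ofReal (p : ℝ) * ∫⁻ x : unitInterval, φ (p * x) = ∫⁻ x in Iio p, φ x := by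
  have hm : Measurable (fun x : unitInterval => p * x) := by fun_prop
  rw [← map_scale, lintegral_smul_measure, lintegral_map hφ hm, smul_eq_mul]

theorem scale2 (p : unitInterval) (φ : unitInterval → ℝ≥0∞) (hφ : Measurable φ) :
    ENNReal.ofReal (unitInterval.symm p : ℝ) *
      ∫⁻ x : unitInterval, φ (unitInterval.symm (unitInterval.symm p * unitInterval.symm x))
      = ∫⁻ x in Ici p, φ x := by
  have hs := unitInterval.measurePreserving_symm
  have h1 : ∫⁻ x : unitInterval, φ (unitInterval.symm (unitInterval.symm p * unitInterval.symm x))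
      = ∫⁻ x : unitInterval, φ (unitInterval.symm (unitInterval.symm p * x)) :=
    hs.lintegral_comp (f := fun x => φ (unitInterval.symm (unitInterval.symm p * x)))
      (by fun_prop)
  rw [h1, scale1 (unitInterval.symm p) (fun x => φ (unitInterval.symm x)) (by fun_prop)]
  have h2 : Iio (unitInterval.symm p) = unitInterval.symm ⁻¹' (Ioi p) := by
    ext x
    simp only [mem_Iio, mem_preimage, mem_Ioi]
    constructor
    · intro h
      have := unitInterval.symm_lt_symm.2 h
      rwa [unitInterval.symm_symm] at this
    · intro h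
      have := unitInterval.symm_lt_symm.2 h
      rwa [unitInterval.symm_symm] at this
  rw [h2, hs.setLIntegral_comp_preimage measurableSet_Ioi hφ]
  exact setLIntegral_congr Ioi_ae_eq_Ici

end scaling

end Vale.Agent.P143
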