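import Vale.Agent.P143.CoupBasic

open MeasureTheory ProbabilityTheory Set Filter Topology
open scoped ENNReal unitInterval

namespace Vale.Agent.P143

section core

variable {E : Type*}

/-- restriction of a configuration -/
def res (J : Set E) (T : Set E) : Set E := T ∩ J

theorem measurableSet_memg (g : E) : MeasurableSet {T : Set E | g ∈ T} :=
  measurableSet_mem g

theorem measurable_res (J : Set E) : Measurable (res J) := by
  rw [measurable_set_iff]
  intro a
  by_cases ha : a ∈ J
  · have : (fun T : Set E => a ∈ res J T) = fun T : Set E => a ∈ T := by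
      funext T
      simp [res, ha]
    rw [this]
    exact measurable_set_mem a
  · have : (fun T : Set E => a ∈ res J T) = fun _ : Set E => False := by
      funext T
      simp [res, ha]
    rw [this]
    exact measurable_const

theorem dep_res {α : Type*} {h : Set E → α} {J : Set E} (hd : DependsOn' h J) (T : Set E) :
    h (res J T) = h T := by
  refine hd _ _ fun e he => ?_
  simp [res, he]

theorem res_dep {α : Type*} (h : Set E → α) (J : Set E) : DependsOn' (fun T => h (res J T)) J := by
  intro T T' hT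
  have : res J T = res J T' := by
    ext e
    simp only [res, mem_inter_iff]
    constructor
    · rintro ⟨h1, h2⟩
      exact ⟨(hT e h2).1 h1, h2⟩
    · rintro ⟨h1, h2⟩
      exact ⟨(hT e h2).2 h1, h2⟩
  simp only [this]

theorem measurable_ofReal_coe {α : Type*} [MeasurableSpace α] {f : α → unitInterval}
    (hf : Measurable f) : Measurable (fun x => ENNReal.ofReal (f x : ℝ)) :=
  (measurable_subtype_coe.comp hf).ennreal_ofReal

theorem ofReal_add_symm (p : unitInterval) :
    ENNReal.ofReal (p : ℝ) + ENNReal.ofReal (unitInterval.symm p : ℝ) = 1 := by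
  rw [← ENNReal.ofReal_add p.2.1 (unitInterval.symm p).2.1, unitInterval.coe_symm_eq]
  simp

variable {μ : Measure (Set E)} [IsProbabilityMeasure μ] {τ : E → ℝ}
  {p : E → Set E → unitInterval}

theorem Adapted.cond_not (hA : Adapted μ τ p) (g : E) (h : Set E → ℝ≥0∞) (hm : Measurable h)
    (hd : DependsOn' h (Iset τ g)) :
    ∫⁻ T in {T | g ∉ T}, h T ∂μ
      = ∫⁻ T, h T * ENNReal.ofReal (unitInterval.symm (p g T) : ℝ) ∂μ := by
  have hmp : Measurable (fun T => ENNReal.ofReal (p g T : ℝ)) := measurable_ofReal_coe (hA.meas g)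
  have hms : Measurable (fun T => ENNReal.ofReal (unitInterval.symm (p g T) : ℝ)) :=
    measurable_ofReal_coe (unitInterval.measurable_symm.comp (hA.meas g))
  have hg := measurableSet_memg g
  set J := Iset τ g with hJ
  have hkey : (μ.restrict {T | g ∉ T}).map (res J)
      = (μ.withDensity fun T => ENNReal.ofReal (unitInterval.symm (p g T) : ℝ)).map (res J) := by
    ext A hAm
    rw [Measure.map_apply (measurable_res J) hAm, Measure.map_apply (measurable_res J) hAm,
      Measure.restrict_apply (measurable_res J hAm), withDensity_apply _ (measurable_res J hAm)]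
    set B := res J ⁻¹' A with hB
    have hBm : MeasurableSet B := measurable_res J hAm
    have h1 := hA.cond g (B.indicator 1) (measurable_one.indicator hBm) (by
      have : (B.indicator 1 : Set E → ℝ≥0∞) = fun T => (A.indicator 1 : Set E → ℝ≥0∞) (res J T) := by
        funext T
        by_cases hT : res J T ∈ A
        · have hT' : T ∈ B := hT
          simp [hT, hT']
        · have hT' : T ∉ B := hT
          simp [hT, hT']
      rw [this]
      exact res_dep _ _)
    rw [lintegral_indicator_one hBm, Measure.restrict_apply hBm] at h1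
    have h2 : ∫⁻ T, (B.indicator 1 : Set E → ℝ≥0∞) T * ENNReal.ofReal (p g T : ℝ) ∂μ
        = ∫⁻ T in B, ENNReal.ofReal (p g T : ℝ) ∂μ := by
      rw [← lintegral_indicator hBm]
      refine lintegral_congr fun T => ?_
      by_cases hT : T ∈ B <;> simp [hT]
    rw [h2] at h1
    have h3 : ∫⁻ T in B, ENNReal.ofReal (p g T : ℝ) ∂μ
        + ∫⁻ T in B, ENNReal.ofReal (unitInterval.symm (p g T) : ℝ) ∂μ = μ B := by
      rw [← lintegral_add_left hmp]
      simp_rw [ofReal_add_symm]
      simp
    have h4 : μ (B ∩ {T | g ∈ T}) + μ (B ∩ {T | g ∉ T}) = μ B := by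
      rw [← measure_inter_add_sdiff B hg]
      congr 1
    have h5 : μ (B ∩ {T | g ∈ T}) + μ (B ∩ {T | g ∉ T}) = μ (B ∩ {T | g ∈ T})
        + ∫⁻ T in B, ENNReal.ofReal (unitInterval.symm (p g T) : ℝ) ∂μ := by
      rw [h4, h1, h3]
    exact (ENNReal.add_right_inj (measure_ne_top _ _)).1 h5
  calc ∫⁻ T in {T | g ∉ T}, h T ∂μ = ∫⁻ T in {T | g ∉ T}, h (res J T) ∂μ := by
        simp_rw [dep_res hd]
    _ = ∫⁻ T, h T ∂((μ.restrict {T | g ∉ T}).map (res J)) := (lintegral_map hm (measurable_res J)).symm
    _ = ∫⁻ T, h T ∂((μ.withDensity fun T =>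
          ENNReal.ofReal (unitInterval.symm (p g T) : ℝ)).map (res J)) := by rw [hkey]
    _ = ∫⁻ T, h (res J T) ∂(μ.withDensity fun T =>
          ENNReal.ofReal (unitInterval.symm (p g T) : ℝ)) := lintegral_map hm (measurable_res J)
    _ = ∫⁻ T, h T ∂(μ.withDensity fun T =>
          ENNReal.ofReal (unitInterval.symm (p g T) : ℝ)) := by simp_rw [dep_res hd]
    _ = _ := by
        rw [lintegral_withDensity_eq_lintegral_mul _ hms hm]
        refine lintegral_congr fun T => ?_
        simp only [Pi.mul_apply]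
        rw [mul_comm]

open Classical in
theorem Vmap_mem {T : Set E} {g : E} (h : g ∈ T) (ξ : E → unitInterval) :
    Vmap p T ξ g = p g T * ξ g := by simp [Vmap, h]

open Classical in
theorem Vmap_notMem {T : Set E} {g : E} (h : g ∉ T) (ξ : E → unitInterval) :
    Vmap p T ξ g = unitInterval.symm (unitInterval.symm (p g T) * unitInterval.symm (ξ g)) := by
  simp [Vmap, h]

theorem measurable_Vmap_apply (hp : ∀ g, Measurable (p g)) (g : E) :
    Measurable (fun z : Set E × (E → unitInterval) => Vmap p z.1 z.2 g) := by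
  have h1 : Measurable (fun z : Set E × (E → unitInterval) => p g z.1) :=
    (hp g).comp measurable_fst
  have h2 : Measurable (fun z : Set E × (E → unitInterval) => z.2 g) :=
    (measurable_pi_apply g).comp measurable_snd
  unfold Vmap
  refine Measurable.ite (measurable_fst (measurableSet_memg g)) (h1.mul h2) ?_
  exact unitInterval.measurable_symm.comp
    ((unitInterval.measurable_symm.comp h1).mul (unitInterval.measurable_symm.comp h2))

theorem measurable_Vmap (hp : ∀ g, Measurable (p g)) :
    Measurable (fun z : Set E × (E → unitInterval) => Vmap p z.1 z.2) :=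
  measurable_pi_lambda _ fun g => measurable_Vmap_apply hp g

omit [IsProbabilityMeasure μ] in
theorem lintegral_kap (hp : ∀ g, Measurable (p g))
    (F : (E → unitInterval) × Set E → ℝ≥0∞) (hF : Measurable F) :
    ∫⁻ y, F y ∂(kap μ p) = ∫⁻ T, ∫⁻ ξ, F (Vmap p T ξ, T) ∂(iidU E) ∂μ := by
  have hm : Measurable (fun x : Set E × (E → unitInterval) => (Vmap p x.1 x.2, x.1)) :=
    (measurable_Vmap hp).prodMk measurable_fst
  unfold kap
  rw [lintegral_map hF hm]
  exact lintegral_prod (fun x : Set E × (E → unitInterval) => F (Vmap p x.1 x.2, x.1))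
    (hF.comp hm).aemeasurable

theorem isProb_kap (hp : ∀ g, Measurable (p g)) : IsProbabilityMeasure (kap μ p) := by
  have hm : Measurable (fun x : Set E × (E → unitInterval) => (Vmap p x.1 x.2, x.1)) :=
    (measurable_Vmap hp).prodMk measurable_fst
  exact Measure.isProbabilityMeasure_map hm.aemeasurable

open Classical in
theorem resample_mem {T : Set E} {g : E} (hg : g ∈ T)
    (Φ : (E → unitInterval) → unitInterval → ℝ≥0∞)
    (hΦ : Measurable (Function.uncurry Φ))
    (hinv : ∀ ξ y x, Φ (Function.update ξ g y) x = Φ ξ x) (hp : ∀ g, Measurable (p g)) :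
    ∫⁻ ξ, Φ ξ (Vmap p T ξ g) ∂(iidU E)
      = ∫⁻ ξ, (∫⁻ x : unitInterval, Φ ξ (p g T * x)) ∂(iidU E) := by
  have hV : Measurable (fun ξ : E → unitInterval => Vmap p T ξ g) :=
    (measurable_Vmap_apply hp g).comp (measurable_const.prodMk measurable_id)
  rw [lintegral_update g (fun ξ => Φ ξ (Vmap p T ξ g)) (hΦ.comp (measurable_id.prodMk hV))]
  refine lintegral_congr fun ξ => lintegral_congr fun x => ?_
  rw [hinv, Vmap_mem hg, Function.update_self]

open Classical in
theorem resample_notMem {T : Set E} {g : E} (hg : g ∉ T)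
    (Φ : (E → unitInterval) → unitInterval → ℝ≥0∞)
    (hΦ : Measurable (Function.uncurry Φ))
    (hinv : ∀ ξ y x, Φ (Function.update ξ g y) x = Φ ξ x) (hp : ∀ g, Measurable (p g)) :
    ∫⁻ ξ, Φ ξ (Vmap p T ξ g) ∂(iidU E)
      = ∫⁻ ξ, (∫⁻ x : unitInterval,
          Φ ξ (unitInterval.symm (unitInterval.symm (p g T) * unitInterval.symm x))) ∂(iidU E) := by
  have hV : Measurable (fun ξ : E → unitInterval => Vmap p T ξ g) :=
    (measurable_Vmap_apply hp g).comp (measurable_const.prodMk measurable_id)
  rw [lintegral_update g (fun ξ => Φ ξ (Vmap p T ξ g)) (hΦ.comp (measurable_id.prodMk hV))]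
  refine lintegral_congr fun ξ => lintegral_congr fun x => ?_
  rw [hinv, Vmap_notMem hg, Function.update_self]

/-- hypotheses on an integrand at stage `g` -/
structure Stage (τ : E → ℝ) (g : E) (Φ : Set E → (E → unitInterval) → unitInterval → ℝ≥0∞) :
    Prop where
  meas : Measurable (fun z : (Set E × (E → unitInterval)) × unitInterval => Φ z.1.1 z.1.2 z.2)
  dep : ∀ (T T' : Set E) (ξ ξ' : E → unitInterval) (x : unitInterval),
    (∀ e ∈ Iset τ g, (e ∈ T ↔ e ∈ T')) → (∀ e ∈ Iset τ g, ξ e = ξ' e) → Φ T ξ x = Φ T' ξ' x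

open Classical in
theorem Stage.inv {g : E} {Φ : Set E → (E → unitInterval) → unitInterval → ℝ≥0∞}
    (h : Stage τ g Φ) (T : Set E) (ξ : E → unitInterval) (y x : unitInterval) :
    Φ T (Function.update ξ g y) x = Φ T ξ x := by
  refine h.dep _ _ _ _ _ (fun _ _ => Iff.rfl) fun e he => ?_
  have : e ≠ g := by
    rintro rfl
    simp [Iset] at he
  rw [Function.update_of_ne this]

theorem Stage.slice {g : E} {Φ : Set E → (E → unitInterval) → unitInterval → ℝ≥0∞}
    (h : Stage τ g Φ) (T : Set E) : Measurable (Function.uncurry (Φ T)) := by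
  have : Measurable (fun z : (E → unitInterval) × unitInterval => ((T, z.1), z.2)) :=
    (measurable_const.prodMk measurable_fst).prodMk measurable_snd
  exact h.meas.comp this

omit [IsProbabilityMeasure μ] in
theorem core_mem (hA : Adapted μ τ p) {g : E}
    {Φ : Set E → (E → unitInterval) → unitInterval → ℝ≥0∞} (h : Stage τ g Φ) :
    ∫⁻ T in {T | g ∈ T}, ∫⁻ ξ, Φ T ξ (Vmap p T ξ g) ∂(iidU E) ∂μ
      = ∫⁻ T, ∫⁻ ξ, (∫⁻ x in Iio (p g T), Φ T ξ x) ∂(iidU E) ∂μ := by
  classical
  have hmi : Measurable (fun z : (Set E × (E → unitInterval)) × unitInterval =>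
      Φ z.1.1 z.1.2 (p g z.1.1 * z.2)) := by
    have h1 : Measurable (fun z : (Set E × (E → unitInterval)) × unitInterval => p g z.1.1) :=
      (hA.meas g).comp (measurable_fst.comp measurable_fst)
    exact h.meas.comp (measurable_fst.prodMk (h1.mul measurable_snd))
  have hmi2 : Measurable (fun z : Set E × (E → unitInterval) =>
      ∫⁻ x : unitInterval, Φ z.1 z.2 (p g z.1 * x)) := hmi.lintegral_prod_right'
  have hmi3 : Measurable (fun T : Set E =>
      ∫⁻ ξ, (∫⁻ x : unitInterval, Φ T ξ (p g T * x)) ∂(iidU E)) :=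
    hmi2.lintegral_prod_right'
  calc ∫⁻ T in {T | g ∈ T}, ∫⁻ ξ, Φ T ξ (Vmap p T ξ g) ∂(iidU E) ∂μ
      = ∫⁻ T in {T | g ∈ T}, ∫⁻ ξ, (∫⁻ x : unitInterval, Φ T ξ (p g T * x)) ∂(iidU E) ∂μ := by
        refine setLIntegral_congr_fun (measurableSet_memg g) fun T hT => ?_
        exact resample_mem (T := T) (g := g) hT (Φ T) (h.slice T) (h.inv T) hA.meas
    _ = ∫⁻ T, (∫⁻ ξ, (∫⁻ x : unitInterval, Φ T ξ (p g T * x)) ∂(iidU E)) *
          ENNReal.ofReal (p g T : ℝ) ∂μ := by
        refine hA.cond g _ hmi3 fun T T' hT => ?_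
        refine lintegral_congr fun ξ => lintegral_congr fun x => ?_
        rw [hA.dep g T T' hT]
        exact h.dep _ _ _ _ _ hT fun _ _ => rfl
    _ = _ := by
        refine lintegral_congr fun T => ?_
        have h1 : Measurable (fun ξ : E → unitInterval => ∫⁻ x : unitInterval, Φ T ξ (p g T * x)) :=
          hmi2.comp (measurable_const.prodMk measurable_id)
        rw [mul_comm, ← lintegral_const_mul _ h1]
        refine lintegral_congr fun ξ => ?_
        exact scale1 (p g T) (Φ T ξ) ((h.slice T).comp (measurable_const.prodMk measurable_id))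

theorem core_notMem (hA : Adapted μ τ p) {g : E}
    {Φ : Set E → (E → unitInterval) → unitInterval → ℝ≥0∞} (h : Stage τ g Φ) :
    ∫⁻ T in {T | g ∉ T}, ∫⁻ ξ, Φ T ξ (Vmap p T ξ g) ∂(iidU E) ∂μ
      = ∫⁻ T, ∫⁻ ξ, (∫⁻ x in Ici (p g T), Φ T ξ x) ∂(iidU E) ∂μ := by
  classical
  have hmi : Measurable (fun z : (Set E × (E → unitInterval)) × unitInterval =>
      Φ z.1.1 z.1.2 (unitInterval.symm (unitInterval.symm (p g z.1.1) * unitInterval.symm z.2))) := by
    have h1 : Measurable (fun z : (Set E × (E → unitInterval)) × unitInterval =>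
        unitInterval.symm (p g z.1.1)) :=
      unitInterval.measurable_symm.comp ((hA.meas g).comp (measurable_fst.comp measurable_fst))
    exact h.meas.comp (measurable_fst.prodMk (unitInterval.measurable_symm.comp
      (h1.mul (unitInterval.measurable_symm.comp measurable_snd))))
  have hmi2 : Measurable (fun z : Set E × (E → unitInterval) => ∫⁻ x : unitInterval,
      Φ z.1 z.2 (unitInterval.symm (unitInterval.symm (p g z.1) * unitInterval.symm x))) :=
    hmi.lintegral_prod_right'
  have hmi3 : Measurable (fun T : Set E => ∫⁻ ξ, (∫⁻ x : unitInterval,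
      Φ T ξ (unitInterval.symm (unitInterval.symm (p g T) * unitInterval.symm x))) ∂(iidU E)) :=
    hmi2.lintegral_prod_right'
  calc ∫⁻ T in {T | g ∉ T}, ∫⁻ ξ, Φ T ξ (Vmap p T ξ g) ∂(iidU E) ∂μ
      = ∫⁻ T in {T | g ∉ T}, ∫⁻ ξ, (∫⁻ x : unitInterval,
          Φ T ξ (unitInterval.symm (unitInterval.symm (p g T) * unitInterval.symm x)))
          ∂(iidU E) ∂μ := by
        refine setLIntegral_congr_fun (measurableSet_memg g).compl fun T hT => ?_
        exact resample_notMem (T := T) (g := g) hT (Φ T) (h.slice T) (h.inv T) hA.meas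
    _ = ∫⁻ T, (∫⁻ ξ, (∫⁻ x : unitInterval,
          Φ T ξ (unitInterval.symm (unitInterval.symm (p g T) * unitInterval.symm x)))
          ∂(iidU E)) * ENNReal.ofReal (unitInterval.symm (p g T) : ℝ) ∂μ := by
        refine hA.cond_not g _ hmi3 fun T T' hT => ?_
        refine lintegral_congr fun ξ => lintegral_congr fun x => ?_
        rw [hA.dep g T T' hT]
        exact h.dep _ _ _ _ _ hT fun _ _ => rfl
    _ = _ := by
        refine lintegral_congr fun T => ?_
        have h1 : Measurable (fun ξ : E → unitInterval => ∫⁻ x : unitInterval,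
            Φ T ξ (unitInterval.symm (unitInterval.symm (p g T) * unitInterval.symm x))) :=
          hmi2.comp (measurable_const.prodMk measurable_id)
        rw [mul_comm, ← lintegral_const_mul _ h1]
        refine lintegral_congr fun ξ => ?_
        exact scale2 (p g T) (Φ T ξ) ((h.slice T).comp (measurable_const.prodMk measurable_id))

theorem core_sum (hA : Adapted μ τ p) {g : E}
    {Φ : Set E → (E → unitInterval) → unitInterval → ℝ≥0∞} (h : Stage τ g Φ) :
    ∫⁻ T, ∫⁻ ξ, Φ T ξ (Vmap p T ξ g) ∂(iidU E) ∂μ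
      = ∫⁻ T, ∫⁻ ξ, (∫⁻ x : unitInterval, Φ T ξ x) ∂(iidU E) ∂μ := by
  rw [← lintegral_add_compl _ (measurableSet_memg g)]
  have h1 := core_mem hA h
  have h2 := core_notMem hA h
  have e1 : ({T : Set E | g ∈ T}ᶜ) = {T : Set E | g ∉ T} := rfl
  rw [e1, h1, h2]
  -- measurability
  have hpm : Measurable (fun z : (Set E × (E → unitInterval)) × unitInterval => p g z.1.1) :=
    (hA.meas g).comp (measurable_fst.comp measurable_fst)
  have hs : MeasurableSet {z : (Set E × (E → unitInterval)) × unitInterval | z.2 < p g z.1.1} :=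
    measurableSet_lt measurable_snd hpm
  have hm1 : Measurable (fun z : (Set E × (E → unitInterval)) × unitInterval =>
      {z : (Set E × (E → unitInterval)) × unitInterval | z.2 < p g z.1.1}.indicator
        (fun z => Φ z.1.1 z.1.2 z.2) z) := h.meas.indicator hs
  have hm2 : Measurable (fun z : Set E × (E → unitInterval) =>
      ∫⁻ x in Iio (p g z.1), Φ z.1 z.2 x) := by
    have : (fun z : Set E × (E → unitInterval) => ∫⁻ x in Iio (p g z.1), Φ z.1 z.2 x)
        = fun z => ∫⁻ x : unitInterval,
          {z : (Set E × (E → unitInterval)) × unitInterval | z.2 < p g z.1.1}.indicator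
            (fun z => Φ z.1.1 z.1.2 z.2) (z, x) := by
      funext z
      rw [← lintegral_indicator measurableSet_Iio]
      refine lintegral_congr fun x => ?_
      by_cases hx : x < p g z.1
      · simp [hx]
      · simp [hx]
    rw [this]
    exact hm1.lintegral_prod_right'
  have hm3 : Measurable (fun T : Set E => ∫⁻ ξ, (∫⁻ x in Iio (p g T), Φ T ξ x) ∂(iidU E)) :=
    hm2.lintegral_prod_right'
  rw [← lintegral_add_left hm3]
  refine lintegral_congr fun T => ?_
  have hm4 : Measurable (fun ξ : E → unitInterval => ∫⁻ x in Iio (p g T), Φ T ξ x) :=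
    hm2.comp (measurable_const.prodMk measurable_id)
  rw [← lintegral_add_left hm4]
  refine lintegral_congr fun ξ => ?_
  have : (Ici (p g T)) = (Iio (p g T))ᶜ := by simp
  rw [this, lintegral_add_compl _ measurableSet_Iio]

end core

end Vale.Agent.P143
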