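import Vale.Agent.P143.CoupMix

open MeasureTheory ProbabilityTheory Set Filter Topology
open scoped ENNReal unitInterval

namespace Vale.Agent.P143

section ker

variable {E : Type*}

/-- resample off `J` -/
noncomputable def mixK (J : Set E) : Kernel (E → unitInterval) (E → unitInterval) :=
  (Kernel.id ×ₖ Kernel.const _ (iidU E)).map (fun z => mix J z.1 z.2)

instance (J : Set E) : IsMarkovKernel (mixK J) := by
  unfold mixK
  exact Kernel.IsMarkovKernel.map _ (measurable_mix J)

theorem mixK_apply (J : Set E) (v : E → unitInterval) :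
    mixK J v = (iidU E).map (fun w => mix J v w) := by
  have hm : Measurable (fun w : E → unitInterval => mix J v w) :=
    (measurable_mix J).comp (measurable_const.prodMk measurable_id)
  refine Measure.ext_of_lintegral _ fun f hf => ?_
  unfold mixK
  rw [Kernel.lintegral_map _ (measurable_mix J) _ hf, lintegral_map hf hm,
    Kernel.lintegral_prod _ _ _ (g := fun z => f (mix J z.1 z.2)) (hf.comp (measurable_mix J))]
  simp only [Kernel.const_apply, Kernel.id_apply]
  rw [lintegral_dirac']
  exact (hf.comp (measurable_mix J)).lintegral_prod_right'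

theorem lintegral_mixK (J : Set E) (v : E → unitInterval) (f : (E → unitInterval) → ℝ≥0∞)
    (hf : Measurable f) : ∫⁻ u, f u ∂(mixK J v) = ∫⁻ w, f (mix J v w) ∂(iidU E) := by
  have hm : Measurable (fun w : E → unitInterval => mix J v w) :=
    (measurable_mix J).comp (measurable_const.prodMk measurable_id)
  rw [mixK_apply, lintegral_map hf hm]

theorem mixK_congr {J : Set E} {v v' : E → unitInterval} (h : ∀ e ∈ J, v e = v' e) :
    mixK J v = mixK J v' := by
  rw [mixK_apply, mixK_apply]
  congr 1
  funext w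
  exact mix_congr h w

/-- law of `T ∩ J` -/
noncomputable def etaJ (η : Kernel (E → unitInterval) (Set E)) (J : Set E) :
    Kernel (E → unitInterval) (Set E) := η.map (res J)

instance (η : Kernel (E → unitInterval) (Set E)) [IsMarkovKernel η] (J : Set E) :
    IsMarkovKernel (etaJ η J) := by
  unfold etaJ
  exact Kernel.IsMarkovKernel.map _ (measurable_res J)

/-- averaged law of `T ∩ J` -/
noncomputable def etaB (η : Kernel (E → unitInterval) (Set E)) (J : Set E) :
    Kernel (E → unitInterval) (Set E) := (etaJ η J) ∘ₖ (mixK J)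

instance (η : Kernel (E → unitInterval) (Set E)) [IsMarkovKernel η] (J : Set E) :
    IsMarkovKernel (etaB η J) := by
  unfold etaB
  infer_instance

theorem lintegral_etaJ (η : Kernel (E → unitInterval) (Set E)) (J : Set E)
    (v : E → unitInterval) (f : Set E → ℝ≥0∞) (hf : Measurable f) :
    ∫⁻ t, f t ∂(etaJ η J v) = ∫⁻ t, f (res J t) ∂(η v) := by
  unfold etaJ
  rw [Kernel.lintegral_map _ (measurable_res J) _ hf]

theorem etaB_congr (η : Kernel (E → unitInterval) (Set E)) {J : Set E}
    {v v' : E → unitInterval} (h : ∀ e ∈ J, v e = v' e) : etaB η J v = etaB η J v' := by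
  unfold etaB
  rw [Kernel.comp_apply, Kernel.comp_apply, mixK_congr h]

theorem lintegral_etaB (η : Kernel (E → unitInterval) (Set E)) (J : Set E)
    (v : E → unitInterval) (f : Set E → ℝ≥0∞) (hf : Measurable f) :
    ∫⁻ t, f t ∂(etaB η J v) = ∫⁻ w, ∫⁻ t, f t ∂(etaJ η J (mix J v w)) ∂(iidU E) := by
  unfold etaB
  rw [Kernel.lintegral_comp _ _ _ hf, lintegral_mixK _ _ _ hf.lintegral_kernel]

variable {μ : Measure (Set E)} [IsProbabilityMeasure μ] {τ : E → ℝ}
  {p : E → Set E → unitInterval} {η : Kernel (E → unitInterval) (Set E)} [IsMarkovKernel η]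

omit [IsProbabilityMeasure μ] in
theorem lintegral_kap_eta (hη : (iidU E) ⊗ₘ η = kap μ p)
    (F : (E → unitInterval) × Set E → ℝ≥0∞) (hF : Measurable F) :
    ∫⁻ y, F y ∂(kap μ p) = ∫⁻ v, ∫⁻ t, F (v, t) ∂(η v) ∂(iidU E) := by
  rw [← hη, Measure.lintegral_compProd hF]

theorem compProd_etaJ (hA : Adapted μ τ p) (hη : (iidU E) ⊗ₘ η = kap μ p) {J : Set E}
    (hJ : Down τ J) (f : (E → unitInterval) × Set E → ℝ≥0∞) (hf : Measurable f) :
    ∫⁻ x, f x ∂((iidU E) ⊗ₘ (etaJ η J))
      = ∫⁻ y, ∫⁻ w, f (mix J y.1 w, res J y.2) ∂(iidU E) ∂(kap μ p) := by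
  have hm1 : Measurable (fun y : (E → unitInterval) × Set E => (y.1, res J y.2)) :=
    measurable_fst.prodMk ((measurable_res J).comp measurable_snd)
  rw [Measure.lintegral_compProd hf, ← lintegral_law_mix hA hJ f hf,
    lintegral_kap_eta hη (fun y => f (y.1, res J y.2)) (hf.comp hm1)]
  refine lintegral_congr fun v => ?_
  rw [lintegral_etaJ]
  exact hf.comp (measurable_const.prodMk measurable_id)

theorem compProd_etaJ_eq (hA : Adapted μ τ p) (hη : (iidU E) ⊗ₘ η = kap μ p) {J : Set E}
    (hJ : Down τ J) : (iidU E) ⊗ₘ (etaJ η J) = (iidU E) ⊗ₘ (etaB η J) := by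
  refine Measure.ext_of_lintegral _ fun f hf => ?_
  rw [compProd_etaJ hA hη hJ f hf, Measure.lintegral_compProd hf]
  -- the averaged side
  have h1 : ∀ v, ∫⁻ t, f (v, t) ∂(etaB η J v)
      = ∫⁻ w, ∫⁻ t, f (v, t) ∂(etaJ η J (mix J v w)) ∂(iidU E) := fun v =>
    lintegral_etaB η J v _ (hf.comp (measurable_const.prodMk measurable_id))
  simp_rw [h1]
  let R : (E → unitInterval) × (E → unitInterval) → ℝ≥0∞ := fun z =>
    ∫⁻ t, f (mix J z.1 z.2, t) ∂(etaJ η J z.1)
  have hR : Measurable R := by
    let K : Kernel ((E → unitInterval) × (E → unitInterval)) (Set E) :=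
      (etaJ η J).comap Prod.fst measurable_fst
    have : R = fun z => ∫⁻ t, f (mix J z.1 z.2, t) ∂(K z) := by
      funext z
      simp only [R, K, Kernel.comap_apply]
    rw [this]
    have h2 : Measurable (fun y : ((E → unitInterval) × (E → unitInterval)) × Set E =>
        f (mix J y.1.1 y.1.2, y.2)) :=
      hf.comp (((measurable_mix J).comp measurable_fst).prodMk measurable_snd)
    exact h2.lintegral_kernel_prod_right'
  have h2 : ∀ v w, ∫⁻ t, f (v, t) ∂(etaJ η J (mix J v w)) = R (mix J v w, mix J w v) := by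
    intro v w
    simp only [R, mix_mix]
  simp_rw [h2]
  have hm : Measurable (fun z : (E → unitInterval) × (E → unitInterval) =>
      (mix J z.1 z.2, mix J z.2 z.1)) :=
    (measurable_mix J).prodMk ((measurable_mix J).comp measurable_swap)
  rw [← lintegral_prod (fun z : (E → unitInterval) × (E → unitInterval) =>
    R (mix J z.1 z.2, mix J z.2 z.1)) (hR.comp hm).aemeasurable, lintegral_mix_mix J R hR,
    lintegral_prod _ hR.aemeasurable]
  have hm3 : Measurable (fun z : ((E → unitInterval) × Set E) × (E → unitInterval) =>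
      f (mix J z.1.1 z.2, res J z.1.2)) :=
    hf.comp (((measurable_mix J).comp ((measurable_fst.comp measurable_fst).prodMk
      measurable_snd)).prodMk ((measurable_res J).comp (measurable_snd.comp measurable_fst)))
  rw [lintegral_kap_eta hη (fun y => ∫⁻ w, f (mix J y.1 w, res J y.2) ∂(iidU E))
    hm3.lintegral_prod_right']
  refine lintegral_congr fun v => ?_
  simp only [R]
  rw [lintegral_lintegral_swap]
  · refine lintegral_congr fun w => ?_
    rw [lintegral_etaJ]
    exact hf.comp (measurable_const.prodMk measurable_id)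
  · refine Measurable.aemeasurable ?_
    exact hm3.comp ((measurable_const.prodMk measurable_fst).prodMk measurable_snd)

variable [Countable E]

instance instCG : MeasurableSpace.CountablyGenerated (Set E) :=
  inferInstanceAs (MeasurableSpace.CountablyGenerated (E → Prop))

theorem etaJ_ae_eq (hA : Adapted μ τ p) (hη : (iidU E) ⊗ₘ η = kap μ p) {J : Set E}
    (hJ : Down τ J) : ∀ᵐ v ∂(iidU E), etaJ η J v = etaB η J v :=
  Kernel.ae_eq_of_compProd_eq (compProd_etaJ_eq hA hη hJ)

theorem eta_avg (hA : Adapted μ τ p) (hη : (iidU E) ⊗ₘ η = kap μ p) {J : Set E}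
    (hJ : Down τ J) : ∀ᵐ v ∂(iidU E), ∀ F : Set E → ℝ≥0∞, Measurable F → DependsOn' F J →
      ∫⁻ t, F t ∂(η v) = ∫⁻ t, F t ∂(etaB η J v) := by
  filter_upwards [etaJ_ae_eq hA hη hJ] with v hv F hF hd
  rw [← hv, lintegral_etaJ _ _ _ _ hF]
  simp_rw [dep_res hd]

end ker

end Vale.Agent.P143
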