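import Vale.Agent.P143.CoupCore

open MeasureTheory ProbabilityTheory Set Filter Topology
open scoped ENNReal unitInterval

namespace Vale.Agent.P143

section mixlaw

variable {E : Type*}

theorem ext_cyl_prod {β : Type*} [MeasurableSpace β] {m1 m2 : Measure ((E → unitInterval) × β)}
    [IsFiniteMeasure m1]
    (h : ∀ (s : Finset E) (B : E → Set unitInterval), (∀ i, MeasurableSet (B i)) →
      ∀ t : Set β, MeasurableSet t →
        m1 ((s : Set E).pi B ×ˢ t) = m2 ((s : Set E).pi B ×ˢ t)) : m1 = m2 := by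
  refine Measure.ext_prod fun {s t} hs ht => ?_
  have hn1 : (m1.restrict (univ ×ˢ t)).map Prod.fst = (m2.restrict (univ ×ˢ t)).map Prod.fst := by
    let C : Set (Set (E → unitInterval)) :=
      squareCylinders fun _ : E => {s : Set unitInterval | MeasurableSet s}
    have hgen : MeasurableSpace.generateFrom C = MeasurableSpace.pi := generateFrom_squareCylinders
    have hpi : IsPiSystem C :=
      isPiSystem_squareCylinders (fun _ => MeasurableSpace.isPiSystem_measurableSet)
        (fun _ => by simp)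
    have key : ∀ (s : Finset E) (B : E → Set unitInterval), (∀ i, MeasurableSet (B i)) →
        (m1.restrict (univ ×ˢ t)).map Prod.fst ((s : Set E).pi B)
          = (m2.restrict (univ ×ˢ t)).map Prod.fst ((s : Set E).pi B) := by
      intro s B hB
      have hmB : MeasurableSet ((s : Set E).pi B) :=
        MeasurableSet.pi s.countable_toSet fun i _ => hB i
      rw [Measure.map_apply measurable_fst hmB, Measure.map_apply measurable_fst hmB,
        Measure.restrict_apply (measurable_fst hmB), Measure.restrict_apply (measurable_fst hmB)]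
      have : (Prod.fst ⁻¹' ((s : Set E).pi B) : Set ((E → unitInterval) × β)) ∩ univ ×ˢ t
          = (s : Set E).pi B ×ˢ t := by
        ext z
        simp
      rw [this]
      exact h s B hB t ht
    refine ext_of_generate_finite C hgen.symm hpi ?_ ?_
    · rintro _ ⟨s, B, hB, rfl⟩
      exact key s B fun i => hB i (Set.mem_univ _)
    · have := key ∅ (fun _ => univ) fun _ => MeasurableSet.univ
      simpa using this
  have h1 : (m1.restrict (univ ×ˢ t)).map Prod.fst s = (m2.restrict (univ ×ˢ t)).map Prod.fst s := by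
    rw [hn1]
  rw [Measure.map_apply measurable_fst hs, Measure.map_apply measurable_fst hs,
    Measure.restrict_apply (measurable_fst hs), Measure.restrict_apply (measurable_fst hs)] at h1
  have : (Prod.fst ⁻¹' s : Set ((E → unitInterval) × β)) ∩ univ ×ˢ t = s ×ˢ t := by
    ext z
    simp
  rwa [this] at h1

/-- indicator of a box as a product -/
theorem indicator_pi_prod (s : Finset E) (B : E → Set unitInterval) (v : E → unitInterval) :
    ((s : Set E).pi B).indicator (1 : (E → unitInterval) → ℝ≥0∞) v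
      = ∏ i ∈ s, (B i).indicator (1 : unitInterval → ℝ≥0∞) (v i) := by
  by_cases h : v ∈ (s : Set E).pi B
  · rw [Set.indicator_of_mem h]
    symm
    refine Finset.prod_eq_one fun i hi => ?_
    rw [Set.indicator_of_mem (h i hi)]
    rfl
  · rw [Set.indicator_of_notMem h]
    simp only [Set.mem_pi, Finset.mem_coe, not_forall] at h
    obtain ⟨i, hi, hv⟩ := h
    exact (Finset.prod_eq_zero hi (Set.indicator_of_notMem hv _)).symm

variable {μ : Measure (Set E)} [IsProbabilityMeasure μ] {τ : E → ℝ}
  {p : E → Set E → unitInterval}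

omit [IsProbabilityMeasure μ] in
theorem Vmap_congr (hA : Adapted μ τ p) {T T' : Set E} {ξ ξ' : E → unitInterval} {i : E}
    (hT : ∀ e, τ e ≤ τ i → (e ∈ T ↔ e ∈ T')) (hξ : ξ i = ξ' i) : Vmap p T ξ i = Vmap p T' ξ' i := by
  have hp : p i T = p i T' := hA.dep i T T' fun e he => hT e (le_of_lt he)
  by_cases h : i ∈ T
  · have h' : i ∈ T' := (hT i le_rfl).1 h
    rw [Vmap_mem h, Vmap_mem h', hp, hξ]
  · have h' : i ∉ T' := fun h' => h ((hT i le_rfl).2 h')
    rw [Vmap_notMem h, Vmap_notMem h', hp, hξ]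

/-- down-closed sets for the time order -/
def Down (τ : E → ℝ) (J : Set E) : Prop := ∀ e ∈ J, ∀ f, τ f ≤ τ e → f ∈ J

theorem down_Iset (τ : E → ℝ) (g : E) : Down τ (Iset τ g) := fun _ he _ hf => lt_of_le_of_lt hf he

theorem down_lt (τ : E → ℝ) (s : ℝ) : Down τ {e | τ e < s} := fun _ he _ hf => lt_of_le_of_lt hf he

theorem remove_coords (hA : Adapted μ τ p) {J : Set E} (hJ : Down τ J)
    (H0 : Set E → (E → unitInterval) → ℝ≥0∞)
    (hm : Measurable (fun z : Set E × (E → unitInterval) => H0 z.1 z.2))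
    (hdep : ∀ (T T' : Set E) (ξ ξ' : E → unitInterval), (∀ e ∈ J, (e ∈ T ↔ e ∈ T')) →
      (∀ e ∈ J, ξ e = ξ' e) → H0 T ξ = H0 T' ξ')
    (b : E → unitInterval → ℝ≥0∞) (hb : ∀ i, Measurable (b i)) (S : Finset E)
    (hS : ∀ i ∈ S, i ∉ J) :
    ∫⁻ T, ∫⁻ ξ, H0 T ξ * ∏ i ∈ S, b i (Vmap p T ξ i) ∂(iidU E) ∂μ
      = (∫⁻ T, ∫⁻ ξ, H0 T ξ ∂(iidU E) ∂μ) * ∏ i ∈ S, (∫⁻ x : unitInterval, b i x) := by
  classical
  revert hS
  refine Finset.induction_on_max_value τ S ?_ ?_
  · intro _
    simp
  · intro a s ha hmax ih hS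
    have hs : ∀ i ∈ s, i ∉ J := fun i hi => hS i (Finset.mem_insert_of_mem hi)
    have haJ : a ∉ J := hS a (Finset.mem_insert_self _ _)
    have hJI : ∀ e ∈ J, e ∈ Iset τ a := by
      intro e he
      by_contra h
      simp only [Iset, mem_ofPred_eq, not_lt] at h
      exact haJ (hJ e he a h)
    have hsI : ∀ i ∈ s, τ i < τ a := by
      intro i hi
      refine lt_of_le_of_ne (hmax i hi) fun h => ?_
      have := hA.inj h
      subst this
      exact ha hi
    have hVm : ∀ i, Measurable (fun z : Set E × (E → unitInterval) => b i (Vmap p z.1 z.2 i)) :=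
      fun i => (hb i).comp (measurable_Vmap_apply hA.meas i)
    have hprod : Measurable (fun z : Set E × (E → unitInterval) =>
        ∏ i ∈ s, b i (Vmap p z.1 z.2 i)) := Finset.measurable_prod _ fun i _ => hVm i
    have hStage : Stage τ a (fun T ξ x => (H0 T ξ * ∏ i ∈ s, b i (Vmap p T ξ i)) * b a x) := by
      constructor
      · exact ((hm.mul hprod).comp measurable_fst).mul ((hb a).comp measurable_snd)
      · intro T T' ξ ξ' x hT hξ
        have h1 : H0 T ξ = H0 T' ξ' := hdep _ _ _ _ (fun e he => hT e (hJI e he))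
          (fun e he => hξ e (hJI e he))
        have h2 : ∏ i ∈ s, b i (Vmap p T ξ i) = ∏ i ∈ s, b i (Vmap p T' ξ' i) := by
          refine Finset.prod_congr rfl fun i hi => ?_
          rw [Vmap_congr hA (T := T) (T' := T') (ξ := ξ) (ξ' := ξ')
            (fun e he => hT e (lt_of_le_of_lt he (hsI i hi))) (hξ i (hsI i hi))]
        simp only [h1, h2]
    have hcore := core_sum hA hStage
    have e1 : ∀ T ξ, H0 T ξ * ∏ i ∈ insert a s, b i (Vmap p T ξ i)
        = (H0 T ξ * ∏ i ∈ s, b i (Vmap p T ξ i)) * b a (Vmap p T ξ a) := by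
      intro T ξ
      rw [Finset.prod_insert ha]
      ring
    simp_rw [e1]
    rw [hcore]
    have e2 : ∀ T ξ, (∫⁻ x : unitInterval, (H0 T ξ * ∏ i ∈ s, b i (Vmap p T ξ i)) * b a x)
        = (H0 T ξ * ∏ i ∈ s, b i (Vmap p T ξ i)) * (∫⁻ x : unitInterval, b a x) := by
      intro T ξ
      rw [lintegral_const_mul _ (hb a)]
    simp_rw [e2]
    have e3 : ∀ T, (∫⁻ ξ, (H0 T ξ * ∏ i ∈ s, b i (Vmap p T ξ i)) *
        (∫⁻ x : unitInterval, b a x) ∂(iidU E))
        = (∫⁻ ξ, H0 T ξ * ∏ i ∈ s, b i (Vmap p T ξ i) ∂(iidU E)) *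
          (∫⁻ x : unitInterval, b a x) := by
      intro T
      rw [lintegral_mul_const]
      exact (hm.mul hprod).comp (measurable_const.prodMk measurable_id)
    simp_rw [e3]
    have hmm : Measurable (fun T : Set E =>
        ∫⁻ ξ, H0 T ξ * ∏ i ∈ s, b i (Vmap p T ξ i) ∂(iidU E)) :=
      (hm.mul hprod).lintegral_prod_right'
    rw [lintegral_mul_const _ hmm, ih hs, Finset.prod_insert ha]
    ring

/-- the joint law of `(V, T ∩ J)` is invariant under resampling `V` off `J` -/
theorem law_mix (hA : Adapted μ τ p) {J : Set E} (hJ : Down τ J) :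
    (kap μ p).map (fun y => (y.1, res J y.2))
      = ((kap μ p).prod (iidU E)).map (fun z => (mix J z.1.1 z.2, res J z.1.2)) := by
  classical
  have hprob := isProb_kap (μ := μ) hA.meas
  have hm1 : Measurable (fun y : (E → unitInterval) × Set E => (y.1, res J y.2)) :=
    measurable_fst.prodMk ((measurable_res J).comp measurable_snd)
  have hm2 : Measurable (fun z : ((E → unitInterval) × Set E) × (E → unitInterval) =>
      (mix J z.1.1 z.2, res J z.1.2)) :=
    ((measurable_mix J).comp ((measurable_fst.comp measurable_fst).prodMk measurable_snd)).prodMk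
      ((measurable_res J).comp (measurable_snd.comp measurable_fst))
  have : IsProbabilityMeasure ((kap μ p).map
      (fun y : (E → unitInterval) × Set E => (y.1, res J y.2))) :=
    Measure.isProbabilityMeasure_map hm1.aemeasurable
  refine ext_cyl_prod fun s B hB t ht => ?_
  have hmB : MeasurableSet ((s : Set E).pi B) := MeasurableSet.pi s.countable_toSet fun i _ => hB i
  have hbox := hmB.prod ht
  -- both sides as integrals
  let b : E → unitInterval → ℝ≥0∞ := fun i => (B i).indicator 1
  have hb : ∀ i, Measurable (b i) := fun i => measurable_one.indicator (hB i)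
  let F : (E → unitInterval) × Set E → ℝ≥0∞ := fun y =>
    t.indicator (1 : Set E → ℝ≥0∞) y.2 * ∏ i ∈ s, b i (y.1 i)
  have hF : Measurable F := by
    refine ((measurable_one.indicator ht).comp measurable_snd).mul ?_
    exact Finset.measurable_prod _ fun i _ => (hb i).comp ((measurable_pi_apply i).comp measurable_fst)
  have hFbox : ∀ m : Measure ((E → unitInterval) × Set E),
      m ((s : Set E).pi B ×ˢ t) = ∫⁻ y, F y ∂m := by
    intro m
    rw [← lintegral_indicator_one hbox]
    refine lintegral_congr fun y => ?_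
    have : F y = ((s : Set E).pi B).indicator (1 : (E → unitInterval) → ℝ≥0∞) y.1
        * t.indicator (1 : Set E → ℝ≥0∞) y.2 := by
      rw [indicator_pi_prod, mul_comm]
    rw [this]
    by_cases h1 : y.1 ∈ (s : Set E).pi B <;> by_cases h2 : y.2 ∈ t <;>
      simp [h1, h2, Set.indicator]
  rw [hFbox, hFbox, lintegral_map hF hm1, lintegral_map hF hm2]
  rw [lintegral_prod (fun z : ((E → unitInterval) × Set E) × (E → unitInterval) =>
    F (mix J z.1.1 z.2, res J z.1.2)) (hF.comp hm2).aemeasurable]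
  rw [lintegral_kap hA.meas (fun y => F (y.1, res J y.2)) (hF.comp hm1),
    lintegral_kap hA.meas (fun y => ∫⁻ w, F (mix J y.1 w, res J y.2) ∂(iidU E))
      (hF.comp hm2).lintegral_prod_right']
  -- split the product
  let sJ := s.filter (fun i => i ∈ J)
  let sN := s.filter (fun i => i ∉ J)
  let H0 : Set E → (E → unitInterval) → ℝ≥0∞ := fun T ξ =>
    t.indicator (1 : Set E → ℝ≥0∞) (res J T) * ∏ i ∈ sJ, b i (Vmap p T ξ i)
  have hH0m : Measurable (fun z : Set E × (E → unitInterval) => H0 z.1 z.2) := by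
    refine ((measurable_one.indicator ht).comp ((measurable_res J).comp measurable_fst)).mul ?_
    exact Finset.measurable_prod _ fun i _ => (hb i).comp (measurable_Vmap_apply hA.meas i)
  have hH0d : ∀ (T T' : Set E) (ξ ξ' : E → unitInterval), (∀ e ∈ J, (e ∈ T ↔ e ∈ T')) →
      (∀ e ∈ J, ξ e = ξ' e) → H0 T ξ = H0 T' ξ' := by
    intro T T' ξ ξ' hT hξ
    have h1 : t.indicator (1 : Set E → ℝ≥0∞) (res J T) = t.indicator 1 (res J T') :=
      res_dep (t.indicator (1 : Set E → ℝ≥0∞)) J T T' hT
    have h2 : ∏ i ∈ sJ, b i (Vmap p T ξ i) = ∏ i ∈ sJ, b i (Vmap p T' ξ' i) := by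
      refine Finset.prod_congr rfl fun i hi => ?_
      have hiJ : i ∈ J := (Finset.mem_filter.1 hi).2
      rw [Vmap_congr hA (T := T) (T' := T') (ξ := ξ) (ξ' := ξ')
        (fun e he => hT e (hJ i hiJ e he)) (hξ i hiJ)]
    simp only [H0, h1, h2]
  have hrem := remove_coords hA hJ H0 hH0m hH0d b hb sN
    (fun i hi => (Finset.mem_filter.1 hi).2)
  have e1 : ∀ T ξ, F (Vmap p T ξ, res J T) = H0 T ξ * ∏ i ∈ sN, b i (Vmap p T ξ i) := by
    intro T ξ
    simp only [F, H0]
    rw [← Finset.prod_filter_mul_prod_filter_not s (fun i => i ∈ J)]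
    ring
  have e2 : ∀ T ξ, ∫⁻ w, F (mix J (Vmap p T ξ) w, res J T) ∂(iidU E)
      = H0 T ξ * ∏ i ∈ sN, (∫⁻ x : unitInterval, b i x) := by
    intro T ξ
    have h3 : ∀ w, F (mix J (Vmap p T ξ) w, res J T) = H0 T ξ * ∏ i ∈ sN, b i (w i) := by
      intro w
      simp only [F, H0]
      rw [← Finset.prod_filter_mul_prod_filter_not s (fun i => i ∈ J)]
      have h4 : ∏ i ∈ s.filter (fun i => i ∈ J), b i (mix J (Vmap p T ξ) w i)
          = ∏ i ∈ sJ, b i (Vmap p T ξ i) :=
        Finset.prod_congr rfl fun i hi => by rw [mix_of_mem (Finset.mem_filter.1 hi).2]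
      have h5 : ∏ i ∈ s.filter (fun i => ¬ i ∈ J), b i (mix J (Vmap p T ξ) w i)
          = ∏ i ∈ sN, b i (w i) :=
        Finset.prod_congr rfl fun i hi => by rw [mix_of_notMem (Finset.mem_filter.1 hi).2]
      rw [h4, h5]
      ring
    simp_rw [h3]
    have hpm : Measurable (fun w : E → unitInterval => ∏ i ∈ sN, b i (w i)) :=
      Finset.measurable_prod _ fun i _ => (hb i).comp (measurable_pi_apply i)
    rw [lintegral_const_mul _ hpm]
    congr 1
    have hmN : MeasurableSet ((sN : Set E).pi B) :=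
      MeasurableSet.pi sN.countable_toSet fun i _ => hB i
    calc ∫⁻ w, ∏ i ∈ sN, b i (w i) ∂(iidU E)
        = ∫⁻ w, ((sN : Set E).pi B).indicator (1 : (E → unitInterval) → ℝ≥0∞) w ∂(iidU E) := by
          refine lintegral_congr fun w => ?_
          rw [indicator_pi_prod]
      _ = (iidU E) ((sN : Set E).pi B) := lintegral_indicator_one hmN
      _ = ∏ i ∈ sN, (volume : Measure unitInterval) (B i) := by
          unfold iidU
          exact Measure.infinitePi_pi _ fun i _ => hB i
      _ = _ := Finset.prod_congr rfl fun i _ => (lintegral_indicator_one (hB i)).symm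
  simp_rw [e1, e2]
  rw [hrem]
  have e3 : ∀ T, ∫⁻ ξ, H0 T ξ * ∏ i ∈ sN, (∫⁻ x : unitInterval, b i x) ∂(iidU E)
      = (∫⁻ ξ, H0 T ξ ∂(iidU E)) * ∏ i ∈ sN, (∫⁻ x : unitInterval, b i x) := by
    intro T
    rw [lintegral_mul_const]
    exact hH0m.comp (measurable_const.prodMk measurable_id)
  simp_rw [e3]
  rw [lintegral_mul_const _ hH0m.lintegral_prod_right']

/-- integral form of `law_mix` -/
theorem lintegral_law_mix (hA : Adapted μ τ p) {J : Set E} (hJ : Down τ J)
    (F : (E → unitInterval) × Set E → ℝ≥0∞) (hF : Measurable F) :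
    ∫⁻ y, F (y.1, res J y.2) ∂(kap μ p)
      = ∫⁻ y, ∫⁻ w, F (mix J y.1 w, res J y.2) ∂(iidU E) ∂(kap μ p) := by
  have hprob := isProb_kap (μ := μ) hA.meas
  have hm1 : Measurable (fun y : (E → unitInterval) × Set E => (y.1, res J y.2)) :=
    measurable_fst.prodMk ((measurable_res J).comp measurable_snd)
  have hm2 : Measurable (fun z : ((E → unitInterval) × Set E) × (E → unitInterval) =>
      (mix J z.1.1 z.2, res J z.1.2)) :=
    ((measurable_mix J).comp ((measurable_fst.comp measurable_fst).prodMk measurable_snd)).prodMk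
      ((measurable_res J).comp (measurable_snd.comp measurable_fst))
  rw [← lintegral_map hF hm1, law_mix hA hJ, lintegral_map hF hm2]
  exact lintegral_prod (fun z : ((E → unitInterval) × Set E) × (E → unitInterval) =>
    F (mix J z.1.1 z.2, res J z.1.2)) (hF.comp hm2).aemeasurable

end mixlaw

end Vale.Agent.P143
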