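import Vale.Agent.P143.CoupQ

open MeasureTheory ProbabilityTheory Set Filter Topology
open scoped ENNReal unitInterval

namespace Vale.Agent.P143

section final

variable {E : Type*} {μ : Measure (Set E)} [IsProbabilityMeasure μ] {τ : E → ℝ}
  {p : E → Set E → unitInterval} {η : Kernel (E → unitInterval) (Set E)} [IsMarkovKernel η]

theorem ennreal_amgm (x y : ℝ≥0∞) : (x * y) ^ (1 / 2 : ℝ) ≤ 2⁻¹ * (x + y) := by
  have h := ENNReal.young_inequality (x ^ (1 / 2 : ℝ)) (y ^ (1 / 2 : ℝ)) Real.HolderConjugate.two_two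
  rw [← ENNReal.rpow_mul, ← ENNReal.rpow_mul] at h
  norm_num at h
  rw [ENNReal.mul_rpow_of_nonneg _ _ (by norm_num)]
  have e : (2⁻¹ : ℝ≥0∞) * (x + y) = x / 2 + y / 2 := by
    rw [mul_add, ENNReal.div_eq_inv_mul, ENNReal.div_eq_inv_mul]
  rw [e]
  norm_num
  exact h

theorem theta_amgm (q : unitInterval) (a b : ℝ≥0∞) :
    (a * b) ^ (1 / 2 : ℝ) ≤ 2⁻¹ *
      (ENNReal.ofReal (q : ℝ) / ENNReal.ofReal (unitInterval.symm q : ℝ) * a
        + ENNReal.ofReal (unitInterval.symm q : ℝ) / ENNReal.ofReal (q : ℝ) * b) := by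
  have hsum := ofReal_add_symm q
  set P := ENNReal.ofReal (q : ℝ) with hP
  set S := ENNReal.ofReal (unitInterval.symm q : ℝ) with hS
  have hPt : P ≠ ∞ := ENNReal.ofReal_ne_top
  have hSt : S ≠ ∞ := ENNReal.ofReal_ne_top
  by_cases h0 : a * b = 0
  · rw [h0, ENNReal.zero_rpow_of_pos (by norm_num)]
    exact zero_le
  have ha : a ≠ 0 := fun h => h0 (by rw [h, zero_mul])
  have hb : b ≠ 0 := fun h => h0 (by rw [h, mul_zero])
  by_cases hP0 : P = 0
  · have hS1 : S = 1 := by rw [hP0, zero_add] at hsum; exact hsum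
    rw [hP0, hS1]
    have : (1 : ℝ≥0∞) / 0 * b = ∞ := by
      rw [ENNReal.div_zero one_ne_zero, ENNReal.top_mul hb]
    rw [this, add_top, ENNReal.mul_top (by simp)]
    exact le_top
  by_cases hS0 : S = 0
  · have hP1 : P = 1 := by rw [hS0, add_zero] at hsum; exact hsum
    rw [hS0, hP1]
    have : (1 : ℝ≥0∞) / 0 * a = ∞ := by
      rw [ENNReal.div_zero one_ne_zero, ENNReal.top_mul ha]
    rw [this, top_add, ENNReal.mul_top (by simp)]
    exact le_top
  have hmul : P / S * (S / P) = 1 := by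
    rw [ENNReal.div_eq_inv_mul, ENNReal.div_eq_inv_mul]
    calc S⁻¹ * P * (P⁻¹ * S) = (S⁻¹ * S) * (P * P⁻¹) := by ring
      _ = 1 := by rw [ENNReal.inv_mul_cancel hS0 hSt, ENNReal.mul_inv_cancel hP0 hPt, one_mul]
  have e : a * b = (P / S * a) * (S / P * b) := by
    calc a * b = (P / S * (S / P)) * (a * b) := by rw [hmul, one_mul]
      _ = _ := by ring
  rw [e]
  exact ennreal_amgm _ _

omit [IsProbabilityMeasure μ] [IsMarkovKernel η] in
theorem dep_const {α : Type*} (c : α) (J : Set E) : DependsOn' (fun _ : Set E => c) J :=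
  fun _ _ _ => rfl

variable [Countable E]

theorem Q_misP_left (hA : Adapted μ τ p) (hη : (iidU E) ⊗ₘ η = kap μ p) (g : E) :
    Qc η (misP g) = ∫⁻ T in {T | g ∈ T},
      ∫⁻ ξ, rG η τ p g (fun _ => 1) (Vmap p T ξ) (Vmap p T ξ g) ∂(iidU E) ∂μ := by
  have h := Q_plus_left hA hη g (F := fun _ => 1) (G := fun _ => 1) measurable_const
    measurable_const (dep_const 1 _)
  simpa using h

theorem Q_misP_right (hA : Adapted μ τ p) (hη : (iidU E) ⊗ₘ η = kap μ p) (g : E) :
    Qc η (misP g) = ∫⁻ T in {T | g ∉ T},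
      ∫⁻ ξ, sG η τ p g (fun _ => 1) (Vmap p T ξ) (Vmap p T ξ g) ∂(iidU E) ∂μ := by
  have h := Q_plus_right hA hη g (F := fun _ => 1) (G := fun _ => 1) measurable_const
    measurable_const (dep_const 1 _)
  simpa using h

/-- resampled versions -/
noncomputable def psiR (η : Kernel (E → unitInterval) (Set E)) (τ : E → ℝ)
    (p : E → Set E → unitInterval) (g : E) (G : Set E → ℝ≥0∞) (T : Set E) : ℝ≥0∞ :=
  ∫⁻ ξ, (∫⁻ x : unitInterval, rG η τ p g G (Vmap p T ξ) (p g T * x)) ∂(iidU E)

noncomputable def psiS (η : Kernel (E → unitInterval) (Set E)) (τ : E → ℝ)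
    (p : E → Set E → unitInterval) (g : E) (G : Set E → ℝ≥0∞) (T : Set E) : ℝ≥0∞ :=
  ∫⁻ ξ, (∫⁻ x : unitInterval, sG η τ p g G (Vmap p T ξ)
    (unitInterval.symm (unitInterval.symm (p g T) * unitInterval.symm x))) ∂(iidU E)

omit [IsProbabilityMeasure μ] [Countable E] in
theorem psiR_eq (hA : Adapted μ τ p) (g : E) {G : Set E → ℝ≥0∞} (hG : Measurable G) {T : Set E}
    (hT : g ∈ T) : ∫⁻ ξ, rG η τ p g G (Vmap p T ξ) (Vmap p T ξ g) ∂(iidU E) = psiR η τ p g G T := by
  classical
  have h := stage_rG (η := η) hA g hG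
  exact resample_mem (T := T) (g := g) hT _ (h.slice T) (h.inv T) hA.meas

omit [IsProbabilityMeasure μ] [Countable E] in
theorem psiS_eq (hA : Adapted μ τ p) (g : E) {G : Set E → ℝ≥0∞} (hG : Measurable G) {T : Set E}
    (hT : g ∉ T) : ∫⁻ ξ, sG η τ p g G (Vmap p T ξ) (Vmap p T ξ g) ∂(iidU E) = psiS η τ p g G T := by
  classical
  have h := stage_sG (η := η) hA g hG
  exact resample_notMem (T := T) (g := g) hT _ (h.slice T) (h.inv T) hA.meas

omit [IsProbabilityMeasure μ] [Countable E] in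
theorem psiR_facts (hA : Adapted μ τ p) (g : E) {G : Set E → ℝ≥0∞} (hG : Measurable G) :
    Measurable (psiR η τ p g G) ∧ DependsOn' (psiR η τ p g G) (Iset τ g) := by
  have h := stage_rG (η := η) hA g hG
  constructor
  · have h1 : Measurable (fun z : (Set E × (E → unitInterval)) × unitInterval =>
        (z.1, p g z.1.1 * z.2)) :=
      measurable_fst.prodMk (((hA.meas g).comp (measurable_fst.comp measurable_fst)).mul
        measurable_snd)
    have h2 := h.meas.comp h1
    have h3 : Measurable (fun z : Set E × (E → unitInterval) =>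
        ∫⁻ x : unitInterval, rG η τ p g G (Vmap p z.1 z.2) (p g z.1 * x)) :=
      h2.lintegral_prod_right'
    have h4 := h3.lintegral_prod_right' (ν := iidU E)
    exact h4
  · intro T T' hT
    refine lintegral_congr fun ξ => lintegral_congr fun x => ?_
    rw [hA.dep g T T' hT]
    exact h.dep T T' ξ ξ _ hT fun _ _ => rfl

omit [IsProbabilityMeasure μ] [Countable E] in
theorem psiS_facts (hA : Adapted μ τ p) (g : E) {G : Set E → ℝ≥0∞} (hG : Measurable G) :
    Measurable (psiS η τ p g G) ∧ DependsOn' (psiS η τ p g G) (Iset τ g) := by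
  have h := stage_sG (η := η) hA g hG
  constructor
  · have h1 : Measurable (fun z : (Set E × (E → unitInterval)) × unitInterval =>
        (z.1, unitInterval.symm (unitInterval.symm (p g z.1.1) * unitInterval.symm z.2))) :=
      measurable_fst.prodMk (unitInterval.measurable_symm.comp
        ((unitInterval.measurable_symm.comp
          ((hA.meas g).comp (measurable_fst.comp measurable_fst))).mul
        (unitInterval.measurable_symm.comp measurable_snd)))
    have h2 := h.meas.comp h1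
    have h3 : Measurable (fun z : Set E × (E → unitInterval) =>
        ∫⁻ x : unitInterval, sG η τ p g G (Vmap p z.1 z.2)
          (unitInterval.symm (unitInterval.symm (p g z.1) * unitInterval.symm x))) :=
      h2.lintegral_prod_right'
    have h4 := h3.lintegral_prod_right' (ν := iidU E)
    exact h4
  · intro T T' hT
    refine lintegral_congr fun ξ => lintegral_congr fun x => ?_
    rw [hA.dep g T T' hT]
    exact h.dep T T' ξ ξ _ hT fun _ _ => rfl

theorem Q_misP_R (hA : Adapted μ τ p) (hη : (iidU E) ⊗ₘ η = kap μ p) (g : E) :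
    Qc η (misP g) = ∫⁻ T, psiR η τ p g (fun _ => 1) T * ENNReal.ofReal (p g T : ℝ) ∂μ := by
  obtain ⟨h1, h2⟩ := psiR_facts (η := η) hA g (G := fun _ => 1) measurable_const
  rw [Q_misP_left hA hη, ← hA.cond g _ h1 h2]
  exact setLIntegral_congr_fun (measurableSet_memg g)
    fun T hT => psiR_eq hA g measurable_const hT

theorem Q_misP_S (hA : Adapted μ τ p) (hη : (iidU E) ⊗ₘ η = kap μ p) (g : E) :
    Qc η (misP g) = ∫⁻ T, psiS η τ p g (fun _ => 1) T *
      ENNReal.ofReal (unitInterval.symm (p g T) : ℝ) ∂μ := by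
  obtain ⟨h1, h2⟩ := psiS_facts (η := η) hA g (G := fun _ => 1) measurable_const
  rw [Q_misP_right hA hη, ← hA.cond_not g _ h1 h2]
  exact setLIntegral_congr_fun (measurableSet_memg g).compl
    fun T hT => psiS_eq hA g measurable_const hT

theorem partA (hA : Adapted μ τ p) (hη : (iidU E) ⊗ₘ η = kap μ p) (g : E) (Ξ : Set E → ℝ≥0∞)
    (hm : Measurable Ξ)
    (h1 : ∀ h : Set E → ℝ≥0∞, Measurable h → DependsOn' h (Iset τ g) →
      ∫⁻ T in {T | g ∈ T}, h T * Ξ T ∂μ ≤ ∫⁻ T in {T | g ∉ T}, h T ∂μ) :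
    ∫⁻ x in misP g, ENNReal.ofReal (p g x.2.1 : ℝ) /
      ENNReal.ofReal (unitInterval.symm (p g x.2.1) : ℝ) * Ξ x.2.1 ∂(Qc η) ≤ Qc η (misP g) := by
  have hPm : Measurable (fun T => ENNReal.ofReal (p g T : ℝ)) := measurable_ofReal_coe (hA.meas g)
  have hSm : Measurable (fun T => ENNReal.ofReal (unitInterval.symm (p g T) : ℝ)) :=
    measurable_ofReal_coe (unitInterval.measurable_symm.comp (hA.meas g))
  let θ : Set E → ℝ≥0∞ := fun T =>
    ENNReal.ofReal (p g T : ℝ) / ENNReal.ofReal (unitInterval.symm (p g T) : ℝ)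
  have hθm : Measurable θ := hPm.div hSm
  obtain ⟨hΨm, hΨd⟩ := psiR_facts (η := η) hA g (G := fun _ => 1) measurable_const
  have e1 := Q_plus_left hA hη g (F := fun T => θ T * Ξ T) (G := fun _ => 1) (hθm.mul hm)
    measurable_const (dep_const 1 _)
  have e2 : ∫⁻ x in misP g, ENNReal.ofReal (p g x.2.1 : ℝ) /
      ENNReal.ofReal (unitInterval.symm (p g x.2.1) : ℝ) * Ξ x.2.1 ∂(Qc η)
      = ∫⁻ x in misP g, (θ x.2.1 * Ξ x.2.1) * 1 ∂(Qc η) := by
    simp only [θ, mul_one]
  rw [e2]
  refine (le_of_eq e1).trans ?_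
  calc ∫⁻ T in {T | g ∈ T}, (θ T * Ξ T) *
        ∫⁻ ξ, rG η τ p g (fun _ => 1) (Vmap p T ξ) (Vmap p T ξ g) ∂(iidU E) ∂μ
      = ∫⁻ T in {T | g ∈ T}, (θ T * psiR η τ p g (fun _ => 1) T) * Ξ T ∂μ := by
        refine setLIntegral_congr_fun (measurableSet_memg g) fun T hT => ?_
        rw [psiR_eq (T := T) hA g measurable_const hT]
        ring
    _ ≤ ∫⁻ T in {T | g ∉ T}, θ T * psiR η τ p g (fun _ => 1) T ∂μ := by
        refine h1 _ (hθm.mul hΨm) fun T T' hT => ?_
        simp only [θ]
        rw [hA.dep g T T' hT, hΨd T T' hT]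
    _ = ∫⁻ T, (θ T * psiR η τ p g (fun _ => 1) T) *
          ENNReal.ofReal (unitInterval.symm (p g T) : ℝ) ∂μ := by
        refine hA.cond_not g _ (hθm.mul hΨm) fun T T' hT => ?_
        simp only [θ]
        rw [hA.dep g T T' hT, hΨd T T' hT]
    _ ≤ ∫⁻ T, psiR η τ p g (fun _ => 1) T * ENNReal.ofReal (p g T : ℝ) ∂μ := by
        refine lintegral_mono fun T => ?_
        simp only [θ]
        calc _ = psiR η τ p g (fun _ => 1) T *
              (ENNReal.ofReal (unitInterval.symm (p g T) : ℝ) *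
                (ENNReal.ofReal (p g T : ℝ) /
                  ENNReal.ofReal (unitInterval.symm (p g T) : ℝ))) := by ring
          _ ≤ _ := by
              gcongr
              exact ENNReal.mul_div_le
    _ = Qc η (misP g) := (Q_misP_R hA hη g).symm

theorem partB (hA : Adapted μ τ p) (hη : (iidU E) ⊗ₘ η = kap μ p) (g : E) (Ξ : Set E → ℝ≥0∞)
    (hm : Measurable Ξ)
    (h2 : ∀ h : Set E → ℝ≥0∞, Measurable h → DependsOn' h (Iset τ g) →
      ∫⁻ T in {T | g ∉ T}, h T * Ξ T ∂μ ≤ ∫⁻ T in {T | g ∈ T}, h T ∂μ) :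
    ∫⁻ x in misP g, ENNReal.ofReal (unitInterval.symm (p g x.2.1) : ℝ) /
      ENNReal.ofReal (p g x.2.1 : ℝ) * Ξ x.2.2 ∂(Qc η) ≤ Qc η (misP g) := by
  have hPm : Measurable (fun T => ENNReal.ofReal (p g T : ℝ)) := measurable_ofReal_coe (hA.meas g)
  have hSm : Measurable (fun T => ENNReal.ofReal (unitInterval.symm (p g T) : ℝ)) :=
    measurable_ofReal_coe (unitInterval.measurable_symm.comp (hA.meas g))
  let ϑ : Set E → ℝ≥0∞ := fun T =>
    ENNReal.ofReal (unitInterval.symm (p g T) : ℝ) / ENNReal.ofReal (p g T : ℝ)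
  have hϑm : Measurable ϑ := hSm.div hPm
  have hϑd : DependsOn' ϑ (Iset τ g) := by
    intro T T' hT
    simp only [ϑ]
    rw [hA.dep g T T' hT]
  obtain ⟨hΨm, hΨd⟩ := psiS_facts (η := η) hA g (G := ϑ) hϑm
  have e1 := Q_plus_right hA hη g (F := Ξ) (G := ϑ) hm hϑm hϑd
  refine (le_of_eq e1).trans ?_
  calc ∫⁻ T in {T | g ∉ T}, Ξ T *
        ∫⁻ ξ, sG η τ p g ϑ (Vmap p T ξ) (Vmap p T ξ g) ∂(iidU E) ∂μ
      = ∫⁻ T in {T | g ∉ T}, psiS η τ p g ϑ T * Ξ T ∂μ := by
        refine setLIntegral_congr_fun (measurableSet_memg g).compl fun T hT => ?_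
        rw [psiS_eq (T := T) hA g hϑm hT]
        ring
    _ ≤ ∫⁻ T in {T | g ∈ T}, psiS η τ p g ϑ T ∂μ := h2 _ hΨm hΨd
    _ = ∫⁻ T, psiS η τ p g ϑ T * ENNReal.ofReal (p g T : ℝ) ∂μ := hA.cond g _ hΨm hΨd
    _ ≤ ∫⁻ T, psiS η τ p g (fun _ => 1) T *
          ENNReal.ofReal (unitInterval.symm (p g T) : ℝ) ∂μ := by
        refine lintegral_mono fun T => ?_
        have hV : Measurable (fun ξ : E → unitInterval => Vmap p T ξ) :=
          (measurable_Vmap hA.meas).comp (measurable_const.prodMk measurable_id)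
        have hy : Measurable (fun x : unitInterval =>
            unitInterval.symm (unitInterval.symm (p g T) * unitInterval.symm x)) := by fun_prop
        have hmS : ∀ {G : Set E → ℝ≥0∞}, Measurable G → Measurable
            (fun z : (E → unitInterval) × unitInterval => sG η τ p g G (Vmap p T z.1)
              (unitInterval.symm (unitInterval.symm (p g T) * unitInterval.symm z.2))) := by
          intro G hG
          have h3 := measurable_sG (η := η) hA g hG
          have h4 := h3.comp ((hV.comp measurable_fst).prodMk (hy.comp measurable_snd))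
          exact h4
        simp only [psiS]
        rw [mul_comm _ (ENNReal.ofReal (p g T : ℝ)),
          mul_comm _ (ENNReal.ofReal (unitInterval.symm (p g T) : ℝ)),
          ← lintegral_const_mul _ (hmS hϑm).lintegral_prod_right',
          ← lintegral_const_mul _ (hmS (G := fun _ => 1) measurable_const).lintegral_prod_right']
        refine lintegral_mono fun ξ => ?_
        simp only
        have hs1 : ∀ {G : Set E → ℝ≥0∞}, Measurable G → Measurable
            (fun x : unitInterval => sG η τ p g G (Vmap p T ξ)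
              (unitInterval.symm (unitInterval.symm (p g T) * unitInterval.symm x))) := by
          intro G hG
          have h3 := (hmS hG).comp (measurable_const (a := ξ).prodMk measurable_id)
          exact h3
        rw [← lintegral_const_mul _ (hs1 hϑm),
          ← lintegral_const_mul _ (hs1 (G := fun _ => 1) measurable_const)]
        refine lintegral_mono fun x => ?_
        simp only
        set y := unitInterval.symm (unitInterval.symm (p g T) * unitInterval.symm x) with hydef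
        have hpy : p g T ≤ y := by
          have h3 : unitInterval.symm (p g T) * unitInterval.symm x
              ≤ unitInterval.symm (p g T) := unitInterval.mul_le_left
          have h4 := unitInterval.symm_le_symm.2 h3
          rwa [unitInterval.symm_symm] at h4
        unfold sG
        have hmt : MeasurableSet {t : Set E | y < p g t} :=
          measurableSet_lt measurable_const (hA.meas g)
        rw [← lintegral_const_mul _ (hϑm.indicator hmt),
          ← lintegral_const_mul _ ((measurable_const (a := (1 : ℝ≥0∞))).indicator hmt)]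
        refine lintegral_mono fun t => ?_
        simp only
        by_cases ht : y < p g t
        · have ht' : t ∈ {t : Set E | y < p g t} := ht
          rw [Set.indicator_of_mem ht', Set.indicator_of_mem ht', mul_one]
          have hle : p g T ≤ p g t := hpy.trans ht.le
          have hle1 : (p g T : ℝ) ≤ (p g t : ℝ) := hle
          have hle2 : (unitInterval.symm (p g t) : ℝ) ≤ (unitInterval.symm (p g T) : ℝ) :=
            unitInterval.symm_le_symm.2 hle
          calc ENNReal.ofReal (p g T : ℝ) * (ENNReal.ofReal (unitInterval.symm (p g t) : ℝ) /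
                ENNReal.ofReal (p g t : ℝ))
              ≤ ENNReal.ofReal (p g t : ℝ) * (ENNReal.ofReal (unitInterval.symm (p g t) : ℝ) /
                ENNReal.ofReal (p g t : ℝ)) := by
                gcongr
            _ ≤ ENNReal.ofReal (unitInterval.symm (p g t) : ℝ) := ENNReal.mul_div_le
            _ ≤ ENNReal.ofReal (unitInterval.symm (p g T) : ℝ) := ENNReal.ofReal_le_ofReal hle2
        · have ht' : t ∉ {t : Set E | y < p g t} := ht
          rw [Set.indicator_of_notMem ht', mul_zero]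
          exact zero_le
    _ = Qc η (misP g) := (Q_misP_S hA hη g).symm

theorem K2_plus (hA : Adapted μ τ p) (hη : (iidU E) ⊗ₘ η = kap μ p) (g : E) (Ξ : Set E → ℝ≥0∞)
    (hm : Measurable Ξ)
    (h1 : ∀ h : Set E → ℝ≥0∞, Measurable h → DependsOn' h (Iset τ g) →
      ∫⁻ T in {T | g ∈ T}, h T * Ξ T ∂μ ≤ ∫⁻ T in {T | g ∉ T}, h T ∂μ)
    (h2 : ∀ h : Set E → ℝ≥0∞, Measurable h → DependsOn' h (Iset τ g) →
      ∫⁻ T in {T | g ∉ T}, h T * Ξ T ∂μ ≤ ∫⁻ T in {T | g ∈ T}, h T ∂μ) :
    ∫⁻ x in misP g, (Ξ x.2.1 * Ξ x.2.2) ^ (1 / 2 : ℝ) ∂(Qc η) ≤ Qc η (misP g) := by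
  have hA1 := partA hA hη g Ξ hm h1
  have hB1 := partB hA hη g Ξ hm h2
  have hPm : Measurable (fun T => ENNReal.ofReal (p g T : ℝ)) := measurable_ofReal_coe (hA.meas g)
  have hSm : Measurable (fun T => ENNReal.ofReal (unitInterval.symm (p g T) : ℝ)) :=
    measurable_ofReal_coe (unitInterval.measurable_symm.comp (hA.meas g))
  have h21 : Measurable (fun x : (E → unitInterval) × (Set E × Set E) => x.2.1) :=
    measurable_fst.comp measurable_snd
  have hmA : Measurable (fun x : (E → unitInterval) × (Set E × Set E) =>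
      ENNReal.ofReal (p g x.2.1 : ℝ) /
        ENNReal.ofReal (unitInterval.symm (p g x.2.1) : ℝ) * Ξ x.2.1) :=
    ((hPm.comp h21).div (hSm.comp h21)).mul (hm.comp h21)
  calc ∫⁻ x in misP g, (Ξ x.2.1 * Ξ x.2.2) ^ (1 / 2 : ℝ) ∂(Qc η)
      ≤ ∫⁻ x in misP g, 2⁻¹ * (ENNReal.ofReal (p g x.2.1 : ℝ) /
            ENNReal.ofReal (unitInterval.symm (p g x.2.1) : ℝ) * Ξ x.2.1
          + ENNReal.ofReal (unitInterval.symm (p g x.2.1) : ℝ) /
            ENNReal.ofReal (p g x.2.1 : ℝ) * Ξ x.2.2) ∂(Qc η) :=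
        lintegral_mono fun x => theta_amgm (p g x.2.1) _ _
    _ = 2⁻¹ * (∫⁻ x in misP g, ENNReal.ofReal (p g x.2.1 : ℝ) /
            ENNReal.ofReal (unitInterval.symm (p g x.2.1) : ℝ) * Ξ x.2.1 ∂(Qc η)
          + ∫⁻ x in misP g, ENNReal.ofReal (unitInterval.symm (p g x.2.1) : ℝ) /
            ENNReal.ofReal (p g x.2.1 : ℝ) * Ξ x.2.2 ∂(Qc η)) := by
        rw [lintegral_const_mul' _ _ (by simp), lintegral_add_left hmA]
    _ ≤ 2⁻¹ * (Qc η (misP g) + Qc η (misP g)) := by gcongr
    _ = Qc η (misP g) := by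
        rw [← two_mul, ← mul_assoc, ENNReal.inv_mul_cancel (by simp) (by simp), one_mul]

end final

end Vale.Agent.P143
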