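import Vale.Agent.P143.Statement

open MeasureTheory Filter Topology Set

namespace Vale.Agent.P143

section Iso

variable {V V' : Type*} {G : SimpleGraph V} {G' : SimpleGraph V'}

theorem mem_image_sym2map {f : V → V'} (hf : Function.Injective f) (T : Set (Sym2 V))
    (e : Sym2 V) : Sym2.map f e ∈ Sym2.map f '' T ↔ e ∈ T :=
  (Sym2.map.injective hf).mem_set_image

noncomputable def vertsEquiv (φ : G ≃g G') (H : G.Subgraph) : H.verts ≃ (H.map φ.toHom).verts :=
  φ.toEquiv.image H.verts

theorem vertsEquiv_coe (φ : G ≃g G') (H : G.Subgraph) (a : H.verts) :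
    (vertsEquiv φ H a : V') = φ a := rfl

theorem isSpanningTree_map (φ : G ≃g G') (H : G.Subgraph) (T : Set (Sym2 V)) :
    IsSpanningTree (H.map φ.toHom) (Sym2.map φ '' T) ↔ IsSpanningTree H T := by
  unfold IsSpanningTree
  have hinj : Function.Injective (Sym2.map φ) := Sym2.map.injective φ.injective
  apply and_congr
  · rw [SimpleGraph.Subgraph.edgeSet_map]
    exact Set.image_subset_image_iff hinj
  · refine (SimpleGraph.Iso.isTree_iff ?_).symm
    refine ⟨vertsEquiv φ H, ?_⟩
    intro a b
    simp only [SimpleGraph.comap_adj, SimpleGraph.fromEdgeSet_adj, Function.Embedding.subtype_apply]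
    rw [vertsEquiv_coe, vertsEquiv_coe, ← Sym2.map_mk, mem_image_sym2map φ.injective]
    simp

theorem sym2map_symm_map (φ : G ≃g G') (e : Sym2 V) : Sym2.map φ.symm (Sym2.map φ e) = e := by
  rw [Sym2.map_map]
  have : (φ.symm ∘ φ : V → V) = id := by ext x; simp
  rw [this, Sym2.map_id, id]

theorem sym2map_map_symm (φ : G ≃g G') (e : Sym2 V') : Sym2.map φ (Sym2.map φ.symm e) = e := by
  rw [Sym2.map_map]
  have : (φ ∘ φ.symm : V' → V') = id := by ext x; simp
  rw [this, Sym2.map_id, id]

open Classical in
theorem ncard_map (φ : G ≃g G') (H : G.Subgraph) (S : Finset (Sym2 V)) (A : Set (Sym2 V)) :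
    {T | IsSpanningTree (H.map φ.toHom) T ∧
        ∀ e ∈ S.image (Sym2.map φ), (e ∈ T ↔ e ∈ Sym2.map φ '' A)}.ncard
      = {T | IsSpanningTree H T ∧ ∀ e ∈ S, (e ∈ T ↔ e ∈ A)}.ncard := by
  have hinj : Function.Injective (Sym2.map φ) := Sym2.map.injective φ.injective
  rw [← Set.ncard_image_of_injective _ (Set.image_injective.2 hinj)]
  congr 1
  ext T
  simp only [mem_ofPred_eq, mem_image, Finset.mem_image, forall_exists_index, and_imp,
    forall_apply_eq_imp_iff₂]
  constructor
  · rintro ⟨h1, h2⟩
    refine ⟨Sym2.map φ ⁻¹' T, ⟨?_, ?_⟩, ?_⟩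
    · rw [← isSpanningTree_map φ, Set.image_preimage_eq]
      · exact h1
      · intro e; exact ⟨Sym2.map φ.symm e, sym2map_map_symm φ e⟩
    · intro e he
      have := h2 e he
      simp only [mem_preimage]
      rw [this]
      exact hinj.mem_set_image
    · rw [Set.image_preimage_eq]
      intro e; exact ⟨Sym2.map φ.symm e, sym2map_map_symm φ e⟩
  · rintro ⟨T, ⟨h1, h2⟩, rfl⟩
    refine ⟨(isSpanningTree_map φ H T).2 h1, ?_⟩
    intro e he
    have := h2 e he
    rw [hinj.mem_set_image, this]
    exact hinj.mem_set_image.symm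

theorem ncard_map' (φ : G ≃g G') (H : G.Subgraph) :
    {T | IsSpanningTree (H.map φ.toHom) T}.ncard = {T | IsSpanningTree H T}.ncard := by
  have := ncard_map φ H ∅ ∅
  simpa using this

open Classical in
theorem ustProb_map (φ : G ≃g G') (H : G.Subgraph) (S : Finset (Sym2 V)) (A : Set (Sym2 V)) :
    ustProb (H.map φ.toHom) (S.image (Sym2.map φ)) (Sym2.map φ '' A) = ustProb H S A := by
  unfold ustProb
  rw [ncard_map, ncard_map']

theorem connected_map (φ : G ≃g G') {H : G.Subgraph} (h : H.Connected) :
    (H.map φ.toHom).Connected := by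
  rw [SimpleGraph.Subgraph.connected_iff'] at *
  refine (SimpleGraph.Iso.connected_iff ?_).1 h
  refine ⟨vertsEquiv φ H, ?_⟩
  intro a b
  rw [SimpleGraph.Subgraph.coe_adj, SimpleGraph.Subgraph.coe_adj, vertsEquiv_coe, vertsEquiv_coe]
  simp only [SimpleGraph.Subgraph.map_adj]
  exact Relation.map_apply_apply φ.injective φ.injective _ _ _

theorem IsExhaustion.map (φ : G ≃g G') {H : ℕ → G.Subgraph} (hH : IsExhaustion G H) :
    IsExhaustion G' (fun n => (H n).map φ.toHom) where
  mono := fun m n hmn => SimpleGraph.Subgraph.map_mono (hH.mono hmn)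
  finite := fun n => (hH.finite n).image _
  connected := fun n => connected_map φ (hH.connected n)
  union := by
    have h := hH.union
    have hv : ∀ v : V, ∃ n, v ∈ (H n).verts := by
      intro v
      have : v ∈ (⨆ n, H n).verts := by rw [h]; trivial
      simpa using this
    have ha : ∀ a b : V, G.Adj a b → ∃ n, (H n).Adj a b := by
      intro a b hab
      have : (⨆ n, H n).Adj a b := by rw [h]; exact hab
      simpa using this
    apply le_antisymm le_top
    constructor
    · intro v' _
      obtain ⟨n, hn⟩ := hv (φ.symm v')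
      simp only [SimpleGraph.Subgraph.verts_iSup, mem_iUnion]
      exact ⟨n, φ.symm v', hn, by simp⟩
    · intro a b hab
      simp only [SimpleGraph.Subgraph.top_adj] at hab
      obtain ⟨n, hn⟩ := ha (φ.symm a) (φ.symm b) (φ.symm.map_adj_iff.2 hab)
      simp only [SimpleGraph.Subgraph.iSup_adj]
      exact ⟨n, φ.symm a, φ.symm b, hn, by simp, by simp⟩

theorem measurable_imC {f : V → V'} (hf : Function.Injective f) :
    Measurable (fun T : Set (Sym2 V) => Sym2.map f '' T) := by
  rw [measurable_set_iff]
  intro e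
  by_cases h : ∃ e', Sym2.map f e' = e
  · obtain ⟨e', rfl⟩ := h
    simp only [mem_image_sym2map hf]
    exact measurable_set_mem e'
  · have : (fun T : Set (Sym2 V) => e ∈ Sym2.map f '' T) = fun _ => False := by
      ext T
      simp only [mem_image, iff_false]
      rintro ⟨e', _, h'⟩
      exact h ⟨e', h'⟩
    rw [this]
    exact measurable_const

theorem measurableSet_cylE {E : Type*} (S : Finset E) (A : Set E) :
    MeasurableSet {T : Set E | ∀ e ∈ S, (e ∈ T ↔ e ∈ A)} := by
  have : {T : Set E | ∀ e ∈ S, (e ∈ T ↔ e ∈ A)} = ⋂ e ∈ S, {T : Set E | (e ∈ T ↔ e ∈ A)} := by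
    ext T; simp
  rw [this]
  apply Finset.measurableSet_biInter
  intro e _
  exact measurableSet_setOfPred.2 (Measurable.iff (measurable_set_mem e) measurable_const)

theorem ext_of_cyl {E : Type*} {μ ν : Measure (Set E)} [IsProbabilityMeasure μ]
    [IsProbabilityMeasure ν]
    (h : ∀ (S : Finset E) (A : Set E), μ {T : Set E | ∀ e ∈ S, (e ∈ T ↔ e ∈ A)}
      = ν {T : Set E | ∀ e ∈ S, (e ∈ T ↔ e ∈ A)}) : μ = ν := by
  classical
  let C : Set (Set (Set E)) := {c | ∃ (S : Finset E) (A : Set E),
    c = {T : Set E | ∀ e ∈ S, (e ∈ T ↔ e ∈ A)}}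
  apply MeasureTheory.ext_of_generate_finite C
  · apply le_antisymm
    · have hid : @Measurable (Set E) (Set E) (MeasurableSpace.generateFrom C) _ id := by
        rw [@measurable_set_iff]
        intro e
        refine measurable_to_prop ?_
        have : (fun a : Set E => e ∈ id a) ⁻¹' {True}
          = {T : Set E | ∀ e' ∈ ({e} : Finset E), (e' ∈ T ↔ e' ∈ (univ : Set E))} := by
          ext T
          simp only [mem_preimage, mem_singleton_iff, eq_iff_iff, iff_true, Finset.mem_singleton,
            forall_eq, mem_univ, mem_ofPred_eq, id]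
        rw [this]
        exact MeasurableSpace.measurableSet_generateFrom ⟨_, _, rfl⟩
      intro s hs
      exact hid hs
    · apply MeasurableSpace.generateFrom_le
      rintro _ ⟨S, A, rfl⟩
      exact measurableSet_cylE S A
  · rintro _ ⟨S, A, rfl⟩ _ ⟨S', A', rfl⟩ ⟨T₀, h1, h2⟩
    refine ⟨S ∪ S', T₀, ?_⟩
    simp only [mem_ofPred_eq] at h1 h2
    ext T
    simp only [mem_inter_iff, mem_ofPred_eq, Finset.mem_union]
    constructor
    · rintro ⟨h3, h4⟩ e (he | he)
      · rw [h3 e he, h1 e he]
      · rw [h4 e he, h2 e he]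
    · intro h3
      exact ⟨fun e he => by rw [h3 e (Or.inl he), h1 e he],
        fun e he => by rw [h3 e (Or.inr he), h2 e he]⟩
  · rintro _ ⟨S, A, rfl⟩
    exact h S A
  · simp

theorem IsFUSF.unique {μ ν : Measure (Set (Sym2 V))} (h : IsFUSF G μ) (h' : IsFUSF G ν) :
    μ = ν := by
  have := h.prob
  have := h'.prob
  obtain ⟨H, hH⟩ := h.exists_exhaustion
  apply ext_of_cyl
  intro S A
  have h1 := tendsto_nhds_unique (h.tendsto H hH S A) (h'.tendsto H hH S A)
  rw [measureReal_def, measureReal_def] at h1
  exact (ENNReal.toReal_eq_toReal_iff' (measure_ne_top _ _) (measure_ne_top _ _)).1 h1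

theorem IsFUSF.map_iso (φ : G ≃g G') {μ : Measure (Set (Sym2 V))} (h : IsFUSF G μ) :
    IsFUSF G' (μ.map (fun T => Sym2.map φ '' T)) where
  prob := by
    have := h.prob
    exact Measure.isProbabilityMeasure_map (measurable_imC φ.injective).aemeasurable
  exists_exhaustion := by
    obtain ⟨H, hH⟩ := h.exists_exhaustion
    exact ⟨_, hH.map φ⟩
  tendsto := by
    classical
    intro H hH S A
    have h1 := h.tendsto _ (hH.map φ.symm) (S.image (Sym2.map φ.symm)) (Sym2.map φ.symm '' A)
    convert h1 using 1
    · ext n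
      rw [ustProb_map]
    · congr 1
      rw [measureReal_def, measureReal_def, Measure.map_apply (measurable_imC φ.injective)]
      · congr 2
        ext T
        simp only [preimage_ofPred_eq, mem_ofPred_eq, Finset.mem_image, forall_exists_index,
          and_imp, forall_apply_eq_imp_iff₂]
        apply forall₂_congr
        intro e he
        rw [mem_image_sym2map φ.symm.injective]
        have h2 : e ∈ Sym2.map φ '' T ↔ Sym2.map φ.symm e ∈ T := by
          conv_lhs => rw [← sym2map_map_symm φ e]
          exact mem_image_sym2map φ.injective _ _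
        rw [h2]
      · exact measurableSet_cylE _ _

end Iso

end Vale.Agent.P143
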