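import Vale.Agent.P143.Iid
import Vale.Agent.P143.Iso

open MeasureTheory ProbabilityTheory Set Filter Topology
open scoped ENNReal

namespace Vale.Agent.P143

structure CylP {E : Type*} [DecidableEq E] (P : Finset E → Set E → ℝ) : Prop where
  P_congr : ∀ S A A', (∀ e ∈ S, (e ∈ A ↔ e ∈ A')) → P S A = P S A'
  P_nonneg : ∀ S A, 0 ≤ P S A
  P_empty : ∀ A, P ∅ A = 1
  P_split : ∀ S A h, h ∉ S → P S A = P (insert h S) (insert h A) + P (insert h S) (A \ {h})

theorem Good.cylP {E : Type*} [DecidableEq E] {P : Finset E → Set E → ℝ}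
    {u : Finset E → Set E → E → E → ℝ} (h : Good P u) : CylP P :=
  ⟨h.P_congr, h.P_nonneg, h.P_empty, h.P_split⟩

section

variable {E : Type*} [DecidableEq E] (e : ℕ ≃ E)

def Wn (n : ℕ) : Finset E := (Finset.range n).image e

theorem mem_Wn (n : ℕ) (x : E) : x ∈ Wn e n ↔ e.symm x < n := by
  unfold Wn
  simp only [Finset.mem_image, Finset.mem_range]
  constructor
  · rintro ⟨m, hm, rfl⟩; simpa using hm
  · intro h; exact ⟨_, h, by simp⟩

theorem Wn_succ (n : ℕ) : Wn e (n + 1) = insert (e n) (Wn e n) := by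
  unfold Wn
  rw [Finset.range_add_one, Finset.image_insert]

theorem e_notMem_Wn (n : ℕ) : e n ∉ Wn e n := by
  rw [mem_Wn]; simp

/-- two cylinder probability functions which agree on the windows agree everywhere -/
theorem CylP.eq_of_Wn {P Q : Finset E → Set E → ℝ} (hP : CylP P) (hQ : CylP Q)
    (h : ∀ n A, P (Wn e n) A = Q (Wn e n) A) (S : Finset E) (A : Set E) : P S A = Q S A := by
  have hn : ∃ n, S ⊆ Wn e n := by
    refine ⟨S.sup (fun x => e.symm x + 1), fun x hx => ?_⟩
    rw [mem_Wn]
    exact Nat.lt_of_succ_le (Finset.le_sup (f := fun x => e.symm x + 1) hx)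
  obtain ⟨n, hn⟩ := hn
  have key : ∀ k : ℕ, ∀ S : Finset E, S ⊆ Wn e n → (Wn e n \ S).card = k → ∀ A, P S A = Q S A := by
    intro k
    induction k with
    | zero =>
      intro S hS hc A
      rw [Finset.card_eq_zero, Finset.sdiff_eq_empty_iff_subset] at hc
      rw [Finset.Subset.antisymm hS hc]
      exact h n A
    | succ k ih =>
      intro S hS hc A
      have hne : (Wn e n \ S).Nonempty := by
        rw [← Finset.card_pos, hc]; omega
      obtain ⟨x, hx⟩ := hne
      rw [Finset.mem_sdiff] at hx
      have h1 : insert x S ⊆ Wn e n := Finset.insert_subset hx.1 hS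
      have h2 : (Wn e n \ insert x S).card = k := by
        have : Wn e n \ insert x S = (Wn e n \ S).erase x := by
          ext y; simp only [Finset.mem_sdiff, Finset.mem_insert, Finset.mem_erase]; tauto
        rw [this, Finset.card_erase_of_mem (Finset.mem_sdiff.2 hx), hc]
        omega
      rw [hP.P_split S A x hx.2, hQ.P_split S A x hx.2, ih _ h1 h2, ih _ h1 h2]
  exact key _ S hn rfl A

noncomputable def TT (P : Finset E → Set E → ℝ) (ξ : ℕ → unitInterval) : ℕ → Set E
  | 0 => ∅
  | n + 1 => open Classical in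
    if (ξ n : ℝ) < pr P (Wn e n) (TT P ξ n) (e n) then insert (e n) (TT P ξ n) else TT P ξ n

def TL (P : Finset E → Set E → ℝ) (ξ : ℕ → unitInterval) : Set E :=
  {x | x ∈ TT e P ξ (e.symm x + 1)}

theorem mem_TT (P : Finset E → Set E → ℝ) (ξ : ℕ → unitInterval) (m : ℕ) (x : E) :
    x ∈ TT e P ξ m ↔ e.symm x < m ∧ x ∈ TL e P ξ := by
  classical
  have h1 : ∀ n, ∀ y, y ≠ e n → (y ∈ TT e P ξ (n + 1) ↔ y ∈ TT e P ξ n) := by
    intro n y hy
    rw [TT]
    split_ifs
    · simp [hy]
    · rfl
  have h2 : ∀ n, ∀ y, y ∈ TT e P ξ n → e.symm y < n := by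
    intro n
    induction n with
    | zero => intro y hy; simp [TT] at hy
    | succ n ih =>
      intro y hy
      by_cases hyn : y = e n
      · rw [hyn]; simp
      · have := ih y ((h1 n y hyn).1 hy)
        omega
  have h3 : ∀ k, ∀ y, (y ∈ TT e P ξ (e.symm y + 1 + k) ↔ y ∈ TT e P ξ (e.symm y + 1)) := by
    intro k y
    induction k with
    | zero => rfl
    | succ k ih =>
      rw [← ih, show e.symm y + 1 + (k + 1) = (e.symm y + 1 + k) + 1 by omega]
      apply h1
      intro h
      have h4 := congrArg e.symm h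
      rw [Equiv.symm_apply_apply] at h4
      omega
  constructor
  · intro hx
    have hlt := h2 m x hx
    refine ⟨hlt, ?_⟩
    have := h3 (m - (e.symm x + 1)) x
    rw [show e.symm x + 1 + (m - (e.symm x + 1)) = m by omega] at this
    exact this.1 hx
  · rintro ⟨hlt, hx⟩
    have := h3 (m - (e.symm x + 1)) x
    rw [show e.symm x + 1 + (m - (e.symm x + 1)) = m by omega] at this
    exact this.2 hx

theorem e_mem_TL {P : Finset E → Set E → ℝ} (hP : CylP P) (ξ : ℕ → unitInterval) (n : ℕ) :
    e n ∈ TL e P ξ ↔ (ξ n : ℝ) < pr P (Wn e n) (TL e P ξ) (e n) := by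
  classical
  have h0 : e n ∉ TT e P ξ n := by
    rw [mem_TT]; simp
  have hcg : pr P (Wn e n) (TT e P ξ n) (e n) = pr P (Wn e n) (TL e P ξ) (e n) := by
    unfold pr
    congr 1
    · apply hP.P_congr
      intro x hx
      rw [Finset.mem_insert] at hx
      rw [mem_insert_iff, mem_insert_iff, mem_TT]
      rcases hx with hx | hx
      · simp [hx]
      · rw [mem_Wn] at hx
        simp [hx]
    · apply hP.P_congr
      intro x hx
      rw [mem_Wn] at hx
      rw [mem_TT]
      simp [hx]
  rw [← hcg]
  have : e n ∈ TL e P ξ ↔ e n ∈ TT e P ξ (n + 1) := by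
    rw [mem_TT]; simp
  rw [this, TT]
  split_ifs with h
  · simp [h]
  · simp [h0, h]

theorem agree_TL {P : Finset E → Set E → ℝ} (hP : CylP P) (ξ : ℕ → unitInterval) (n : ℕ)
    (A : Set E) :
    (∀ x ∈ Wn e n, (x ∈ TL e P ξ ↔ x ∈ A)) ↔
      ∀ k ∈ Finset.range n, (((ξ k : ℝ) < pr P (Wn e k) A (e k)) ↔ e k ∈ A) := by
  have hcg : ∀ k, (∀ x ∈ Wn e k, (x ∈ TL e P ξ ↔ x ∈ A)) →
      pr P (Wn e k) (TL e P ξ) (e k) = pr P (Wn e k) A (e k) := by
    intro k hk
    unfold pr
    congr 1
    · apply hP.P_congr
      intro x hx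
      rw [Finset.mem_insert] at hx
      rw [mem_insert_iff, mem_insert_iff]
      rcases hx with hx | hx
      · simp [hx]
      · rw [hk x hx]
    · exact hP.P_congr _ _ _ hk
  induction n with
  | zero => simp [Wn]
  | succ n ih =>
    rw [Wn_succ, Finset.range_add_one]
    simp only [Finset.mem_insert, forall_eq_or_imp]
    constructor
    · rintro ⟨h1, h2⟩
      refine ⟨?_, ih.1 h2⟩
      rw [← hcg n h2, ← e_mem_TL e hP, h1]
    · rintro ⟨h1, h2⟩
      have h3 := ih.2 h2
      refine ⟨?_, h3⟩
      rw [e_mem_TL e hP, hcg n h3, h1]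

open Classical in
theorem vol_box (p : ℝ) (hp : p ∈ Icc (0 : ℝ) 1) (b : Prop) :
    (volume : Measure unitInterval) {r | ((r : ℝ) < p) ↔ b}
      = ENNReal.ofReal (if b then p else 1 - p) := by
  split_ifs with hb
  · have : {r : unitInterval | ((r : ℝ) < p) ↔ b} = Iio ⟨p, hp⟩ := by
      ext r
      simp only [mem_ofPred_eq, mem_Iio, hb, iff_true]
      exact Iff.rfl
    rw [this, unitInterval.volume_Iio]
  · have : {r : unitInterval | ((r : ℝ) < p) ↔ b} = Ici ⟨p, hp⟩ := by
      ext r
      simp only [mem_ofPred_eq, mem_Ici, hb, iff_false, not_lt]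
      exact Iff.rfl
    rw [this, unitInterval.volume_Ici]

theorem CylP.pr_mem {P : Finset E → Set E → ℝ} (hP : CylP P) (S : Finset E) (A : Set E) (f : E)
    (hf : f ∉ S) : pr P S A f ∈ Icc (0 : ℝ) 1 := by
  unfold pr
  have h1 := hP.P_split S A f hf
  have h2 := hP.P_nonneg (insert f S) (insert f A)
  have h3 := hP.P_nonneg (insert f S) (A \ {f})
  have h4 := hP.P_nonneg S A
  constructor
  · exact div_nonneg h2 h4
  · apply div_le_one_of_le₀ _ h4
    linarith

open Classical in
theorem CylP.prod_eq {P : Finset E → Set E → ℝ} (hP : CylP P) (n : ℕ) (A : Set E) :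
    ∏ k ∈ Finset.range n, (if e k ∈ A then pr P (Wn e k) A (e k) else 1 - pr P (Wn e k) A (e k))
      = P (Wn e n) A := by
  induction n with
  | zero => simp [Wn, hP.P_empty]
  | succ n ih =>
    rw [Finset.prod_range_succ, ih, Wn_succ]
    have h1 := hP.P_split (Wn e n) A (e n) (e_notMem_Wn e n)
    have h2 := hP.P_nonneg (insert (e n) (Wn e n)) (insert (e n) A)
    have h3 := hP.P_nonneg (insert (e n) (Wn e n)) (A \ {e n})
    by_cases h0 : P (Wn e n) A = 0
    · rw [h0, zero_mul]
      by_cases hA : e n ∈ A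
      · have : insert (e n) A = A := Set.insert_eq_of_mem hA
        rw [this] at h1 h2
        linarith
      · have : A \ {e n} = A := Set.sdiff_singleton_eq_self hA
        rw [this] at h1 h3
        linarith
    · split_ifs with hA
      · unfold pr
        rw [mul_div_cancel₀ _ h0, Set.insert_eq_of_mem hA]
      · unfold pr
        rw [mul_sub, mul_one, mul_div_cancel₀ _ h0]
        have : A \ {e n} = A := Set.sdiff_singleton_eq_self hA
        rw [this] at h1
        linarith

variable {α : Type*} [MeasurableSpace α] {P : α → Finset E → Set E → ℝ}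
  (hP : ∀ a, CylP (P a)) (hm : ∀ S A, Measurable (fun a => P a S A))

include hP hm in
theorem measurable_P_comp {β : Type*} [MeasurableSpace β] {g : β → α} (hg : Measurable g)
    (S : Finset E) {A : β → Set E} (hA : Measurable A) :
    Measurable (fun b => P (g b) S (A b)) := by
  classical
  have h1 : ∀ b, P (g b) S (A b) = ∑ B ∈ S.powerset,
      if (∀ x ∈ S, (x ∈ A b ↔ x ∈ B)) then P (g b) S (B : Set E) else 0 := by
    intro b
    rw [Finset.sum_eq_single (S.filter (fun x => x ∈ A b))]
    · have : ∀ x ∈ S, (x ∈ A b ↔ x ∈ S.filter (fun x => x ∈ A b)) := by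
        intro x hx; simp [hx]
      rw [if_pos this]
      exact (hP (g b)).P_congr _ _ _ (by simpa using this)
    · intro B hB hne
      rw [if_neg]
      intro h
      apply hne
      ext x
      rw [Finset.mem_powerset] at hB
      rw [Finset.mem_filter]
      constructor
      · intro hx; exact ⟨hB hx, (h x (hB hx)).2 hx⟩
      · rintro ⟨h1, h2⟩; exact (h x h1).1 h2
    · intro h
      exact absurd (Finset.mem_powerset.2 (Finset.filter_subset _ _)) h
  simp_rw [h1]
  apply Finset.measurable_sum
  intro B _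
  apply Measurable.ite _ ((hm S B).comp hg) measurable_const
  have : {b | ∀ x ∈ S, (x ∈ A b ↔ x ∈ B)} = A ⁻¹' {T | ∀ x ∈ S, (x ∈ T ↔ x ∈ (B : Set E))} := by
    ext b; simp
  rw [this]
  exact hA (measurableSet_cylE S _)

include hP hm in
theorem measurable_TT (n : ℕ) :
    Measurable (fun z : α × (ℕ → unitInterval) => TT e (P z.1) z.2 n) := by
  classical
  induction n with
  | zero => simp only [TT]; exact measurable_const
  | succ n ih =>
    simp only [TT]
    apply Measurable.ite
    · apply measurableSet_lt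
      · fun_prop
      · unfold pr
        apply Measurable.div
        · apply measurable_P_comp hP hm measurable_fst
          rw [measurable_set_iff]
          intro x
          by_cases hx : x = e n
          · subst hx; simp
          · simp only [Set.mem_insert_iff, hx, false_or]
            exact measurable_set_iff.1 ih x
        · exact measurable_P_comp hP hm measurable_fst _ ih
    · rw [measurable_set_iff]
      intro x
      by_cases hx : x = e n
      · subst hx; simp
      · simp only [Set.mem_insert_iff, hx, false_or]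
        exact measurable_set_iff.1 ih x
    · exact ih

include hP hm in
theorem measurable_TL : Measurable (fun z : α × (ℕ → unitInterval) => TL e (P z.1) z.2) := by
  rw [measurable_set_iff]
  intro x
  exact measurable_set_iff.1 (measurable_TT e hP hm (e.symm x + 1)) x

theorem cylP_of_measure (μ : Measure (Set E)) [IsProbabilityMeasure μ] :
    CylP (fun S A => μ.real {T | ∀ x ∈ S, (x ∈ T ↔ x ∈ A)}) where
  P_congr := by
    intro S A A' h
    congr 1
    ext T
    simp only [mem_ofPred_eq]
    apply forall₂_congr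
    intro x hx
    rw [h x hx]
  P_nonneg := fun _ _ => measureReal_nonneg
  P_empty := by intro A; simp
  P_split := by
    intro S A h hh
    rw [← measureReal_union]
    · congr 1
      ext T
      simp only [mem_ofPred_eq, Finset.mem_insert, forall_eq_or_imp, mem_union, mem_insert_iff,
        Set.mem_sdiff, mem_singleton_iff, true_or, iff_true, not_true_eq_false, and_false, iff_false]
      have e1 : (∀ x ∈ S, (x ∈ T ↔ x = h ∨ x ∈ A)) ↔ (∀ x ∈ S, (x ∈ T ↔ x ∈ A)) := by
        apply forall₂_congr
        intro x hx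
        have : x ≠ h := fun h' => hh (h' ▸ hx)
        simp [this]
      have e2 : (∀ x ∈ S, (x ∈ T ↔ x ∈ A ∧ ¬ x = h)) ↔ (∀ x ∈ S, (x ∈ T ↔ x ∈ A)) := by
        apply forall₂_congr
        intro x hx
        have : x ≠ h := fun h' => hh (h' ▸ hx)
        simp [this]
      rw [e1, e2]
      by_cases hT : h ∈ T <;> simp [hT]
    · rw [Set.disjoint_left]
      intro T h1 h2
      simp only [mem_ofPred_eq, Finset.mem_insert, forall_eq_or_imp, mem_insert_iff, true_or,
        iff_true, Set.mem_sdiff, mem_singleton_iff, not_true_eq_false, and_false, iff_false] at h1 h2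
      exact h2.1 h1.1
    · exact measurableSet_cylE _ _

include e hP hm in
theorem exists_kernel_of_cylP : ∃ κ : Kernel α (Set E), IsMarkovKernel κ ∧
    ∀ a S A, (κ a).real {T | ∀ x ∈ S, (x ∈ T ↔ x ∈ A)} = P a S A := by
  classical
  have hTL := measurable_TL e hP hm
  let κ : Kernel α (Set E) :=
    (Kernel.id ×ₖ (Kernel.const α (iidU ℕ))).map (fun z : α × (ℕ → unitInterval) => TL e (P z.1) z.2)
  have hκ : ∀ a, κ a = (iidU ℕ).map (fun ξ => TL e (P a) ξ) := by
    intro a
    show ((Kernel.id ×ₖ (Kernel.const α (iidU ℕ))).map _) a = _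
    rw [Kernel.map_apply _ hTL, Kernel.prod_apply, Kernel.id_apply, Kernel.const_apply,
      Measure.dirac_prod, Measure.map_map hTL measurable_prodMk_left]
    rfl
  have hMk : IsMarkovKernel κ := Kernel.IsMarkovKernel.map _ hTL
  refine ⟨κ, hMk, ?_⟩
  intro a
  have hTLa : Measurable (fun ξ => TL e (P a) ξ) := hTL.comp measurable_prodMk_left
  apply CylP.eq_of_Wn e (cylP_of_measure (κ a)) (hP a)
  intro n A
  rw [hκ, measureReal_def, Measure.map_apply hTLa (measurableSet_cylE _ _)]
  have hset : (fun ξ => TL e (P a) ξ) ⁻¹' {T | ∀ x ∈ Wn e n, (x ∈ T ↔ x ∈ A)}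
      = (Finset.range n : Set ℕ).pi
        (fun k => {r : unitInterval | ((r : ℝ) < pr (P a) (Wn e k) A (e k)) ↔ e k ∈ A}) := by
    ext ξ
    simp only [mem_preimage, mem_ofPred_eq, Set.mem_pi, Finset.mem_coe]
    exact agree_TL e (hP a) ξ n A
  rw [hset]
  unfold iidU
  rw [Measure.infinitePi_pi]
  · rw [← (hP a).prod_eq e n A]
    rw [ENNReal.toReal_prod]
    apply Finset.prod_congr rfl
    intro k _
    have hmem := (hP a).pr_mem (Wn e k) A (e k) (e_notMem_Wn e k)
    rw [vol_box _ hmem, ENNReal.toReal_ofReal]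
    split_ifs
    · exact hmem.1
    · linarith [hmem.2]
  · intro k _
    apply measurableSet_setOfPred.2
    apply Measurable.iff _ measurable_const
    exact measurableSet_setOfPred.1 (measurableSet_lt (by fun_prop) measurable_const)

end

end Vale.Agent.P143
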