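import Vale.Agent.P143.Base

open MeasureTheory ProbabilityTheory Set Filter Topology
open scoped ENNReal

namespace Vale.Agent.P143

section Windows

variable {E : Type*} [DecidableEq E]

/-- exhausting windows -/
structure IsWin (W : ℕ → Finset E) : Prop where
  mono : Monotone W
  exh : ∀ e, ∃ n, e ∈ W n

open Classical in
noncomputable def stdWin (E : Type*) [Encodable E] (n : ℕ) : Finset E :=
  Finset.eraseNone ((Finset.range n).image (fun k => (Encodable.decode k : Option E)))

open Classical in
noncomputable def JW (W : ℕ → Finset E) (J : Set E) (n : ℕ) : Finset E :=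
  (W n).filter (fun e => e ∈ J)

/-- cylinder probabilities of a measure on configurations -/
noncomputable def Pm (μ : Measure (Set E)) (S : Finset E) (A : Set E) : ℝ := μ.real (cyl S A)

noncomputable def CW (P : Finset E → Set E → ℝ) (S : Finset E) (T : Set E) (g f : E) : ℝ :=
  (P (insert f S) (insert g (T \ {f})) * P (insert f S) (insert f (T \ {g}))
      - P (insert f S) (insert g (insert f T)) * P (insert f S) ((T \ {f}) \ {g})) / (P S T) ^ 2

noncomputable def pJ (P : Finset E → Set E → ℝ) (W : ℕ → Finset E) (J T : Set E) (f : E) : ℝ :=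
  limsup (fun n => pr P (JW W J n) T f) atTop

noncomputable def CJ (P : Finset E → Set E → ℝ) (W : ℕ → Finset E) (J T : Set E) (g f : E) : ℝ≥0∞ :=
  limsup (fun n => ENNReal.ofReal (CW P (JW W J n) T g f)) atTop

/-- `h` only depends on the part of the configuration in `I` -/
def DependsOn' {α : Type*} (h : Set E → α) (I : Set E) : Prop :=
  ∀ T T' : Set E, (∀ e ∈ I, (e ∈ T ↔ e ∈ T')) → h T = h T'

end Windows

end Vale.Agent.P143
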