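import Vale.Agent.P143.Defs

open MeasureTheory ProbabilityTheory Set Filter Topology
open scoped ENNReal unitInterval

namespace Vale.Agent.P143

section Coupling

variable {E : Type*}

noncomputable def iidU (E : Type*) : Measure (E → unitInterval) :=
  Measure.infinitePi (fun _ : E => (volume : Measure unitInterval))

instance (E : Type*) : IsProbabilityMeasure (iidU E) := by
  unfold iidU; infer_instance

def Iset (τ : E → ℝ) (g : E) : Set E := {f | τ f < τ g}

open Classical in
noncomputable def Vmap (p : E → Set E → unitInterval) (T : Set E) (ξ : E → unitInterval) :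
    E → unitInterval :=
  fun g => if g ∈ T then p g T * ξ g else
    unitInterval.symm (unitInterval.symm (p g T) * unitInterval.symm (ξ g))

structure Adapted (μ : Measure (Set E)) (τ : E → ℝ) (p : E → Set E → unitInterval) : Prop where
  inj : Function.Injective τ
  meas : ∀ g, Measurable (p g)
  dep : ∀ g, DependsOn' (p g) (Iset τ g)
  cond : ∀ g (h : Set E → ℝ≥0∞), Measurable h → DependsOn' h (Iset τ g) →
    ∫⁻ T in {T | g ∈ T}, h T ∂μ = ∫⁻ T, h T * ENNReal.ofReal (p g T) ∂μ

noncomputable def kap (μ : Measure (Set E)) (p : E → Set E → unitInterval) :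
    Measure ((E → unitInterval) × Set E) :=
  (μ.prod (iidU E)).map (fun x => (Vmap p x.1 x.2, x.1))

noncomputable def Qc (η : Kernel (E → unitInterval) (Set E)) :
    Measure ((E → unitInterval) × (Set E × Set E)) :=
  (iidU E) ⊗ₘ (η ×ₖ η)

end Coupling

end Vale.Agent.P143
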