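import Vale.Agent.P143.GDefs2

open MeasureTheory ProbabilityTheory Set Filter Topology
open scoped ENNReal

namespace Vale.Agent.P143

def reach (G : SimpleGraph ℕ) : ℕ → ℕ → ℕ → Prop
  | 0, v, w => v = w
  | n + 1, v, w => reach G n v w ∨ ∃ u, reach G n v u ∧ G.Adj u w

def before (G : SimpleGraph ℕ) (A : ℕ → unitInterval) (v w' w : ℕ) : Prop :=
  (∃ n, reach G n v w' ∧ ¬ reach G n v w) ∨ ((∀ n, reach G n v w' ↔ reach G n v w) ∧ A w' < A w)

noncomputable def rank (G : SimpleGraph ℕ) (A : ℕ → unitInterval) (v w : ℕ) : ℕ :=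
  {w' | before G A v w' w}.ncard

noncomputable def enm (G : SimpleGraph ℕ) (A : ℕ → unitInterval) (v k : ℕ) : ℕ :=
  sInf {w | rank G A v w = k}

def GoodA (G : SimpleGraph ℕ) (A : ℕ → unitInterval) : Prop :=
  Function.Injective A ∧ ∀ v, Function.Bijective (rank G A v)

section Det

variable {G : SimpleGraph ℕ} {A : ℕ → unitInterval}

theorem reach_mono {n m : ℕ} (h : n ≤ m) {v w : ℕ} (hr : reach G n v w) : reach G m v w := by
  induction m, h using Nat.le_induction with
  | base => exact hr
  | succ m _ ih => exact Or.inl ih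

theorem reach_finite (hG : GoodG G) (n v : ℕ) : {w | reach G n v w}.Finite := by
  induction n with
  | zero =>
    have : {w | reach G 0 v w} = {v} := by
      ext w; simp only [reach, mem_ofPred_eq, mem_singleton_iff]; exact eq_comm
    rw [this]; exact Set.finite_singleton _
  | succ n ih =>
    have : {w | reach G (n + 1) v w} = {w | reach G n v w} ∪
        ⋃ u ∈ {w | reach G n v w}, G.neighborSet u := by
      ext w
      simp only [reach, mem_ofPred_eq, mem_union, mem_iUnion, SimpleGraph.mem_neighborSet,
        exists_prop]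
    rw [this]
    exact ih.union (ih.biUnion fun u _ => hG.2 u)

theorem exists_reach (hG : G.Connected) (v w : ℕ) : ∃ n, reach G n v w := by
  obtain ⟨p⟩ := hG.preconnected v w
  have key : ∀ {a b : ℕ} (p : G.Walk a b), ∀ n, reach G n v a → ∃ m, reach G m v b := by
    intro a b p
    induction p with
    | nil => intro n hn; exact ⟨n, hn⟩
    | cons h p ih => intro n hn; exact ih (n + 1) (Or.inr ⟨_, hn, h⟩)
  exact key p 0 rfl

theorem before_trans {v a b c : ℕ} (h1 : before G A v a b) (h2 : before G A v b c) :
    before G A v a c := by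
  rcases h1 with ⟨n, h1, h1'⟩ | ⟨h1, h1'⟩
  · rcases h2 with ⟨m, h2, h2'⟩ | ⟨h2, h2'⟩
    · left
      refine ⟨n, h1, fun h3 => ?_⟩
      rcases le_total n m with h | h
      · exact h2' (reach_mono h h3)
      · exact h1' (reach_mono h h2)
    · left
      exact ⟨n, h1, fun h3 => h1' ((h2 n).2 h3)⟩
  · rcases h2 with ⟨m, h2, h2'⟩ | ⟨h2, h2'⟩
    · left
      exact ⟨m, (h1 m).2 h2, h2'⟩
    · right
      exact ⟨fun n => (h1 n).trans (h2 n), h1'.trans h2'⟩

theorem before_irrefl (v a : ℕ) : ¬ before G A v a a := by
  rintro (⟨n, h1, h2⟩ | ⟨_, h⟩)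
  · exact h2 h1
  · exact lt_irrefl _ h

theorem before_total (hA : Function.Injective A) {v a b : ℕ} (hab : a ≠ b) :
    before G A v a b ∨ before G A v b a := by
  by_cases h : ∀ n, reach G n v a ↔ reach G n v b
  · rcases lt_or_gt_of_ne (fun h' => hab (hA h')) with h' | h'
    · exact Or.inl (Or.inr ⟨h, h'⟩)
    · exact Or.inr (Or.inr ⟨fun n => (h n).symm, h'⟩)
  · push Not at h
    obtain ⟨n, h⟩ := h
    rcases h with ⟨h1, h2⟩ | ⟨h1, h2⟩
    · exact Or.inl (Or.inl ⟨n, h1, h2⟩)
    · exact Or.inr (Or.inl ⟨n, h2, h1⟩)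

theorem before_finite (hG : GoodG G) (v w : ℕ) : {w' | before G A v w' w}.Finite := by
  obtain ⟨m, hm⟩ := exists_reach hG.1 v w
  refine (reach_finite hG m v).subset ?_
  rintro w' (⟨n, h1, h2⟩ | ⟨h, _⟩)
  · rcases le_total n m with h | h
    · exact reach_mono h h1
    · exact absurd (reach_mono h hm) h2
  · exact (h m).2 hm

theorem rank_lt (hG : GoodG G) {v a b : ℕ} (h : before G A v a b) :
    rank G A v a < rank G A v b := by
  unfold rank
  apply Set.ncard_lt_ncard _ (before_finite hG v b)
  refine ⟨fun c hc => before_trans hc h, fun hsub => ?_⟩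
  exact before_irrefl v a (hsub h)

theorem rank_injective (hG : GoodG G) (hA : Function.Injective A) (v : ℕ) :
    Function.Injective (rank G A v) := by
  intro a b hab
  by_contra hne
  rcases before_total hA (v := v) (G := G) hne with h | h
  · exact absurd (rank_lt hG h) (by omega)
  · exact absurd (rank_lt hG h) (by omega)

theorem rank_surjective (hG : GoodG G) (hA : Function.Injective A) (v : ℕ) :
    Function.Surjective (rank G A v) := by
  intro n
  have hinj := rank_injective hG hA v
  have hne : ∃ k, ∃ w, rank G A v w = k ∧ n ≤ k := by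
    by_contra hcon
    push Not at hcon
    have hfin : (Set.range (rank G A v)).Finite :=
      (Set.finite_Iio n).subset (by rintro _ ⟨w, rfl⟩; exact hcon _ w rfl)
    exact Set.infinite_range_of_injective hinj hfin
  classical
  obtain ⟨w, hw, hnk⟩ := Nat.find_spec hne
  have hmin : ∀ w', rank G A v w' < rank G A v w → rank G A v w' < n := by
    intro w' hw'
    by_contra hcon
    push Not at hcon
    exact Nat.find_min hne (by rw [← hw]; exact hw') ⟨w', rfl, hcon⟩
  refine ⟨w, le_antisymm ?_ (by rw [hw]; exact hnk)⟩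
  have hset : rank G A v '' {w' | before G A v w' w} ⊆ Set.Iio n := by
    rintro _ ⟨w', hw', rfl⟩
    exact hmin w' (rank_lt hG hw')
  calc rank G A v w = {w' | before G A v w' w}.ncard := rfl
    _ = (rank G A v '' {w' | before G A v w' w}).ncard :=
        (Set.ncard_image_of_injective _ hinj).symm
    _ ≤ (Set.Iio n).ncard := Set.ncard_le_ncard hset (Set.finite_Iio n)
    _ = n := by simp [Set.ncard_eq_toFinset_card']

theorem goodA_of_goodG (hG : GoodG G) (hA : Function.Injective A) : GoodA G A :=
  ⟨hA, fun v => ⟨rank_injective hG hA v, rank_surjective hG hA v⟩⟩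

theorem enm_rank (h : GoodA G A) (v w : ℕ) : enm G A v (rank G A v w) = w := by
  unfold enm
  have : {w' | rank G A v w' = rank G A v w} = {w} := by
    ext w'
    simp only [mem_ofPred_eq, mem_singleton_iff]
    exact (h.2 v).1.eq_iff
  rw [this, csInf_singleton]

theorem rank_enm (h : GoodA G A) (v k : ℕ) : rank G A v (enm G A v k) = k := by
  obtain ⟨w, rfl⟩ := (h.2 v).2 k
  rw [enm_rank h]

noncomputable def rankEquiv (h : GoodA G A) (v : ℕ) : Equiv.Perm ℕ where
  toFun := rank G A v
  invFun := enm G A v
  left_inv := enm_rank h v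
  right_inv := rank_enm h v

end Det

section Equi

variable (σ : Equiv.Perm ℕ) (G : SimpleGraph ℕ) (A : ℕ → unitInterval)

theorem map_adj_perm (a b : ℕ) : (G.map σ.toEmbedding).Adj (σ a) (σ b) ↔ G.Adj a b := by
  exact SimpleGraph.map_adj_apply (f := σ.toEmbedding)

theorem map_adj_perm' (a b : ℕ) :
    (G.map σ.toEmbedding).Adj a b ↔ G.Adj (σ.symm a) (σ.symm b) := by
  have := map_adj_perm σ G (σ.symm a) (σ.symm b)
  simpa using this

theorem reach_map (n v w : ℕ) : reach (G.map σ.toEmbedding) n (σ v) (σ w) ↔ reach G n v w := by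
  induction n generalizing w with
  | zero => simp [reach]
  | succ n ih =>
    simp only [reach]
    apply or_congr (ih w)
    constructor
    · rintro ⟨u, h1, h2⟩
      refine ⟨σ.symm u, ?_, ?_⟩
      · rw [← ih]; simpa using h1
      · rw [map_adj_perm'] at h2; simpa using h2
    · rintro ⟨u, h1, h2⟩
      exact ⟨σ u, (ih u).2 h1, (map_adj_perm σ G u w).2 h2⟩

theorem before_map (v w' w : ℕ) :
    before (G.map σ.toEmbedding) (fun v => A (σ.symm v)) (σ v) (σ w') (σ w)
      ↔ before G A v w' w := by
  unfold before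
  simp only [reach_map, Equiv.symm_apply_apply]

theorem rank_map (v w : ℕ) :
    rank (G.map σ.toEmbedding) (fun v => A (σ.symm v)) (σ v) (σ w) = rank G A v w := by
  unfold rank
  rw [← Set.ncard_image_of_injective {w' | before G A v w' w} σ.injective]
  congr 1
  ext x
  simp only [mem_ofPred_eq, mem_image]
  constructor
  · intro h
    refine ⟨σ.symm x, ?_, by simp⟩
    rw [← before_map σ]
    simpa using h
  · rintro ⟨y, h, rfl⟩
    exact (before_map σ G A v y w).2 h

theorem rank_map' (v w : ℕ) :
    rank (G.map σ.toEmbedding) (fun v => A (σ.symm v)) v w = rank G A (σ.symm v) (σ.symm w) := by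
  have := rank_map σ G A (σ.symm v) (σ.symm w)
  simpa using this

theorem goodA_map : GoodA (G.map σ.toEmbedding) (fun v => A (σ.symm v)) ↔ GoodA G A := by
  unfold GoodA
  apply and_congr
  · constructor
    · intro h a b hab
      have := @h (σ a) (σ b) (by simpa using hab)
      exact σ.injective this
    · intro h
      exact h.comp σ.symm.injective
  · constructor
    · intro h v
      have h1 := h (σ v)
      have h2 : rank G A v = rank (G.map σ.toEmbedding) (fun v => A (σ.symm v)) (σ v) ∘ σ := by
        ext w; exact (rank_map σ G A v w).symm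
      rw [h2]
      exact h1.comp σ.bijective
    · intro h v
      have h1 := h (σ.symm v)
      have h2 : rank (G.map σ.toEmbedding) (fun v => A (σ.symm v)) v
          = rank G A (σ.symm v) ∘ σ.symm := by
        ext w; exact rank_map' σ G A v w
      rw [h2]
      exact h1.comp σ.symm.bijective

theorem enm_map (h : GoodA G A) (v k : ℕ) :
    enm (G.map σ.toEmbedding) (fun v => A (σ.symm v)) (σ v) k = σ (enm G A v k) := by
  have h' := (goodA_map σ G A).2 h
  apply (h'.2 (σ v)).1
  rw [rank_enm h', rank_map, rank_enm h]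

end Equi

end Vale.Agent.P143
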