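import Vale.Agent.P143.K4a

open MeasureTheory ProbabilityTheory Set Filter Topology
open scoped ENNReal unitInterval

namespace Vale.Agent.P143

namespace CpB

section

variable {E : Type*} [Countable E]

/-- a function of the configuration and the auxiliary labels which only depends on `K` -/
def Dep2 {α : Type*} (Y : Set E → (E → unitInterval) → α) (K : Set E) : Prop :=
  ∀ (T T' : Set E) (ξ ξ' : E → unitInterval),
    (∀ e ∈ K, (e ∈ T ↔ e ∈ T') ∧ ξ e = ξ' e) → Y T ξ = Y T' ξ'

theorem Dep2.mono {α : Type*} {Y : Set E → (E → unitInterval) → α} {K K' : Set E}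
    (h : Dep2 Y K) (hI : K ⊆ K') : Dep2 Y K' :=
  fun T T' ξ ξ' hh => h T T' ξ ξ' (fun e he => hh e (hI he))

theorem Dep2.mul {Y Z : Set E → (E → unitInterval) → ℝ≥0∞} {K : Set E}
    (h : Dep2 Y K) (h' : Dep2 Z K) : Dep2 (fun T ξ => Y T ξ * Z T ξ) K := by
  intro T T' ξ ξ' hh
  show Y T ξ * Z T ξ = Y T' ξ' * Z T' ξ'
  rw [h T T' ξ ξ' hh, h' T T' ξ ξ' hh]

variable {μ : Measure (Set E)} [IsProbabilityMeasure μ]
  {τ : E → ℝ} {p : E → Set E → unitInterval}

theorem dep2_V (hA : Adapted μ τ p) (g : E) (K : Set E) (hI : Iset τ g ⊆ K) (hg : g ∈ K) :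
    Dep2 (fun T ξ => Vmap p T ξ g) K := by
  intro T T' ξ ξ' hh
  have h1 : p g T = p g T' := hA.dep g T T' (fun e he => (hh e (hI he)).1)
  have h2 := hh g hg
  show Vmap p T ξ g = Vmap p T' ξ' g
  unfold Vmap
  by_cases hgT : g ∈ T
  · rw [if_pos hgT, if_pos (h2.1.1 hgT), h1, h2.2]
  · rw [if_neg hgT, if_neg (fun h => hgT (h2.1.2 h)), h1, h2.2]

theorem measurable_V (hA : Adapted μ τ p) (g : E) :
    Measurable (fun z : Set E × (E → unitInterval) => Vmap p z.1 z.2 g) := by
  classical
  unfold Vmap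
  have hp : Measurable (fun z : Set E × (E → unitInterval) => p g z.1) :=
    (hA.meas g).comp measurable_fst
  have hξ : Measurable (fun z : Set E × (E → unitInterval) => z.2 g) := by fun_prop
  apply Measurable.ite
  · exact measurable_fst (measurableSet_mem' g)
  · exact hp.mul hξ
  · exact unitInterval.measurable_symm.comp ((unitInterval.measurable_symm.comp hp).mul
      (unitInterval.measurable_symm.comp hξ))

theorem measurable_Vmap' (hA : Adapted μ τ p) :
    Measurable (fun z : Set E × (E → unitInterval) => Vmap p z.1 z.2) :=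
  measurable_pi_lambda _ (fun g => measurable_V hA g)

noncomputable def ca (φ : unitInterval → ℝ≥0∞) (q : unitInterval) : ℝ≥0∞ :=
  ∫⁻ r : unitInterval, φ (q * r) ∂volume

noncomputable def cb (φ : unitInterval → ℝ≥0∞) (q : unitInterval) : ℝ≥0∞ :=
  ∫⁻ r : unitInterval, φ (σ (σ q * σ r)) ∂volume

theorem measurable_ca {φ : unitInterval → ℝ≥0∞} (hφ : Measurable φ) : Measurable (ca φ) := by
  unfold ca
  apply Measurable.lintegral_prod_right' (f := fun z : unitInterval × unitInterval => φ (z.1 * z.2))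
  exact hφ.comp (measurable_fst.mul measurable_snd)

theorem measurable_cb {φ : unitInterval → ℝ≥0∞} (hφ : Measurable φ) : Measurable (cb φ) := by
  unfold cb
  apply Measurable.lintegral_prod_right'
    (f := fun z : unitInterval × unitInterval => φ (σ (σ z.1 * σ z.2)))
  exact hφ.comp (unitInterval.measurable_symm.comp
    ((unitInterval.measurable_symm.comp measurable_fst).mul
      (unitInterval.measurable_symm.comp measurable_snd)))

theorem step (hA : Adapted μ τ p) (g : E) (Y : Set E → (E → unitInterval) → ℝ≥0∞)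
    (hY : Measurable (Function.uncurry Y)) (hYd : Dep2 Y (Iset τ g))
    (φ : unitInterval → ℝ≥0∞) (hφ : Measurable φ) :
    ∫⁻ T, ∫⁻ ξ, Y T ξ * φ (Vmap p T ξ g) ∂(iidU E) ∂μ
      = (∫⁻ T, ∫⁻ ξ, Y T ξ ∂(iidU E) ∂μ) * ∫⁻ r : unitInterval, φ r ∂volume := by
  classical
  have hYT : ∀ T, Measurable (fun ξ => Y T ξ) := fun T => hY.comp measurable_prodMk_left
  have hVT : ∀ T, Measurable (fun ξ => Vmap p T ξ g) :=
    fun T => (measurable_V hA g).comp measurable_prodMk_left
  have hgI : g ∉ Iset τ g := by unfold Iset; simp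
  set Yb : Set E → ℝ≥0∞ := fun T => ∫⁻ ξ, Y T ξ ∂(iidU E) with hYb
  have hYbm : Measurable Yb := hY.lintegral_prod_right'
  have hYbd : DependsOn' Yb (Iset τ g) := by
    intro T T' hT
    rw [hYb]
    apply lintegral_congr
    intro ξ
    exact hYd T T' ξ ξ (fun e he => ⟨hT e he, rfl⟩)
  have h1 : ∀ T, ∫⁻ ξ, Y T ξ * φ (Vmap p T ξ g) ∂(iidU E)
      = Yb T * (if g ∈ T then ca φ (p g T) else cb φ (p g T)) := by
    intro T
    have hm0 : Measurable (fun ξ => Y T ξ * φ (Vmap p T ξ g)) := (hYT T).mul (hφ.comp (hVT T))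
    rw [lintegral_iidU_update g _ hm0]
    have h2 : ∀ ξ : E → unitInterval, ∀ r : unitInterval,
        Y T (Function.update ξ g r) * φ (Vmap p T (Function.update ξ g r) g)
        = Y T ξ * φ (if g ∈ T then p g T * r else σ (σ (p g T) * σ r)) := by
      intro ξ r
      have e1 : Y T (Function.update ξ g r) = Y T ξ := by
        apply hYd
        intro e he
        refine ⟨Iff.rfl, ?_⟩
        rw [Function.update_of_ne]
        rintro rfl
        exact hgI he
      rw [e1]
      unfold Vmap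
      rw [Function.update_self]
    simp_rw [h2]
    have hmr : Measurable (fun r : unitInterval =>
        φ (if g ∈ T then p g T * r else σ (σ (p g T) * σ r))) := by
      apply hφ.comp
      by_cases hg : g ∈ T
      · simp only [if_pos hg]; fun_prop
      · simp only [if_neg hg]
        exact unitInterval.measurable_symm.comp
          ((measurable_const).mul unitInterval.measurable_symm)
    simp_rw [lintegral_const_mul _ hmr]
    rw [lintegral_mul_const _ (hYT T)]
    congr 1
    by_cases hg : g ∈ T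
    · simp only [if_pos hg]; rfl
    · simp only [if_neg hg]; rfl
  simp_rw [h1]
  have hms := measurableSet_mem' g
  rw [← lintegral_add_compl _ hms]
  have hpm := hA.meas g
  have e1 : ∫⁻ T in {T | g ∈ T}, Yb T * (if g ∈ T then ca φ (p g T) else cb φ (p g T)) ∂μ
      = ∫⁻ T in {T | g ∈ T}, Yb T * ca φ (p g T) ∂μ := by
    apply setLIntegral_congr_fun hms
    intro T hT
    have hT' : g ∈ T := hT
    simp only [if_pos hT']
  have e2 : ∫⁻ T in {T | g ∈ T}ᶜ, Yb T * (if g ∈ T then ca φ (p g T) else cb φ (p g T)) ∂μ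
      = ∫⁻ T in {T | g ∉ T}, Yb T * cb φ (p g T) ∂μ := by
    apply setLIntegral_congr_fun hms.compl
    intro T hT
    have hT' : g ∉ T := hT
    simp only [if_neg hT']
  have hma : Measurable (fun T => Yb T * ca φ (p g T)) := hYbm.mul ((measurable_ca hφ).comp hpm)
  have hmb : Measurable (fun T => Yb T * cb φ (p g T)) := hYbm.mul ((measurable_cb hφ).comp hpm)
  have hda : DependsOn' (fun T => Yb T * ca φ (p g T)) (Iset τ g) := by
    intro T T' hT
    simp only [hYbd T T' hT, hA.dep g T T' hT]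
  have hdb : DependsOn' (fun T => Yb T * cb φ (p g T)) (Iset τ g) := by
    intro T T' hT
    simp only [hYbd T T' hT, hA.dep g T T' hT]
  have e3 := hA.cond g _ hma hda
  have e4 := cond_compl hA g _ hmb hdb
  have hmc : Measurable (fun T => Yb T * ca φ (p g T) * ENNReal.ofReal (p g T : ℝ)) :=
    hma.mul (measurable_subtype_coe.comp hpm).ennreal_ofReal
  rw [e1, e2, e3, e4, ← lintegral_add_left hmc, ← lintegral_mul_const _ hYbm]
  apply lintegral_congr
  intro T
  rw [← mix_lintegral (p g T) φ hφ]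
  show Yb T * ca φ (p g T) * ENNReal.ofReal (p g T)
      + Yb T * cb φ (p g T) * ENNReal.ofReal (1 - p g T)
    = Yb T * (ENNReal.ofReal (p g T) * ca φ (p g T) + ENNReal.ofReal (1 - p g T) * cb φ (p g T))
  ring

theorem M2 (hA : Adapted μ τ p) (J : Set E) (φ : E → unitInterval → ℝ≥0∞)
    (hφ : ∀ e, Measurable (φ e)) (Y : Set E → (E → unitInterval) → ℝ≥0∞)
    (hY : Measurable (Function.uncurry Y)) (hYd : Dep2 Y J) (n : ℕ) :
    ∀ D : Finset E, D.card = n → (∀ d ∈ D, ∀ j ∈ J, τ j < τ d) →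
    ∫⁻ T, ∫⁻ ξ, Y T ξ * ∏ d ∈ D, φ d (Vmap p T ξ d) ∂(iidU E) ∂μ
      = (∫⁻ T, ∫⁻ ξ, Y T ξ ∂(iidU E) ∂μ) * ∏ d ∈ D, ∫⁻ r : unitInterval, φ d r ∂volume := by
  classical
  induction n with
  | zero =>
    intro D hD _
    rw [Finset.card_eq_zero] at hD
    subst hD
    simp
  | succ n ih =>
    intro D hcard hD
    have hne : D.Nonempty := by
      rw [← Finset.card_pos, hcard]; exact Nat.succ_pos n
    obtain ⟨g, hgD, hgmax⟩ := D.exists_max_image τ hne
    set D' := D.erase g with hD'
    have hcard' : D'.card = n := by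
      rw [hD', Finset.card_erase_of_mem hgD, hcard]; rfl
    have hlt : ∀ d ∈ D', τ d < τ g := by
      intro d hd
      rw [hD', Finset.mem_erase] at hd
      refine lt_of_le_of_ne (hgmax d hd.2) ?_
      intro h
      exact hd.1 (hA.inj h)
    have hprod : ∀ T ξ, Y T ξ * ∏ d ∈ D, φ d (Vmap p T ξ d)
        = (Y T ξ * ∏ d ∈ D', φ d (Vmap p T ξ d)) * φ g (Vmap p T ξ g) := by
      intro T ξ
      rw [hD', ← Finset.prod_erase_mul D _ hgD, mul_assoc]
    simp_rw [hprod]
    rw [step hA g (fun T ξ => Y T ξ * ∏ d ∈ D', φ d (Vmap p T ξ d)) _ _ (φ g) (hφ g),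
      ih D' hcard' (fun d hd j hj => hD d (Finset.mem_of_mem_erase hd) j hj),
      ← Finset.prod_erase_mul D _ hgD, mul_assoc]
    · apply Measurable.mul hY
      exact Finset.measurable_prod _ (fun d _ => (hφ d).comp (measurable_V hA d))
    · intro T T' ξ ξ' hh
      have e1 : Y T ξ = Y T' ξ' :=
        hYd T T' ξ ξ' (fun e he => hh e (show τ e < τ g from hD g hgD e he))
      have e2 : ∀ d ∈ D', φ d (Vmap p T ξ d) = φ d (Vmap p T' ξ' d) := by
        intro d hd
        congr 1
        exact dep2_V hA d (Iset τ g) (fun e he => lt_trans he (hlt d hd)) (hlt d hd) T T' ξ ξ' hh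
      show Y T ξ * ∏ d ∈ D', φ d (Vmap p T ξ d) = Y T' ξ' * ∏ d ∈ D', φ d (Vmap p T' ξ' d)
      rw [e1, Finset.prod_congr rfl e2]

end

end CpB

end Vale.Agent.P143
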