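import Vale.Agent.P143.MeasB
import Vale.Agent.P143.Static
import Vale.Agent.P143.K4b

open MeasureTheory ProbabilityTheory Set Filter Topology
open scoped ENNReal

namespace Vale.Agent.P143

section Good

def rn (G : SimpleGraph ℕ) (u : ℕ) : ℕ → ℕ → Prop
  | 0, v => u = v
  | n + 1, v => ∃ w, rn G u n w ∧ G.Adj w v

theorem rn_iff (G : SimpleGraph ℕ) (u v : ℕ) : G.Reachable u v ↔ ∃ n, rn G u n v := by
  rw [SimpleGraph.reachable_iff_reflTransGen]
  constructor
  · intro h
    induction h with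
    | refl => exact ⟨0, rfl⟩
    | tail _ hbc ih =>
      obtain ⟨n, hn⟩ := ih
      exact ⟨n + 1, _, hn, hbc⟩
  · rintro ⟨n, hn⟩
    induction n generalizing v with
    | zero => rw [show u = v from hn]
    | succ n ih =>
      obtain ⟨w, hw, hwv⟩ := hn
      exact Relation.ReflTransGen.tail (ih w hw) hwv

theorem measurableSet_rn (u : ℕ) (n v : ℕ) : MeasurableSet {G : SimpleGraph ℕ | rn G u n v} := by
  induction n generalizing v with
  | zero =>
    by_cases h : u = v
    · simp [rn, h]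
    · simp [rn, h]
  | succ n ih =>
    have : {G : SimpleGraph ℕ | rn G u (n + 1) v}
        = ⋃ w : ℕ, ({G : SimpleGraph ℕ | rn G u n w} ∩ {G | G.Adj w v}) := by
      ext G
      simp only [Set.mem_ofPred_eq, mem_iUnion, mem_inter_iff]
      exact Iff.rfl
    rw [this]
    exact MeasurableSet.iUnion (fun w => (ih w).inter (measurableSet_adj w v))

theorem goodG_iff (G : SimpleGraph ℕ) :
    GoodG G ↔ (∀ u v, ∃ n, rn G u n v) ∧ ∀ v, ∃ N, ∀ y, N ≤ y → ¬ G.Adj v y := by
  unfold GoodG
  constructor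
  · rintro ⟨h1, h2⟩
    refine ⟨fun u v => (rn_iff G u v).1 (h1.preconnected u v), fun v => ?_⟩
    obtain ⟨N, hN⟩ := (h2 v).bddAbove
    refine ⟨N + 1, fun y hy hadj => ?_⟩
    have := hN (show y ∈ G.neighborSet v from hadj)
    omega
  · rintro ⟨h1, h2⟩
    refine ⟨?_, fun v => ?_⟩
    · rw [SimpleGraph.connected_iff]
      exact ⟨fun u v => (rn_iff G u v).2 (h1 u v), ⟨0⟩⟩
    · obtain ⟨N, hN⟩ := h2 v
      refine (Set.finite_Iio N).subset ?_
      intro y hy
      by_contra hcon
      exact hN y (not_lt.1 hcon) hy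

theorem measurableSet_GoodG : MeasurableSet {G | GoodG G} := by
  have : {G | GoodG G} = (⋂ u : ℕ, ⋂ v : ℕ, ⋃ n : ℕ, {G : SimpleGraph ℕ | rn G u n v})
      ∩ ⋂ v : ℕ, ⋃ N : ℕ, ⋂ y : ℕ, {G : SimpleGraph ℕ | N ≤ y → ¬ G.Adj v y} := by
    ext G
    simp only [Set.mem_ofPred_eq, mem_iInter, mem_iUnion, mem_inter_iff]
    exact goodG_iff G
  rw [this]
  apply MeasurableSet.inter
  · exact MeasurableSet.iInter (fun u => MeasurableSet.iInter (fun v =>
      MeasurableSet.iUnion (fun n => measurableSet_rn u n v)))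
  · refine MeasurableSet.iInter (fun v => MeasurableSet.iUnion (fun N =>
      MeasurableSet.iInter (fun y => ?_)))
    by_cases h : N ≤ y
    · simp only [h, true_imp_iff]
      exact (measurableSet_adj v y).compl
    · simp only [h, false_imp_iff]
      simp

theorem map_adj_iff' (σ : Equiv.Perm ℕ) (G : SimpleGraph ℕ) (x y : ℕ) :
    (G.map σ.toEmbedding).Adj (σ x) (σ y) ↔ G.Adj x y :=
  SimpleGraph.map_adj_apply (f := σ.toEmbedding)

theorem goodG_map (σ : Equiv.Perm ℕ) (G : SimpleGraph ℕ) :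
    GoodG (G.map σ.toEmbedding) ↔ GoodG G := by
  unfold GoodG
  have φ : G ≃g G.map σ.toEmbedding := SimpleGraph.Iso.map σ G
  apply and_congr
  · exact φ.connected_iff.symm
  · constructor
    · intro h v
      have h1 := h (σ v)
      refine Set.Finite.of_finite_image (f := σ) (h1.subset ?_) σ.injective.injOn
      rintro _ ⟨y, hy, rfl⟩
      exact (map_adj_iff' σ G v y).2 hy
    · intro h v
      have h1 := (h (σ.symm v)).image σ
      refine h1.subset ?_
      intro y hy
      refine ⟨σ.symm y, ?_, by simp⟩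
      have hy' : (G.map σ.toEmbedding).Adj v y := hy
      have := map_adj_iff' σ G (σ.symm v) (σ.symm y)
      rw [Equiv.apply_symm_apply, Equiv.apply_symm_apply] at this
      exact this.1 hy'

end Good

section Rel

variable (σ : Equiv.Perm ℕ)

/-- the induced permutation of edges -/
def eS : Ed ≃ Ed where
  toFun := Sym2.map σ
  invFun := Sym2.map σ.symm
  left_inv e := by rw [Sym2.map_map]; simp
  right_inv e := by rw [Sym2.map_map]; simp

theorem eS_apply (e : Ed) : eS σ e = Sym2.map σ e := rfl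

theorem mem_rel (T : Set Ed) (e : Ed) : e ∈ rel σ T ↔ (eS σ).symm e ∈ T := by
  show e ∈ (eS σ) '' T ↔ _
  constructor
  · rintro ⟨a, ha, rfl⟩
    rw [Equiv.symm_apply_apply]; exact ha
  · intro h
    exact ⟨(eS σ).symm e, h, Equiv.apply_symm_apply _ _⟩

theorem map_mem_rel (T : Set Ed) (e : Ed) : Sym2.map σ e ∈ rel σ T ↔ e ∈ T := by
  rw [mem_rel, ← eS_apply, Equiv.symm_apply_apply]

theorem relL_apply (x : Ed → unitInterval) (e : Ed) : relL σ x (Sym2.map σ e) = x e := by
  unfold relL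
  congr 1
  exact (eS σ).symm_apply_apply e

theorem edgeSet_rel (G : SimpleGraph ℕ) (e : Ed) :
    Sym2.map σ e ∈ (G.map σ.toEmbedding).edgeSet ↔ e ∈ G.edgeSet := by
  induction e using Sym2.ind with
  | _ x y => exact map_adj_iff' σ G x y

theorem degE_rel (G : SimpleGraph ℕ) (x : ℕ) : degE (G.map σ.toEmbedding) (σ x) = degE G x := by
  classical
  unfold degE
  rw [← Equiv.tsum_eq σ]
  congr 1
  ext y
  by_cases h : G.Adj x y
  · rw [if_pos h, if_pos ((map_adj_iff' σ G x y).2 h)]
  · rw [if_neg h, if_neg (fun h' => h ((map_adj_iff' σ G x y).1 h'))]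

theorem wG_rel (G : SimpleGraph ℕ) (e : Ed) :
    wG (G.map σ.toEmbedding) (Sym2.map σ e) = wG G e := by
  classical
  unfold wG
  by_cases h : e ∈ G.edgeSet
  · rw [if_pos h, if_pos ((edgeSet_rel σ G e).2 h)]
    congr 2
    induction e using Sym2.ind with
    | _ x y =>
      show degE (G.map σ.toEmbedding) (σ x) + degE (G.map σ.toEmbedding) (σ y) = degE G x + degE G y
      rw [degE_rel, degE_rel]
  · rw [if_neg h, if_neg (fun h' => h ((edgeSet_rel σ G e).1 h'))]

theorem tauG_rel (G : SimpleGraph ℕ) (x : Ed → unitInterval) (e : Ed) :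
    tauG (G.map σ.toEmbedding) (relL σ x) (Sym2.map σ e) = tauG G x e := by
  unfold tauG
  rw [wG_rel, relL_apply]

theorem Jt_rel (G : SimpleGraph ℕ) (x : Ed → unitInterval) (s : ℝ) :
    Jt (G.map σ.toEmbedding) (relL σ x) s = rel σ (Jt G x s) := by
  ext e
  rw [mem_rel]
  unfold Jt
  simp only [Set.mem_ofPred_eq]
  have := tauG_rel σ G x ((eS σ).symm e)
  rw [← eS_apply, Equiv.apply_symm_apply] at this
  rw [this]

theorem Iset_rel (G : SimpleGraph ℕ) (x : Ed → unitInterval) (g : Ed) :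
    Iset (tauG (G.map σ.toEmbedding) (relL σ x)) (Sym2.map σ g) = rel σ (Iset (tauG G x) g) := by
  ext e
  rw [mem_rel]
  unfold Iset
  simp only [Set.mem_ofPred_eq]
  have := tauG_rel σ G x ((eS σ).symm e)
  rw [← eS_apply, Equiv.apply_symm_apply] at this
  rw [this, tauG_rel]

theorem inj_rel (G : SimpleGraph ℕ) (x : Ed → unitInterval) (hx : Function.Injective (tauG G x)) :
    Function.Injective (tauG (G.map σ.toEmbedding) (relL σ x)) := by
  intro a b hab
  have ha := tauG_rel σ G x ((eS σ).symm a)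
  have hb := tauG_rel σ G x ((eS σ).symm b)
  rw [← eS_apply, Equiv.apply_symm_apply] at ha hb
  rw [ha, hb] at hab
  exact (eS σ).symm.injective (hx hab)

theorem measurable_rel : Measurable (rel σ) := by
  rw [measurable_set_iff]
  intro e
  have : (fun T : Set Ed => e ∈ rel σ T) = fun T : Set Ed => (eS σ).symm e ∈ T := by
    ext T; exact mem_rel σ T e
  rw [this]
  exact measurable_set_mem _

theorem measurable_relL : Measurable (relL σ) := by
  unfold relL
  fun_prop

theorem iidU_rel : (iidU Ed).map (relL σ) = iidU Ed := by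
  have h : Function.Injective (eS σ).symm := (eS σ).symm.injective
  unfold iidU
  exact Measure.map_infinitePi_infinitePi_of_inj h

variable (μF : Kernel (SimpleGraph ℕ) (Set Ed)) [IsMarkovKernel μF]

theorem Pm_rel (hF : FK μF) (G : SimpleGraph ℕ) (hG : G.Connected) (S : Finset Ed) (A : Set Ed) :
    Pm (μF (G.map σ.toEmbedding)) S A
      = Pm (μF G) (S.map (eS σ).symm.toEmbedding) ((eS σ) ⁻¹' A) := by
  unfold Pm
  rw [hF.equiv σ G hG, measureReal_def, measureReal_def,
    Measure.map_apply (measurable_rel σ) (measurableSet_cyl S A)]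
  congr 2
  ext T
  simp only [mem_preimage]
  unfold cyl
  simp only [Set.mem_ofPred_eq, Finset.mem_map, Equiv.coe_toEmbedding, forall_exists_index, and_imp,
    forall_apply_eq_imp_iff₂, mem_preimage, Equiv.apply_symm_apply]
  constructor
  · intro h e he
    rw [← mem_rel]; exact h e he
  · intro h e he
    rw [mem_rel]; exact h e he

theorem pre_rel (T : Set Ed) : (eS σ) ⁻¹' (rel σ T) = T := by
  ext e
  rw [mem_preimage, mem_rel, Equiv.symm_apply_apply]

theorem pre_insert (A : Set Ed) (f : Ed) :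
    (eS σ) ⁻¹' (insert (Sym2.map σ f) A) = insert f ((eS σ) ⁻¹' A) := by
  ext e
  simp only [mem_preimage, Set.mem_insert_iff]
  rw [← eS_apply, (eS σ).injective.eq_iff]

theorem pre_diff (A : Set Ed) (f : Ed) :
    (eS σ) ⁻¹' (A \ {Sym2.map σ f}) = ((eS σ) ⁻¹' A) \ {f} := by
  ext e
  simp only [mem_preimage, Set.mem_sdiff, Set.mem_singleton_iff]
  rw [← eS_apply, (eS σ).injective.eq_iff]

/-- relabelled windows -/
noncomputable def WR (n : ℕ) : Finset Ed := (WE n).map (eS σ).symm.toEmbedding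

theorem WR_isWin (hW : IsWin WE) : IsWin (WR σ) where
  mono := fun m n h => Finset.map_subset_map.2 (hW.mono h)
  exh := fun e => by
    obtain ⟨n, hn⟩ := hW.exh (eS σ e)
    refine ⟨n, ?_⟩
    unfold WR
    rw [Finset.mem_map]
    exact ⟨eS σ e, hn, Equiv.symm_apply_apply _ _⟩

theorem JW_rel (J : Set Ed) (n : ℕ) :
    (JW WE (rel σ J) n).map (eS σ).symm.toEmbedding = JW (WR σ) J n := by
  classical
  ext e
  unfold JW WR
  simp only [Finset.mem_map, Finset.mem_filter, Equiv.coe_toEmbedding]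
  constructor
  · rintro ⟨a, ⟨ha, hJ⟩, rfl⟩
    exact ⟨⟨a, ha, rfl⟩, (mem_rel σ J a).1 hJ⟩
  · rintro ⟨⟨a, ha, rfl⟩, hJ⟩
    exact ⟨a, ⟨ha, (mem_rel σ J a).2 hJ⟩, rfl⟩

theorem map_insert' [DecidableEq Ed] (S : Finset Ed) (f : Ed) :
    (insert (Sym2.map σ f) S).map (eS σ).symm.toEmbedding
      = insert f (S.map (eS σ).symm.toEmbedding) := by
  rw [Finset.map_insert]
  congr 1
  exact (eS σ).symm_apply_apply f

theorem pJ_rel (hF : FK μF) (G : SimpleGraph ℕ) (hG : G.Connected) (J T : Set Ed) (f : Ed) :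
    pJ (Pm (μF (G.map σ.toEmbedding))) WE (rel σ J) (rel σ T) (Sym2.map σ f)
      = pJ (Pm (μF G)) (WR σ) J T f := by
  unfold pJ
  congr 1
  ext n
  unfold pr
  rw [Pm_rel σ μF hF G hG, Pm_rel σ μF hF G hG, map_insert', JW_rel, pre_insert, pre_rel]

theorem CJ_rel (hF : FK μF) (G : SimpleGraph ℕ) (hG : G.Connected) (J T : Set Ed) (g f : Ed) :
    CJ (Pm (μF (G.map σ.toEmbedding))) WE (rel σ J) (rel σ T) (Sym2.map σ g) (Sym2.map σ f)
      = CJ (Pm (μF G)) (WR σ) J T g f := by
  unfold CJ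
  congr 1
  ext n
  unfold CW
  simp only [Pm_rel σ μF hF G hG, map_insert', JW_rel, pre_insert, pre_diff, pre_rel]

end Rel

end Vale.Agent.P143
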