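import Vale.Agent.P143.EqA
import Vale.Agent.P143.Adapt

open MeasureTheory ProbabilityTheory Set Filter Topology
open scoped ENNReal

namespace Vale.Agent.P143

theorem ae_of_map_eq {α β : Type*} [MeasurableSpace α] [MeasurableSpace β] {Q : Measure α}
    {φ : α → β} (hφ : Measurable φ) {ν : Measure β} (h : Q.map φ = ν) {R : β → Prop}
    (hR : ∀ᵐ T ∂ν, R T) : ∀ᵐ y ∂Q, R (φ y) := by
  subst h
  exact ae_of_ae_map hφ.aemeasurable hR

theorem lintegral_of_map_eq {α β : Type*} [MeasurableSpace α] [MeasurableSpace β] {Q : Measure α}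
    {φ : α → β} (hφ : Measurable φ) {ν : Measure β} (h : ν = Q.map φ) {F : β → ℝ≥0∞}
    (hF : Measurable F) : ∫⁻ y, F y ∂ν = ∫⁻ x, F (φ x) ∂Q := by
  subst h
  exact lintegral_map hF hφ

section Rel2

variable (σ : Equiv.Perm ℕ) (μF : Kernel (SimpleGraph ℕ) (Set Ed)) [IsMarkovKernel μF]

theorem pJ_rel_ae (hF : FK μF) (G : SimpleGraph ℕ) (hG : G.Connected) (J : Set Ed) (f : Ed)
    (hf : f ∉ J) :
    ∀ᵐ T ∂(μF G), pJ (Pm (μF (G.map σ.toEmbedding))) WE (rel σ J) (rel σ T) (Sym2.map σ f)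
      = pJ (Pm (μF G)) WE J T f := by
  obtain ⟨u, hu⟩ := hF.good G hG
  filter_upwards [J6p WE_isWin hu (WR_isWin σ WE_isWin) J f hf] with T hT
  rw [pJ_rel σ μF hF G hG, hT]

theorem CJ_rel_ae (hF : FK μF) (G : SimpleGraph ℕ) (hG : G.Connected) (J : Set Ed) (g f : Ed)
    (hg : g ∈ J) (hf : f ∉ J) :
    ∀ᵐ T ∂(μF G), CJ (Pm (μF (G.map σ.toEmbedding))) WE (rel σ J) (rel σ T) (Sym2.map σ g)
        (Sym2.map σ f) = CJ (Pm (μF G)) WE J T g f := by
  obtain ⟨u, hu⟩ := hF.good G hG
  filter_upwards [J6C WE_isWin hu (WR_isWin σ WE_isWin) J g f hg hf] with T hT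
  rw [CJ_rel σ μF hF G hG, hT]

theorem pG_rel_ae (hF : FK μF) (G : SimpleGraph ℕ) (hG : G.Connected) (x : Ed → unitInterval) :
    ∀ᵐ T ∂(μF G), ∀ g, pG μF (G.map σ.toEmbedding) (relL σ x) (Sym2.map σ g) (rel σ T)
      = pG μF G x g T := by
  rw [ae_all_iff]
  intro g
  filter_upwards [pJ_rel_ae σ μF hF G hG (Iset (tauG G x) g) g (not_mem_Iset _ _)] with T hT
  unfold pG
  rw [Iset_rel, hT]

theorem Vmap_rel {p p' : Ed → Set Ed → unitInterval} {T : Set Ed}
    (h : ∀ g, p' (Sym2.map σ g) (rel σ T) = p g T) (ξ : Ed → unitInterval) :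
    Vmap p' (rel σ T) (relL σ ξ) = relL σ (Vmap p T ξ) := by
  classical
  funext e
  obtain ⟨g, rfl⟩ := (eS σ).surjective e
  rw [eS_apply, relL_apply]
  unfold Vmap
  rw [h g, relL_apply]
  by_cases hg : g ∈ T
  · rw [if_pos hg, if_pos ((map_mem_rel σ T g).2 hg)]
  · rw [if_neg hg, if_neg (fun h' => hg ((map_mem_rel σ T g).1 h'))]

theorem kap_rel (hF : FK μF) (G : SimpleGraph ℕ) (hG : GoodG G)
    (x : Ed → unitInterval) (hx : Function.Injective (tauG G x)) :
    kap (μF (G.map σ.toEmbedding)) (pG μF (G.map σ.toEmbedding) (relL σ x))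
      = (kap (μF G) (pG μF G x)).map (fun y => (relL σ y.1, rel σ y.2)) := by
  have hG' : GoodG (G.map σ.toEmbedding) := (goodG_map σ G).2 hG
  have hA := adapted μF hF G hG x hx
  have hA' := adapted μF hF (G.map σ.toEmbedding) hG' (relL σ x) (inj_rel σ G x hx)
  have hm : Measurable (fun z : Set Ed × (Ed → unitInterval) =>
      (Vmap (pG μF G x) z.1 z.2, z.1)) := (CpB.measurable_Vmap' hA).prodMk measurable_fst
  have hm' : Measurable (fun z : Set Ed × (Ed → unitInterval) =>
      (Vmap (pG μF (G.map σ.toEmbedding) (relL σ x)) z.1 z.2, z.1)) :=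
    (CpB.measurable_Vmap' hA').prodMk measurable_fst
  have hmr : Measurable (fun y : (Ed → unitInterval) × Set Ed => (relL σ y.1, rel σ y.2)) :=
    ((measurable_relL σ).comp measurable_fst).prodMk ((measurable_rel σ).comp measurable_snd)
  unfold kap
  rw [Measure.map_map hmr hm]
  have h1 : (μF (G.map σ.toEmbedding)).prod (iidU Ed)
      = ((μF G).prod (iidU Ed)).map (Prod.map (rel σ) (relL σ)) := by
    rw [← Measure.map_prod_map _ _ (measurable_rel σ) (measurable_relL σ), iidU_rel,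
      hF.equiv σ G hG.1]
  rw [h1, Measure.map_map hm' ((measurable_rel σ).prodMap (measurable_relL σ))]
  apply Measure.map_congr
  have h2 := pG_rel_ae σ μF hF G hG.1 x
  have h3 : ∀ᵐ z ∂((μF G).prod (iidU Ed)), ∀ g,
      pG μF (G.map σ.toEmbedding) (relL σ x) (Sym2.map σ g) (rel σ z.1) = pG μF G x g z.1 :=
    Measure.quasiMeasurePreserving_fst.ae h2
  filter_upwards [h3] with z hz
  show (Vmap (pG μF (G.map σ.toEmbedding) (relL σ x)) (rel σ z.1) (relL σ z.2), rel σ z.1)
    = (relL σ (Vmap (pG μF G x) z.1 z.2), rel σ z.1)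
  rw [Vmap_rel σ hz]

theorem relL_symm_relL (v : Ed → unitInterval) : relL σ.symm (relL σ v) = v := by
  funext e
  have : relL σ.symm (relL σ v) e = relL σ v (Sym2.map σ e) := by
    unfold relL
    simp
  rw [this, relL_apply]

/-- transport of a kernel by relabelling -/
noncomputable def kerR {β : Type*} [MeasurableSpace β] (κ : Kernel (Ed → unitInterval) β)
    (f : β → β) : Kernel (Ed → unitInterval) β :=
  (κ.comap (relL σ.symm) (measurable_relL σ.symm)).map f

theorem kerR_apply {β : Type*} [MeasurableSpace β] (κ : Kernel (Ed → unitInterval) β)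
    (f : β → β) (hf : Measurable f) (v : Ed → unitInterval) :
    kerR σ κ f v = (κ (relL σ.symm v)).map f := by
  unfold kerR
  rw [Kernel.map_apply _ hf, Kernel.comap_apply]

theorem isMarkov_kerR {β : Type*} [MeasurableSpace β] (κ : Kernel (Ed → unitInterval) β)
    [IsMarkovKernel κ] (f : β → β) (hf : Measurable f) : IsMarkovKernel (kerR σ κ f) := by
  unfold kerR
  exact Kernel.IsMarkovKernel.map _ hf

theorem compProd_kerR {β : Type*} [MeasurableSpace β] (κ : Kernel (Ed → unitInterval) β)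
    [IsMarkovKernel κ] (f : β → β) (hf : Measurable f) :
    (iidU Ed) ⊗ₘ (kerR σ κ f) = ((iidU Ed) ⊗ₘ κ).map (fun y => (relL σ y.1, f y.2)) := by
  haveI := isMarkov_kerR σ κ f hf
  have hmr : Measurable (fun y : (Ed → unitInterval) × β => (relL σ y.1, f y.2)) :=
    ((measurable_relL σ).comp measurable_fst).prodMk (hf.comp measurable_snd)
  ext s hs
  rw [Measure.compProd_apply hs, Measure.map_apply hmr hs, Measure.compProd_apply (hmr hs)]
  have hm : Measurable (fun v => kerR σ κ f v (Prod.mk v ⁻¹' s)) :=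
    Kernel.measurable_kernel_prodMk_left hs
  conv_lhs => rw [← iidU_rel σ]
  rw [lintegral_map hm (measurable_relL σ)]
  apply lintegral_congr
  intro v
  rw [kerR_apply σ κ f hf, relL_symm_relL, Measure.map_apply hf (measurable_prodMk_left hs)]
  rfl

theorem kerR_prod (η : Kernel (Ed → unitInterval) (Set Ed)) [IsMarkovKernel η] :
    (kerR σ η (rel σ)) ×ₖ (kerR σ η (rel σ))
      = kerR σ (η ×ₖ η) (Prod.map (rel σ) (rel σ)) := by
  haveI := isMarkov_kerR σ η (rel σ) (measurable_rel σ)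
  ext v : 1
  rw [Kernel.prod_apply, kerR_apply σ _ _ (measurable_rel σ),
    kerR_apply σ _ _ ((measurable_rel σ).prodMap (measurable_rel σ)), Kernel.prod_apply,
    Measure.map_prod_map _ _ (measurable_rel σ) (measurable_rel σ)]

theorem QK_rel (hF : FK μF) (G : SimpleGraph ℕ) (hG : GoodG G)
    (x : Ed → unitInterval) (hx : Function.Injective (tauG G x)) :
    QK μF (G.map σ.toEmbedding, relL σ x)
      = (QK μF (G, x)).map (fun y => (relL σ y.1, (rel σ y.2.1, rel σ y.2.2))) := by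
  have hG' : GoodG (G.map σ.toEmbedding) := (goodG_map σ G).2 hG
  have hA := adapted μF hF G hG x hx
  have hA' := adapted μF hF (G.map σ.toEmbedding) hG' (relL σ x) (inj_rel σ G x hx)
  have hs := etaAt_spec μF G x hA
  have hs' := etaAt_spec μF (G.map σ.toEmbedding) (relL σ x) hA'
  haveI := isMarkov_kerR σ (etaAt μF G x) (rel σ) (measurable_rel σ)
  have h1 : (iidU Ed) ⊗ₘ (etaAt μF (G.map σ.toEmbedding) (relL σ x))
      = (iidU Ed) ⊗ₘ (kerR σ (etaAt μF G x) (rel σ)) := by
    rw [hs', compProd_kerR σ _ _ (measurable_rel σ), hs, kap_rel σ μF hF G hG x hx]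
  have h2 : etaAt μF (G.map σ.toEmbedding) (relL σ x)
      =ᵐ[iidU Ed] kerR σ (etaAt μF G x) (rel σ) := Kernel.ae_eq_of_compProd_eq h1
  have h3 : Qc (etaAt μF (G.map σ.toEmbedding) (relL σ x))
      = Qc (kerR σ (etaAt μF G x) (rel σ)) := by
    unfold Qc
    apply Measure.compProd_congr
    filter_upwards [h2] with v hv
    rw [Kernel.prod_apply, Kernel.prod_apply, hv]
  rw [QK_apply, QK_apply, h3]
  unfold Qc
  rw [kerR_prod, compProd_kerR σ _ _ ((measurable_rel σ).prodMap (measurable_rel σ))]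
  rfl

theorem pre_mis (g : Ed) :
    (fun y : (Ed → unitInterval) × (Set Ed × Set Ed) => (relL σ y.1, (rel σ y.2.1, rel σ y.2.2)))
      ⁻¹' (mis (Sym2.map σ g)) = mis g := by
  ext y
  unfold mis
  simp only [mem_preimage, Set.mem_ofPred_eq, map_mem_rel]

theorem measurable_R3 : Measurable
    (fun y : (Ed → unitInterval) × (Set Ed × Set Ed) => (relL σ y.1, (rel σ y.2.1, rel σ y.2.2))) :=
  ((measurable_relL σ).comp measurable_fst).prodMk
    (((measurable_rel σ).comp (measurable_fst.comp measurable_snd)).prodMk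
      ((measurable_rel σ).comp (measurable_snd.comp measurable_snd)))

theorem lintegral_iidU_rel (F : (Ed → unitInterval) → ℝ≥0∞) (hF : Measurable F) :
    ∫⁻ x, F x ∂(iidU Ed) = ∫⁻ x, F (relL σ x) ∂(iidU Ed) := by
  conv_lhs => rw [← iidU_rel σ]
  rw [lintegral_map hF (measurable_relL σ)]

end Rel2

section Final

variable (μF : Kernel (SimpleGraph ℕ) (Set Ed)) [IsMarkovKernel μF]

theorem mG_rel (hF : FK μF) (σ : Equiv.Perm ℕ) (G : SimpleGraph ℕ) (hG : GoodG G) (t : ℝ)
    (g : Ed) : mG μF t (G.map σ.toEmbedding) (Sym2.map σ g) = mG μF t G g := by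
  classical
  unfold mG
  have hm : Measurable (fun x : Ed → unitInterval => (if tauG (G.map σ.toEmbedding) x (Sym2.map σ g) < t
      then QK μF (G.map σ.toEmbedding, x) (mis (Sym2.map σ g)) else 0)) :=
    (measurable_mFull μF (Sym2.map σ g)).comp
      (by fun_prop : Measurable (fun x : Ed → unitInterval => ((t, G.map σ.toEmbedding), x)))
  rw [lintegral_iidU_rel σ _ hm]
  apply lintegral_congr_ae
  filter_upwards [tau_inj G hG] with x hx
  rw [tauG_rel, QK_rel σ μF hF G hG x hx, Measure.map_apply (measurable_R3 σ) (measurableSet_mis _),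
    pre_mis]

theorem bI_rel (hF : FK μF) (σ : Equiv.Perm ℕ) (G : SimpleGraph ℕ) (hG : GoodG G) (s : ℝ)
    (x : Ed → unitInterval) (hx : Function.Injective (tauG G x)) (g f : Ed)
    (h : tauG G x g < s ∧ s ≤ tauG G x f) :
    bI μF s (G.map σ.toEmbedding) (relL σ x) (Sym2.map σ g) (Sym2.map σ f)
      = bI μF s G x g f := by
  have hA := adapted μF hF G hG x hx
  have hs := etaAt_spec μF G x hA
  have k1 := K1a hA hs
  have k2 := K1b hA hs
  unfold bI
  have hm : Measurable (fun y : (Ed → unitInterval) × (Set Ed × Set Ed) =>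
      (CJ (Pm (μF (G.map σ.toEmbedding))) WE (Jt (G.map σ.toEmbedding) (relL σ x) s) y.2.1
        (Sym2.map σ g) (Sym2.map σ f) *
      CJ (Pm (μF (G.map σ.toEmbedding))) WE (Jt (G.map σ.toEmbedding) (relL σ x) s) y.2.2
        (Sym2.map σ g) (Sym2.map σ f)) ^ (1/2 : ℝ)) :=
    (((CJ_meas (μ := μF (G.map σ.toEmbedding)) (W := WE) _ _ _).comp
      (measurable_fst.comp measurable_snd)).mul
      ((CJ_meas (μ := μF (G.map σ.toEmbedding)) (W := WE) _ _ _).comp
        (measurable_snd.comp measurable_snd))).pow_const _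
  rw [QK_rel σ μF hF G hG x hx, setLIntegral_map (measurableSet_mis _) hm (measurable_R3 σ), pre_mis]
  apply setLIntegral_congr_fun_ae (measurableSet_mis g)
  have hC := CJ_rel_ae σ μF hF G hG.1 (Jt G x s) g f h.1 (by
    unfold Jt; simp only [Set.mem_ofPred_eq, not_lt]; exact h.2)
  have hC1 : ∀ᵐ y ∂(QK μF (G, x)), CJ (Pm (μF (G.map σ.toEmbedding))) WE (rel σ (Jt G x s))
      (rel σ y.2.1) (Sym2.map σ g) (Sym2.map σ f) = CJ (Pm (μF G)) WE (Jt G x s) y.2.1 g f := by
    rw [QK_apply]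
    exact ae_of_map_eq (by fun_prop) k1 hC
  have hC2 : ∀ᵐ y ∂(QK μF (G, x)), CJ (Pm (μF (G.map σ.toEmbedding))) WE (rel σ (Jt G x s))
      (rel σ y.2.2) (Sym2.map σ g) (Sym2.map σ f) = CJ (Pm (μF G)) WE (Jt G x s) y.2.2 g f := by
    rw [QK_apply]
    exact ae_of_map_eq (by fun_prop) k2 hC
  filter_upwards [hC1, hC2] with y h1 h2 _
  rw [Jt_rel, h1, h2]

theorem bG_rel (hF : FK μF) (σ : Equiv.Perm ℕ) (G : SimpleGraph ℕ) (hG : GoodG G) (s : ℝ)
    (g f : Ed) :
    bG μF s (G.map σ.toEmbedding) (Sym2.map σ g) (Sym2.map σ f) = bG μF s G g f := by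
  classical
  unfold bG
  have hm : Measurable (fun x : Ed → unitInterval =>
      (if tauG (G.map σ.toEmbedding) x (Sym2.map σ g) < s
        ∧ s ≤ tauG (G.map σ.toEmbedding) x (Sym2.map σ f) then
        bI μF s (G.map σ.toEmbedding) x (Sym2.map σ g) (Sym2.map σ f) else 0)) :=
    (measurable_bFull μF (Sym2.map σ g) (Sym2.map σ f)).comp
      (by fun_prop : Measurable (fun x : Ed → unitInterval => ((s, G.map σ.toEmbedding), x)))
  refine (lintegral_iidU_rel σ _ hm).trans ?_
  apply lintegral_congr_ae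
  filter_upwards [tau_inj G hG] with x hx
  rw [tauG_rel, tauG_rel]
  by_cases h : tauG G x g < s ∧ s ≤ tauG G x f
  · rw [if_pos h, if_pos h]
    exact bI_rel μF hF σ G hG s x hx g f h
  · rw [if_neg h, if_neg h]

theorem aG_rel (hF : FK μF) (σ : Equiv.Perm ℕ) (G : SimpleGraph ℕ) (hG : GoodG G) (s : ℝ)
    (g f : Ed) :
    aG μF s (G.map σ.toEmbedding) (Sym2.map σ g) (Sym2.map σ f) = aG μF s G g f := by
  classical
  unfold aG
  have hm : Measurable (fun x : Ed → unitInterval =>
      (if tauG (G.map σ.toEmbedding) x (Sym2.map σ g) < s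
        ∧ s ≤ tauG (G.map σ.toEmbedding) x (Sym2.map σ f) then
        aI μF s (G.map σ.toEmbedding) x (Sym2.map σ g) (Sym2.map σ f) else 0)) :=
    (measurable_aFull μF (Sym2.map σ g) (Sym2.map σ f)).comp
      (by fun_prop : Measurable (fun x : Ed → unitInterval => ((s, G.map σ.toEmbedding), x)))
  refine (lintegral_iidU_rel σ _ hm).trans ?_
  apply lintegral_congr
  intro x
  rw [tauG_rel, tauG_rel]
  by_cases h : tauG G x g < s ∧ s ≤ tauG G x f
  · rw [if_pos h, if_pos h]
    unfold aI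
    have hmC : Measurable (fun T => CJ (Pm (μF (G.map σ.toEmbedding))) WE
        (Jt (G.map σ.toEmbedding) (relL σ x) s) T (Sym2.map σ g) (Sym2.map σ f)) :=
      CJ_meas (μ := μF (G.map σ.toEmbedding)) (W := WE) _ _ _
    rw [lintegral_of_map_eq (measurable_rel σ) (hF.equiv σ G hG.1) hmC]
    apply lintegral_congr_ae
    have hC := CJ_rel_ae σ μF hF G hG.1 (Jt G x s) g f h.1 (by
      unfold Jt; simp only [Set.mem_ofPred_eq, not_lt]; exact h.2)
    filter_upwards [hC] with T hT
    rw [Jt_rel, hT]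
  · rw [if_neg h, if_neg h]

end Final

end Vale.Agent.P143
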