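import Vale.Agent.P143.GDefs2
import Vale.Agent.P143.Meas

open MeasureTheory ProbabilityTheory Set Filter Topology
open scoped ENNReal

namespace Vale.Agent.P143

section

variable (μF : Kernel (SimpleGraph ℕ) (Set Ed)) [IsMarkovKernel μF]

instance instMarkovEtaK : IsMarkovKernel (etaK μF) := by unfold etaK; infer_instance

instance instMarkovQK : IsMarkovKernel (QK μF) := by unfold QK; infer_instance

theorem measurableSet_mis (g : Ed) : MeasurableSet (mis g) := by
  unfold mis
  have h1 : MeasurableSet {y : (Ed → unitInterval) × (Set Ed × Set Ed) | g ∈ y.2.1} :=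
    measurableSet_mem_pred (measurable_fst.comp measurable_snd) g
  have h2 : MeasurableSet {y : (Ed → unitInterval) × (Set Ed × Set Ed) | g ∈ y.2.2} :=
    measurableSet_mem_pred (measurable_snd.comp measurable_snd) g
  exact (measurableSet_setOfPred.2 (Measurable.iff (measurableSet_setOfPred.1 h1)
    (measurableSet_setOfPred.1 h2))).compl

theorem measurableSet_tau_lt {α : Type*} [MeasurableSpace α] {Gm : α → SimpleGraph ℕ}
    (hG : Measurable Gm) {X : α → (Ed → unitInterval)} (hX : Measurable X) {s : α → ℝ}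
    (hs : Measurable s) (g : Ed) : MeasurableSet {a | tauG (Gm a) (X a) g < s a} :=
  measurableSet_lt ((measurable_tauG g).comp (hG.prodMk hX)) hs

/-- inner integral of b -/
noncomputable def bI (s : ℝ) (G : SimpleGraph ℕ) (x : Ed → unitInterval) (g f : Ed) : ℝ≥0∞ :=
  ∫⁻ y in mis g, (CJ (Pm (μF G)) WE (Jt G x s) y.2.1 g f *
      CJ (Pm (μF G)) WE (Jt G x s) y.2.2 g f) ^ (1/2 : ℝ) ∂(QK μF (G, x))

noncomputable def aI (s : ℝ) (G : SimpleGraph ℕ) (x : Ed → unitInterval) (g f : Ed) : ℝ≥0∞ :=
  ∫⁻ T, CJ (Pm (μF G)) WE (Jt G x s) T g f ∂(μF G)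

theorem measurable_bI (g f : Ed) :
    Measurable (fun z : (ℝ × SimpleGraph ℕ) × (Ed → unitInterval) =>
      bI μF z.1.1 z.1.2 z.2 g f) := by
  unfold bI
  have hk : Measurable (fun z : (ℝ × SimpleGraph ℕ) × (Ed → unitInterval) => (z.1.2, z.2)) := by
    fun_prop
  have hm : ∀ z : (ℝ × SimpleGraph ℕ) × (Ed → unitInterval), MeasurableSet (mis g) :=
    fun _ => measurableSet_mis g
  have h1 : Measurable (fun w : ((ℝ × SimpleGraph ℕ) × (Ed → unitInterval)) ×
      ((Ed → unitInterval) × (Set Ed × Set Ed)) =>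
      (mis g).indicator (fun y => (CJ (Pm (μF w.1.1.2)) WE (Jt w.1.1.2 w.1.2 w.1.1.1) y.2.1 g f *
      CJ (Pm (μF w.1.1.2)) WE (Jt w.1.1.2 w.1.2 w.1.1.1) y.2.2 g f) ^ (1/2 : ℝ)) w.2) := by
    have hGm : Measurable (fun w : ((ℝ × SimpleGraph ℕ) × (Ed → unitInterval)) ×
      ((Ed → unitInterval) × (Set Ed × Set Ed)) => w.1.1.2) := by fun_prop
    have hJm : Measurable (fun w : ((ℝ × SimpleGraph ℕ) × (Ed → unitInterval)) ×
      ((Ed → unitInterval) × (Set Ed × Set Ed)) => Jt w.1.1.2 w.1.2 w.1.1.1) :=
      measurable_Jt (by fun_prop) (by fun_prop) (by fun_prop)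
    have hT1 : Measurable (fun w : ((ℝ × SimpleGraph ℕ) × (Ed → unitInterval)) ×
      ((Ed → unitInterval) × (Set Ed × Set Ed)) => w.2.2.1) := by fun_prop
    have hT2 : Measurable (fun w : ((ℝ × SimpleGraph ℕ) × (Ed → unitInterval)) ×
      ((Ed → unitInterval) × (Set Ed × Set Ed)) => w.2.2.2) := by fun_prop
    have hc := ((measurable_CJ_comp μF hGm hJm hT1 g f).mul
      (measurable_CJ_comp μF hGm hJm hT2 g f)).pow_const (1/2 : ℝ)
    have hind : MeasurableSet {w : ((ℝ × SimpleGraph ℕ) × (Ed → unitInterval)) ×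
      ((Ed → unitInterval) × (Set Ed × Set Ed)) | w.2 ∈ mis g} :=
      measurable_snd (measurableSet_mis g)
    have := hc.indicator hind
    exact this
  have h2 := Measurable.lintegral_kernel_prod_right' (κ := (QK μF).comap _ hk) h1
  convert h2 using 2 with z
  rw [Kernel.comap_apply]
  exact (lintegral_indicator (measurableSet_mis g) _).symm

theorem measurable_aI (g f : Ed) :
    Measurable (fun z : (ℝ × SimpleGraph ℕ) × (Ed → unitInterval) =>
      aI μF z.1.1 z.1.2 z.2 g f) := by
  unfold aI
  have hk : Measurable (fun z : (ℝ × SimpleGraph ℕ) × (Ed → unitInterval) => z.1.2) := by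
    fun_prop
  have h1 : Measurable (fun w : ((ℝ × SimpleGraph ℕ) × (Ed → unitInterval)) × Set Ed =>
      CJ (Pm (μF w.1.1.2)) WE (Jt w.1.1.2 w.1.2 w.1.1.1) w.2 g f) :=
    measurable_CJ_comp μF (by fun_prop) (measurable_Jt (by fun_prop) (by fun_prop) (by fun_prop))
      (by fun_prop) g f
  exact Measurable.lintegral_kernel_prod_right' (κ := μF.comap _ hk) h1

theorem measurable_tau3 (e : Ed) :
    Measurable (fun z : (ℝ × SimpleGraph ℕ) × (Ed → unitInterval) => tauG z.1.2 z.2 e) :=
  (measurable_tauG e).comp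
    (by fun_prop : Measurable (fun z : (ℝ × SimpleGraph ℕ) × (Ed → unitInterval) => (z.1.2, z.2)))

theorem measurable_s3 :
    Measurable (fun z : (ℝ × SimpleGraph ℕ) × (Ed → unitInterval) => z.1.1) := by fun_prop

theorem measurable_bFull (g f : Ed) :
    Measurable (fun z : (ℝ × SimpleGraph ℕ) × (Ed → unitInterval) =>
      open Classical in
      (if tauG z.1.2 z.2 g < z.1.1 ∧ z.1.1 ≤ tauG z.1.2 z.2 f then
        bI μF z.1.1 z.1.2 z.2 g f else 0)) := by
  classical
  apply Measurable.ite _ (measurable_bI μF g f) measurable_const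
  apply MeasurableSet.inter
  · exact measurableSet_lt (measurable_tau3 g) measurable_s3
  · exact measurableSet_le measurable_s3 (measurable_tau3 f)

theorem measurable_aFull (g f : Ed) :
    Measurable (fun z : (ℝ × SimpleGraph ℕ) × (Ed → unitInterval) =>
      open Classical in
      (if tauG z.1.2 z.2 g < z.1.1 ∧ z.1.1 ≤ tauG z.1.2 z.2 f then
        aI μF z.1.1 z.1.2 z.2 g f else 0)) := by
  classical
  apply Measurable.ite _ (measurable_aI μF g f) measurable_const
  apply MeasurableSet.inter
  · exact measurableSet_lt (measurable_tau3 g) measurable_s3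
  · exact measurableSet_le measurable_s3 (measurable_tau3 f)

theorem measurable_bG2 (g f : Ed) :
    Measurable (fun y : ℝ × SimpleGraph ℕ => bG μF y.1 y.2 g f) := by
  unfold bG
  exact (measurable_bFull μF g f).lintegral_prod_right'

theorem measurable_aG2 (g f : Ed) :
    Measurable (fun y : ℝ × SimpleGraph ℕ => aG μF y.1 y.2 g f) := by
  unfold aG
  exact (measurable_aFull μF g f).lintegral_prod_right'

theorem measurable_bG (s : ℝ) (g f : Ed) : Measurable (fun G => bG μF s G g f) :=
  (measurable_bG2 μF g f).comp (measurable_const.prodMk measurable_id)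

theorem measurable_aG (s : ℝ) (g f : Ed) : Measurable (fun G => aG μF s G g f) :=
  (measurable_aG2 μF g f).comp (measurable_const.prodMk measurable_id)

theorem measurable_mFull (g : Ed) :
    Measurable (fun z : (ℝ × SimpleGraph ℕ) × (Ed → unitInterval) =>
      open Classical in
      (if tauG z.1.2 z.2 g < z.1.1 then QK μF (z.1.2, z.2) (mis g) else 0)) := by
  classical
  apply Measurable.ite _ _ measurable_const
  · exact measurableSet_lt (measurable_tau3 g) measurable_s3
  · exact ((QK μF).measurable_coe (measurableSet_mis g)).comp (by fun_prop)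

theorem measurable_mG2 (g : Ed) :
    Measurable (fun y : ℝ × SimpleGraph ℕ => mG μF y.1 y.2 g) := by
  unfold mG
  exact (measurable_mFull μF g).lintegral_prod_right'

theorem measurable_mG (t : ℝ) (g : Ed) : Measurable (fun G => mG μF t G g) :=
  (measurable_mG2 μF g).comp (measurable_const.prodMk measurable_id)

end

end Vale.Agent.P143
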