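import Vale.Agent.P143.GDefs2
import Vale.Agent.P143.MeasB

open MeasureTheory ProbabilityTheory Set Filter Topology
open scoped ENNReal

namespace Vale.Agent.P143

open Classical in
/-- sum over the edges at `o` -/
noncomputable def NS (G : SimpleGraph ℕ) (o : ℕ) (F : Ed → ℝ≥0∞) : ℝ≥0∞ :=
  ∑' z : ℕ, if G.Adj o z then F s(o, z) else 0

/-- sum over all darts -/
noncomputable def DS (G : SimpleGraph ℕ) (F : Ed → ℝ≥0∞) : ℝ≥0∞ := ∑' y : ℕ, NS G y F

theorem NS_mono (G : SimpleGraph ℕ) (o : ℕ) {F F' : Ed → ℝ≥0∞}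
    (h : ∀ z, G.Adj o z → F s(o, z) ≤ F' s(o, z)) : NS G o F ≤ NS G o F' := by
  classical
  unfold NS
  apply ENNReal.tsum_le_tsum
  intro z
  by_cases hz : G.Adj o z
  · rw [if_pos hz, if_pos hz]; exact h z hz
  · rw [if_neg hz, if_neg hz]

theorem NS_tsum (G : SimpleGraph ℕ) (o : ℕ) {ι : Type*} (F : ι → Ed → ℝ≥0∞) :
    ∑' i, NS G o (F i) = NS G o (fun f => ∑' i, F i f) := by
  classical
  unfold NS
  rw [ENNReal.tsum_comm]
  congr 1
  ext z
  by_cases hz : G.Adj o z
  · simp only [if_pos hz]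
  · simp only [if_neg hz, tsum_zero]

theorem NS_comm (G : SimpleGraph ℕ) (x y : ℕ) (b : Ed → Ed → ℝ≥0∞) :
    NS G x (fun g => NS G y (b g)) = NS G y (fun f => NS G x (fun g => b g f)) := by
  classical
  unfold NS
  have h1 : ∀ z, (if G.Adj x z then ∑' z' : ℕ, (if G.Adj y z' then b s(x, z) s(y, z') else 0) else 0)
      = ∑' z' : ℕ, (if G.Adj x z then (if G.Adj y z' then b s(x, z) s(y, z') else 0) else 0) := by
    intro z
    by_cases hz : G.Adj x z
    · simp only [if_pos hz]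
    · simp only [if_neg hz, tsum_zero]
  simp_rw [h1]
  rw [ENNReal.tsum_comm]
  congr 1
  ext z'
  by_cases hz : G.Adj y z'
  · simp only [if_pos hz]
  · simp only [if_neg hz, ite_self, tsum_zero]

theorem NS_add (G : SimpleGraph ℕ) (o : ℕ) (F F' : Ed → ℝ≥0∞) :
    NS G o (fun f => F f + F' f) = NS G o F + NS G o F' := by
  classical
  unfold NS
  rw [← ENNReal.tsum_add]
  congr 1
  ext z
  by_cases hz : G.Adj o z
  · simp only [if_pos hz]
  · simp only [if_neg hz, add_zero]

theorem NS_mul (G : SimpleGraph ℕ) (o : ℕ) (c : ℝ≥0∞) (F : Ed → ℝ≥0∞) :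
    NS G o (fun f => c * F f) = c * NS G o F := by
  classical
  unfold NS
  rw [← ENNReal.tsum_mul_left]
  congr 1
  ext z
  by_cases hz : G.Adj o z
  · simp only [if_pos hz]
  · simp only [if_neg hz, mul_zero]

theorem le_NS (G : SimpleGraph ℕ) {o z : ℕ} (h : G.Adj o z) (F : Ed → ℝ≥0∞) :
    F s(o, z) ≤ NS G o F := by
  classical
  unfold NS
  refine le_trans ?_ (ENNReal.le_tsum z)
  rw [if_pos h]

theorem NS_map (G : SimpleGraph ℕ) (σ : Equiv.Perm ℕ) (o : ℕ) (F F' : Ed → ℝ≥0∞)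
    (h : ∀ g, F' (Sym2.map σ g) = F g) :
    NS (G.map σ.toEmbedding) (σ o) F' = NS G o F := by
  classical
  unfold NS
  rw [← Equiv.tsum_eq σ]
  congr 1
  ext z
  have hadj : (G.map σ.toEmbedding).Adj (σ o) (σ z) ↔ G.Adj o z :=
    SimpleGraph.map_adj_apply (f := σ.toEmbedding)
  have h2 : F' s(σ o, σ z) = F s(o, z) := h s(o, z)
  by_cases hz : G.Adj o z
  · rw [if_pos hz, if_pos (hadj.2 hz), h2]
  · rw [if_neg hz, if_neg (fun h' => hz (hadj.1 h'))]

theorem measurable_NS {α : Type*} [MeasurableSpace α] {Gm : α → SimpleGraph ℕ}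
    (hG : Measurable Gm) (o : ℕ) {F : α → Ed → ℝ≥0∞} (hF : ∀ e, Measurable (fun a => F a e)) :
    Measurable (fun a => NS (Gm a) o (F a)) := by
  classical
  unfold NS
  apply Measurable.ennreal_tsum
  intro z
  exact Measurable.ite (hG (measurableSet_adj o z)) (hF _) measurable_const

theorem measurable_DS {α : Type*} [MeasurableSpace α] {Gm : α → SimpleGraph ℕ}
    (hG : Measurable Gm) {F : α → Ed → ℝ≥0∞} (hF : ∀ e, Measurable (fun a => F a e)) :
    Measurable (fun a => DS (Gm a) (F a)) := by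
  unfold DS
  exact Measurable.ennreal_tsum (fun y => measurable_NS hG y hF)

theorem DS_eq (G : SimpleGraph ℕ) (F : Ed → ℝ≥0∞) :
    DS G F = open Classical in
      ∑' g : Ed, ∑' p : ((fun p : ℕ × ℕ => s(p.1, p.2)) ⁻¹' {g}),
        (if G.Adj (p : ℕ × ℕ).1 (p : ℕ × ℕ).2 then F s((p : ℕ × ℕ).1, (p : ℕ × ℕ).2) else 0) := by
  classical
  unfold DS NS
  rw [← ENNReal.tsum_prod (f := fun y z => if G.Adj y z then F s(y, z) else 0)]
  exact (ENNReal.tsum_fiberwise (fun p : ℕ × ℕ => if G.Adj p.1 p.2 then F s(p.1, p.2) else 0)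
    (fun p : ℕ × ℕ => s(p.1, p.2))).symm

open Classical in
theorem le_DS (G : SimpleGraph ℕ) (F : Ed → ℝ≥0∞) :
    ∑' g : Ed, (if g ∈ G.edgeSet then F g else 0) ≤ DS G F := by
  rw [DS_eq]
  apply ENNReal.tsum_le_tsum
  intro g
  induction g using Sym2.ind with
  | _ y z =>
    by_cases h : G.Adj y z
    · have h' : s(y, z) ∈ G.edgeSet := h
      rw [if_pos h']
      refine le_trans ?_ (ENNReal.le_tsum (⟨(y, z), rfl⟩ :
        ((fun p : ℕ × ℕ => s(p.1, p.2)) ⁻¹' {s(y, z)} : Set (ℕ × ℕ))))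
      rw [if_pos h]
    · have h' : s(y, z) ∉ G.edgeSet := h
      rw [if_neg h']; exact bot_le

theorem DS_le (G : SimpleGraph ℕ) (F : Ed → ℝ≥0∞) :
    DS G F ≤ 2 * ∑' g : Ed, F g := by
  classical
  rw [DS_eq, ← ENNReal.tsum_mul_left]
  apply ENNReal.tsum_le_tsum
  intro g
  induction g using Sym2.ind with
  | _ y z =>
    rw [tsum_subtype ((fun p : ℕ × ℕ => s(p.1, p.2)) ⁻¹' {s(y, z)})
      (fun p : ℕ × ℕ => if G.Adj p.1 p.2 then F s(p.1, p.2) else 0)]
    calc ∑' p : ℕ × ℕ, ((fun p : ℕ × ℕ => s(p.1, p.2)) ⁻¹' {s(y, z)}).indicator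
          (fun p : ℕ × ℕ => if G.Adj p.1 p.2 then F s(p.1, p.2) else 0) p
        = ∑ p ∈ ({(y, z), (z, y)} : Finset (ℕ × ℕ)),
          ((fun p : ℕ × ℕ => s(p.1, p.2)) ⁻¹' {s(y, z)}).indicator
          (fun p : ℕ × ℕ => if G.Adj p.1 p.2 then F s(p.1, p.2) else 0) p := by
          apply tsum_eq_sum
          intro p hp
          apply Set.indicator_of_notMem
          intro hp2
          apply hp
          rw [mem_preimage, mem_singleton_iff, Sym2.eq_iff] at hp2
          rw [Finset.mem_insert, Finset.mem_singleton, Prod.ext_iff, Prod.ext_iff]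
          exact hp2
      _ ≤ ∑ p ∈ ({(y, z), (z, y)} : Finset (ℕ × ℕ)), F s(y, z) := by
          apply Finset.sum_le_sum
          intro p _
          by_cases hp : p ∈ ((fun p : ℕ × ℕ => s(p.1, p.2)) ⁻¹' {s(y, z)})
          · rw [Set.indicator_of_mem hp]
            have : s(p.1, p.2) = s(y, z) := hp
            rw [this]
            split_ifs
            · exact le_rfl
            · exact bot_le
          · rw [Set.indicator_of_notMem hp]; exact bot_le
      _ ≤ 2 * F s(y, z) := by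
          rw [Finset.sum_const, nsmul_eq_mul]
          gcongr
          have : ({(y, z), (z, y)} : Finset (ℕ × ℕ)).card ≤ 2 := Finset.card_le_two
          exact_mod_cast this

/-- mass transport in terms of edges -/
theorem mtp (P : Measure (SimpleGraph ℕ × ℕ)) (hP : IsUnimodular P)
    (hgood : MeasurableSet {G | GoodG G})
    (hmap : ∀ (σ : Equiv.Perm ℕ) (G : SimpleGraph ℕ), GoodG (G.map σ.toEmbedding) ↔ GoodG G)
    (b : SimpleGraph ℕ → Ed → Ed → ℝ≥0∞)
    (hbm : ∀ g f, Measurable (fun G => b G g f))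
    (hbi : ∀ (σ : Equiv.Perm ℕ) G, GoodG G → ∀ g f,
      b (G.map σ.toEmbedding) (Sym2.map σ g) (Sym2.map σ f) = b G g f) :
    ∫⁻ x, NS x.1 x.2 (fun g => DS x.1 (b x.1 g)) ∂P
      = ∫⁻ x, NS x.1 x.2 (fun f => DS x.1 (fun g => b x.1 g f)) ∂P := by
  classical
  set F : SimpleGraph ℕ → ℕ → ℕ → ℝ≥0∞ := fun G u v =>
    if GoodG G then NS G u (fun g => NS G v (b G g)) else 0 with hFdef
  have hmeas : ∀ u v, Measurable (fun G => F G u v) := by
    intro u v
    apply Measurable.ite hgood _ measurable_const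
    apply measurable_NS measurable_id
    intro e
    exact measurable_NS measurable_id v (fun e' => hbm e e')
  have hinv : ∀ (σ : Equiv.Perm ℕ) (G : SimpleGraph ℕ) (u v : ℕ),
      F (G.map σ.toEmbedding) (σ u) (σ v) = F G u v := by
    intro σ G u v
    rw [hFdef]
    simp only
    by_cases hG : GoodG G
    · rw [if_pos hG, if_pos ((hmap σ G).2 hG)]
      apply NS_map
      intro g
      apply NS_map
      intro f
      exact hbi σ G hG g f
    · rw [if_neg hG, if_neg (fun h => hG ((hmap σ G).1 h))]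
  have h := hP.massTransport F hmeas hinv
  have hgoodae : ∀ᵐ x ∂P, GoodG x.1 := by
    filter_upwards [hP.connected, hP.locallyFinite] with x h1 h2 using ⟨h1, h2⟩
  have e1 : ∫⁻ x, ∑' v, F x.1 x.2 v ∂P
      = ∫⁻ x, NS x.1 x.2 (fun g => DS x.1 (b x.1 g)) ∂P := by
    apply lintegral_congr_ae
    filter_upwards [hgoodae] with x hx
    rw [hFdef]
    simp only [if_pos hx]
    rw [NS_tsum]
    rfl
  have e2 : ∫⁻ x, ∑' v, F x.1 v x.2 ∂P
      = ∫⁻ x, NS x.1 x.2 (fun f => DS x.1 (fun g => b x.1 g f)) ∂P := by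
    apply lintegral_congr_ae
    filter_upwards [hgoodae] with x hx
    rw [hFdef]
    simp only [if_pos hx]
    have : ∀ v, NS x.1 v (fun g => NS x.1 x.2 (b x.1 g))
        = NS x.1 x.2 (fun f => NS x.1 v (fun g => b x.1 g f)) := fun v => NS_comm _ _ _ _
    simp_rw [this]
    rw [NS_tsum]
    rfl
  rw [← e1, ← e2, h]

/-- transport from the root to every vertex -/
theorem mtp_all (P : Measure (SimpleGraph ℕ × ℕ)) (hP : IsUnimodular P)
    (hgood : MeasurableSet {G | GoodG G})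
    (hmap : ∀ (σ : Equiv.Perm ℕ) (G : SimpleGraph ℕ), GoodG (G.map σ.toEmbedding) ↔ GoodG G)
    (m : SimpleGraph ℕ → Ed → ℝ≥0∞)
    (hm : ∀ g, Measurable (fun G => m G g))
    (hmi : ∀ (σ : Equiv.Perm ℕ) G, GoodG G → ∀ g,
      m (G.map σ.toEmbedding) (Sym2.map σ g) = m G g)
    (h0 : ∫⁻ x, NS x.1 x.2 (m x.1) ∂P = 0) :
    ∀ᵐ x ∂P, DS x.1 (m x.1) = 0 := by
  classical
  set F : SimpleGraph ℕ → ℕ → ℕ → ℝ≥0∞ := fun G u _ =>
    if GoodG G then NS G u (m G) else 0 with hFdef
  have hmeas : ∀ u v, Measurable (fun G => F G u v) := by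
    intro u v
    apply Measurable.ite hgood _ measurable_const
    exact measurable_NS measurable_id u hm
  have hinv : ∀ (σ : Equiv.Perm ℕ) (G : SimpleGraph ℕ) (u v : ℕ),
      F (G.map σ.toEmbedding) (σ u) (σ v) = F G u v := by
    intro σ G u v
    rw [hFdef]
    simp only
    by_cases hG : GoodG G
    · rw [if_pos hG, if_pos ((hmap σ G).2 hG)]
      apply NS_map
      intro g
      exact hmi σ G hG g
    · rw [if_neg hG, if_neg (fun h => hG ((hmap σ G).1 h))]
  have h := hP.massTransport F hmeas hinv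
  have hgoodae : ∀ᵐ x ∂P, GoodG x.1 := by
    filter_upwards [hP.connected, hP.locallyFinite] with x h1 h2 using ⟨h1, h2⟩
  have hmN : Measurable (fun x : SimpleGraph ℕ × ℕ => NS x.1 x.2 (m x.1)) := by
    apply measurable_from_prod_countable_left
    intro o
    exact measurable_NS measurable_id o hm
  have h0' := (lintegral_eq_zero_iff hmN).1 h0
  have e1 : ∫⁻ x, ∑' v, F x.1 x.2 v ∂P = 0 := by
    rw [← lintegral_zero (μ := P)]
    apply lintegral_congr_ae
    filter_upwards [hgoodae, h0'] with x hx hx2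
    rw [hFdef]
    simp only [if_pos hx]
    have : NS x.1 x.2 (m x.1) = 0 := hx2
    rw [this]
    simp
  rw [e1] at h
  have hmF2 : Measurable (fun x : SimpleGraph ℕ × ℕ => ∑' v, F x.1 v x.2) := by
    apply measurable_from_prod_countable_left
    intro o
    exact Measurable.ennreal_tsum (fun v => hmeas v o)
  have h' := (lintegral_eq_zero_iff hmF2).1 h.symm
  filter_upwards [hgoodae, h'] with x hx hx2
  rw [hFdef] at hx2
  simp only [if_pos hx] at hx2
  exact hx2

end Vale.Agent.P143
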