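import Vale.Agent.P143.Rate
import Vale.Agent.P143.Sums

open MeasureTheory ProbabilityTheory Set Filter Topology
open scoped ENNReal

namespace Vale.Agent.P143

section

variable (μF : Kernel (SimpleGraph ℕ) (Set Ed)) [IsMarkovKernel μF]

theorem Pm_nonedge (hF : FK μF) {G : SimpleGraph ℕ} (hG : GoodG G) {g : Ed}
    (hg : g ∉ G.edgeSet) (S : Finset Ed) (A : Set Ed) (hgS : g ∈ S) (hgA : g ∈ A) :
    Pm (μF G) S A = 0 := by
  unfold Pm
  rw [measureReal_def]
  have h0 : μF G {T | ¬ T ⊆ G.edgeSet} = 0 := ae_iff.1 (hF.sub G hG.1)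
  have : μF G (cyl S A) = 0 := by
    refine measure_mono_null ?_ h0
    intro T hT hsub
    exact hg (hsub ((hT g hgS).2 hgA))
  rw [this]; rfl

theorem CJ_nonedge (hF : FK μF) {G : SimpleGraph ℕ} (hG : GoodG G) {g : Ed}
    (hg : g ∉ G.edgeSet) (J : Set Ed) (hgJ : g ∈ J) (T : Set Ed) (f : Ed) (hfg : f ≠ g) :
    CJ (Pm (μF G)) WE J T g f = 0 := by
  classical
  obtain ⟨n₀, hn₀⟩ := WE_isWin.exh g
  unfold CJ
  have hev : (fun n => ENNReal.ofReal (CW (Pm (μF G)) (JW WE J n) T g f)) =ᶠ[atTop]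
      fun _ => (0 : ℝ≥0∞) := by
    filter_upwards [eventually_ge_atTop n₀] with n hn
    have hgW : g ∈ insert f (JW WE J n) := by
      rw [Finset.mem_insert]; right
      unfold JW
      rw [Finset.mem_filter]
      exact ⟨WE_isWin.mono hn hn₀, hgJ⟩
    unfold CW
    rw [Pm_nonedge μF hF hG hg _ (insert g (T \ {f})) hgW (Set.mem_insert _ _),
      Pm_nonedge μF hF hG hg _ (insert g (insert f T)) hgW (Set.mem_insert _ _)]
    simp
  rw [limsup_congr hev, limsup_const]

theorem aI_nonedge (hF : FK μF) {G : SimpleGraph ℕ} (hG : GoodG G) {g : Ed}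
    (hg : g ∉ G.edgeSet) (s : ℝ) (x : Ed → unitInterval) (f : Ed)
    (h : tauG G x g < s ∧ s ≤ tauG G x f) : aI μF s G x g f = 0 := by
  unfold aI
  have hfg : f ≠ g := by
    rintro rfl
    exact absurd h.1 (not_lt.2 h.2)
  have : ∀ T, CJ (Pm (μF G)) WE (Jt G x s) T g f = 0 :=
    fun T => CJ_nonedge μF hF hG hg (Jt G x s) h.1 T f hfg
  simp_rw [this]
  simp

theorem bI_nonedge (hF : FK μF) {G : SimpleGraph ℕ} (hG : GoodG G) {g : Ed}
    (hg : g ∉ G.edgeSet) (s : ℝ) (x : Ed → unitInterval) (f : Ed)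
    (h : tauG G x g < s ∧ s ≤ tauG G x f) : bI μF s G x g f = 0 := by
  unfold bI
  have hfg : f ≠ g := by
    rintro rfl
    exact absurd h.1 (not_lt.2 h.2)
  have : ∀ T, CJ (Pm (μF G)) WE (Jt G x s) T g f = 0 :=
    fun T => CJ_nonedge μF hF hG hg (Jt G x s) h.1 T f hfg
  simp_rw [this]
  simp

theorem aG_nonedge (hF : FK μF) {G : SimpleGraph ℕ} (hG : GoodG G) {g : Ed}
    (hg : g ∉ G.edgeSet) (s : ℝ) (f : Ed) : aG μF s G g f = 0 := by
  classical
  unfold aG
  refine (lintegral_congr (fun x => ?_)).trans lintegral_zero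
  split_ifs with h
  · exact aI_nonedge μF hF hG hg s x f h
  · rfl

theorem bG_nonedge (hF : FK μF) {G : SimpleGraph ℕ} (hG : GoodG G) {g : Ed}
    (hg : g ∉ G.edgeSet) (s : ℝ) (f : Ed) : bG μF s G g f = 0 := by
  classical
  unfold bG
  refine (lintegral_congr (fun x => ?_)).trans lintegral_zero
  split_ifs with h
  · exact bI_nonedge μF hF hG hg s x f h
  · rfl

theorem aG_le_DS (hF : FK μF) {G : SimpleGraph ℕ} (hG : GoodG G) (s : ℝ) (f : Ed) :
    ∑' g, aG μF s G g f ≤ DS G (fun g => aG μF s G g f) := by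
  classical
  refine le_trans ?_ (le_DS G _)
  apply ENNReal.tsum_le_tsum
  intro g
  by_cases hg : g ∈ G.edgeSet
  · rw [if_pos hg]
  · rw [aG_nonedge μF hF hG hg]; exact bot_le

theorem bG_le_DS (hF : FK μF) {G : SimpleGraph ℕ} (hG : GoodG G) (s : ℝ) (f : Ed) :
    ∑' g, bG μF s G g f ≤ DS G (fun g => bG μF s G g f) := by
  classical
  refine le_trans ?_ (le_DS G _)
  apply ENNReal.tsum_le_tsum
  intro g
  by_cases hg : g ∈ G.edgeSet
  · rw [if_pos hg]
  · rw [bG_nonedge μF hF hG hg]; exact bot_le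

theorem ofReal_wG_le {G : SimpleGraph ℕ} (hG : GoodG G) {o z : ℕ} (h : G.Adj o z) :
    ENNReal.ofReal (wG G s(o, z)) ≤ (degE G o)⁻¹ := by
  classical
  unfold wG
  have h' : s(o, z) ∈ G.edgeSet := h
  rw [if_pos h']
  have hs : degS G s(o, z) = degE G o + degE G z := rfl
  have hne : degE G o + degE G z ≠ ∞ :=
    ENNReal.add_ne_top.2 ⟨degE_ne_top hG o, degE_ne_top hG z⟩
  have h1 : 1 ≤ degE G o := one_le_degE h
  have hpos : 0 < (degE G o + degE G z).toReal := by
    apply ENNReal.toReal_pos _ hne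
    intro h0
    rw [add_eq_zero] at h0
    rw [h0.1] at h1
    simp at h1
  rw [hs, ENNReal.ofReal_inv_of_pos hpos, ENNReal.ofReal_toReal hne]
  apply ENNReal.inv_le_inv.2
  exact le_self_add

theorem NS_wG_le {G : SimpleGraph ℕ} (hG : GoodG G) (o : ℕ) :
    NS G o (fun e => ENNReal.ofReal (wG G e)) ≤ 1 := by
  classical
  calc NS G o (fun e => ENNReal.ofReal (wG G e))
      ≤ NS G o (fun _ => (degE G o)⁻¹) := NS_mono G o (fun z hz => ofReal_wG_le hG hz)
    _ = (degE G o) * (degE G o)⁻¹ := by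
        unfold NS degE
        rw [← ENNReal.tsum_mul_right]
        congr 1
        ext z
        by_cases hz : G.Adj o z
        · rw [if_pos hz, if_pos hz, one_mul]
        · rw [if_neg hz, if_neg hz, zero_mul]
    _ ≤ 1 := ENNReal.mul_inv_le_one _

theorem NS_rate_le {G : SimpleGraph ℕ} (hG : GoodG G) (o : ℕ) (t : ℝ) :
    NS G o (fun e => ENNReal.ofReal (wG G e * t)) ≤ ENNReal.ofReal t := by
  calc NS G o (fun e => ENNReal.ofReal (wG G e * t))
      = NS G o (fun e => ENNReal.ofReal t * ENNReal.ofReal (wG G e)) := by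
        congr 1
        ext e
        rw [mul_comm (ENNReal.ofReal t), ENNReal.ofReal_mul (wG_pos hG e).le]
    _ = ENNReal.ofReal t * NS G o (fun e => ENNReal.ofReal (wG G e)) := NS_mul _ _ _ _
    _ ≤ ENNReal.ofReal t * 1 := by
        gcongr
        exact NS_wG_le hG o
    _ = ENNReal.ofReal t := mul_one _

variable (P : Measure (SimpleGraph ℕ × ℕ))

noncomputable def MM (t : ℝ) : ℝ≥0∞ := ∫⁻ x, NS x.1 x.2 (fun g => mG μF t x.1 g) ∂P

theorem goodG_ae (hP : IsUnimodular P) : ∀ᵐ x ∂P, GoodG x.1 := by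
  filter_upwards [hP.connected, hP.locallyFinite] with x h1 h2 using ⟨h1, h2⟩

theorem MM_le (hP : IsUnimodular P) (t : ℝ) (ht : 0 ≤ t) : MM μF P t ≤ ENNReal.ofReal t := by
  haveI := hP.prob
  unfold MM
  calc ∫⁻ x, NS x.1 x.2 (fun g => mG μF t x.1 g) ∂P
      ≤ ∫⁻ _, ENNReal.ofReal t ∂P := by
        apply lintegral_mono_ae
        filter_upwards [goodG_ae P hP] with x hx
        refine le_trans (NS_mono (F' := fun e => ENNReal.ofReal (wG x.1 e * t)) _ _
          (fun z _ => mG_le_rate μF x.1 hx t ht _)) ?_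
        exact NS_rate_le hx x.2 t
    _ = ENNReal.ofReal t := by
        rw [lintegral_const, measure_univ, mul_one]

theorem mG_mono {s t : ℝ} (hst : s ≤ t) (G : SimpleGraph ℕ) (g : Ed) :
    mG μF s G g ≤ mG μF t G g := by
  classical
  unfold mG
  apply lintegral_mono
  intro x
  simp only
  by_cases h : tauG G x g < s
  · rw [if_pos h, if_pos (lt_of_lt_of_le h hst)]
  · rw [if_neg h]; exact bot_le

theorem MM_mono {s t : ℝ} (hst : s ≤ t) : MM μF P s ≤ MM μF P t := by
  unfold MM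
  apply lintegral_mono
  intro x
  exact NS_mono _ _ (fun z _ => mG_mono μF hst _ _)

theorem measurable_NS_pair {α : Type*} [MeasurableSpace α] {F : α × SimpleGraph ℕ → Ed → ℝ≥0∞}
    (hF : ∀ e, Measurable (fun a => F a e)) :
    Measurable (fun y : α × (SimpleGraph ℕ × ℕ) => NS y.2.1 y.2.2 (F (y.1, y.2.1))) := by
  have h1 : Measurable (fun y : (α × SimpleGraph ℕ) × ℕ => NS y.1.2 y.2 (F y.1)) := by
    apply measurable_from_prod_countable_left
    intro o
    exact measurable_NS measurable_snd o hF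
  exact h1.comp (by fun_prop :
    Measurable (fun y : α × (SimpleGraph ℕ × ℕ) => ((y.1, y.2.1), y.2.2)))

theorem measurable_A (P : Measure (SimpleGraph ℕ × ℕ)) :
    Measurable (fun y : ℝ × (SimpleGraph ℕ × ℕ) =>
      NS y.2.1 y.2.2 (fun f => DS y.2.1 (fun g => aG μF y.1 y.2.1 g f))) := by
  apply measurable_NS_pair (F := fun a f => DS a.2 (fun g => aG μF a.1 a.2 g f))
  intro e
  exact measurable_DS measurable_snd (fun g => measurable_aG2 μF g e)

theorem measurable_B (P : Measure (SimpleGraph ℕ × ℕ)) :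
    Measurable (fun y : ℝ × (SimpleGraph ℕ × ℕ) =>
      NS y.2.1 y.2.2 (fun f => DS y.2.1 (fun g => bG μF y.1 y.2.1 g f))) := by
  apply measurable_NS_pair (F := fun a f => DS a.2 (fun g => bG μF a.1 a.2 g f))
  intro e
  exact measurable_DS measurable_snd (fun g => measurable_bG2 μF g e)

/-- equivariance inputs (supplied by `Equiv.lean`) -/
structure EqIn : Prop where
  good : MeasurableSet {G | GoodG G}
  map : ∀ (σ : Equiv.Perm ℕ) (G : SimpleGraph ℕ), GoodG (G.map σ.toEmbedding) ↔ GoodG G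
  m : ∀ (σ : Equiv.Perm ℕ) (G : SimpleGraph ℕ), GoodG G → ∀ (t : ℝ) (g : Ed),
    mG μF t (G.map σ.toEmbedding) (Sym2.map σ g) = mG μF t G g
  b : ∀ (σ : Equiv.Perm ℕ) (G : SimpleGraph ℕ), GoodG G → ∀ (s : ℝ) (g f : Ed),
    bG μF s (G.map σ.toEmbedding) (Sym2.map σ g) (Sym2.map σ f) = bG μF s G g f
  a : ∀ (σ : Equiv.Perm ℕ) (G : SimpleGraph ℕ), GoodG G → ∀ (s : ℝ) (g f : Ed),
    aG μF s (G.map σ.toEmbedding) (Sym2.map σ g) (Sym2.map σ f) = aG μF s G g f

theorem A_int_le (hF : FK μF) (hE : EqIn μF) (hP : IsUnimodular P) (s : ℝ) (hs : 0 ≤ s) :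
    ∫⁻ x, NS x.1 x.2 (fun f => DS x.1 (fun g => aG μF s x.1 g f)) ∂P
      ≤ 2 * ENNReal.ofReal s := by
  haveI := hP.prob
  rw [← mtp P hP hE.good hE.map (aG μF s) (fun g f => measurable_aG μF s g f)
    (fun σ G hG g f => hE.a σ G hG s g f)]
  calc ∫⁻ x, NS x.1 x.2 (fun g => DS x.1 (aG μF s x.1 g)) ∂P
      ≤ ∫⁻ _, 2 * ENNReal.ofReal s ∂P := by
        apply lintegral_mono_ae
        filter_upwards [goodG_ae P hP] with x hx
        calc NS x.1 x.2 (fun g => DS x.1 (aG μF s x.1 g))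
            ≤ NS x.1 x.2 (fun g => 2 * ENNReal.ofReal (wG x.1 g * s)) := by
              apply NS_mono
              intro z _
              refine le_trans (DS_le _ _) ?_
              gcongr
              exact aG_sum μF hF x.1 hx s hs _
          _ = 2 * NS x.1 x.2 (fun g => ENNReal.ofReal (wG x.1 g * s)) := NS_mul _ _ _ _
          _ ≤ 2 * ENNReal.ofReal s := by
              gcongr
              exact NS_rate_le hx x.2 s
    _ = 2 * ENNReal.ofReal s := by
        rw [lintegral_const, measure_univ, mul_one]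

theorem B_int_le (hF : FK μF) (hE : EqIn μF) (hP : IsUnimodular P) (s : ℝ) :
    ∫⁻ x, NS x.1 x.2 (fun f => DS x.1 (fun g => bG μF s x.1 g f)) ∂P
      ≤ 2 * MM μF P s := by
  rw [← mtp P hP hE.good hE.map (bG μF s) (fun g f => measurable_bG μF s g f)
    (fun σ G hG g f => hE.b σ G hG s g f)]
  unfold MM
  rw [← lintegral_const_mul']
  · apply lintegral_mono_ae
    filter_upwards [goodG_ae P hP] with x hx
    rw [← NS_mul]
    apply NS_mono
    intro z _
    refine le_trans (DS_le _ _) ?_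
    gcongr
    exact bG_sum μF hF x.1 hx s _
  · simp

theorem A_fin (hF : FK μF) (hE : EqIn μF) (hP : IsUnimodular P) (a t : ℝ) (ha : 0 ≤ a) :
    ∀ᵐ x ∂P, ∀ᵐ s ∂((volume : Measure ℝ).restrict (Icc a t)),
      NS x.1 x.2 (fun f => DS x.1 (fun g => aG μF s x.1 g f)) ≠ ∞ := by
  haveI := hP.prob
  have hm := measurable_A μF P
  have h1 : ∫⁻ x, (∫⁻ s in Icc a t, NS x.1 x.2 (fun f => DS x.1 (fun g => aG μF s x.1 g f))) ∂P
      ≠ ∞ := by
    rw [lintegral_lintegral_swap (f := fun (x : SimpleGraph ℕ × ℕ) (s : ℝ) =>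
      NS x.1 x.2 (fun f => DS x.1 (fun g => aG μF s x.1 g f)))
      (hm.comp measurable_swap).aemeasurable]
    apply ne_of_lt
    calc ∫⁻ s in Icc a t, (∫⁻ x, NS x.1 x.2 (fun f => DS x.1 (fun g => aG μF s x.1 g f)) ∂P)
        ≤ ∫⁻ s in Icc a t, 2 * ENNReal.ofReal t := by
          apply setLIntegral_mono' measurableSet_Icc
          intro s hs
          refine le_trans (A_int_le μF P hF hE hP s (ha.trans hs.1)) ?_
          gcongr
          exact hs.2
      _ < ∞ := by
          rw [setLIntegral_const, Real.volume_Icc]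
          exact ENNReal.mul_lt_top (ENNReal.mul_lt_top (by simp) (by simp)) (by simp)
  have hm2 : Measurable (fun x : SimpleGraph ℕ × ℕ =>
      ∫⁻ s in Icc a t, NS x.1 x.2 (fun f => DS x.1 (fun g => aG μF s x.1 g f))) :=
    (hm.comp measurable_swap).lintegral_prod_right'
  have h2 := ae_lt_top hm2 h1
  filter_upwards [h2] with x hx
  have hm3 : Measurable (fun s : ℝ =>
      NS x.1 x.2 (fun f => DS x.1 (fun g => aG μF s x.1 g f))) :=
    hm.comp (measurable_id.prodMk measurable_const)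
  have h3 := ae_lt_top hm3 hx.ne
  filter_upwards [h3] with s hs using hs.ne

theorem MM_step (hF : FK μF) (hE : EqIn μF) (hP : IsUnimodular P) (a t : ℝ) (ha : 0 ≤ a) :
    MM μF P t ≤ MM μF P a + 2 * (MM μF P t * ENNReal.ofReal (t - a)) := by
  classical
  haveI := hP.prob
  have hmB := measurable_B μF P
  have hpt : ∀ᵐ x ∂P, NS x.1 x.2 (fun g => mG μF t x.1 g) ≤ NS x.1 x.2 (fun g => mG μF a x.1 g)
      + ∫⁻ s in Icc a t, NS x.1 x.2 (fun f => DS x.1 (fun g => bG μF s x.1 g f)) := by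
    filter_upwards [goodG_ae P hP, A_fin μF P hF hE hP a t ha] with x hx hxA
    have hmD : ∀ f : Ed, Measurable (fun s : ℝ => DS x.1 (fun g => bG μF s x.1 g f)) := by
      intro f
      apply measurable_DS measurable_const
      intro g
      exact (measurable_bG2 μF g f).comp (measurable_id.prodMk measurable_const)
    have key : ∀ z, x.1.Adj x.2 z → mG μF t x.1 s(x.2, z) ≤ mG μF a x.1 s(x.2, z)
        + ∫⁻ s in Icc a t, DS x.1 (fun g => bG μF s x.1 g s(x.2, z)) := by
      intro z hz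
      refine le_trans (mG_le μF hF hx s(x.2, z) ha ?_) ?_
      · filter_upwards [hxA] with s hs
        apply ne_of_lt
        refine lt_of_le_of_lt (aG_le_DS μF hF hx s s(x.2, z)) ?_
        refine lt_of_le_of_lt (le_NS x.1 hz (fun f => DS x.1 (fun g => aG μF s x.1 g f))) ?_
        exact lt_of_le_of_ne le_top hs
      · gcongr 1
        apply lintegral_mono
        intro s
        exact bG_le_DS μF hF hx s _
    calc NS x.1 x.2 (fun g => mG μF t x.1 g)
        ≤ NS x.1 x.2 (fun f => mG μF a x.1 f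
          + ∫⁻ s in Icc a t, DS x.1 (fun g => bG μF s x.1 g f)) := NS_mono _ _ key
      _ = NS x.1 x.2 (fun g => mG μF a x.1 g) + NS x.1 x.2 (fun f =>
          ∫⁻ s in Icc a t, DS x.1 (fun g => bG μF s x.1 g f)) := NS_add _ _ _ _
      _ = _ := by
          congr 1
          unfold NS
          rw [lintegral_tsum]
          · congr 1
            ext z
            by_cases hz : x.1.Adj x.2 z
            · simp only [if_pos hz]
            · simp only [if_neg hz, lintegral_zero]
          · intro z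
            apply Measurable.aemeasurable
            by_cases hz : x.1.Adj x.2 z
            · simp only [if_pos hz]; exact hmD _
            · simp only [if_neg hz]; exact measurable_const
  calc MM μF P t ≤ ∫⁻ x, (NS x.1 x.2 (fun g => mG μF a x.1 g)
      + ∫⁻ s in Icc a t, NS x.1 x.2 (fun f => DS x.1 (fun g => bG μF s x.1 g f))) ∂P := by
        unfold MM
        exact lintegral_mono_ae hpt
    _ = MM μF P a + ∫⁻ x, (∫⁻ s in Icc a t, NS x.1 x.2
          (fun f => DS x.1 (fun g => bG μF s x.1 g f))) ∂P := by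
        unfold MM
        rw [lintegral_add_right]
        exact (hmB.comp measurable_swap).lintegral_prod_right'
    _ = MM μF P a + ∫⁻ s in Icc a t, (∫⁻ x, NS x.1 x.2
          (fun f => DS x.1 (fun g => bG μF s x.1 g f)) ∂P) := by
        rw [lintegral_lintegral_swap (f := fun (x : SimpleGraph ℕ × ℕ) (s : ℝ) =>
          NS x.1 x.2 (fun f => DS x.1 (fun g => bG μF s x.1 g f)))
          (hmB.comp measurable_swap).aemeasurable]
    _ ≤ MM μF P a + ∫⁻ s in Icc a t, 2 * MM μF P t := by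
        gcongr 1
        apply setLIntegral_mono' measurableSet_Icc
        intro s hs
        refine le_trans (B_int_le μF P hF hE hP s) ?_
        gcongr
        exact MM_mono μF P hs.2
    _ = MM μF P a + 2 * (MM μF P t * ENNReal.ofReal (t - a)) := by
        rw [setLIntegral_const, Real.volume_Icc, mul_assoc]

theorem MM_zero (hP : IsUnimodular P) : MM μF P 0 = 0 := by
  have := MM_le μF P hP 0 le_rfl
  simpa using this

theorem MM_quarter (hF : FK μF) (hE : EqIn μF) (hP : IsUnimodular P) (n : ℕ) :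
    MM μF P ((n : ℝ) / 4) = 0 := by
  induction n with
  | zero => simpa using MM_zero μF P hP
  | succ n ih =>
    have h := MM_step μF P hF hE hP ((n : ℝ) / 4) (((n + 1 : ℕ) : ℝ) / 4) (by positivity)
    rw [ih, zero_add] at h
    have hfin : MM μF P (((n + 1 : ℕ) : ℝ) / 4) ≠ ∞ := by
      apply ne_of_lt
      refine lt_of_le_of_lt (MM_le μF P hP _ (by positivity)) ENNReal.ofReal_lt_top
    have hq : ((n + 1 : ℕ) : ℝ) / 4 - (n : ℝ) / 4 = 1 / 4 := by push_cast; ring
    rw [hq] at h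
    set M := MM μF P (((n + 1 : ℕ) : ℝ) / 4) with hM
    lift M to NNReal using hfin with m hm
    have hq2 : ENNReal.ofReal (1 / 4) = ((1 / 4 : NNReal) : ℝ≥0∞) := by
      rw [ENNReal.ofReal]
      congr 1
      ext
      simp
    rw [hq2] at h
    have h' : m ≤ 2 * (m * (1 / 4)) := by exact_mod_cast h
    have h2 : (m : ℝ) ≤ 2 * (m * (1 / 4)) := by exact_mod_cast h'
    have h3 : (0 : ℝ) ≤ m := m.2
    have h4 : (m : ℝ) = 0 := by linarith
    have h5 : m = 0 := by exact_mod_cast h4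
    rw [h5]; rfl

theorem MM_nat (hF : FK μF) (hE : EqIn μF) (hP : IsUnimodular P) (n : ℕ) :
    MM μF P (n : ℝ) = 0 := by
  have h := MM_quarter μF P hF hE hP (4 * n)
  have : (((4 * n : ℕ) : ℝ)) / 4 = n := by push_cast; ring
  rw [this] at h
  exact h

theorem mG_all_zero (hF : FK μF) (hE : EqIn μF) (hP : IsUnimodular P) :
    ∀ᵐ x ∂P, ∀ n : ℕ, ∀ g ∈ x.1.edgeSet, mG μF (n : ℝ) x.1 g = 0 := by
  classical
  rw [ae_all_iff]
  intro n
  have h := mtp_all P hP hE.good hE.map (fun G g => mG μF (n : ℝ) G g)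
    (fun g => measurable_mG μF (n : ℝ) g) (fun σ G hG g => hE.m σ G hG (n : ℝ) g)
    (MM_nat μF P hF hE hP n)
  filter_upwards [h] with x hx g hg
  have h1 := le_DS x.1 (fun g => mG μF (n : ℝ) x.1 g)
  rw [hx] at h1
  have h2 : ∑' g : Ed, (if g ∈ x.1.edgeSet then mG μF (n : ℝ) x.1 g else 0) = 0 :=
    le_antisymm h1 bot_le
  rw [ENNReal.tsum_eq_zero] at h2
  have h3 := h2 g
  rw [if_pos hg] at h3
  exact h3

theorem QK_mis_nonedge (hF : FK μF) {G : SimpleGraph ℕ} (hG : GoodG G) (x : Ed → unitInterval)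
    (hx : Function.Injective (tauG G x)) {g : Ed} (hg : g ∉ G.edgeSet) :
    QK μF (G, x) (mis g) = 0 := by
  have hA := adapted μF hF G hG x hx
  have hspec := etaAt_spec μF G x hA
  have k1 := K1a hA hspec
  have k2 := K1b hA hspec
  have h0 : μF G {T | g ∈ T} = 0 := by
    have := ae_iff.1 (hF.sub G hG.1)
    refine measure_mono_null ?_ this
    intro T hT hsub
    exact hg (hsub hT)
  have hms : MeasurableSet {T : Set Ed | g ∈ T} := measurableSet_mem_pred measurable_id g
  rw [QK_apply]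
  have e1 : Qc (etaAt μF G x) {y | g ∈ y.2.1} = 0 := by
    rw [← k1, Measure.map_apply (by fun_prop) hms] at h0
    exact h0
  have e2 : Qc (etaAt μF G x) {y | g ∈ y.2.2} = 0 := by
    rw [← k2, Measure.map_apply (by fun_prop) hms] at h0
    exact h0
  refine measure_mono_null ?_ (measure_union_null e1 e2)
  intro y hy
  unfold mis at hy
  simp only [Set.mem_ofPred_eq, mem_union] at hy ⊢
  tauto

theorem QK_mis_zero (hF : FK μF) (hE : EqIn μF) (hP : IsUnimodular P) :
    ∀ᵐ y ∂P, ∀ᵐ x ∂(iidU Ed), ∀ g, QK μF (y.1, x) (mis g) = 0 := by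
  classical
  filter_upwards [goodG_ae P hP, mG_all_zero μF P hF hE hP] with y hy hm
  have h1 : ∀ g : Ed, ∀ n : ℕ, ∀ᵐ x ∂(iidU Ed), g ∈ y.1.edgeSet → tauG y.1 x g < n →
      QK μF (y.1, x) (mis g) = 0 := by
    intro g n
    by_cases hg : g ∈ y.1.edgeSet
    · have h2 := hm n g hg
      unfold mG at h2
      rw [lintegral_eq_zero_iff] at h2
      · filter_upwards [h2] with x hx _ hlt
        simp only [if_pos hlt] at hx
        exact hx
      · exact (measurable_mFull μF g).comp
          (by fun_prop : Measurable (fun x : Ed → unitInterval => (((n : ℝ), y.1), x)))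
    · exact Eventually.of_forall (fun x h => absurd h hg)
  have h3 : ∀ᵐ x ∂(iidU Ed), ∀ g : Ed, ∀ n : ℕ, g ∈ y.1.edgeSet → tauG y.1 x g < n →
      QK μF (y.1, x) (mis g) = 0 := by
    rw [ae_all_iff]; intro g
    rw [ae_all_iff]; intro n
    exact h1 g n
  filter_upwards [h3, tau_inj y.1 hy] with x hx hinj g
  by_cases hg : g ∈ y.1.edgeSet
  · obtain ⟨n, hn⟩ := exists_nat_gt (tauG y.1 x g)
    exact hx g n hg hn
  · exact QK_mis_nonedge μF hF hy x hinj hg

end

end Vale.Agent.P143
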