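import Vale.Agent.P143.EqB
import Vale.Agent.P143.Gronwall

open MeasureTheory ProbabilityTheory Set Filter Topology
open scoped ENNReal

namespace Vale.Agent.P143

theorem eqIn (μF : Kernel (SimpleGraph ℕ) (Set Ed)) [IsMarkovKernel μF] (hF : FK μF) :
    EqIn μF where
  good := measurableSet_GoodG
  map := goodG_map
  m := fun σ G hG t g => mG_rel μF hF σ G hG t g
  b := fun σ G hG s g f => bG_rel μF hF σ G hG s g f
  a := fun σ G hG s g f => aG_rel μF hF σ G hG s g f

end Vale.Agent.P143
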