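import Vale.Agent.P143.FinK

open Set Filter

namespace Vale.Agent.P143

section G

variable {E : Type*} {F F' : Finset E} {𝒯 𝒯' : Finset (Finset E)}
  {X X' : Finset E → E → E → ℝ} {S : Finset E} {A A' : Set E}

open Classical in
/-- the one-sided influences -/
noncomputable def uK (𝒯 : Finset (Finset E)) (X : Finset E → E → E → ℝ) (S : Finset E)
    (A : Set E) (g f : E) : ℝ :=
  if g ∈ S then
    (if g ∈ A then KN 𝒯 X S A g f / cnt 𝒯 S A else KN 𝒯 X S A f g / cnt 𝒯 S A)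
  else 0

noncomputable def PK (𝒯 : Finset (Finset E)) (S : Finset E) (A : Set E) : ℝ :=
  (cnt 𝒯 S A : ℝ) / (𝒯.card : ℝ)

theorem uK_mem {g : E} (hg : g ∈ S) (hgA : g ∈ A) (f : E) :
    uK 𝒯 X S A g f = KN 𝒯 X S A g f / cnt 𝒯 S A := by
  unfold uK
  rw [if_pos hg, if_pos hgA]

theorem uK_notMem {g : E} (hg : g ∈ S) (hgA : g ∉ A) (f : E) :
    uK 𝒯 X S A g f = KN 𝒯 X S A f g / cnt 𝒯 S A := by
  unfold uK
  rw [if_pos hg, if_neg hgA]

theorem uK_out {g : E} (hg : g ∉ S) (f : E) : uK 𝒯 X S A g f = 0 := by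
  unfold uK
  rw [if_neg hg]

theorem PK_congr (h : ∀ e ∈ S, (e ∈ A ↔ e ∈ A')) : PK 𝒯 S A = PK 𝒯 S A' := by
  unfold PK
  rw [cnt_congr h]

theorem cnt_empty (𝒯 : Finset (Finset E)) (A : Set E) : cnt 𝒯 ∅ A = 𝒯.card := by
  rw [cnt_eq]
  congr 1
  ext T
  rw [mem_agr]
  simp

theorem cnt_pos_of_PK (h : 0 < PK 𝒯 S A) : 0 < (cnt 𝒯 S A : ℝ) := by
  unfold PK at h
  rcases Nat.eq_zero_or_pos (cnt 𝒯 S A) with h1 | h1
  · rw [h1] at h
    simp at h
  · exact_mod_cast h1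

variable [DecidableEq E]

theorem card_pos (h : TreeFam F 𝒯 X) : 0 < (𝒯.card : ℝ) := by
  exact_mod_cast h.nonempty.card_pos

theorem PK_split {g : E} (hg : g ∉ S) :
    PK 𝒯 S A = PK 𝒯 (insert g S) (insert g A) + PK 𝒯 (insert g S) (A \ {g}) := by
  unfold PK
  rw [cnt_split hg]
  push_cast
  ring

theorem KN_zero_of_cnt (h : TreeFam F 𝒯 X) (h0 : (cnt 𝒯 S A : ℝ) = 0) (e f : E) :
    KN 𝒯 X S A e f = 0 := by
  have := KN_abs (S := S) (A := A) h e f
  rw [h0] at this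
  exact abs_eq_zero.1 (le_antisymm this (abs_nonneg _))

theorem PuK_mem (h : TreeFam F 𝒯 X) {g : E} (hg : g ∈ S) (hgA : g ∈ A) (f : E) :
    PK 𝒯 S A * uK 𝒯 X S A g f = KN 𝒯 X S A g f / 𝒯.card := by
  rw [uK_mem hg hgA]
  unfold PK
  by_cases h0 : (cnt 𝒯 S A : ℝ) = 0
  · rw [KN_zero_of_cnt h h0, h0]
    simp
  · have := (card_pos h).ne'
    field_simp

theorem PuK_notMem (h : TreeFam F 𝒯 X) {g : E} (hg : g ∈ S) (hgA : g ∉ A) (f : E) :
    PK 𝒯 S A * uK 𝒯 X S A g f = KN 𝒯 X S A f g / 𝒯.card := by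
  rw [uK_notMem hg hgA]
  unfold PK
  by_cases h0 : (cnt 𝒯 S A : ℝ) = 0
  · rw [KN_zero_of_cnt h h0, h0]
    simp
  · have := (card_pos h).ne'
    field_simp

theorem uK_abs (h : TreeFam F 𝒯 X) (S : Finset E) (A : Set E) (g f : E) :
    |uK 𝒯 X S A g f| ≤ 1 := by
  by_cases hg : g ∈ S
  · by_cases hgA : g ∈ A
    · rw [uK_mem hg hgA, abs_div, Nat.abs_cast]
      exact div_le_one_of_le₀ (KN_abs h _ _) (Nat.cast_nonneg _)
    · rw [uK_notMem hg hgA, abs_div, Nat.abs_cast]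
      exact div_le_one_of_le₀ (KN_abs h _ _) (Nat.cast_nonneg _)
  · rw [uK_out hg]
    simp

theorem pr_PK (h : TreeFam F 𝒯 X) {f : E} (hf : f ∉ S) :
    pr (PK 𝒯) S A f = KN 𝒯 X S A f f / cnt 𝒯 S A := by
  unfold pr PK
  rw [KN_diag h hf]
  have := (card_pos h).ne'
  by_cases h0 : (cnt 𝒯 S A : ℝ) = 0
  · rw [h0]
    simp
  · field_simp

open Classical in
theorem main_PK (h : TreeFam F 𝒯 X) (S : Finset E) (A A' : Set E) (f : E) (hf : f ∉ S)
    (hA : 0 < PK 𝒯 S A) (hA' : 0 < PK 𝒯 S A') :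
    |pr (PK 𝒯) S A f - pr (PK 𝒯) S A' f|
      ≤ ∑ g ∈ F ∩ S, (if (g ∈ A ↔ g ∈ A') then 0 else
        |uK 𝒯 X S A g f| * |uK 𝒯 X S A' g f|) := by
  have hn := cnt_pos_of_PK hA
  have hn' := cnt_pos_of_PK hA'
  rw [pr_PK h hf, pr_PK h hf]
  have h1 : KN 𝒯 X S A f f / cnt 𝒯 S A - KN 𝒯 X S A' f f / cnt 𝒯 S A'
      = ∑ g ∈ F, (KN 𝒯 X S A f g * KN 𝒯 X S A' g f - KN 𝒯 X S A' f g * KN 𝒯 X S A g f)
        / (cnt 𝒯 S A * cnt 𝒯 S A') := by
    rw [← Finset.sum_div, ← raw_main h]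
    field_simp
  rw [h1]
  refine (Finset.abs_sum_le_sum_abs _ _).trans ?_
  rw [← Finset.sum_inter_add_sum_sdiff F S]
  have h2 : ∑ g ∈ F \ S, |(KN 𝒯 X S A f g * KN 𝒯 X S A' g f
      - KN 𝒯 X S A' f g * KN 𝒯 X S A g f) / (cnt 𝒯 S A * cnt 𝒯 S A')| = 0 := by
    refine Finset.sum_eq_zero fun g hg => ?_
    rw [term_zero h hf (fun h' => absurd h' (Finset.mem_sdiff.1 hg).2)]
    simp
  rw [h2, add_zero]
  refine Finset.sum_le_sum fun g hg => ?_
  have hgS : g ∈ S := (Finset.mem_inter.1 hg).2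
  split_ifs with h3
  · rw [term_zero h hf (fun _ => h3)]
    simp
  · by_cases hgA : g ∈ A
    · have hgA' : g ∉ A' := fun h' => h3 (iff_of_true hgA h')
      rw [term_mem h hf hgS hgA hgA', uK_mem hgS hgA, uK_notMem hgS hgA', ← abs_mul]
      refine le_of_eq ?_
      rw [show -(KN 𝒯 X S A' f g * KN 𝒯 X S A g f) / ((cnt 𝒯 S A : ℝ) * cnt 𝒯 S A')
        = -(KN 𝒯 X S A g f / cnt 𝒯 S A * (KN 𝒯 X S A' f g / cnt 𝒯 S A')) by
          field_simp, abs_neg]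
    · have hgA' : g ∈ A' := by
        by_contra h'
        exact h3 (iff_of_false hgA h')
      rw [term_notMem h hf hgS hgA hgA', uK_notMem hgS hgA, uK_mem hgS hgA', ← abs_mul]
      refine le_of_eq ?_
      rw [show (KN 𝒯 X S A f g * KN 𝒯 X S A' g f) / ((cnt 𝒯 S A : ℝ) * cnt 𝒯 S A')
        = KN 𝒯 X S A f g / cnt 𝒯 S A * (KN 𝒯 X S A' g f / cnt 𝒯 S A') by
          field_simp]

theorem sum_sq_le (h : TreeFam F 𝒯 X) {g : E} (hg : g ∈ S) (D : Finset E)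
    (hD : Disjoint D S) :
    ∑ f ∈ D, (KN 𝒯 X S (insert g A) g f) ^ 2
      ≤ (cnt 𝒯 S (insert g A) : ℝ) * cnt 𝒯 S (A \ {g}) := by
  rw [← sum_sq h hg, ← Finset.sum_inter_add_sum_sdiff D F]
  have h1 : ∑ f ∈ D \ F, (KN 𝒯 X S (insert g A) g f) ^ 2 = 0 := by
    refine Finset.sum_eq_zero fun f hf => ?_
    rw [KN_zr h (Finset.mem_sdiff.1 hf).2]
    simp
  rw [h1, add_zero]
  refine Finset.sum_le_sum_of_subset_of_nonneg ?_ fun _ _ _ => sq_nonneg _
  intro f hf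
  rw [Finset.mem_inter] at hf
  exact Finset.mem_sdiff.2 ⟨hf.2, Finset.disjoint_left.1 hD hf.1⟩

theorem sumrule_PK (h : TreeFam F 𝒯 X) (S : Finset E) (A : Set E) (g : E) (hg : g ∈ S)
    (hA : 0 < PK 𝒯 S A) (D : Finset E) (hD : Disjoint D S) :
    (∑ f ∈ D, (uK 𝒯 X S A g f) ^ 2) * PK 𝒯 S A ≤ PK 𝒯 S (symmDiff A {g}) := by
  have hn := cnt_pos_of_PK hA
  have hN := card_pos h
  have hs := sum_sq_le (A := A) h hg D hD
  by_cases hgA : g ∈ A
  · have e1 : cnt 𝒯 S (insert g A) = cnt 𝒯 S A := by rw [Set.insert_eq_of_mem hgA]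
    have e2 : PK 𝒯 S (symmDiff A {g}) = PK 𝒯 S (A \ {g}) := by
      refine PK_congr fun e _ => ?_
      rw [Set.mem_symmDiff]
      constructor
      · rintro (h1 | h1)
        · exact h1
        · exact absurd (h1.1 ▸ hgA) h1.2
      · exact fun h1 => Or.inl h1
    rw [e2]
    have e3 : ∑ f ∈ D, (uK 𝒯 X S A g f) ^ 2
        = (∑ f ∈ D, (KN 𝒯 X S (insert g A) g f) ^ 2) / (cnt 𝒯 S A : ℝ) ^ 2 := by
      rw [Finset.sum_div]
      refine Finset.sum_congr rfl fun f _ => ?_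
      rw [uK_mem hg hgA, Set.insert_eq_of_mem hgA, div_pow]
    rw [e3]
    unfold PK
    rw [e1] at hs
    rw [div_mul_div_comm, div_le_div_iff₀ (by positivity) hN]
    calc _ ≤ (cnt 𝒯 S A : ℝ) * cnt 𝒯 S (A \ {g}) * cnt 𝒯 S A * 𝒯.card := by
          gcongr
      _ = _ := by ring
  · have e1 : cnt 𝒯 S (A \ {g}) = cnt 𝒯 S A := by rw [Set.sdiff_singleton_eq_self hgA]
    have e2 : PK 𝒯 S (symmDiff A {g}) = PK 𝒯 S (insert g A) := by
      refine PK_congr fun e _ => ?_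
      rw [Set.mem_symmDiff, Set.mem_insert_iff]
      constructor
      · rintro (h1 | h1)
        · exact Or.inr h1.1
        · exact Or.inl h1.1
      · rintro (h1 | h1)
        · right
          exact ⟨h1, h1 ▸ hgA⟩
        · left
          exact ⟨h1, fun h2 => hgA (h2 ▸ h1)⟩
    rw [e2]
    have e3 : ∑ f ∈ D, (uK 𝒯 X S A g f) ^ 2
        = (∑ f ∈ D, (KN 𝒯 X S (insert g A) g f) ^ 2) / (cnt 𝒯 S A : ℝ) ^ 2 := by
      rw [Finset.sum_div]
      refine Finset.sum_congr rfl fun f hf => ?_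
      have hfS : f ∉ S := Finset.disjoint_left.1 hD hf
      rw [uK_notMem hg hgA, KN_cross_eq h hg hfS, Set.sdiff_singleton_eq_self hgA, div_pow]
    rw [e3]
    unfold PK
    rw [e1] at hs
    rw [div_mul_div_comm, div_le_div_iff₀ (by positivity) hN]
    calc _ ≤ (cnt 𝒯 S (insert g A) : ℝ) * cnt 𝒯 S A * cnt 𝒯 S A * 𝒯.card := by
          gcongr
      _ = _ := by ring

theorem mart_PK (h : TreeFam F 𝒯 X) (S : Finset E) (A : Set E) (g f k : E) (hg : g ∈ S)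
    (hk : k ∉ S) :
    PK 𝒯 S A * uK 𝒯 X S A g f
      = PK 𝒯 (insert k S) (insert k A) * uK 𝒯 X (insert k S) (insert k A) g f
        + PK 𝒯 (insert k S) (A \ {k}) * uK 𝒯 X (insert k S) (A \ {k}) g f := by
  have hgk : g ≠ k := fun h' => hk (h' ▸ hg)
  have hg' : g ∈ insert k S := Finset.mem_insert_of_mem hg
  by_cases hgA : g ∈ A
  · rw [PuK_mem h hg hgA, PuK_mem h hg' (Set.mem_insert_of_mem _ hgA),
      PuK_mem (A := A \ {k}) h hg' ⟨hgA, hgk⟩, KN_split hk, add_div]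
  · have h1 : g ∉ insert k A := by
      rw [Set.mem_insert_iff]
      tauto
    have h2 : g ∉ A \ {k} := fun h' => hgA h'.1
    rw [PuK_notMem h hg hgA, PuK_notMem h hg' h1, PuK_notMem h hg' h2, KN_split hk, add_div]

theorem usq_raw (h : TreeFam F 𝒯 X) (S : Finset E) (A : Set E) (g f : E) (hg : g ∈ S)
    (hf : f ∉ S) :
    (KN 𝒯 X S (insert g A) g f) ^ 2
      = (cnt 𝒯 (insert f S) (insert g (A \ {f})) : ℝ) * cnt 𝒯 (insert f S) (insert f (A \ {g}))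
        - cnt 𝒯 (insert f S) (insert g (insert f A))
          * cnt 𝒯 (insert f S) ((A \ {f}) \ {g}) := by
  have hfg : f ≠ g := fun h' => hf (h' ▸ hg)
  have h1 := raw_main h S (insert g A) (A \ {g}) f
  have h2 : ∑ k ∈ F, (KN 𝒯 X S (insert g A) f k * KN 𝒯 X S (A \ {g}) k f
      - KN 𝒯 X S (A \ {g}) f k * KN 𝒯 X S (insert g A) k f)
      = - (KN 𝒯 X S (insert g A) g f) ^ 2 := by
    have h3 : ∀ k ∈ F, (KN 𝒯 X S (insert g A) f k * KN 𝒯 X S (A \ {g}) k f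
      - KN 𝒯 X S (A \ {g}) f k * KN 𝒯 X S (insert g A) k f)
      = if k = g then - (KN 𝒯 X S (insert g A) g f) ^ 2 else 0 := by
      intro k _
      by_cases hkg : k = g
      · subst hkg
        rw [if_pos rfl, term_mem h hf hg (Set.mem_insert _ _) (by simp), KN_cross_eq h hg hf]
        ring
      · rw [if_neg hkg]
        refine term_zero h hf fun _ => ?_
        simp [hkg]
    rw [Finset.sum_congr rfl h3, Finset.sum_ite_eq']
    split_ifs with h4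
    · rfl
    · rw [KN_zl h h4]
      ring
  rw [h2, KN_diag h hf, KN_diag h hf] at h1
  have c1 : cnt 𝒯 S (insert g A) = cnt 𝒯 (insert f S) (insert g (insert f A))
      + cnt 𝒯 (insert f S) (insert g (A \ {f})) := by
    rw [cnt_split (A := insert g A) hf]
    congr 1
    · rw [Set.insert_comm]
    · refine cnt_congr fun e _ => ?_
      simp only [Set.mem_sdiff, Set.mem_insert_iff, Set.mem_singleton_iff]
      constructor
      · rintro ⟨h5 | h5, h6⟩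
        · exact Or.inl h5
        · exact Or.inr ⟨h5, h6⟩
      · rintro (h5 | h5)
        · exact ⟨Or.inl h5, fun h6 => hfg (h6.symm.trans h5)⟩
        · exact ⟨Or.inr h5.1, h5.2⟩
  have c2 : cnt 𝒯 S (A \ {g}) = cnt 𝒯 (insert f S) (insert f (A \ {g}))
      + cnt 𝒯 (insert f S) ((A \ {f}) \ {g}) := by
    rw [cnt_split (A := A \ {g}) hf]
    congr 1
    refine cnt_congr fun e _ => ?_
    simp only [Set.mem_sdiff, Set.mem_singleton_iff]
    tauto
  have c3 : cnt 𝒯 (insert f S) (insert f (insert g A))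
      = cnt 𝒯 (insert f S) (insert g (insert f A)) := by
    rw [Set.insert_comm]
  rw [c1, c2, c3] at h1
  push_cast at h1
  linarith

theorem usq_PK (h : TreeFam F 𝒯 X) (S : Finset E) (A : Set E) (g f : E) (hg : g ∈ S)
    (hf : f ∉ S) :
    (uK 𝒯 X S A g f) ^ 2 * (PK 𝒯 S A) ^ 2
      = PK 𝒯 (insert f S) (insert g (A \ {f})) * PK 𝒯 (insert f S) (insert f (A \ {g}))
        - PK 𝒯 (insert f S) (insert g (insert f A)) * PK 𝒯 (insert f S) ((A \ {f}) \ {g}) := by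
  have h1 := usq_raw h S A g f hg hf
  have h2 : PK 𝒯 S A * uK 𝒯 X S A g f = KN 𝒯 X S (insert g A) g f / 𝒯.card := by
    by_cases hgA : g ∈ A
    · rw [PuK_mem h hg hgA, Set.insert_eq_of_mem hgA]
    · rw [PuK_notMem h hg hgA, KN_cross_eq h hg hf, Set.sdiff_singleton_eq_self hgA]
  have h3 : (uK 𝒯 X S A g f) ^ 2 * (PK 𝒯 S A) ^ 2 = (PK 𝒯 S A * uK 𝒯 X S A g f) ^ 2 := by ring
  rw [h3, h2, div_pow, h1]
  unfold PK
  ring

theorem TreeFam.good (h : TreeFam F 𝒯 X) :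
    ∃ u, Good (fun S A => (cnt 𝒯 S A : ℝ) / (𝒯.card : ℝ)) u := by
  classical
  refine ⟨uK 𝒯 X, ?_⟩
  have hN := card_pos h
  constructor
  · intro S A A' hh
    rw [cnt_congr hh]
  · intro S A
    positivity
  · intro A
    rw [cnt_empty]
    exact div_self hN.ne'
  · intro S A k hk
    have := PK_split (𝒯 := 𝒯) (A := A) hk
    unfold PK at this
    exact this
  · intro S A A' g f hh
    by_cases hg : g ∈ S
    · by_cases hgA : g ∈ A
      · rw [uK_mem hg hgA, uK_mem hg ((hh g hg).1 hgA), KN_congr hh, cnt_congr hh]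
      · rw [uK_notMem hg hgA, uK_notMem hg (fun h' => hgA ((hh g hg).2 h')), KN_congr hh,
          cnt_congr hh]
    · rw [uK_out hg, uK_out hg]
  · exact fun S A g f => uK_abs h S A g f
  · intro S A A' f hf hA hA'
    have h1 := main_PK h S A A' f hf hA hA'
    refine h1.trans ?_
    rw [Finset.sum_filter]
    have h2 : ∀ g, (if (g ∈ A ↔ g ∈ A') then 0 else
        |uK 𝒯 X S A g f| * |uK 𝒯 X S A' g f|)
        = if ¬ (g ∈ A ↔ g ∈ A') then |uK 𝒯 X S A g f| * |uK 𝒯 X S A' g f| else 0 := by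
      intro g
      by_cases h3 : (g ∈ A ↔ g ∈ A')
      · rw [if_pos h3, if_neg (not_not.2 h3)]
      · rw [if_neg h3, if_pos h3]
    refine (Finset.sum_le_sum fun g _ => le_of_eq (h2 g)).trans ?_
    refine Finset.sum_le_sum_of_subset_of_nonneg Finset.inter_subset_right fun g _ _ => ?_
    by_cases h3 : ¬ (g ∈ A ↔ g ∈ A')
    · rw [if_pos h3]
      positivity
    · rw [if_neg h3]
  · intro S A g hg hA D hD
    exact sumrule_PK h S A g hg hA D hD
  · intro S A g f k hg _ hk _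
    exact mart_PK h S A g f k hg hk
  · intro S A g f hg hf
    exact usq_PK h S A g f hg hf

/-- one conditional factor -/
theorem rayleigh_step (h : TreeFam F 𝒯 X) (h' : TreeFam F' 𝒯' X') (hF : F ⊆ F')
    (cross : ∀ T' ∈ 𝒯', ∀ T ∈ 𝒯, ∀ e, ∀ f ∈ F, ∑ g ∈ F, X' T' e g * X T g f = X' T' e f)
    (A : Finset E) (e : E) (he : e ∈ F) (heA : e ∉ A) :
    (cnt 𝒯 A A : ℝ) * cnt 𝒯' (insert e A) (insert e (A : Set E))
      ≤ (cnt 𝒯' A A : ℝ) * cnt 𝒯 (insert e A) (insert e (A : Set E)) := by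
  set k : ℝ := (cnt 𝒯 (insert e A) (insert e (A : Set E)) : ℝ) with hk
  set k' : ℝ := (cnt 𝒯' (insert e A) (insert e (A : Set E)) : ℝ) with hk'
  have hkK : KN 𝒯 X A A e e = k := KN_diag h heA
  have hkK' : KN 𝒯' X' A A e e = k' := KN_diag h' heA
  have hk0 : 0 ≤ k := Nat.cast_nonneg _
  have hk0' : 0 ≤ k' := Nat.cast_nonneg _
  have ha0 : (0 : ℝ) ≤ cnt 𝒯 A A := Nat.cast_nonneg _
  have ha0' : (0 : ℝ) ≤ cnt 𝒯' A A := Nat.cast_nonneg _
  -- the three sums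
  have s1 : ∑ g ∈ F \ A, KN 𝒯' X' A A e g * KN 𝒯 X A A g e = cnt 𝒯 A A * k' := by
    rw [← hkK', ← KN_mul_cross cross A A A A e he, ← Finset.sum_inter_add_sum_sdiff F A]
    have : ∑ g ∈ F ∩ A, KN 𝒯' X' A A e g * KN 𝒯 X A A g e = 0 := by
      refine Finset.sum_eq_zero fun g hg => ?_
      have hgA : g ∈ A := (Finset.mem_inter.1 hg).2
      rw [KN_right (e := e) h' hgA (Finset.mem_coe.2 hgA) (ne_of_mem_of_not_mem hgA heA).symm, zero_mul]
    rw [this, zero_add]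
  have s2 : ∑ g ∈ F \ A, (KN 𝒯' X' A A e g) ^ 2 ≤ cnt 𝒯' A A * k' := by
    have h1 : ∑ g ∈ F' \ A, (KN 𝒯' X' A A e g) ^ 2 = cnt 𝒯' A A * k' := by
      rw [← hkK', ← KN_mul h' A A A A e e, ← Finset.sum_inter_add_sum_sdiff F' A]
      have : ∑ g ∈ F' ∩ A, KN 𝒯' X' A A e g * KN 𝒯' X' A A g e = 0 := by
        refine Finset.sum_eq_zero fun g hg => ?_
        have hgA : g ∈ A := (Finset.mem_inter.1 hg).2
        rw [KN_right (e := e) h' hgA (Finset.mem_coe.2 hgA) (ne_of_mem_of_not_mem hgA heA).symm, zero_mul]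
      rw [this, zero_add]
      refine Finset.sum_congr rfl fun g hg => ?_
      rw [KN_symm h' (e := g) (f := e) (Finset.mem_sdiff.1 hg).2 heA, sq]
    rw [← h1]
    exact Finset.sum_le_sum_of_subset_of_nonneg (Finset.sdiff_subset_sdiff hF subset_rfl)
      fun _ _ _ => sq_nonneg _
  have s3 : ∑ g ∈ F \ A, (KN 𝒯 X A A g e) ^ 2 = cnt 𝒯 A A * k := by
    rw [← hkK, ← KN_mul h A A A A e e, ← Finset.sum_inter_add_sum_sdiff F A]
    have : ∑ g ∈ F ∩ A, KN 𝒯 X A A e g * KN 𝒯 X A A g e = 0 := by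
      refine Finset.sum_eq_zero fun g hg => ?_
      have hgA : g ∈ A := (Finset.mem_inter.1 hg).2
      rw [KN_right (e := e) h hgA (Finset.mem_coe.2 hgA) (ne_of_mem_of_not_mem hgA heA).symm, zero_mul]
    rw [this, zero_add]
    refine Finset.sum_congr rfl fun g hg => ?_
    rw [KN_symm h (e := e) (f := g) heA (Finset.mem_sdiff.1 hg).2, sq]
  have cs := Finset.sum_mul_sq_le_sq_mul_sq (F \ A) (fun g => KN 𝒯' X' A A e g)
    (fun g => KN 𝒯 X A A g e)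
  rw [s1, s3] at cs
  have cs2 : ((cnt 𝒯 A A : ℝ) * k') ^ 2 ≤ (cnt 𝒯' A A * k') * (cnt 𝒯 A A * k) :=
    cs.trans (mul_le_mul_of_nonneg_right s2 (mul_nonneg ha0 hk0))
  by_cases hz : (cnt 𝒯 A A : ℝ) * k' = 0
  · rw [hz]
    exact mul_nonneg ha0' hk0
  · have hpos : 0 < (cnt 𝒯 A A : ℝ) * k' :=
      lt_of_le_of_ne (mul_nonneg ha0 hk0') (Ne.symm hz)
    have : ((cnt 𝒯 A A : ℝ) * k') * (cnt 𝒯 A A * k') ≤ (cnt 𝒯 A A * k') * (cnt 𝒯' A A * k) := by
      nlinarith [cs2]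
    exact le_of_mul_le_mul_left this hpos

theorem cnt_insert_le (A : Finset E) (e : E) (heA : e ∉ A) :
    cnt 𝒯 (insert e A) (insert e (A : Set E)) ≤ cnt 𝒯 A A := by
  rw [cnt_split (A := (A : Set E)) heA]
  exact Nat.le_add_right _ _

theorem TreeFam.rayleigh (h : TreeFam F 𝒯 X) (h' : TreeFam F' 𝒯' X') (hF : F ⊆ F')
    (cross : ∀ T' ∈ 𝒯', ∀ T ∈ 𝒯, ∀ e, ∀ f ∈ F, ∑ g ∈ F, X' T' e g * X T g f = X' T' e f)
    (A : Finset E) (hA : A ⊆ F) :
    (cnt 𝒯' A A : ℝ) / (𝒯'.card : ℝ) ≤ (cnt 𝒯 A A : ℝ) / (𝒯.card : ℝ) := by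
  have hN := card_pos h
  have hN' := card_pos h'
  induction A using Finset.induction_on with
  | empty =>
    rw [cnt_empty, cnt_empty, div_self hN.ne', div_self hN'.ne']
  | insert e A heA ih =>
    have hAF : A ⊆ F := fun x hx => hA (Finset.mem_insert_of_mem hx)
    have heF : e ∈ F := hA (Finset.mem_insert_self _ _)
    have ih := ih hAF
    have st := rayleigh_step h h' hF cross A e heF heA
    rw [Finset.coe_insert]
    set k : ℝ := (cnt 𝒯 (insert e A) (insert e (A : Set E)) : ℝ) with hk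
    set k' : ℝ := (cnt 𝒯' (insert e A) (insert e (A : Set E)) : ℝ) with hk'
    have hk0 : 0 ≤ k := Nat.cast_nonneg _
    have hk0' : 0 ≤ k' := Nat.cast_nonneg _
    have ha0 : (0 : ℝ) ≤ cnt 𝒯 A A := Nat.cast_nonneg _
    have hle' : k' ≤ cnt 𝒯' A A := by
      rw [hk']
      exact_mod_cast cnt_insert_le (𝒯 := 𝒯') A e heA
    by_cases hz : (cnt 𝒯' A A : ℝ) = 0
    · have : k' = 0 := le_antisymm (hz ▸ hle') hk0'
      rw [this, zero_div]
      positivity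
    · have ha' : (0 : ℝ) < cnt 𝒯' A A := lt_of_le_of_ne (Nat.cast_nonneg _) (Ne.symm hz)
      have ha : (0 : ℝ) < cnt 𝒯 A A := by
        have h1 : 0 < (cnt 𝒯 A A : ℝ) / 𝒯.card := lt_of_lt_of_le (div_pos ha' hN') ih
        rcases lt_or_eq_of_le ha0 with h2 | h2
        · exact h2
        · rw [← h2, zero_div] at h1
          exact absurd h1 (lt_irrefl _)
      calc k' / 𝒯'.card = (k' / cnt 𝒯' A A) * ((cnt 𝒯' A A : ℝ) / 𝒯'.card) := by
            field_simp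
        _ ≤ (k / cnt 𝒯 A A) * ((cnt 𝒯 A A : ℝ) / 𝒯.card) := by
            refine mul_le_mul ?_ ih (by positivity) (by positivity)
            rw [div_le_div_iff₀ ha' ha]
            linarith
        _ = k / 𝒯.card := by
            field_simp

end G

end Vale.Agent.P143
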