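import Vale.Agent.P143.TreeFam

open Set Filter

namespace Vale.Agent.P143

section K

variable {E : Type*}

open Classical in
/-- members agreeing with `A` on `S` -/
noncomputable def agr (𝒯 : Finset (Finset E)) (S : Finset E) (A : Set E) : Finset (Finset E) :=
  𝒯.filter (fun T => ∀ e ∈ S, (e ∈ T ↔ e ∈ A))

/-- unnormalised transfer matrix -/
noncomputable def KN (𝒯 : Finset (Finset E)) (X : Finset E → E → E → ℝ) (S : Finset E)
    (A : Set E) (e f : E) : ℝ := ∑ T ∈ agr 𝒯 S A, X T e f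

variable {F F' : Finset E} {𝒯 𝒯' : Finset (Finset E)} {X X' : Finset E → E → E → ℝ}
  {S : Finset E} {A A' : Set E}

theorem mem_agr {T : Finset E} : T ∈ agr 𝒯 S A ↔ T ∈ 𝒯 ∧ ∀ e ∈ S, (e ∈ T ↔ e ∈ A) := by
  classical
  unfold agr
  simp only [Finset.mem_filter]

theorem cnt_eq (𝒯 : Finset (Finset E)) (S : Finset E) (A : Set E) :
    cnt 𝒯 S A = (agr 𝒯 S A).card := by
  classical
  unfold cnt
  congr 1
  ext T
  rw [mem_agr]
  simp only [Finset.mem_filter]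

theorem agr_congr (h : ∀ e ∈ S, (e ∈ A ↔ e ∈ A')) : agr 𝒯 S A = agr 𝒯 S A' := by
  ext T
  rw [mem_agr, mem_agr]
  refine and_congr_right fun _ => ?_
  exact forall₂_congr fun e he => by rw [h e he]

theorem cnt_congr (h : ∀ e ∈ S, (e ∈ A ↔ e ∈ A')) : cnt 𝒯 S A = cnt 𝒯 S A' := by
  rw [cnt_eq, cnt_eq, agr_congr h]

theorem KN_congr (h : ∀ e ∈ S, (e ∈ A ↔ e ∈ A')) (e f : E) :
    KN 𝒯 X S A e f = KN 𝒯 X S A' e f := by
  unfold KN
  rw [agr_congr h]

variable [DecidableEq E]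

theorem agr_insert_mem {h : E} (hh : h ∉ S) :
    agr 𝒯 (insert h S) (insert h A) = (agr 𝒯 S A).filter (fun T => h ∈ T) := by
  ext T
  rw [Finset.mem_filter, mem_agr, mem_agr]
  constructor
  · rintro ⟨h1, h2⟩
    refine ⟨⟨h1, fun e he => ?_⟩, ?_⟩
    · have h3 := h2 e (Finset.mem_insert_of_mem he)
      have h4 : e ≠ h := fun h' => hh (h' ▸ he)
      rw [h3]
      simp [h4]
    · exact (h2 h (Finset.mem_insert_self _ _)).2 (Set.mem_insert _ _)
  · rintro ⟨⟨h1, h2⟩, h3⟩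
    refine ⟨h1, fun e he => ?_⟩
    rcases Finset.mem_insert.1 he with rfl | he
    · simp [h3]
    · have h4 : e ≠ h := fun h' => hh (h' ▸ he)
      rw [h2 e he]
      simp [h4]

theorem agr_insert_notMem {h : E} (hh : h ∉ S) :
    agr 𝒯 (insert h S) (A \ {h}) = (agr 𝒯 S A).filter (fun T => ¬ h ∈ T) := by
  ext T
  rw [Finset.mem_filter, mem_agr, mem_agr]
  constructor
  · rintro ⟨h1, h2⟩
    refine ⟨⟨h1, fun e he => ?_⟩, ?_⟩
    · have h3 := h2 e (Finset.mem_insert_of_mem he)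
      have h4 : e ≠ h := fun h' => hh (h' ▸ he)
      rw [h3]
      simp [h4]
    · intro h5
      have := (h2 h (Finset.mem_insert_self _ _)).1 h5
      exact this.2 rfl
  · rintro ⟨⟨h1, h2⟩, h3⟩
    refine ⟨h1, fun e he => ?_⟩
    rcases Finset.mem_insert.1 he with rfl | he
    · simp [h3]
    · have h4 : e ≠ h := fun h' => hh (h' ▸ he)
      rw [h2 e he]
      simp [h4]

theorem sum_agr_split {h : E} (hh : h ∉ S) (φ : Finset E → ℝ) :
    ∑ T ∈ agr 𝒯 S A, φ T = ∑ T ∈ agr 𝒯 (insert h S) (insert h A), φ T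
      + ∑ T ∈ agr 𝒯 (insert h S) (A \ {h}), φ T := by
  rw [agr_insert_mem hh, agr_insert_notMem hh, Finset.sum_filter_add_sum_filter_not]

theorem KN_split {h : E} (hh : h ∉ S) (e f : E) :
    KN 𝒯 X S A e f = KN 𝒯 X (insert h S) (insert h A) e f
      + KN 𝒯 X (insert h S) (A \ {h}) e f := sum_agr_split hh _

theorem cnt_split {h : E} (hh : h ∉ S) :
    cnt 𝒯 S A = cnt 𝒯 (insert h S) (insert h A) + cnt 𝒯 (insert h S) (A \ {h}) := by
  rw [cnt_eq, cnt_eq, cnt_eq, agr_insert_mem hh, agr_insert_notMem hh,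
    Finset.card_filter_add_card_filter_not]

theorem KN_abs (h : TreeFam F 𝒯 X) (e f : E) : |KN 𝒯 X S A e f| ≤ cnt 𝒯 S A := by
  unfold KN
  refine (Finset.abs_sum_le_sum_abs _ _).trans ?_
  rw [cnt_eq, ← nsmul_one]
  refine Finset.sum_le_card_nsmul _ _ _ fun T hT => ?_
  exact h.abs T (mem_agr.1 hT).1 e f

theorem KN_left (h : TreeFam F 𝒯 X) {e f : E} (he : e ∈ S) (heA : e ∉ A) :
    KN 𝒯 X S A e f = 0 := by
  unfold KN
  refine Finset.sum_eq_zero fun T hT => ?_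
  obtain ⟨h1, h2⟩ := mem_agr.1 hT
  exact h.zl T h1 e f fun h3 => heA ((h2 e he).1 h3)

theorem KN_right (h : TreeFam F 𝒯 X) {e f : E} (hf : f ∈ S) (hfA : f ∈ A) (hef : e ≠ f) :
    KN 𝒯 X S A e f = 0 := by
  unfold KN
  refine Finset.sum_eq_zero fun T hT => ?_
  obtain ⟨h1, h2⟩ := mem_agr.1 hT
  rw [h.diag T h1 e f ((h2 f hf).2 hfA), if_neg hef]

theorem KN_zr (h : TreeFam F 𝒯 X) {e f : E} (hf : f ∉ F) : KN 𝒯 X S A e f = 0 := by
  unfold KN
  refine Finset.sum_eq_zero fun T hT => ?_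
  exact h.zr T (mem_agr.1 hT).1 e f hf

theorem KN_zl (h : TreeFam F 𝒯 X) {e f : E} (he : e ∉ F) : KN 𝒯 X S A e f = 0 := by
  unfold KN
  refine Finset.sum_eq_zero fun T hT => ?_
  exact h.zl T (mem_agr.1 hT).1 e f fun h' => he (h.sub T (mem_agr.1 hT).1 h')

theorem KN_diag (h : TreeFam F 𝒯 X) {f : E} (hf : f ∉ S) :
    KN 𝒯 X S A f f = cnt 𝒯 (insert f S) (insert f A) := by
  rw [cnt_eq, agr_insert_mem hf, Finset.card_filter]
  unfold KN
  push_cast
  refine Finset.sum_congr rfl fun T hT => ?_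
  have h1 := (mem_agr.1 hT).1
  by_cases hfT : f ∈ T
  · rw [h.diag T h1 f f hfT, if_pos rfl, if_pos hfT]
  · rw [h.zl T h1 f f hfT, if_neg hfT]

theorem KN_mul_cross
    (cross : ∀ T' ∈ 𝒯', ∀ T ∈ 𝒯, ∀ e, ∀ f ∈ F, ∑ g ∈ F, X' T' e g * X T g f = X' T' e f)
    (S' : Finset E) (A' : Set E) (S : Finset E) (A : Set E) (e : E) {f : E} (hf : f ∈ F) :
    ∑ g ∈ F, KN 𝒯' X' S' A' e g * KN 𝒯 X S A g f = cnt 𝒯 S A * KN 𝒯' X' S' A' e f := by
  unfold KN
  simp_rw [Finset.sum_mul_sum]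
  rw [Finset.sum_comm, Finset.mul_sum]
  refine Finset.sum_congr rfl fun T' hT' => ?_
  rw [Finset.sum_comm]
  have : ∀ T ∈ agr 𝒯 S A, ∑ g ∈ F, X' T' e g * X T g f = X' T' e f := fun T hT =>
    cross T' (mem_agr.1 hT').1 T (mem_agr.1 hT).1 e f hf
  rw [Finset.sum_congr rfl this, Finset.sum_const, nsmul_eq_mul, cnt_eq]

theorem KN_mul (h : TreeFam F 𝒯 X) (S : Finset E) (A : Set E) (S' : Finset E) (A' : Set E)
    (e f : E) :
    ∑ g ∈ F, KN 𝒯 X S A e g * KN 𝒯 X S' A' g f = cnt 𝒯 S' A' * KN 𝒯 X S A e f := by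
  by_cases hf : f ∈ F
  · exact KN_mul_cross (fun T' hT' T hT e f _ => h.mul T' hT' T hT e f) S A S' A' e hf
  · rw [KN_zr h hf, mul_zero]
    refine Finset.sum_eq_zero fun g _ => ?_
    rw [KN_zr h hf, mul_zero]

theorem KN_symm (h : TreeFam F 𝒯 X) {e f : E} (he : e ∉ S) (hf : f ∉ S) :
    KN 𝒯 X S A e f = KN 𝒯 X S A f e := by
  by_cases hef : e = f
  · rw [hef]
  have key : ∀ {e f : E}, e ∉ S → f ∉ S → e ≠ f → ∀ T ∈ agr 𝒯 S A, X T e f ≠ 0 →
      insert f (T.erase e) ∈ agr 𝒯 S A ∧ X (insert f (T.erase e)) f e = X T e f ∧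
      insert e ((insert f (T.erase e)).erase f) = T := by
    intro e f he hf hef T hT hX
    obtain ⟨h1, h2⟩ := mem_agr.1 hT
    obtain ⟨h3, h4⟩ := h.swap T h1 e f hef hX
    have heT : e ∈ T := by
      by_contra h5
      exact hX (h.zl T h1 e f h5)
    have hfT : f ∉ T := by
      intro h5
      apply hX
      rw [h.diag T h1 e f h5, if_neg hef]
    refine ⟨mem_agr.2 ⟨h3, fun g hg => ?_⟩, h4, ?_⟩
    · have hge : g ≠ e := fun h' => he (h' ▸ hg)
      have hgf : g ≠ f := fun h' => hf (h' ▸ hg)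
      rw [Finset.mem_insert, Finset.mem_erase, ← h2 g hg]
      simp [hge, hgf]
    · rw [Finset.erase_insert (fun h5 => hfT (Finset.mem_of_mem_erase h5)),
        Finset.insert_erase heT]
  unfold KN
  refine Finset.sum_bij_ne_zero (fun T _ _ => insert f (T.erase e)) ?_ ?_ ?_ ?_
  · intro T hT hX
    exact (key he hf hef T hT hX).1
  · intro T₁ hT₁ hX₁ T₂ hT₂ hX₂ heq
    rw [← (key he hf hef T₁ hT₁ hX₁).2.2, ← (key he hf hef T₂ hT₂ hX₂).2.2, heq]
  · intro T hT hX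
    have h1 := key hf he (Ne.symm hef) T hT hX
    refine ⟨insert e (T.erase f), h1.1, ?_, h1.2.2⟩
    rw [h1.2.1]
    exact hX
  · intro T hT hX
    exact (key he hf hef T hT hX).2.1.symm

/-- the difference formula -/
theorem raw_main (h : TreeFam F 𝒯 X) (S : Finset E) (A A' : Set E) (f : E) :
    (cnt 𝒯 S A' : ℝ) * KN 𝒯 X S A f f - cnt 𝒯 S A * KN 𝒯 X S A' f f
      = ∑ g ∈ F, (KN 𝒯 X S A f g * KN 𝒯 X S A' g f - KN 𝒯 X S A' f g * KN 𝒯 X S A g f) := by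
  rw [Finset.sum_sub_distrib, KN_mul h, KN_mul h]

theorem term_zero (h : TreeFam F 𝒯 X) {S : Finset E} {A A' : Set E} {f g : E} (hf : f ∉ S)
    (hg : g ∈ S → (g ∈ A ↔ g ∈ A')) :
    KN 𝒯 X S A f g * KN 𝒯 X S A' g f - KN 𝒯 X S A' f g * KN 𝒯 X S A g f = 0 := by
  by_cases hgS : g ∈ S
  · have hfg : f ≠ g := fun h' => hf (h' ▸ hgS)
    by_cases hgA : g ∈ A
    · rw [KN_right h hgS hgA hfg, KN_right h hgS ((hg hgS).1 hgA) hfg]
      ring
    · have hgA' : g ∉ A' := fun h' => hgA ((hg hgS).2 h')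
      rw [KN_left h hgS hgA, KN_left h hgS hgA']
      ring
  · rw [KN_symm (A := A) h hf hgS, KN_symm (A := A') h hf hgS]
    ring

theorem term_mem (h : TreeFam F 𝒯 X) {S : Finset E} {A A' : Set E} {f g : E} (hf : f ∉ S)
    (hgS : g ∈ S) (hgA : g ∈ A) (_hgA' : g ∉ A') :
    KN 𝒯 X S A f g * KN 𝒯 X S A' g f - KN 𝒯 X S A' f g * KN 𝒯 X S A g f
      = - (KN 𝒯 X S A' f g * KN 𝒯 X S A g f) := by
  have hfg : f ≠ g := fun h' => hf (h' ▸ hgS)
  rw [KN_right h hgS hgA hfg]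
  ring

theorem term_notMem (h : TreeFam F 𝒯 X) {S : Finset E} {A A' : Set E} {f g : E} (_hf : f ∉ S)
    (hgS : g ∈ S) (hgA : g ∉ A) (_hgA' : g ∈ A') :
    KN 𝒯 X S A f g * KN 𝒯 X S A' g f - KN 𝒯 X S A' f g * KN 𝒯 X S A g f
      = KN 𝒯 X S A f g * KN 𝒯 X S A' g f := by
  rw [KN_left (f := f) h hgS hgA]
  ring

/-- on `S = insert g S₀`: both one-sided sums coincide -/
theorem KN_cross_eq (h : TreeFam F 𝒯 X) {S : Finset E} {A : Set E} {f g : E} (hg : g ∈ S)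
    (hf : f ∉ S) :
    KN 𝒯 X S (insert g A) g f = KN 𝒯 X S (A \ {g}) f g := by
  have hfg : f ≠ g := fun h' => hf (h' ▸ hg)
  have hS : insert g (S.erase g) = S := Finset.insert_erase hg
  have h0 : g ∉ S.erase g := Finset.notMem_erase _ _
  have hf0 : f ∉ S.erase g := fun h' => hf (Finset.mem_of_mem_erase h')
  have h1 := KN_split (𝒯 := 𝒯) (X := X) (A := A) h0 g f
  have h2 := KN_split (𝒯 := 𝒯) (X := X) (A := A) h0 f g
  rw [hS] at h1 h2
  rw [KN_left (A := A \ {g}) h hg (by simp), add_zero] at h1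
  rw [KN_right (A := insert g A) h hg (Set.mem_insert _ _) hfg, zero_add] at h2
  rw [← h1, ← h2]
  exact KN_symm h h0 hf0

theorem sum_sq (h : TreeFam F 𝒯 X) {S : Finset E} {A : Set E} {g : E} (hg : g ∈ S) :
    ∑ f ∈ F \ S, (KN 𝒯 X S (insert g A) g f) ^ 2
      = (cnt 𝒯 S (insert g A) : ℝ) * cnt 𝒯 S (A \ {g}) := by
  have hS : insert g (S.erase g) = S := Finset.insert_erase hg
  have h0 : g ∉ S.erase g := Finset.notMem_erase _ _
  have h1 := KN_mul h (S.erase g) A (S.erase g) A g g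
  have hgg : KN 𝒯 X (S.erase g) A g g = cnt 𝒯 S (insert g A) := by
    rw [KN_diag h h0, hS]
  have hc : (cnt 𝒯 (S.erase g) A : ℝ) = cnt 𝒯 S (insert g A) + cnt 𝒯 S (A \ {g}) := by
    have := cnt_split (𝒯 := 𝒯) (A := A) h0
    rw [hS] at this
    rw [this]
    push_cast
    ring
  rw [← Finset.sum_inter_add_sum_sdiff F S] at h1
  have h2 : ∑ f ∈ F ∩ S, KN 𝒯 X (S.erase g) A g f * KN 𝒯 X (S.erase g) A f g
      = (cnt 𝒯 S (insert g A) : ℝ) ^ 2 := by
    have h3 : ∀ f ∈ F ∩ S, KN 𝒯 X (S.erase g) A g f * KN 𝒯 X (S.erase g) A f g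
        = if f = g then (cnt 𝒯 S (insert g A) : ℝ) ^ 2 else 0 := by
      intro f hf
      by_cases hfg : f = g
      · rw [if_pos hfg, hfg, hgg, sq]
      · rw [if_neg hfg]
        have hf0 : f ∈ S.erase g := Finset.mem_erase.2 ⟨hfg, (Finset.mem_inter.1 hf).2⟩
        by_cases hfA : f ∈ A
        · rw [KN_right h hf0 hfA (Ne.symm hfg), zero_mul]
        · rw [KN_left (e := f) h hf0 hfA, mul_zero]
    rw [Finset.sum_congr rfl h3, Finset.sum_ite_eq']
    split_ifs with h4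
    · rfl
    · have h5 : g ∉ F := fun h' => h4 (Finset.mem_inter.2 ⟨h', hg⟩)
      have h6 : (cnt 𝒯 S (insert g A) : ℝ) = 0 := by
        rw [← hgg]
        exact KN_zl h h5
      rw [h6]
      ring
  have h3 : ∑ f ∈ F \ S, KN 𝒯 X (S.erase g) A g f * KN 𝒯 X (S.erase g) A f g
      = ∑ f ∈ F \ S, (KN 𝒯 X S (insert g A) g f) ^ 2 := by
    refine Finset.sum_congr rfl fun f hf => ?_
    have hfS : f ∉ S := (Finset.mem_sdiff.1 hf).2
    have hf0 : f ∉ S.erase g := fun h' => hfS (Finset.mem_of_mem_erase h')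
    rw [KN_symm h hf0 h0, ← sq]
    have h4 := KN_split (𝒯 := 𝒯) (X := X) (A := A) h0 g f
    rw [hS, KN_left (A := A \ {g}) h hg (by simp), add_zero] at h4
    rw [h4]
  rw [h2, h3, hgg, hc] at h1
  linarith

end K

end Vale.Agent.P143
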