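import Vale.Agent.P143.Gronwall

open MeasureTheory ProbabilityTheory Set Filter Topology
open scoped ENNReal

namespace Vale.Agent.P143

theorem mG_zero_all (μF : Kernel (SimpleGraph ℕ) (Set Ed)) [IsMarkovKernel μF] (hF : FK μF)
    (hE : EqIn μF) (P : Measure (SimpleGraph ℕ × ℕ)) (hP : IsUnimodular P) :
    ∀ᵐ y ∂P, ∀ t g, mG μF t y.1 g = 0 := by
  classical
  filter_upwards [QK_mis_zero μF P hF hE hP] with y hy t g
  unfold mG
  refine (lintegral_congr_ae ?_).trans lintegral_zero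
  filter_upwards [hy] with x hx
  rw [hx g, ite_self]

theorem unimodular_final
    (hFK : ∃ μF : Kernel (SimpleGraph ℕ) (Set Ed), IsMarkovKernel μF ∧ FK μF)
    (hEq : ∀ (μF : Kernel (SimpleGraph ℕ) (Set Ed)) [IsMarkovKernel μF], FK μF → EqIn μF)
    (hPhi : ∀ (μF : Kernel (SimpleGraph ℕ) (Set Ed)) [IsMarkovKernel μF], FK μF →
      ∃ Φ : SimpleGraph ℕ → (ℕ → unitInterval) → Set Ed,
      Measurable (Function.uncurry Φ) ∧
      (∀ (σ : Equiv.Perm ℕ) (G : SimpleGraph ℕ) (U : ℕ → unitInterval),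
        Φ (G.map σ.toEmbedding) (fun v => U (σ.symm v)) = Sym2.map σ '' Φ G U) ∧
      ∀ G, GoodG G → (∀ t g, mG μF t G g = 0) → (iidLabels ℕ).map (Φ G) = μF G) :
    Q1Unimodular := by
  obtain ⟨μF, hMK, hF⟩ := hFK
  haveI := hMK
  obtain ⟨Φ, h1, h2, h3⟩ := hPhi μF hF
  intro P hP
  refine ⟨Φ, h1, h2, ?_⟩
  filter_upwards [goodG_ae P hP, mG_zero_all μF hF (hEq μF hF) P hP] with y hy hy2
  rw [h3 y.1 hy hy2]
  exact hF.fusf y.1 hy.1

end Vale.Agent.P143
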