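import Vale.Agent.P143.TreeX

open Set

namespace Vale.Agent.P143

open Classical in
/-- indicator of the side of the upper end of `g` in the tree `T` -/
noncomputable def sideI (T : Finset (Sym2 ℕ)) (g : Sym2 ℕ) (x : ℕ) : ℝ :=
  if (MT ((T.erase g : Finset (Sym2 ℕ)) : Set (Sym2 ℕ))).Reachable g.sup x then 1 else 0

theorem XT_eq_side {F T : Finset (Sym2 ℕ)} {e f : Sym2 ℕ} (he : e ∈ T) (hf : f ∈ F) :
    XT F T e f = sideI T e f.sup - sideI T e f.inf := by
  unfold XT sideI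
  rw [if_pos ⟨he, hf⟩]

theorem potential {F T : Finset (Sym2 ℕ)} {VS : Set ℕ}
    (hF : ∀ e ∈ F, ¬ e.IsDiag ∧ ∀ v ∈ e, v ∈ VS) (hTF : T ⊆ F)
    (hac : (MT (T : Set (Sym2 ℕ))).IsAcyclic) (φ : ℕ → ℝ) {x y : ℕ}
    (hxy : (MT (T : Set (Sym2 ℕ))).Reachable x y) :
    ∑ g ∈ T, (φ g.sup - φ g.inf) * (sideI T g x - sideI T g y) = φ x - φ y := by
  classical
  rw [SimpleGraph.reachable_iff_reflTransGen] at hxy
  induction hxy with
  | refl => simp
  | @tail a b _ hab ih =>
    have hab' := hab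
    rw [SimpleGraph.fromEdgeSet_adj] at hab'
    have hf : s(a, b) ∈ T := by exact_mod_cast hab'.1
    have hX : ∀ g ∈ T, sideI T g (s(a, b) : Sym2 ℕ).sup - sideI T g (s(a, b) : Sym2 ℕ).inf
        = if g = s(a, b) then 1 else 0 := by
      intro g hg
      rw [← XT_eq_side hg (hTF hf), XT_diag hF hTF hac g _ hf]
    have hstep : ∑ g ∈ T, (φ g.sup - φ g.inf) * (sideI T g a - sideI T g b) = φ a - φ b := by
      rcases le_total a b with hle | hle
      · have h1 : (s(a, b) : Sym2 ℕ).sup = b := by rw [Sym2.sup_mk]; exact sup_eq_right.2 hle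
        have h2 : (s(a, b) : Sym2 ℕ).inf = a := by rw [Sym2.inf_mk]; exact inf_eq_left.2 hle
        rw [h1, h2] at hX
        calc ∑ g ∈ T, (φ g.sup - φ g.inf) * (sideI T g a - sideI T g b)
            = ∑ g ∈ T, (-(φ g.sup - φ g.inf)) * (if g = s(a, b) then 1 else 0) := by
              apply Finset.sum_congr rfl
              intro g hg
              rw [← hX g hg]; ring
          _ = φ a - φ b := by
              simp only [mul_ite, mul_one, mul_zero]
              rw [Finset.sum_ite_eq' T (s(a, b)), if_pos hf, h1, h2]; ring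
      · have h1 : (s(a, b) : Sym2 ℕ).sup = a := by rw [Sym2.sup_mk]; exact sup_eq_left.2 hle
        have h2 : (s(a, b) : Sym2 ℕ).inf = b := by rw [Sym2.inf_mk]; exact inf_eq_right.2 hle
        rw [h1, h2] at hX
        calc ∑ g ∈ T, (φ g.sup - φ g.inf) * (sideI T g a - sideI T g b)
            = ∑ g ∈ T, (φ g.sup - φ g.inf) * (if g = s(a, b) then 1 else 0) := by
              apply Finset.sum_congr rfl
              intro g hg
              rw [← hX g hg]
          _ = φ a - φ b := by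
              simp only [mul_ite, mul_one, mul_zero]
              rw [Finset.sum_ite_eq' T (s(a, b)), if_pos hf, h1, h2]
    have hadd : ∑ g ∈ T, (φ g.sup - φ g.inf) * (sideI T g x - sideI T g b)
        = ∑ g ∈ T, (φ g.sup - φ g.inf) * (sideI T g x - sideI T g a)
        + ∑ g ∈ T, (φ g.sup - φ g.inf) * (sideI T g a - sideI T g b) := by
      rw [← Finset.sum_add_distrib]
      apply Finset.sum_congr rfl
      intro g _
      ring
    rw [hadd, ih, hstep]; ring

theorem XT_cross {F T : Finset (Sym2 ℕ)} {VS : Set ℕ}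
    (hF : ∀ e ∈ F, ¬ e.IsDiag ∧ ∀ v ∈ e, v ∈ VS) (hTF : T ⊆ F)
    (hST : ST VS (T : Set (Sym2 ℕ))) {F' : Finset (Sym2 ℕ)} (hFF' : F ⊆ F')
    (T' : Finset (Sym2 ℕ)) (e : Sym2 ℕ) {f : Sym2 ℕ} (hf : f ∈ F) :
    ∑ g ∈ F, XT F' T' e g * XT F T g f = XT F' T' e f := by
  classical
  have hTVS : ∀ e ∈ (T : Set (Sym2 ℕ)), ∀ v ∈ e, v ∈ VS := fun e he => (hF e (hTF he)).2
  obtain ⟨hne, hconn, hac⟩ := (ST_iff hTVS).1 hST
  by_cases he : e ∈ T'
  · have hsub : ∑ g ∈ F, XT F' T' e g * XT F T g f = ∑ g ∈ T, XT F' T' e g * XT F T g f := by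
      symm
      apply Finset.sum_subset hTF
      intro g _ hg
      rw [XT_zl T g f hg, mul_zero]
    have hfs : f.sup ∈ VS := (hF f hf).2 _ (sup_mem f)
    have hfi : f.inf ∈ VS := (hF f hf).2 _ (inf_mem f)
    rw [hsub, XT_eq_side he (hFF' hf),
      ← potential hF hTF hac (sideI T' e) (hconn f.sup hfs f.inf hfi)]
    apply Finset.sum_congr rfl
    intro g hg
    rw [XT_eq_side he (hFF' (hTF hg)), XT_eq_side hg hf]
  · rw [XT_zl T' e f he]
    apply Finset.sum_eq_zero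
    intro g _
    rw [XT_zl T' e g he, zero_mul]

/-- the composition rule inside one graph -/
theorem XT_mul {F T : Finset (Sym2 ℕ)} {VS : Set ℕ}
    (hF : ∀ e ∈ F, ¬ e.IsDiag ∧ ∀ v ∈ e, v ∈ VS) (hTF : T ⊆ F)
    (hST : ST VS (T : Set (Sym2 ℕ))) (T' : Finset (Sym2 ℕ)) (e f : Sym2 ℕ) :
    ∑ g ∈ F, XT F T' e g * XT F T g f = XT F T' e f := by
  by_cases hf : f ∈ F
  · exact XT_cross hF hTF hST (Finset.Subset.refl F) T' e hf
  · rw [XT_zr T' e f hf]
    apply Finset.sum_eq_zero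
    intro g _
    rw [XT_zr T g f hf, mul_zero]

end Vale.Agent.P143
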