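import Vale.Agent.P143.FinGood
import Vale.Agent.P143.TreeCross

open Set Filter

namespace Vale.Agent.P143

open Classical in
noncomputable def trees (VS : Set ℕ) (F : Finset (Sym2 ℕ)) : Finset (Finset (Sym2 ℕ)) :=
  F.powerset.filter (fun T : Finset (Sym2 ℕ) => ST VS (T : Set (Sym2 ℕ)))

theorem mem_trees {VS : Set ℕ} {F : Finset (Sym2 ℕ)} (T : Finset (Sym2 ℕ)) :
    T ∈ trees VS F ↔ T ⊆ F ∧ ST VS (T : Set (Sym2 ℕ)) := by
  classical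
  unfold trees
  simp only [Finset.mem_filter, Finset.mem_powerset]

theorem NT_eq_cnt (VS : Set ℕ) (F S : Finset (Sym2 ℕ)) (A : Set (Sym2 ℕ)) :
    NT VS F S A = cnt (trees VS F) S A := by
  classical
  unfold NT cnt
  have hinj : Function.Injective (fun T : Finset (Sym2 ℕ) => (T : Set (Sym2 ℕ))) :=
    Finset.coe_injective
  rw [← Finset.card_image_of_injective _ hinj]
  congr 1
  ext T
  simp only [Finset.mem_filter, Finset.bind_def, Finset.mem_sup, Finset.pure_def,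
    Finset.mem_singleton, Finset.mem_powerset, Finset.mem_image, mem_trees]
  constructor
  · rintro ⟨⟨T, h1, rfl⟩, h2, h3⟩
    exact ⟨T, ⟨⟨h1, h2⟩, h3⟩, rfl⟩
  · rintro ⟨T, ⟨⟨h1, h2⟩, h3⟩, rfl⟩
    exact ⟨⟨T, h1, rfl⟩, h2, h3⟩

theorem NT_eq_card (VS : Set ℕ) (F : Finset (Sym2 ℕ)) :
    NT VS F ∅ ∅ = (trees VS F).card := by
  rw [NT_eq_cnt]
  unfold cnt
  congr 1
  simp

theorem PT_eq (VS : Set ℕ) (F : Finset (Sym2 ℕ)) (S : Finset (Sym2 ℕ)) (A : Set (Sym2 ℕ)) :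
    PT VS F S A = (cnt (trees VS F) S A : ℝ) / ((trees VS F).card : ℝ) := by
  unfold PT
  rw [NT_eq_card, NT_eq_cnt]

theorem treeFam {VS : Set ℕ} {F : Finset (Sym2 ℕ)}
    (hF : ∀ e ∈ F, ¬ e.IsDiag ∧ ∀ v ∈ e, v ∈ VS) (hpos : 0 < NT VS F ∅ ∅) :
    TreeFam F (trees VS F) (XT F) where
  nonempty := by
    rw [NT_eq_card] at hpos
    exact Finset.card_pos.1 hpos
  sub := fun T hT => ((mem_trees T).1 hT).1
  zl := fun T _ e f he => XT_zl T e f he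
  zr := fun T _ e f hf => XT_zr T e f hf
  diag := by
    intro T hT e f hf
    obtain ⟨h1, h2⟩ := (mem_trees T).1 hT
    have h3 := ((ST_iff (T := (T : Set (Sym2 ℕ))) (fun g hg => (hF g (h1 hg)).2)).1 h2).2.2
    exact XT_diag hF h1 h3 e f hf
  abs := fun T _ e f => XT_abs T e f
  mul := by
    intro T _ T' hT' e f
    obtain ⟨h1, h2⟩ := (mem_trees T').1 hT'
    exact XT_mul hF h1 h2 T e f
  swap := by
    intro T hT e f hef hX
    obtain ⟨h1, h2⟩ := (mem_trees T).1 hT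
    obtain ⟨h3, h4⟩ := XT_swap hF h1 h2 e f hef hX
    exact ⟨(mem_trees _).2 h3, h4⟩

theorem finite_good {VS : Set ℕ} {F : Finset (Sym2 ℕ)}
    (hF : ∀ e ∈ F, ¬ e.IsDiag ∧ ∀ v ∈ e, v ∈ VS) (hpos : 0 < NT VS F ∅ ∅) :
    ∃ u, Good (PT VS F) u := by
  obtain ⟨u, hu⟩ := (treeFam hF hpos).good
  refine ⟨u, ?_⟩
  have : PT VS F = fun S A => (cnt (trees VS F) S A : ℝ) / ((trees VS F).card : ℝ) := by
    ext S A; exact PT_eq VS F S A
  rw [this]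
  exact hu

theorem rayleigh {VS VS' : Set ℕ} {F F' : Finset (Sym2 ℕ)}
    (hF : ∀ e ∈ F, ¬ e.IsDiag ∧ ∀ v ∈ e, v ∈ VS) (hF' : ∀ e ∈ F', ¬ e.IsDiag ∧ ∀ v ∈ e, v ∈ VS')
    (h2 : F ⊆ F') (hpos : 0 < NT VS F ∅ ∅) (hpos' : 0 < NT VS' F' ∅ ∅)
    (A : Finset (Sym2 ℕ)) (hA : A ⊆ F) :
    PT VS' F' A A ≤ PT VS F A A := by
  rw [PT_eq, PT_eq]
  refine (treeFam hF hpos).rayleigh (treeFam hF' hpos') h2 ?_ A hA
  intro T' _ T hT e f hf
  obtain ⟨h1, h3⟩ := (mem_trees T).1 hT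
  exact XT_cross hF h1 h3 h2 T' e hf

end Vale.Agent.P143
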