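import Vale.Agent.P143.Base

open MeasureTheory ProbabilityTheory Set Filter Topology

namespace Vale.Agent.P143

section

variable {E : Type*} [DecidableEq E] {ι : Type*}

theorem good_limit (l : Filter ι) [l.NeBot] {P : ι → Finset E → Set E → ℝ}
    {u : ι → Finset E → Set E → E → E → ℝ} (hP : ∀ n, Good (P n) (u n))
    {Q : Finset E → Set E → ℝ} (hlim : ∀ S A, Tendsto (fun n => P n S A) l (𝓝 (Q S A))) :
    ∃ v, Good Q v := by
  classical
  let 𝒰 : Ultrafilter ι := Ultrafilter.of l
  have hle : (𝒰 : Filter ι) ≤ l := Ultrafilter.of_le l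
  have hQ : ∀ S A, Tendsto (fun n => P n S A) 𝒰 (𝓝 (Q S A)) := fun S A => (hlim S A).mono_left hle
  have hex : ∀ S A g f, ∃ x ∈ Icc (-1 : ℝ) 1, Tendsto (fun n => u n S A g f) 𝒰 (𝓝 x) := by
    intro S A g f
    have hc : IsCompact (Icc (-1 : ℝ) 1) := isCompact_Icc
    have h1 : ↑(𝒰.map (fun n => u n S A g f)) ≤ 𝓟 (Icc (-1 : ℝ) 1) := by
      rw [le_principal_iff]
      apply Ultrafilter.mem_map.2
      apply Filter.Eventually.of_forall
      intro n
      exact abs_le.1 ((hP n).u_abs S A g f)
    obtain ⟨x, hx, hx2⟩ := isCompact_iff_ultrafilter_le_nhds.1 hc _ h1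
    exact ⟨x, hx, hx2⟩
  choose w hw hwlim using hex
  let v : Finset E → Set E → E → E → ℝ := fun S A g f => if Q S A = 0 then 0 else w S A g f
  have hvP : ∀ S A g f, Tendsto (fun n => P n S A * u n S A g f) 𝒰 (𝓝 (Q S A * v S A g f)) := by
    intro S A g f
    have h1 := (hQ S A).mul (hwlim S A g f)
    by_cases h0 : Q S A = 0
    · rw [h0, zero_mul] at h1
      simpa [h0] using h1
    · simp only [v, h0, if_false]
      exact h1
  have hv : ∀ S A g f, 0 < Q S A → Tendsto (fun n => u n S A g f) 𝒰 (𝓝 (v S A g f)) := by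
    intro S A g f h
    simp only [v, h.ne', if_false]
    exact hwlim S A g f
  have hpr : ∀ S A f, 0 < Q S A → Tendsto (fun n => pr (P n) S A f) 𝒰 (𝓝 (pr Q S A f)) := by
    intro S A f h
    unfold pr
    exact (hQ _ _).div (hQ _ _) h.ne'
  have hev : ∀ S A, 0 < Q S A → ∀ᶠ n in (𝒰 : Filter ι), 0 < P n S A := by
    intro S A h
    exact (hQ S A).eventually (lt_mem_nhds h)
  have hcongr : ∀ S A A', (∀ e ∈ S, (e ∈ A ↔ e ∈ A')) → Q S A = Q S A' := by
    intro S A A' h
    apply tendsto_nhds_unique (hQ S A)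
    have : (fun n => P n S A) = fun n => P n S A' := by
      ext n; exact (hP n).P_congr S A A' h
    rw [this]; exact hQ S A'
  refine ⟨v, ?_⟩
  constructor
  · exact hcongr
  · intro S A
    exact ge_of_tendsto (hQ S A) (Eventually.of_forall fun n => (hP n).P_nonneg S A)
  · intro A
    apply tendsto_nhds_unique (hQ ∅ A)
    have : (fun n => P n ∅ A) = fun _ => 1 := by
      ext n; exact (hP n).P_empty A
    rw [this]; exact tendsto_const_nhds
  · intro S A h hh
    apply tendsto_nhds_unique (hQ S A)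
    have : (fun n => P n S A) = fun n => P n (insert h S) (insert h A) + P n (insert h S) (A \ {h}) := by
      ext n; exact (hP n).P_split S A h hh
    rw [this]
    exact (hQ _ _).add (hQ _ _)
  · intro S A A' g f h
    have h1 := hcongr S A A' h
    simp only [v, h1]
    split_ifs with h0
    · rfl
    · apply tendsto_nhds_unique (hwlim S A g f)
      have : (fun n => u n S A g f) = fun n => u n S A' g f := by
        ext n; exact (hP n).u_congr S A A' g f h
      rw [this]; exact hwlim S A' g f
  · intro S A g f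
    simp only [v]
    split_ifs
    · simp
    · exact abs_le.2 (hw S A g f)
  · intro S A A' f hf hA hA'
    have h1 : Tendsto (fun n => |pr (P n) S A f - pr (P n) S A' f|) 𝒰
        (𝓝 |pr Q S A f - pr Q S A' f|) := ((hpr S A f hA).sub (hpr S A' f hA')).abs
    have h2 : Tendsto (fun n => ∑ g ∈ S with ¬ (g ∈ A ↔ g ∈ A'), |u n S A g f| * |u n S A' g f|) 𝒰
        (𝓝 (∑ g ∈ S with ¬ (g ∈ A ↔ g ∈ A'), |v S A g f| * |v S A' g f|)) := by
      apply tendsto_finsetSum
      intro g _
      exact (hv S A g f hA).abs.mul (hv S A' g f hA').abs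
    apply le_of_tendsto_of_tendsto h1 h2
    filter_upwards [hev S A hA, hev S A' hA'] with n hn hn'
    exact (hP n).main S A A' f hf hn hn'
  · intro S A g hg hA F hF
    have h1 : Tendsto (fun n => (∑ f ∈ F, (u n S A g f) ^ 2) * P n S A) 𝒰
        (𝓝 ((∑ f ∈ F, (v S A g f) ^ 2) * Q S A)) := by
      apply Tendsto.mul _ (hQ S A)
      apply tendsto_finsetSum
      intro f _
      exact (hv S A g f hA).pow 2
    apply le_of_tendsto_of_tendsto h1 (hQ S _)
    filter_upwards [hev S A hA] with n hn
    exact (hP n).sumrule S A g hg hn F hF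
  · intro S A g f h hg hf hh hhf
    apply tendsto_nhds_unique (hvP S A g f)
    have : (fun n => P n S A * u n S A g f) = fun n =>
        P n (insert h S) (insert h A) * u n (insert h S) (insert h A) g f
        + P n (insert h S) (A \ {h}) * u n (insert h S) (A \ {h}) g f := by
      ext n; exact (hP n).mart S A g f h hg hf hh hhf
    rw [this]
    exact (hvP _ _ _ _).add (hvP _ _ _ _)
  · intro S A g f hg hf
    have h1 : Tendsto (fun n => (u n S A g f) ^ 2 * (P n S A) ^ 2) 𝒰
        (𝓝 ((v S A g f) ^ 2 * (Q S A) ^ 2)) := by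
      have h2 := (hvP S A g f).pow 2
      have e1 : (fun n => (P n S A * u n S A g f) ^ 2) = fun n => (u n S A g f) ^ 2 * (P n S A) ^ 2 := by
        ext n; ring
      have e2 : (Q S A * v S A g f) ^ 2 = (v S A g f) ^ 2 * (Q S A) ^ 2 := by ring
      rw [e1, e2] at h2
      exact h2
    apply tendsto_nhds_unique h1
    have : (fun n => (u n S A g f) ^ 2 * (P n S A) ^ 2) = fun n =>
        P n (insert f S) (insert g (A \ {f})) * P n (insert f S) (insert f (A \ {g}))
        - P n (insert f S) (insert g (insert f A)) * P n (insert f S) ((A \ {f}) \ {g}) := by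
      ext n; exact (hP n).usq S A g f hg hf
    rw [this]
    exact ((hQ _ _).mul (hQ _ _)).sub ((hQ _ _).mul (hQ _ _))

end

end Vale.Agent.P143
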