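import Vale.Agent.P143.FiniteUST
import Vale.Agent.P143.GoodLim
import Vale.Agent.P143.CylKernel

open MeasureTheory ProbabilityTheory Set Filter Topology
open scoped ENNReal

namespace Vale.Agent.P143

section Bridge

variable {G : SimpleGraph ℕ}

theorem edgeSet_finite {H : G.Subgraph} (h : H.verts.Finite) : H.edgeSet.Finite := by
  refine (Set.Finite.subset ((h.prod h).image (fun p : ℕ × ℕ => s(p.1, p.2))) ?_)
  intro e he
  induction e using Sym2.ind with
  | _ a b =>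
    rw [SimpleGraph.Subgraph.mem_edgeSet] at he
    exact ⟨(a, b), ⟨H.edge_vert he, H.edge_vert he.symm⟩, rfl⟩

theorem ncard_eq_NT (H : G.Subgraph) (F : Finset (Sym2 ℕ)) (hF : (F : Set (Sym2 ℕ)) = H.edgeSet)
    (S : Finset (Sym2 ℕ)) (A : Set (Sym2 ℕ)) :
    {T | IsSpanningTree H T ∧ ∀ e ∈ S, (e ∈ T ↔ e ∈ A)}.ncard = NT H.verts F S A := by
  classical
  unfold NT
  rw [← Set.ncard_coe_finset]
  congr 1
  ext T
  simp only [Finset.coe_filter, mem_ofPred_eq, Finset.bind_def, Finset.mem_sup, Finset.pure_def,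
    Finset.mem_singleton, Finset.mem_powerset]
  constructor
  · rintro ⟨⟨h1, h2⟩, h3⟩
    rw [← hF] at h1
    have hfin : T.Finite := F.finite_toSet.subset h1
    refine ⟨⟨hfin.toFinset, ?_, by simp⟩, h2, h3⟩
    intro e he
    exact h1 ((Set.Finite.mem_toFinset hfin).1 he)
  · rintro ⟨⟨T, h1, rfl⟩, h2, h3⟩
    refine ⟨⟨?_, h2⟩, h3⟩
    rw [← hF]; exact_mod_cast h1

theorem ustProb_eq_PT (H : G.Subgraph) (F : Finset (Sym2 ℕ))
    (hF : (F : Set (Sym2 ℕ)) = H.edgeSet) (S : Finset (Sym2 ℕ)) (A : Set (Sym2 ℕ)) :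
    ustProb H S A = PT H.verts F S A := by
  unfold ustProb PT
  rw [ncard_eq_NT H F hF]
  have := ncard_eq_NT H F hF ∅ ∅
  simp only [Finset.notMem_empty, false_imp_iff, implies_true, and_true] at this
  rw [this]

theorem NT_pos {H : G.Subgraph} (hfin : H.verts.Finite) (hc : H.Connected) (F : Finset (Sym2 ℕ))
    (hF : (F : Set (Sym2 ℕ)) = H.edgeSet) : 0 < NT H.verts F ∅ ∅ := by
  classical
  rw [← ncard_eq_NT H F hF]
  have hfinset : {T | IsSpanningTree H T ∧ ∀ e ∈ (∅ : Finset (Sym2 ℕ)), (e ∈ T ↔ e ∈ (∅ : Set (Sym2 ℕ)))}.Finite := by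
    refine (F.finite_toSet.finite_subsets).subset ?_
    rintro T ⟨⟨h1, _⟩, _⟩
    rw [← hF] at h1
    exact h1
  rw [Set.ncard_pos hfinset]
  rw [SimpleGraph.Subgraph.connected_iff'] at hc
  have : Finite H.verts := hfin
  obtain ⟨T, hT1, hT2⟩ := hc.exists_isTree_le
  refine ⟨Sym2.map Subtype.val '' T.edgeSet, ⟨?_, ?_⟩, by simp⟩
  · rintro _ ⟨e, he, rfl⟩
    induction e using Sym2.ind with
    | _ a b =>
      exact hT1 he
  · have : (SimpleGraph.fromEdgeSet (Sym2.map Subtype.val '' T.edgeSet)).induce H.verts = T := by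
      ext a b
      simp only [SimpleGraph.comap_adj, SimpleGraph.fromEdgeSet_adj,
        Function.Embedding.subtype_apply]
      have h1 : s((a : ℕ), (b : ℕ)) = Sym2.map Subtype.val s(a, b) := rfl
      rw [h1, mem_image_sym2map Subtype.val_injective]
      constructor
      · rintro ⟨h, _⟩; exact h
      · intro h; exact ⟨h, fun h' => h.ne (Subtype.ext h')⟩
    rw [this]
    exact hT2

theorem edge_cond {H : G.Subgraph} (F : Finset (Sym2 ℕ))
    (hF : (F : Set (Sym2 ℕ)) = H.edgeSet) : ∀ e ∈ F, ¬ e.IsDiag ∧ ∀ v ∈ e, v ∈ H.verts := by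
  intro e he
  have h1 : e ∈ H.edgeSet := by rw [← hF]; exact he
  refine ⟨?_, ?_⟩
  · exact G.not_isDiag_of_mem_edgeSet (H.edgeSet_subset h1)
  · intro v hv
    exact SimpleGraph.Subgraph.mem_verts_of_mem_edge h1 hv

noncomputable def EF (H : G.Subgraph) (h : H.verts.Finite) : Finset (Sym2 ℕ) :=
  (edgeSet_finite h).toFinset

theorem coe_EF (H : G.Subgraph) (h : H.verts.Finite) :
    (EF H h : Set (Sym2 ℕ)) = H.edgeSet := by
  unfold EF; simp

theorem good_ust {H : G.Subgraph} (hfin : H.verts.Finite) (hc : H.Connected) :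
    ∃ u, Good (fun S A => ustProb H S A) u := by
  have h1 : (fun S A => ustProb H S A) = PT H.verts (EF H hfin) := by
    ext S A
    exact ustProb_eq_PT H _ (coe_EF H hfin) S A
  rw [h1]
  exact finite_good (edge_cond _ (coe_EF H hfin)) (NT_pos hfin hc _ (coe_EF H hfin))

theorem rayleigh_ust {H H' : G.Subgraph} (hfin : H.verts.Finite) (hc : H.Connected)
    (hfin' : H'.verts.Finite) (hc' : H'.Connected) (hle : H ≤ H') (A : Finset (Sym2 ℕ))
    (hA : (A : Set (Sym2 ℕ)) ⊆ H.edgeSet) : ustProb H' A A ≤ ustProb H A A := by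
  rw [ustProb_eq_PT H _ (coe_EF H hfin), ustProb_eq_PT H' _ (coe_EF H' hfin')]
  apply rayleigh (edge_cond _ (coe_EF H hfin)) (edge_cond _ (coe_EF H' hfin'))
    _ (NT_pos hfin hc _ (coe_EF H hfin)) (NT_pos hfin' hc' _ (coe_EF H' hfin'))
  · rw [← Finset.coe_subset, coe_EF]; exact hA
  · rw [← Finset.coe_subset, coe_EF, coe_EF]
    exact SimpleGraph.Subgraph.edgeSet_mono hle

theorem ustProb_zero {H : G.Subgraph} {S : Finset (Sym2 ℕ)} {A : Set (Sym2 ℕ)} {e : Sym2 ℕ}
    (heS : e ∈ S) (heA : e ∈ A) (he : e ∉ H.edgeSet) : ustProb H S A = 0 := by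
  unfold ustProb
  have : {T | IsSpanningTree H T ∧ ∀ e ∈ S, (e ∈ T ↔ e ∈ A)} = ∅ := by
    ext T
    simp only [mem_ofPred_eq, mem_empty_iff_false, iff_false]
    rintro ⟨⟨h1, _⟩, h2⟩
    exact he (h1 ((h2 e heS).2 heA))
  rw [this]
  simp

end Bridge

end Vale.Agent.P143
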