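import Vale.Agent.P143.FusfA

open MeasureTheory ProbabilityTheory Set Filter Topology
open scoped ENNReal

namespace Vale.Agent.P143

section Conv

variable {G : SimpleGraph ℕ}

/-- cylinder functions: comparison by inclusion-exclusion on the closed edges -/
theorem CylP.incl_excl {E : Type*} [DecidableEq E] {P : Finset E → Set E → ℝ} (hP : CylP P)
    (I O : Finset E) (h : E) (hI : h ∉ I) (hO : h ∉ O) (hIO : Disjoint I O) :
    P (I ∪ insert h O) I = P (I ∪ O) I - P (insert h I ∪ O) (insert h I : Finset E) := by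
  have h1 := hP.P_split (I ∪ O) (I : Set E) h (by simp [hI, hO])
  have e1 : insert h (I ∪ O) = I ∪ insert h O := by ext x; simp
  have e2 : insert h (I ∪ O) = insert h I ∪ O := by ext x; simp
  have e3 : (I : Set E) \ {h} = I := Set.sdiff_singleton_eq_self (by simpa using hI)
  rw [h1, e3]
  rw [← e2, ← e1]
  simp

theorem CylP.eq_inter {E : Type*} [DecidableEq E] {P : Finset E → Set E → ℝ} (hP : CylP P)
    (S : Finset E) (A : Set E) : ∃ I O : Finset E, Disjoint I O ∧ S = I ∪ O ∧
      (∀ x, x ∈ I ↔ x ∈ S ∧ x ∈ A) ∧ P S A = P (I ∪ O) I := by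
  classical
  refine ⟨S.filter (· ∈ A), S.filter (· ∉ A), Finset.disjoint_filter_filter_not _ _ _, ?_, ?_, ?_⟩
  · rw [Finset.filter_union_filter_not_eq]
  · intro x; simp
  · rw [Finset.filter_union_filter_not_eq]
    apply hP.P_congr
    intro x hx
    simp [hx]

theorem conv_of_in {E ι : Type*} [DecidableEq E] (l : Filter ι) {P : ι → Finset E → Set E → ℝ}
    (hP : ∀ n, CylP (P n))
    (h : ∀ I : Finset E, ∃ x, Tendsto (fun n => P n I I) l (𝓝 x)) (S : Finset E) (A : Set E) :
    ∃ x, Tendsto (fun n => P n S A) l (𝓝 x) := by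
  classical
  have key : ∀ O : Finset E, ∀ I : Finset E, Disjoint I O →
      ∃ x, Tendsto (fun n => P n (I ∪ O) I) l (𝓝 x) := by
    intro O
    induction O using Finset.induction_on with
    | empty => intro I _; simpa using h I
    | insert a O ha ih =>
      intro I hI
      have haI : a ∉ I := fun h' => (Finset.disjoint_left.1 hI h') (Finset.mem_insert_self _ _)
      have hIO : Disjoint I O := hI.mono_right (Finset.subset_insert _ _)
      obtain ⟨x, hx⟩ := ih I hIO
      obtain ⟨y, hy⟩ := ih (insert a I) (by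
        rw [Finset.disjoint_insert_left]; exact ⟨ha, hIO⟩)
      refine ⟨x - y, ?_⟩
      have : (fun n => P n (I ∪ insert a O) I) = fun n => P n (I ∪ O) I
          - P n (insert a I ∪ O) (insert a I : Finset E) := by
        ext n; exact (hP n).incl_excl I O a haI ha hIO
      rw [this]
      exact hx.sub hy
  have hI : ∀ x, x ∈ S.filter (· ∈ A) ↔ x ∈ S ∧ x ∈ A := by intro x; simp
  obtain ⟨x, hx⟩ := key (S.filter (· ∉ A)) (S.filter (· ∈ A))
    (Finset.disjoint_filter_filter_not _ _ _)
  refine ⟨x, ?_⟩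
  have : (fun n => P n S A) = fun n => P n (S.filter (· ∈ A) ∪ S.filter (· ∉ A))
      (S.filter (· ∈ A) : Finset E) := by
    ext n
    rw [Finset.filter_union_filter_not_eq]
    apply (hP n).P_congr
    intro x hx
    simp [hx]
  rw [this]
  exact hx

theorem eq_of_in {E : Type*} [DecidableEq E] {P Q : Finset E → Set E → ℝ}
    (hP : CylP P) (hQ : CylP Q) (h : ∀ I : Finset E, P I I = Q I I) (S : Finset E) (A : Set E) :
    P S A = Q S A := by
  classical
  have key : ∀ O : Finset E, ∀ I : Finset E, Disjoint I O → P (I ∪ O) I = Q (I ∪ O) I := by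
    intro O
    induction O using Finset.induction_on with
    | empty => intro I _; simpa using h I
    | insert a O ha ih =>
      intro I hI
      have haI : a ∉ I := fun h' => (Finset.disjoint_left.1 hI h') (Finset.mem_insert_self _ _)
      have hIO : Disjoint I O := hI.mono_right (Finset.subset_insert _ _)
      rw [hP.incl_excl I O a haI ha hIO, hQ.incl_excl I O a haI ha hIO, ih I hIO,
        ih (insert a I) (by rw [Finset.disjoint_insert_left]; exact ⟨ha, hIO⟩)]
  have h1 := key (S.filter (· ∉ A)) (S.filter (· ∈ A)) (Finset.disjoint_filter_filter_not _ _ _)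
  rw [Finset.filter_union_filter_not_eq] at h1
  rw [hP.P_congr S A (S.filter (· ∈ A) : Finset E) (by intro x hx; simp [hx]),
    hQ.P_congr S A (S.filter (· ∈ A) : Finset E) (by intro x hx; simp [hx])]
  exact h1

/-- increasing sequences of finite connected subgraphs -/
structure IncSeq (G : SimpleGraph ℕ) (H : ℕ → G.Subgraph) : Prop where
  mono : Monotone H
  finite : ∀ n, (H n).verts.Finite
  connected : ∀ n, (H n).Connected

theorem IncSeq.cylP {H : ℕ → G.Subgraph} (hH : IncSeq G H) (n : ℕ) :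
    CylP (fun S A => ustProb (H n) S A) := by
  obtain ⟨u, hu⟩ := good_ust (hH.finite n) (hH.connected n)
  exact hu.cylP

theorem IncSeq.tendsto_in {H : ℕ → G.Subgraph} (hH : IncSeq G H) (I : Finset (Sym2 ℕ)) :
    ∃ x, Tendsto (fun n => ustProb (H n) I I) atTop (𝓝 x) := by
  by_cases h : ∃ N, (I : Set (Sym2 ℕ)) ⊆ (H N).edgeSet
  · obtain ⟨N, hN⟩ := h
    have hanti : Antitone (fun n => ustProb (H (n + N)) I I) := by
      intro m n hmn
      apply rayleigh_ust (hH.finite _) (hH.connected _) (hH.finite _) (hH.connected _)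
        (hH.mono (by omega))
      exact hN.trans (SimpleGraph.Subgraph.edgeSet_mono (hH.mono (by omega)))
    have hbdd : BddBelow (Set.range (fun n => ustProb (H (n + N)) I I)) := by
      refine ⟨0, ?_⟩
      rintro _ ⟨n, rfl⟩
      exact (hH.cylP (n + N)).P_nonneg _ _
    have := tendsto_atTop_ciInf hanti hbdd
    exact ⟨_, (tendsto_add_atTop_iff_nat N).1 this⟩
  · push Not at h
    refine ⟨0, ?_⟩
    have : (fun n => ustProb (H n) I (I : Set (Sym2 ℕ))) = fun _ => 0 := by
      ext n
      obtain ⟨e, he, he2⟩ := Set.not_subset.1 (h n)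
      exact ustProb_zero (e := e) (by simpa using he) he he2
    rw [this]
    exact tendsto_const_nhds

theorem IncSeq.tendsto {H : ℕ → G.Subgraph} (hH : IncSeq G H) (S : Finset (Sym2 ℕ))
    (A : Set (Sym2 ℕ)) : ∃ x, Tendsto (fun n => ustProb (H n) S A) atTop (𝓝 x) :=
  conv_of_in atTop (P := fun n S A => ustProb (H n) S A) (fun n => hH.cylP n) hH.tendsto_in S A

noncomputable def limP (H : ℕ → G.Subgraph) (S : Finset (Sym2 ℕ)) (A : Set (Sym2 ℕ)) : ℝ :=
  limsup (fun n => ustProb (H n) S A) atTop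

theorem IncSeq.tendsto_limP {H : ℕ → G.Subgraph} (hH : IncSeq G H) (S : Finset (Sym2 ℕ))
    (A : Set (Sym2 ℕ)) : Tendsto (fun n => ustProb (H n) S A) atTop (𝓝 (limP H S A)) := by
  obtain ⟨x, hx⟩ := hH.tendsto S A
  unfold limP
  rw [hx.limsup_eq]
  exact hx

theorem IncSeq.good {H : ℕ → G.Subgraph} (hH : IncSeq G H) : ∃ u, Good (limP H) u := by
  have h1 : ∀ n, ∃ u, Good (fun S A => ustProb (H n) S A) u := fun n =>
    good_ust (hH.finite n) (hH.connected n)
  choose u hu using h1
  exact good_limit atTop hu hH.tendsto_limP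

theorem IncSeq.le_of_exh {H H' : ℕ → G.Subgraph} (hH : IncSeq G H) (hH' : IncSeq G H')
    (hsub : ∀ n, ∃ m, H n ≤ H' m) (I : Finset (Sym2 ℕ))
    (hI : ∃ N, (I : Set (Sym2 ℕ)) ⊆ (H N).edgeSet) : limP H' I I ≤ limP H I I := by
  obtain ⟨N, hN⟩ := hI
  apply ge_of_tendsto (hH.tendsto_limP I I)
  filter_upwards [eventually_ge_atTop N] with n hn
  obtain ⟨m, hm⟩ := hsub n
  apply le_of_tendsto (hH'.tendsto_limP I I)
  filter_upwards [eventually_ge_atTop m] with k hk
  apply rayleigh_ust (hH.finite _) (hH.connected _) (hH'.finite _) (hH'.connected _)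
    (hm.trans (hH'.mono hk))
  exact hN.trans (SimpleGraph.Subgraph.edgeSet_mono (hH.mono hn))

theorem exh_incSeq {H : ℕ → G.Subgraph} (hH : IsExhaustion G H) : IncSeq G H :=
  ⟨hH.mono, hH.finite, hH.connected⟩

theorem exh_verts {H : ℕ → G.Subgraph} (hH : IsExhaustion G H) (s : Set ℕ) (hs : s.Finite) :
    ∃ n, s ⊆ (H n).verts := by
  have hv : ∀ v : ℕ, ∃ n, v ∈ (H n).verts := by
    intro v
    have : v ∈ (⨆ n, H n).verts := by rw [hH.union]; trivial
    simpa using this
  induction s, hs using Set.Finite.induction_on with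
  | empty => exact ⟨0, by simp⟩
  | @insert a s _ _ ih =>
    obtain ⟨n, hn⟩ := ih
    obtain ⟨m, hm⟩ := hv a
    refine ⟨max n m, Set.insert_subset ?_ ?_⟩
    · exact (hH.mono (le_max_right n m)).1 hm
    · exact hn.trans (hH.mono (le_max_left n m)).1

theorem exh_edges {H : ℕ → G.Subgraph} (hH : IsExhaustion G H) (s : Set (Sym2 ℕ)) (hs : s.Finite)
    (hsG : s ⊆ G.edgeSet) : ∃ n, s ⊆ (H n).edgeSet := by
  have hv : ∀ e ∈ G.edgeSet, ∃ n, e ∈ (H n).edgeSet := by
    intro e he
    induction e using Sym2.ind with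
    | _ a b =>
      have : (⨆ n, H n).Adj a b := by rw [hH.union]; exact he
      simpa using this
  induction s, hs using Set.Finite.induction_on with
  | empty => exact ⟨0, by simp⟩
  | @insert a s _ _ ih =>
    obtain ⟨n, hn⟩ := ih ((Set.subset_insert _ _).trans hsG)
    obtain ⟨m, hm⟩ := hv a (hsG (Set.mem_insert _ _))
    refine ⟨max n m, Set.insert_subset ?_ ?_⟩
    · exact SimpleGraph.Subgraph.edgeSet_mono (hH.mono (le_max_right n m)) hm
    · exact hn.trans (SimpleGraph.Subgraph.edgeSet_mono (hH.mono (le_max_left n m)))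

theorem exh_sub {H : ℕ → G.Subgraph} (hH : IsExhaustion G H) (K : G.Subgraph)
    (hK : K.verts.Finite) : ∃ n, K ≤ H n := by
  obtain ⟨n, hn⟩ := exh_verts hH K.verts hK
  obtain ⟨m, hm⟩ := exh_edges hH K.edgeSet (edgeSet_finite hK) K.edgeSet_subset
  refine ⟨max n m, ?_, ?_⟩
  · exact hn.trans (hH.mono (le_max_left n m)).1
  · intro a b hab
    have h1 : s(a, b) ∈ (H m).edgeSet := hm hab
    have h2 := SimpleGraph.Subgraph.edgeSet_mono (hH.mono (le_max_right n m)) h1
    exact h2

theorem limP_eq {H H' : ℕ → G.Subgraph} (hH : IsExhaustion G H) (hH' : IsExhaustion G H')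
    (S : Finset (Sym2 ℕ)) (A : Set (Sym2 ℕ)) : limP H S A = limP H' S A := by
  obtain ⟨u, hu⟩ := (exh_incSeq hH).good
  obtain ⟨u', hu'⟩ := (exh_incSeq hH').good
  apply eq_of_in hu.cylP hu'.cylP
  intro I
  by_cases hI : (I : Set (Sym2 ℕ)) ⊆ G.edgeSet
  · apply le_antisymm
    · exact (exh_incSeq hH').le_of_exh (exh_incSeq hH) (fun n => exh_sub hH _ (hH'.finite n)) I
        (exh_edges hH' _ I.finite_toSet hI)
    · exact (exh_incSeq hH).le_of_exh (exh_incSeq hH') (fun n => exh_sub hH' _ (hH.finite n)) I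
        (exh_edges hH _ I.finite_toSet hI)
  · obtain ⟨e, he, he2⟩ := Set.not_subset.1 hI
    have h0 : ∀ K : G.Subgraph, ustProb K I (I : Set (Sym2 ℕ)) = 0 := fun K =>
      ustProb_zero (e := e) (by simpa using he) he (fun h => he2 (K.edgeSet_subset h))
    unfold limP
    simp [h0]

end Conv

end Vale.Agent.P143
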