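import Mathlib

open MeasureTheory Filter Topology

namespace Vale.Agent.P143

def IsSpanningTree {V : Type*} {G : SimpleGraph V} (H : G.Subgraph) (T : Set (Sym2 V)) : Prop :=
  T ⊆ H.edgeSet ∧ ((SimpleGraph.fromEdgeSet T).induce H.verts).IsTree

noncomputable def ustProb {V : Type*} {G : SimpleGraph V} (H : G.Subgraph)
    (S : Finset (Sym2 V)) (A : Set (Sym2 V)) : ℝ :=
  ({T | IsSpanningTree H T ∧ ∀ e ∈ S, (e ∈ T ↔ e ∈ A)}.ncard : ℝ)
    / ({T | IsSpanningTree H T}.ncard : ℝ)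

structure IsExhaustion {V : Type*} (G : SimpleGraph V) (H : ℕ → G.Subgraph) : Prop where
  mono : Monotone H
  finite : ∀ n, (H n).verts.Finite
  connected : ∀ n, (H n).Connected
  union : ⨆ n, H n = ⊤

structure IsFUSF {V : Type*} (G : SimpleGraph V) (μ : Measure (Set (Sym2 V))) : Prop where
  prob : IsProbabilityMeasure μ
  exists_exhaustion : ∃ H : ℕ → G.Subgraph, IsExhaustion G H
  tendsto : ∀ H : ℕ → G.Subgraph, IsExhaustion G H → ∀ (S : Finset (Sym2 V)) (A : Set (Sym2 V)),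
    Tendsto (fun n => ustProb (H n) S A) atTop
      (𝓝 (μ.real {T | ∀ e ∈ S, (e ∈ T ↔ e ∈ A)}))

noncomputable def iidLabels (V : Type*) : Measure (V → unitInterval) :=
  Measure.infinitePi (fun _ : V => (volume : Measure unitInterval))

def cayleyGraph {Γ : Type*} [Group Γ] (S : Finset Γ) : SimpleGraph Γ :=
  SimpleGraph.fromRel (fun x y => x⁻¹ * y ∈ S)

def IsFactorOfIID {Γ : Type*} [Group Γ] (μ : Measure (Set (Sym2 Γ))) : Prop :=
  ∃ Φ : (Γ → unitInterval) → Set (Sym2 Γ), Measurable Φ ∧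
    (∀ (γ : Γ) (U : Γ → unitInterval),
      Φ (fun v => U (γ⁻¹ * v)) = Sym2.map (fun v => γ * v) '' Φ U) ∧
    (iidLabels Γ).map Φ = μ

structure IsUnimodular (P : Measure (SimpleGraph ℕ × ℕ)) : Prop where
  prob : IsProbabilityMeasure P
  connected : ∀ᵐ x ∂P, x.1.Connected
  locallyFinite : ∀ᵐ x ∂P, ∀ v, (x.1.neighborSet v).Finite
  massTransport : ∀ f : SimpleGraph ℕ → ℕ → ℕ → ENNReal,
    (∀ u v, Measurable (fun G => f G u v)) →
    (∀ (σ : Equiv.Perm ℕ) (G : SimpleGraph ℕ) (u v : ℕ),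
      f (G.map σ.toEmbedding) (σ u) (σ v) = f G u v) →
    ∫⁻ x, ∑' v, f x.1 x.2 v ∂P = ∫⁻ x, ∑' v, f x.1 v x.2 ∂P

def IsGraphFactorOfIID (P : Measure (SimpleGraph ℕ × ℕ)) : Prop :=
  ∃ Φ : SimpleGraph ℕ → (ℕ → unitInterval) → Set (Sym2 ℕ),
    Measurable (Function.uncurry Φ) ∧
    (∀ (σ : Equiv.Perm ℕ) (G : SimpleGraph ℕ) (U : ℕ → unitInterval),
      Φ (G.map σ.toEmbedding) (fun v => U (σ.symm v)) = Sym2.map σ '' Φ G U) ∧
    ∀ᵐ x ∂P, IsFUSF x.1 ((iidLabels ℕ).map (Φ x.1))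

def Q1Cayley : Prop :=
  ∀ (Γ : Type) [Group Γ] [Infinite Γ] (S : Finset Γ), Subgroup.closure (S : Set Γ) = ⊤ →
    ∃ μ, IsFUSF (cayleyGraph S) μ ∧ IsFactorOfIID μ

def Q1Unimodular : Prop :=
  ∀ P : Measure (SimpleGraph ℕ × ℕ), IsUnimodular P → IsGraphFactorOfIID P

end Vale.Agent.P143
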