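import Vale.Agent.P143.DefsC
import Vale.Agent.P143.Statement

open MeasureTheory ProbabilityTheory Set Filter Topology
open scoped ENNReal

namespace Vale.Agent.P143

abbrev Ed := Sym2 ℕ

noncomputable instance instEncEd : Encodable Ed := Encodable.ofCountable _

noncomputable def WE : ℕ → Finset Ed := stdWin Ed

/-- relabelling of configurations -/
def rel (σ : Equiv.Perm ℕ) (T : Set Ed) : Set Ed := Sym2.map σ '' T

/-- relabelling of labels -/
def relL (σ : Equiv.Perm ℕ) (x : Ed → unitInterval) : Ed → unitInterval :=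
  fun e => x (Sym2.map σ.symm e)

structure FK (μF : Kernel (SimpleGraph ℕ) (Set Ed)) : Prop where
  fusf : ∀ G : SimpleGraph ℕ, G.Connected → IsFUSF G (μF G)
  sub : ∀ G : SimpleGraph ℕ, G.Connected → ∀ᵐ T ∂(μF G), T ⊆ G.edgeSet
  good : ∀ G : SimpleGraph ℕ, G.Connected → ∃ u, Good (Pm (μF G)) u
  equiv : ∀ (σ : Equiv.Perm ℕ) (G : SimpleGraph ℕ), G.Connected →
    μF (G.map σ.toEmbedding) = (μF G).map (rel σ)

open Classical in
noncomputable def degE (G : SimpleGraph ℕ) (x : ℕ) : ℝ≥0∞ := ∑' y : ℕ, if G.Adj x y then 1 else 0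

noncomputable def degS (G : SimpleGraph ℕ) : Ed → ℝ≥0∞ :=
  Sym2.lift ⟨fun x y => degE G x + degE G y, fun x y => add_comm _ _⟩

open Classical in
/-- clock rate of an edge -/
noncomputable def wG (G : SimpleGraph ℕ) (e : Ed) : ℝ :=
  if e ∈ G.edgeSet then ((degS G e).toReal)⁻¹ else 1

noncomputable def tauG (G : SimpleGraph ℕ) (x : Ed → unitInterval) (e : Ed) : ℝ :=
  - Real.log (x e : ℝ) / wG G e

def Jt (G : SimpleGraph ℕ) (x : Ed → unitInterval) (s : ℝ) : Set Ed := {e | tauG G x e < s}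

variable (μF : Kernel (SimpleGraph ℕ) (Set Ed))

noncomputable def pG (G : SimpleGraph ℕ) (x : Ed → unitInterval) (g : Ed) (T : Set Ed) :
    unitInterval :=
  Set.projIcc 0 1 zero_le_one (pJ (Pm (μF G)) WE (Iset (tauG G x) g) T g)

noncomputable def kapMap :
    ((SimpleGraph ℕ × (Ed → unitInterval)) × (Set Ed × (Ed → unitInterval))) →
      ((Ed → unitInterval) × Set Ed) :=
  fun y => (Vmap (pG μF y.1.1 y.1.2) y.2.1 y.2.2, y.2.1)

noncomputable def kapK :
    Kernel (SimpleGraph ℕ × (Ed → unitInterval)) ((Ed → unitInterval) × Set Ed) :=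
  (Kernel.id ×ₖ ((μF.comap Prod.fst measurable_fst) ×ₖ (Kernel.const _ (iidU Ed)))).map (kapMap μF)

instance instFinKap [IsMarkovKernel μF] : IsFiniteKernel (kapK μF) := by
  unfold kapK; infer_instance

instance stdBorelConf : StandardBorelSpace (Set Ed) :=
  inferInstanceAs (StandardBorelSpace (Ed → Prop))

noncomputable def etaK [IsMarkovKernel μF] :
    Kernel ((SimpleGraph ℕ × (Ed → unitInterval)) × (Ed → unitInterval)) (Set Ed) :=
  (kapK μF).condKernel

noncomputable def QK [IsMarkovKernel μF] :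
    Kernel (SimpleGraph ℕ × (Ed → unitInterval)) ((Ed → unitInterval) × (Set Ed × Set Ed)) :=
  (Kernel.const _ (iidU Ed)) ⊗ₖ (etaK μF ×ₖ etaK μF)

end Vale.Agent.P143
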