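import Vale.Agent.P143.FusfB
import Vale.Agent.P143.GDefs
import Vale.Agent.P143.Meas

open MeasureTheory ProbabilityTheory Set Filter Topology
open scoped ENNReal

namespace Vale.Agent.P143

section Canon

/-- the component of `0` in the graph with edge set `D`, as a subgraph of `G` -/
def compSub (G : SimpleGraph ℕ) (D : Finset (Sym2 ℕ)) (hD : (D : Set (Sym2 ℕ)) ⊆ G.edgeSet) :
    G.Subgraph where
  verts := {v | (SimpleGraph.fromEdgeSet (D : Set (Sym2 ℕ))).Reachable 0 v}
  Adj a b := s(a, b) ∈ D ∧ (SimpleGraph.fromEdgeSet (D : Set (Sym2 ℕ))).Reachable 0 a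
  adj_sub := fun h => hD h.1
  edge_vert := fun h => h.2
  symm := ⟨by
    rintro a b ⟨h1, h2⟩
    refine ⟨by rwa [Sym2.eq_swap], h2.trans (SimpleGraph.Adj.reachable ?_)⟩
    rw [SimpleGraph.fromEdgeSet_adj]
    refine ⟨h1, ?_⟩
    have : G.Adj a b := hD h1
    exact this.ne⟩

variable {G : SimpleGraph ℕ}

theorem compSub_verts (D : Finset (Sym2 ℕ)) (hD : (D : Set (Sym2 ℕ)) ⊆ G.edgeSet) :
    (compSub G D hD).verts = {v | (SimpleGraph.fromEdgeSet (D : Set (Sym2 ℕ))).Reachable 0 v} := rfl

theorem compSub_adj (D : Finset (Sym2 ℕ)) (hD : (D : Set (Sym2 ℕ)) ⊆ G.edgeSet) (a b : ℕ) :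
    (compSub G D hD).Adj a b ↔
      s(a, b) ∈ D ∧ (SimpleGraph.fromEdgeSet (D : Set (Sym2 ℕ))).Reachable 0 a := Iff.rfl

theorem compSub_finite (D : Finset (Sym2 ℕ)) (hD : (D : Set (Sym2 ℕ)) ⊆ G.edgeSet) :
    (compSub G D hD).verts.Finite := by
  classical
  have hfin : ({0} ∪ ⋃ e ∈ D, {v : ℕ | v ∈ e}).Finite := by
    apply (Set.finite_singleton _).union
    apply Set.Finite.biUnion D.finite_toSet
    intro e _
    induction e using Sym2.ind with
    | _ a b =>
      have : {v | v ∈ s(a, b)} = {a, b} := by ext v; simp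
      rw [this]; simp
  refine hfin.subset ?_
  intro v hv
  rw [compSub_verts, mem_ofPred_eq] at hv
  by_cases h0 : v = 0
  · left; exact h0
  · right
    obtain ⟨p⟩ := hv.symm
    cases p with
    | nil => exact absurd rfl h0
    | cons h _ =>
      rw [SimpleGraph.fromEdgeSet_adj] at h
      simp only [mem_iUnion, mem_ofPred_eq]
      exact ⟨_, h.1, by simp⟩

theorem compSub_connected (D : Finset (Sym2 ℕ)) (hD : (D : Set (Sym2 ℕ)) ⊆ G.edgeSet) :
    (compSub G D hD).Connected := by
  rw [SimpleGraph.Subgraph.connected_iff']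
  have key : ∀ {u v : ℕ} (_ : (SimpleGraph.fromEdgeSet (D : Set (Sym2 ℕ))).Walk u v)
      (hu : u ∈ (compSub G D hD).verts), ∃ hv : v ∈ (compSub G D hD).verts,
      (compSub G D hD).coe.Reachable ⟨u, hu⟩ ⟨v, hv⟩ := by
    intro u v p
    induction p with
    | nil => intro hu; exact ⟨hu, SimpleGraph.Reachable.refl _⟩
    | @cons a b c h p ih =>
      intro ha
      have hb : b ∈ (compSub G D hD).verts := by
        rw [compSub_verts, mem_ofPred_eq] at *
        exact ha.trans h.reachable
      obtain ⟨hc, hr⟩ := ih hb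
      refine ⟨hc, SimpleGraph.Reachable.trans (SimpleGraph.Adj.reachable ?_) hr⟩
      rw [SimpleGraph.Subgraph.coe_adj, compSub_adj]
      rw [SimpleGraph.fromEdgeSet_adj] at h
      exact ⟨h.1, ha⟩
  have h0 : 0 ∈ (compSub G D hD).verts := SimpleGraph.Reachable.refl _
  rw [SimpleGraph.connected_iff_exists_forall_reachable]
  refine ⟨⟨0, h0⟩, ?_⟩
  rintro ⟨v, hv⟩
  obtain ⟨p⟩ := hv
  obtain ⟨_, hr⟩ := key p h0
  exact hr

theorem compSub_mono {D D' : Finset (Sym2 ℕ)} (hD : (D : Set (Sym2 ℕ)) ⊆ G.edgeSet)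
    (hD' : (D' : Set (Sym2 ℕ)) ⊆ G.edgeSet) (h : D ⊆ D') : compSub G D hD ≤ compSub G D' hD' := by
  have hle : SimpleGraph.fromEdgeSet (D : Set (Sym2 ℕ)) ≤ SimpleGraph.fromEdgeSet (D' : Set (Sym2 ℕ)) :=
    SimpleGraph.fromEdgeSet_mono (by exact_mod_cast h)
  refine ⟨?_, ?_⟩
  · intro v hv
    exact SimpleGraph.Reachable.mono hle hv
  · rintro a b ⟨h1, h2⟩
    exact ⟨h h1, SimpleGraph.Reachable.mono hle h2⟩

open Classical in
noncomputable def Dn (G : SimpleGraph ℕ) (n : ℕ) : Finset (Sym2 ℕ) :=
  (Finset.range n).sym2.filter (fun e => e ∈ G.edgeSet)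

theorem mem_Dn (n : ℕ) (e : Sym2 ℕ) : e ∈ Dn G n ↔ e ∈ (Finset.range n).sym2 ∧ e ∈ G.edgeSet := by
  unfold Dn; simp

theorem Dn_sub (G : SimpleGraph ℕ) (n : ℕ) : (Dn G n : Set (Sym2 ℕ)) ⊆ G.edgeSet := by
  intro e he
  exact ((mem_Dn n e).1 he).2

theorem Dn_mono {m n : ℕ} (h : m ≤ n) : Dn G m ⊆ Dn G n := by
  intro e he
  rw [mem_Dn] at *
  refine ⟨?_, he.2⟩
  rw [Finset.mem_sym2_iff] at *
  intro a ha
  have := he.1 a ha
  rw [Finset.mem_range] at *
  omega

noncomputable def Hn (G : SimpleGraph ℕ) (n : ℕ) : G.Subgraph := compSub G (Dn G n) (Dn_sub G n)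

theorem Hn_incSeq (G : SimpleGraph ℕ) : IncSeq G (Hn G) where
  mono := fun _ _ h => compSub_mono _ _ (Dn_mono h)
  finite := fun _ => compSub_finite _ _
  connected := fun _ => compSub_connected _ _

theorem Hn_exh (hG : G.Connected) : IsExhaustion G (Hn G) where
  mono := (Hn_incSeq G).mono
  finite := (Hn_incSeq G).finite
  connected := (Hn_incSeq G).connected
  union := by
    have hv : ∀ v, ∃ n, v ∈ (Hn G n).verts := by
      intro v
      obtain ⟨p⟩ := hG.preconnected 0 v
      have key : ∀ {u v : ℕ} (_ : G.Walk u v), (∃ n, u ∈ (Hn G n).verts) →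
          ∃ n, v ∈ (Hn G n).verts := by
        intro u v p
        induction p with
        | nil => exact id
        | @cons a b c h p ih =>
          rintro ⟨n, hn⟩
          apply ih
          refine ⟨max n (max (a + 1) (b + 1)), ?_⟩
          have h1 : a ∈ (Hn G (max n (max (a + 1) (b + 1)))).verts :=
            ((Hn_incSeq G).mono (le_max_left _ _)).1 hn
          have h2 : (SimpleGraph.fromEdgeSet
            (Dn G (max n (max (a + 1) (b + 1))) : Set (Sym2 ℕ))).Adj a b := by
            rw [SimpleGraph.fromEdgeSet_adj]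
            refine ⟨?_, h.ne⟩
            rw [Finset.mem_coe, mem_Dn]
            refine ⟨?_, h⟩
            rw [Finset.mk_mem_sym2_iff]
            simp only [Finset.mem_range]
            omega
          exact SimpleGraph.Reachable.trans h1 h2.reachable
      exact key p ⟨0, SimpleGraph.Reachable.refl _⟩
    apply le_antisymm le_top
    refine ⟨?_, ?_⟩
    · intro v _
      simp only [SimpleGraph.Subgraph.verts_iSup, mem_iUnion]
      exact hv v
    · intro a b hab
      simp only [SimpleGraph.Subgraph.top_adj] at hab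
      simp only [SimpleGraph.Subgraph.iSup_adj]
      obtain ⟨n, hn⟩ := hv a
      refine ⟨max n (max (a + 1) (b + 1)), ?_, ?_⟩
      · rw [mem_Dn]
        refine ⟨?_, hab⟩
        rw [Finset.mk_mem_sym2_iff]
        simp only [Finset.mem_range]
        omega
      · exact ((Hn_incSeq G).mono (le_max_left _ _)).1 hn

open Classical in
/-- the spanning tree probability as a function of the finite edge set -/
noncomputable def hfun (S : Finset (Sym2 ℕ)) (A : Set (Sym2 ℕ)) (D : Finset (Sym2 ℕ)) : ℝ :=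
  PT {v | (SimpleGraph.fromEdgeSet (D : Set (Sym2 ℕ))).Reachable 0 v}
    (D.filter (fun e => ∀ v ∈ e, (SimpleGraph.fromEdgeSet (D : Set (Sym2 ℕ))).Reachable 0 v)) S A

theorem ustProb_Hn (G : SimpleGraph ℕ) (n : ℕ) (S : Finset (Sym2 ℕ)) (A : Set (Sym2 ℕ)) :
    ustProb (Hn G n) S A = hfun S A (Dn G n) := by
  classical
  unfold hfun
  rw [ustProb_eq_PT (Hn G n) ((Dn G n).filter (fun e => ∀ v ∈ e,
    (SimpleGraph.fromEdgeSet (Dn G n : Set (Sym2 ℕ))).Reachable 0 v))]
  · rfl
  · ext e
    induction e using Sym2.ind with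
    | _ a b =>
      rw [SimpleGraph.Subgraph.mem_edgeSet]
      simp only [Finset.coe_filter, mem_ofPred_eq, Sym2.mem_iff, forall_eq_or_imp, forall_eq]
      constructor
      · rintro ⟨h1, h2, _⟩
        exact ⟨h1, h2⟩
      · intro h
        exact ⟨h.1, h.2, h.symm.2⟩

theorem measurable_Dn_fun {β : Type*} [MeasurableSpace β] (n : ℕ) (g : Finset (Sym2 ℕ) → β) :
    Measurable (fun G : SimpleGraph ℕ => g (Dn G n)) := by
  classical
  let _ : MeasurableSpace (Finset (Sym2 ℕ)) := ⊤
  have h1 : Measurable (fun G : SimpleGraph ℕ => Dn G n) := by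
    apply measurable_to_countable'
    intro D
    by_cases hD : D ⊆ (Finset.range n).sym2
    · have : (fun G : SimpleGraph ℕ => Dn G n) ⁻¹' {D}
          = ⋂ e ∈ (Finset.range n).sym2, {G : SimpleGraph ℕ | e ∈ G.edgeSet ↔ e ∈ D} := by
        ext G
        simp only [mem_preimage, mem_singleton_iff, mem_iInter, mem_ofPred_eq]
        constructor
        · intro h e he
          rw [← h, mem_Dn]
          simp [he]
        · intro h
          ext e
          rw [mem_Dn]
          constructor
          · rintro ⟨h1, h2⟩; exact (h e h1).1 h2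
          · intro h1; exact ⟨hD h1, (h e (hD h1)).2 h1⟩
      rw [this]
      apply Finset.measurableSet_biInter
      intro e _
      apply measurableSet_setOfPred.2
      apply Measurable.iff _ measurable_const
      exact (measurable_set_mem e).comp SimpleGraph.measurable_edgeSet
    · have : (fun G : SimpleGraph ℕ => Dn G n) ⁻¹' {D} = ∅ := by
        ext G
        simp only [mem_preimage, mem_singleton_iff, mem_empty_iff_false, iff_false]
        intro h
        apply hD
        rw [← h]
        intro e he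
        exact ((mem_Dn n e).1 he).1
      rw [this]
      exact MeasurableSet.empty
  exact (measurable_from_top (f := g)).comp h1

end Canon

section Assemble

theorem exists_FK : ∃ μF : Kernel (SimpleGraph ℕ) (Set Ed), IsMarkovKernel μF ∧ FK μF := by
  classical
  obtain ⟨den⟩ := nonempty_denumerable Ed
  let e : ℕ ≃ Ed := (Denumerable.eqv Ed).symm
  have hcyl : ∀ G : SimpleGraph ℕ, CylP (limP (Hn G)) := by
    intro G
    obtain ⟨u, hu⟩ := (Hn_incSeq G).good
    exact hu.cylP
  have hmeas : ∀ (S : Finset Ed) (A : Set Ed),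
      Measurable (fun G : SimpleGraph ℕ => limP (Hn G) S A) := by
    intro S A
    unfold limP
    apply Measurable.limsup
    intro n
    simp only [ustProb_Hn]
    exact measurable_Dn_fun n (hfun S A)
  obtain ⟨μF, hM, hμ⟩ := exists_kernel_of_cylP e hcyl hmeas
  have hfusf : ∀ G : SimpleGraph ℕ, G.Connected → IsFUSF G (μF G) := by
    intro G hG
    refine ⟨inferInstance, ⟨_, Hn_exh hG⟩, ?_⟩
    intro H hH S A
    rw [hμ G S A, limP_eq (Hn_exh hG) hH S A]
    exact (exh_incSeq hH).tendsto_limP S A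
  refine ⟨μF, hM, ?_⟩
  constructor
  · exact hfusf
  · intro G hG
    have h1 : ∀ e : Ed, e ∉ G.edgeSet → ∀ᵐ T ∂(μF G), e ∉ T := by
      intro e he
      have h2 := hμ G {e} {e}
      have h3 : limP (Hn G) {e} ({e} : Set Ed) = 0 := by
        have h0 : ∀ K : G.Subgraph, ustProb K {e} ({e} : Set Ed) = 0 := fun K =>
          ustProb_zero (e := e) (by simp) (by simp) (fun h => he (K.edgeSet_subset h))
        unfold limP
        simp [h0]
      rw [h3] at h2
      rw [measureReal_def, ENNReal.toReal_eq_zero_iff] at h2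
      rcases h2 with h2 | h2
      · rw [ae_iff]
        convert h2 using 2
        ext T
        simp
      · exact absurd h2 (measure_ne_top _ _)
    have h2 : ∀ᵐ T ∂(μF G), ∀ e : Ed, e ∉ G.edgeSet → e ∉ T := by
      rw [ae_all_iff]
      intro e
      by_cases he : e ∈ G.edgeSet
      · exact Eventually.of_forall fun T h => absurd he h
      · filter_upwards [h1 e he] with T hT _ using hT
    filter_upwards [h2] with T hT e he
    by_contra hcon
    exact hT e hcon he
  · intro G _
    obtain ⟨u, hu⟩ := (Hn_incSeq G).good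
    refine ⟨u, ?_⟩
    have : Pm (μF G) = limP (Hn G) := by
      ext S A
      exact hμ G S A
    rw [this]
    convert hu
  · intro σ G hG
    have φ : G ≃g G.map σ.toEmbedding := SimpleGraph.Iso.map σ G
    have hG' : (G.map σ.toEmbedding).Connected := φ.connected_iff.1 hG
    have h1 := hfusf _ hG'
    have h2 := (hfusf G hG).map_iso (SimpleGraph.Iso.map σ G)
    exact h1.unique h2

end Assemble

end Vale.Agent.P143
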