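import Vale.Agent.P143.GDefs

open MeasureTheory ProbabilityTheory Set Filter Topology
open scoped ENNReal

namespace Vale.Agent.P143

section Task5

variable (μF : Kernel (SimpleGraph ℕ) (Set Ed)) [IsMarkovKernel μF]

def GoodG (G : SimpleGraph ℕ) : Prop := G.Connected ∧ ∀ v, (G.neighborSet v).Finite

noncomputable def etaAt (G : SimpleGraph ℕ) (x : Ed → unitInterval) :
    Kernel (Ed → unitInterval) (Set Ed) :=
  (etaK μF).sectR (G, x)

instance (G : SimpleGraph ℕ) (x : Ed → unitInterval) : IsMarkovKernel (etaAt μF G x) := by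
  unfold etaAt etaK; infer_instance

def mis (g : Ed) : Set ((Ed → unitInterval) × (Set Ed × Set Ed)) :=
  {y | ¬ (g ∈ y.2.1 ↔ g ∈ y.2.2)}

open Classical in
noncomputable def mG (t : ℝ) (G : SimpleGraph ℕ) (g : Ed) : ℝ≥0∞ :=
  ∫⁻ x, (if tauG G x g < t then QK μF (G, x) (mis g) else 0) ∂(iidU Ed)

open Classical in
noncomputable def bG (s : ℝ) (G : SimpleGraph ℕ) (g f : Ed) : ℝ≥0∞ :=
  ∫⁻ x, (if tauG G x g < s ∧ s ≤ tauG G x f then
    ∫⁻ y in mis g, (CJ (Pm (μF G)) WE (Jt G x s) y.2.1 g f *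
      CJ (Pm (μF G)) WE (Jt G x s) y.2.2 g f) ^ (1/2 : ℝ) ∂(QK μF (G, x)) else 0) ∂(iidU Ed)

open Classical in
noncomputable def aG (s : ℝ) (G : SimpleGraph ℕ) (g f : Ed) : ℝ≥0∞ :=
  ∫⁻ x, (if tauG G x g < s ∧ s ≤ tauG G x f then
    ∫⁻ T, CJ (Pm (μF G)) WE (Jt G x s) T g f ∂(μF G) else 0) ∂(iidU Ed)

end Task5

end Vale.Agent.P143
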