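import Vale.Agent.P143.Adapt
import Vale.Agent.P143.MeasB

open MeasureTheory ProbabilityTheory Set Filter Topology
open scoped ENNReal

namespace Vale.Agent.P143

section

theorem measurable_tau_right (G : SimpleGraph ℕ) (e : Ed) : Measurable (fun x => tauG G x e) :=
  (measurable_tauG e).comp (measurable_const.prodMk measurable_id)

theorem tau_law (G : SimpleGraph ℕ) (hG : GoodG G) (e : Ed) :
    (iidU Ed).map (fun x => tauG G x e) = expMeasure (wG G e) := by
  have h1 : (fun x : Ed → unitInterval => tauG G x e)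
      = (fun r : unitInterval => - Real.log (r : ℝ) / wG G e) ∘ (fun x : Ed → unitInterval => x e) := by
    rfl
  rw [h1, ← Measure.map_map (by fun_prop) (by fun_prop)]
  have h2 : (iidU Ed).map (fun x : Ed → unitInterval => x e) = volume := by
    unfold iidU
    exact Measure.infinitePi_map_eval _ e
  rw [h2, map_log_eq_exp _ (wG_pos hG e)]

theorem tau_lt_le (G : SimpleGraph ℕ) (hG : GoodG G) (e : Ed) (t : ℝ) (ht : 0 ≤ t) :
    iidU Ed {x | tauG G x e < t} ≤ ENNReal.ofReal (wG G e * t) := by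
  have hw := wG_pos hG e
  haveI := isProbabilityMeasure_expMeasure hw
  have h1 : iidU Ed {x | tauG G x e < t} = expMeasure (wG G e) (Iio t) := by
    rw [← tau_law G hG e, Measure.map_apply (measurable_tau_right G e) measurableSet_Iio]
    rfl
  rw [h1]
  calc expMeasure (wG G e) (Iio t) ≤ expMeasure (wG G e) (Iic t) := measure_mono Iio_subset_Iic_self
    _ = ENNReal.ofReal (cdf (expMeasure (wG G e)) t) := (ofReal_cdf _ _).symm
    _ ≤ ENNReal.ofReal (wG G e * t) := by
        apply ENNReal.ofReal_le_ofReal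
        rw [cdf_expMeasure_eq hw, if_pos ht]
        have := Real.add_one_le_exp (-(wG G e * t))
        linarith

variable (μF : Kernel (SimpleGraph ℕ) (Set Ed)) [IsMarkovKernel μF]

theorem mG_le_rate (G : SimpleGraph ℕ) (hG : GoodG G) (t : ℝ) (ht : 0 ≤ t) (g : Ed) :
    mG μF t G g ≤ ENNReal.ofReal (wG G g * t) := by
  classical
  refine le_trans ?_ (tau_lt_le G hG g t ht)
  unfold mG
  rw [← lintegral_indicator_one (measurableSet_lt (measurable_tau_right G g) measurable_const)]
  apply lintegral_mono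
  intro x
  show (if tauG G x g < t then QK μF (G, x) (mis g) else 0)
    ≤ {x | tauG G x g < t}.indicator 1 x
  by_cases h : tauG G x g < t
  · rw [if_pos h, Set.indicator_of_mem (by exact h)]
    exact prob_le_one
  · rw [if_neg h]; exact bot_le

theorem cs_tsum {ι : Type*} (a b : ι → ℝ≥0∞) :
    ∑' i, (a i * b i) ^ (1/2 : ℝ) ≤ ((∑' i, a i) * (∑' i, b i)) ^ (1/2 : ℝ) := by
  rw [ENNReal.tsum_eq_iSup_sum]
  apply iSup_le
  intro s
  have h2 : (2 : ℝ).HolderConjugate 2 := by
    rw [Real.holderConjugate_iff]; norm_num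
  calc ∑ i ∈ s, (a i * b i) ^ (1/2 : ℝ)
      = ∑ i ∈ s, (a i) ^ (1/2 : ℝ) * (b i) ^ (1/2 : ℝ) := by
        apply Finset.sum_congr rfl
        intro i _
        rw [ENNReal.mul_rpow_of_nonneg _ _ (by norm_num)]
    _ ≤ (∑ i ∈ s, ((a i) ^ (1/2 : ℝ)) ^ (2:ℝ)) ^ (1/(2:ℝ))
        * (∑ i ∈ s, ((b i) ^ (1/2 : ℝ)) ^ (2:ℝ)) ^ (1/(2:ℝ)) :=
        ENNReal.inner_le_Lp_mul_Lq s _ _ h2
    _ = (∑ i ∈ s, a i) ^ (1/(2:ℝ)) * (∑ i ∈ s, b i) ^ (1/(2:ℝ)) := by
        congr 2 <;>
        · apply Finset.sum_congr rfl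
          intro i _
          rw [← ENNReal.rpow_mul]; norm_num
    _ = ((∑ i ∈ s, a i) * (∑ i ∈ s, b i)) ^ (1/(2:ℝ)) := by
        rw [ENNReal.mul_rpow_of_nonneg _ _ (by norm_num)]
    _ ≤ _ := by
        apply ENNReal.rpow_le_rpow _ (by norm_num)
        gcongr <;> exact ENNReal.sum_le_tsum s

theorem Iset_subset_Jt (G : SimpleGraph ℕ) (x : Ed → unitInterval) (s : ℝ) (g : Ed)
    (hg : tauG G x g < s) : Iset (tauG G x) g ⊆ Jt G x s \ {g} := by
  intro e he
  unfold Iset at he
  refine ⟨?_, ?_⟩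
  · exact lt_trans he hg
  · rintro rfl
    exact lt_irrefl (tauG G x e) he

theorem bI_sum (hF : FK μF) (G : SimpleGraph ℕ) (hG : GoodG G) (s : ℝ) (g : Ed)
    (x : Ed → unitInterval) (hx : Function.Injective (tauG G x)) (hg : tauG G x g < s) :
    ∑' f : ((Jt G x s)ᶜ : Set Ed), bI μF s G x g f ≤ QK μF (G, x) (mis g) := by
  classical
  have hA := adapted μF hF G hG x hx
  obtain ⟨u, hu⟩ := hF.good G hG.1
  have hspec := etaAt_spec μF G x hA
  set J := Jt G x s with hJ
  have hgJ : g ∈ J := hg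
  have hsub := Iset_subset_Jt G x s g hg
  set Ξ : Set Ed → ℝ≥0∞ := fun T => ∑' f : (Jᶜ : Set Ed), CJ (Pm (μF G)) WE J T g f with hΞ
  have hΞm : Measurable Ξ := Measurable.ennreal_tsum (fun f => CJ_meas _ _ _)
  have hk2 := K2 hA hspec g Ξ hΞm
    (fun h hm hd => J3a WE_isWin hu J g hgJ _ hsub h hm hd)
    (fun h hm hd => J3b WE_isWin hu J g hgJ _ hsub h hm hd)
  rw [QK_apply]
  refine le_trans ?_ hk2
  unfold bI
  rw [QK_apply, ← lintegral_tsum]
  · apply lintegral_mono
    intro y
    exact cs_tsum _ _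
  · intro f
    apply Measurable.aemeasurable
    exact (((CJ_meas (μ := μF G) (W := WE) J g (f : Ed)).comp (by fun_prop)).mul
      ((CJ_meas (μ := μF G) (W := WE) J g (f : Ed)).comp (by fun_prop))).pow_const _

theorem tsum_ite_compl {ι : Type*} (J : Set ι) (P : ι → Prop) [DecidablePred P]
    (hP : ∀ i, P i ↔ i ∉ J) (a : ι → ℝ≥0∞) :
    ∑' i, (if P i then a i else 0) = ∑' i : (Jᶜ : Set ι), a i := by
  rw [tsum_subtype (Jᶜ) a]
  congr 1
  ext i
  by_cases h : P i
  · rw [if_pos h, Set.indicator_of_mem ((hP i).1 h)]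
  · rw [if_neg h, Set.indicator_of_notMem (fun h' => h ((hP i).2 h'))]

theorem bG_sum (hF : FK μF) (G : SimpleGraph ℕ) (hG : GoodG G) (s : ℝ) (g : Ed) :
    ∑' f, bG μF s G g f ≤ mG μF s G g := by
  classical
  unfold bG mG
  rw [← lintegral_tsum]
  · apply lintegral_mono_ae
    filter_upwards [tau_inj G hG] with x hx
    by_cases hg : tauG G x g < s
    · simp only [hg, true_and, if_true]
      rw [tsum_ite_compl (Jt G x s) (fun f => s ≤ tauG G x f)]
      · exact bI_sum μF hF G hG s g x hx hg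
      · intro i
        unfold Jt
        simp
    · simp [hg]
  · intro f
    apply Measurable.aemeasurable
    exact (measurable_bFull μF g f).comp
      (by fun_prop : Measurable (fun x : Ed → unitInterval => ((s, G), x)))

theorem aI_sum (hF : FK μF) (G : SimpleGraph ℕ) (hG : GoodG G) (s : ℝ) (g : Ed)
    (x : Ed → unitInterval) (hg : tauG G x g < s) :
    ∑' f : ((Jt G x s)ᶜ : Set Ed), aI μF s G x g f ≤ 1 := by
  obtain ⟨u, hu⟩ := hF.good G hG.1
  exact J5 WE_isWin hu (Jt G x s) g hg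

theorem aG_sum (hF : FK μF) (G : SimpleGraph ℕ) (hG : GoodG G) (s : ℝ) (hs : 0 ≤ s) (g : Ed) :
    ∑' f, aG μF s G g f ≤ ENNReal.ofReal (wG G g * s) := by
  classical
  refine le_trans ?_ (tau_lt_le G hG g s hs)
  rw [← lintegral_indicator_one (measurableSet_lt (measurable_tau_right G g) measurable_const)]
  unfold aG
  rw [← lintegral_tsum]
  · apply lintegral_mono
    intro x
    show ∑' f, (if tauG G x g < s ∧ s ≤ tauG G x f then aI μF s G x g f else 0)
      ≤ {x | tauG G x g < s}.indicator 1 x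
    by_cases hg : tauG G x g < s
    · rw [Set.indicator_of_mem (by exact hg)]
      simp only [hg, true_and]
      rw [tsum_ite_compl (Jt G x s) (fun f => s ≤ tauG G x f)]
      · exact aI_sum μF hF G hG s g x hg
      · intro i
        unfold Jt
        simp
    · simp [hg]
  · intro f
    apply Measurable.aemeasurable
    exact (measurable_aFull μF g f).comp
      (by fun_prop : Measurable (fun x : Ed → unitInterval => ((s, G), x)))

end

end Vale.Agent.P143
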