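import Vale.Agent.P143.Defs

open MeasureTheory ProbabilityTheory Set Filter Topology
open scoped ENNReal

namespace Vale.Agent.P143

section CylBasics

variable {E : Type*}

theorem measurableSet_cyl (S : Finset E) (A : Set E) : MeasurableSet (cyl S A) := by
  have : cyl S A = ⋂ e ∈ S, {T : Set E | (e ∈ T ↔ e ∈ A)} := by
    ext T; simp [cyl]
  rw [this]
  refine Finset.measurableSet_biInter S fun e _ => ?_
  by_cases he : e ∈ A
  · simpa [he] using measurableSet_mem e
  · simpa [he] using measurableSet_notMem e

theorem mem_cyl_self (S : Finset E) (A : Set E) : A ∈ cyl S A := fun _ _ => Iff.rfl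

theorem cyl_congr {S : Finset E} {A A' : Set E} (h : ∀ e ∈ S, (e ∈ A ↔ e ∈ A')) :
    cyl S A = cyl S A' := by
  ext T
  exact ⟨fun hT e he => (hT e he).trans (h e he), fun hT e he => (hT e he).trans (h e he).symm⟩

theorem cyl_eq_of_mem {S : Finset E} {A T : Set E} (h : T ∈ cyl S A) : cyl S T = cyl S A :=
  cyl_congr h

theorem cyl_anti {S S' : Finset E} (h : S ⊆ S') (A : Set E) : cyl S' A ⊆ cyl S A :=
  fun _ hT e he => hT e (h he)

theorem cyl_inter (S : Finset E) (A T : Set E) :
    T ∈ cyl S A ↔ cyl S T = cyl S A := by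
  refine ⟨cyl_eq_of_mem, fun h => h ▸ mem_cyl_self S T⟩

theorem cyl_disjoint {S : Finset E} {A A' : Set E} (h : cyl S A ≠ cyl S A') :
    Disjoint (cyl S A) (cyl S A') := by
  rw [Set.disjoint_left]
  intro T hT hT'
  exact h ((cyl_eq_of_mem hT).symm.trans (cyl_eq_of_mem hT'))

theorem iUnion_cyl (S : Finset E) : (⋃ A ∈ S.powerset, cyl S (A : Set E)) = univ := by
  classical
  rw [Set.eq_univ_iff_forall]
  intro T
  rw [Set.mem_iUnion₂]
  refine ⟨S.filter (fun e => e ∈ T), by simp, ?_⟩
  intro e he
  simp [he]

theorem pairwiseDisjoint_cyl (S : Finset E) :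
    Set.PairwiseDisjoint (↑S.powerset : Set (Finset E)) (fun A : Finset E => cyl S (A : Set E)) := by
  intro A hA B hB hAB
  rw [Function.onFun, Set.disjoint_left]
  intro T hT hT'
  apply hAB
  ext e
  have hA' : A ⊆ S := Finset.mem_powerset.1 (by simpa using hA)
  have hB' : B ⊆ S := Finset.mem_powerset.1 (by simpa using hB)
  constructor
  · intro he
    have h1 := (hT e (hA' he)).2 (by simpa using he)
    simpa using (hT' e (hA' he)).1 h1
  · intro he
    have h1 := (hT' e (hB' he)).2 (by simpa using he)
    simpa using (hT e (hB' he)).1 h1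

theorem lintegral_eq_sum_cyl (μ : Measure (Set E)) (S : Finset E) (F : Set E → ℝ≥0∞) :
    ∫⁻ T, F T ∂μ = ∑ A ∈ S.powerset, ∫⁻ T in cyl S (A : Set E), F T ∂μ := by
  rw [← lintegral_biUnion_finset (pairwiseDisjoint_cyl S) (fun A _ => measurableSet_cyl S _),
    iUnion_cyl, Measure.restrict_univ]

theorem integral_eq_sum_cyl (μ : Measure (Set E)) (S : Finset E) (F : Set E → ℝ)
    (hF : Integrable F μ) :
    ∫ T, F T ∂μ = ∑ A ∈ S.powerset, ∫ T in cyl S (A : Set E), F T ∂μ := by
  rw [← integral_biUnion_finset _ (fun A _ => measurableSet_cyl S _) (pairwiseDisjoint_cyl S)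
    (fun A _ => hF.integrableOn), iUnion_cyl, Measure.restrict_univ]

theorem measure_eq_sum_cyl (μ : Measure (Set E)) (S : Finset E) (B : Set (Set E)) :
    μ B = ∑ A ∈ S.powerset, μ (B ∩ cyl S (A : Set E)) := by
  have := lintegral_eq_sum_cyl (μ.restrict B) S (fun _ => 1)
  simp only [lintegral_one, Measure.restrict_apply MeasurableSet.univ, Set.univ_inter,
    Measure.restrict_restrict (measurableSet_cyl S _)] at this
  rw [this]
  refine Finset.sum_congr rfl fun A _ => ?_
  rw [Set.inter_comm]

theorem measurable_of_dep {α : Type*} [MeasurableSpace α] (S : Finset E) (h : Set E → α)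
    (hd : DependsOn' h (S : Set E)) : Measurable h := by
  have h1 : Measurable (fun T : Set E => fun e : S => (e : E) ∈ T) :=
    measurable_pi_lambda _ fun e => measurable_set_mem (e : E)
  have h2 : Measurable (fun q : S → Prop => h {e | ∃ he : e ∈ S, q ⟨e, he⟩}) :=
    measurable_of_countable _
  have h3 : h = (fun q : S → Prop => h {e | ∃ he : e ∈ S, q ⟨e, he⟩}) ∘
      (fun T : Set E => fun e : S => (e : E) ∈ T) := by
    funext T
    refine hd T _ fun e he => ?_
    have he' : e ∈ S := by simpa using he
    simp [he']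
  rw [h3]
  exact h2.comp h1

@[instance_reducible]
def FI (I : Set E) : MeasurableSpace (Set E) :=
  MeasurableSpace.comap (fun T : Set E => T ∩ I) inferInstance

theorem measurable_inter (I : Set E) : Measurable (fun T : Set E => T ∩ I) := by
  rw [measurable_set_iff]
  intro a
  by_cases ha : a ∈ I
  · simpa [ha] using measurable_set_mem a
  · simp [ha]

theorem FI_le (I : Set E) : FI I ≤ (inferInstance : MeasurableSpace (Set E)) :=
  (measurable_inter I).comap_le

theorem FI_mono {I I' : Set E} (h : I ⊆ I') : FI I ≤ FI I' := by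
  have h1 : Measurable[FI I'] (fun T : Set E => T ∩ I) := by
    have : (fun T : Set E => T ∩ I) = (fun T : Set E => T ∩ I) ∘ (fun T : Set E => T ∩ I') := by
      funext T
      simp [Set.inter_assoc, Set.inter_eq_self_of_subset_right h]
    rw [this]
    exact (measurable_inter I).comp (comap_measurable _)
  exact h1.comap_le

theorem measurable_FI_of_dep {α : Type*} [MeasurableSpace α] {I : Set E} {h : Set E → α}
    (hm : Measurable h) (hd : DependsOn' h I) : Measurable[FI I] h := by
  have : h = h ∘ (fun T : Set E => T ∩ I) := by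
    funext T
    refine hd T _ fun e he => ?_
    simp [he]
  rw [this]
  exact hm.comp (comap_measurable _)

theorem dep_of_measurable_FI {I : Set E} {α : Type*} [MeasurableSpace α]
    [MeasurableSingletonClass α] {h : Set E → α}
    (hm : Measurable[FI I] h) : DependsOn' h I := by
  intro T T' hT
  have h1 : MeasurableSet[FI I] (h ⁻¹' {h T}) := hm (measurableSet_singleton _)
  obtain ⟨B, _, hB⟩ := h1
  have h2 : T ∩ I = T' ∩ I := by
    ext e
    constructor
    · rintro ⟨h1, h2⟩; exact ⟨(hT e h2).1 h1, h2⟩
    · rintro ⟨h1, h2⟩; exact ⟨(hT e h2).2 h1, h2⟩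
  have h3 : T ∈ h ⁻¹' {h T} := rfl
  rw [← hB, Set.mem_preimage, h2, ← Set.mem_preimage (f := fun T : Set E => T ∩ I), hB] at h3
  exact (Set.mem_singleton_iff.1 (Set.mem_preimage.1 h3)).symm

theorem measurableSet_FI_iff_dep {S : Finset E} {B : Set (Set E)} :
    MeasurableSet[FI (S : Set E)] B ↔ DependsOn' (fun T => T ∈ B) (S : Set E) := by
  constructor
  · intro h
    exact dep_of_measurable_FI (α := Prop)
      ((@measurableSet_setOfPred _ (FI (S : Set E)) (fun T => T ∈ B)).1 h)
  · intro h
    have h1 := measurable_of_dep S _ h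
    have h2 := measurable_FI_of_dep h1 h
    exact (@measurableSet_setOfPred _ (FI (S : Set E)) (fun T => T ∈ B)).2 h2

theorem measurableSet_FI_cyl {S : Finset E} (A : Set E) : MeasurableSet[FI (S : Set E)] (cyl S A) := by
  rw [measurableSet_FI_iff_dep]
  intro T T' hT
  apply propext
  constructor
  · intro h e he
    exact (hT e (by simpa using he)).symm.trans (h e he)
  · intro h e he
    exact (hT e (by simpa using he)).trans (h e he)

end CylBasics

section WinBasics

variable {E : Type*} {W : ℕ → Finset E} 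

theorem mem_JW {W : ℕ → Finset E} {J : Set E} {n : ℕ} {e : E} : e ∈ JW W J n ↔ e ∈ W n ∧ e ∈ J := by
  simp [JW]

theorem JW_mono [DecidableEq E] (hW : IsWin W) (J : Set E) : Monotone (JW W J) := by
  intro m n h e he
  rw [mem_JW] at he ⊢
  exact ⟨hW.mono h he.1, he.2⟩

theorem JW_exh [DecidableEq E] (hW : IsWin W) {J : Set E} {e : E} (he : e ∈ J) : ∃ n, e ∈ JW W J n := by
  obtain ⟨n, hn⟩ := hW.exh e
  exact ⟨n, mem_JW.2 ⟨hn, he⟩⟩

theorem JW_sub (J : Set E) (n : ℕ) : (JW W J n : Set E) ⊆ J := by
  intro e he
  have : e ∈ JW W J n := by simpa using he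
  exact (mem_JW.1 this).2

def filt [DecidableEq E] (hW : IsWin W) (J : Set E) :
    Filtration ℕ (inferInstance : MeasurableSpace (Set E)) where
  seq n := FI (JW W J n : Set E)
  mono' := fun m n h => FI_mono (by exact_mod_cast JW_mono hW J h)
  le' := fun n => FI_le _

theorem iSup_filt [DecidableEq E] (hW : IsWin W) (J : Set E) :
    (⨆ n, (filt hW J) n) = FI J := by
  apply le_antisymm
  · exact iSup_le fun n => FI_mono (JW_sub J n)
  · have h1 : Measurable[⨆ n, (filt hW J) n] (fun T : Set E => T ∩ J) := by
      refine (@measurable_set_iff E (Set E) (⨆ n, (filt hW J) n) _).2 ?_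
      intro a
      by_cases ha : a ∈ J
      · obtain ⟨n, hn⟩ := JW_exh hW ha
        have h2 : Measurable[(filt hW J) n] (fun T : Set E => a ∈ T ∩ J) := by
          refine measurable_FI_of_dep (I := (JW W J n : Set E)) ?_ ?_
          · simpa [ha] using measurable_set_mem a
          · intro T T' hT
            have := hT a (by simpa using hn)
            simp [ha, this]
        exact h2.mono (le_iSup (fun n => (filt hW J) n) n) le_rfl
      · simp [ha]
    exact h1.comap_le

end WinBasics

end Vale.Agent.P143
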