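import Vale.Agent.P143.DefsC
import Vale.Agent.P143.Iid
import Vale.Agent.P143.StaticA

open MeasureTheory ProbabilityTheory Set Filter Topology
open scoped ENNReal unitInterval

namespace Vale.Agent.P143

namespace CpB

theorem vol_mul_le (q x : unitInterval) :
    ENNReal.ofReal (q : ℝ) * volume {r : unitInterval | q * r ≤ x}
      = ENNReal.ofReal (min (q : ℝ) x) := by
  rcases eq_or_lt_of_le q.2.1 with hq | hq
  · have : (q : ℝ) = 0 := hq.symm
    rw [this, ENNReal.ofReal_zero, zero_mul, min_eq_left x.2.1, ENNReal.ofReal_zero]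
  · rcases le_or_gt (q : ℝ) x with h | h
    · have h1 : {r : unitInterval | q * r ≤ x} = univ := by
        ext r
        simp only [Set.mem_ofPred_eq, mem_univ, iff_true]
        rw [← Subtype.coe_le_coe]
        show (q : ℝ) * r ≤ x
        have := r.2.2
        nlinarith
      rw [h1, measure_univ, mul_one, min_eq_left h]
    · have hmem : (x : ℝ) / q ∈ Icc (0:ℝ) 1 :=
        ⟨div_nonneg x.2.1 hq.le, (div_le_one hq).2 h.le⟩
      have h1 : {r : unitInterval | q * r ≤ x} = Iic (⟨(x : ℝ) / q, hmem⟩ : unitInterval) := by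
        ext r
        simp only [Set.mem_ofPred_eq, mem_Iic]
        rw [← Subtype.coe_le_coe, ← Subtype.coe_le_coe]
        show (q : ℝ) * r ≤ x ↔ (r : ℝ) ≤ x / q
        rw [le_div_iff₀ hq, mul_comm]
      rw [h1, unitInterval.volume_Iic, min_eq_right h.le, ← ENNReal.ofReal_mul hq.le]
      congr 1
      show (q : ℝ) * ((x : ℝ) / q) = x
      field_simp

theorem vol_symm_le (q x : unitInterval) :
    ENNReal.ofReal (1 - (q : ℝ)) * volume {r : unitInterval | σ (σ q * σ r) ≤ x}
      = ENNReal.ofReal ((x : ℝ) - min (q : ℝ) x) := by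
  have hset : ∀ r : unitInterval, (σ (σ q * σ r) ≤ x ↔ 1 - (x : ℝ) ≤ (1 - q) * (1 - r)) := by
    intro r
    rw [← Subtype.coe_le_coe]
    show 1 - (1 - (q : ℝ)) * (1 - (r : ℝ)) ≤ x ↔ _
    constructor <;> intro h <;> linarith
  rcases eq_or_lt_of_le q.2.2 with hq | hq
  · rw [hq, sub_self, ENNReal.ofReal_zero, zero_mul, min_eq_right x.2.2, sub_self,
      ENNReal.ofReal_zero]
  · have hq' : 0 < 1 - (q : ℝ) := by linarith
    rcases le_or_gt (q : ℝ) x with h | h
    · have hmem : ((x : ℝ) - q) / (1 - q) ∈ Icc (0:ℝ) 1 := by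
        refine ⟨div_nonneg (by linarith) hq'.le, (div_le_one hq').2 ?_⟩
        have := x.2.2
        linarith
      have h1 : {r : unitInterval | σ (σ q * σ r) ≤ x}
          = Iic (⟨((x : ℝ) - q) / (1 - q), hmem⟩ : unitInterval) := by
        ext r
        simp only [Set.mem_ofPred_eq, mem_Iic]
        rw [hset, ← Subtype.coe_le_coe]
        show 1 - (x : ℝ) ≤ (1 - q) * (1 - r) ↔ (r : ℝ) ≤ ((x : ℝ) - q) / (1 - q)
        rw [le_div_iff₀ hq']
        constructor <;> intro h <;> nlinarith
      rw [h1, unitInterval.volume_Iic, min_eq_left h, ← ENNReal.ofReal_mul hq'.le]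
      congr 1
      show (1 - (q : ℝ)) * (((x : ℝ) - q) / (1 - q)) = x - q
      field_simp
    · have h1 : {r : unitInterval | σ (σ q * σ r) ≤ x} = ∅ := by
        ext r
        simp only [Set.mem_ofPred_eq, mem_empty_iff_false, iff_false]
        rw [hset]
        push Not
        have := r.2.1
        nlinarith
      rw [h1, measure_empty, mul_zero, min_eq_right h.le, sub_self, ENNReal.ofReal_zero]

theorem mix (q : unitInterval) :
    ENNReal.ofReal (q : ℝ) • (volume : Measure unitInterval).map (fun r => q * r)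
      + ENNReal.ofReal (1 - (q : ℝ)) • (volume : Measure unitInterval).map (fun r => σ (σ q * σ r))
      = volume := by
  have hm1 : Measurable (fun r : unitInterval => q * r) := by fun_prop
  have hm2 : Measurable (fun r : unitInterval => σ (σ q * σ r)) :=
    unitInterval.measurable_symm.comp ((measurable_const).mul unitInterval.measurable_symm)
  symm
  apply Measure.ext_of_Iic
  intro x
  rw [Measure.add_apply, Measure.smul_apply, Measure.smul_apply,
    Measure.map_apply hm1 measurableSet_Iic, Measure.map_apply hm2 measurableSet_Iic,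
    smul_eq_mul, smul_eq_mul, unitInterval.volume_Iic]
  have e1 := vol_mul_le q x
  have e2 := vol_symm_le q x
  show _ = ENNReal.ofReal (q : ℝ) * volume {r : unitInterval | q * r ≤ x}
    + ENNReal.ofReal (1 - (q : ℝ)) * volume {r : unitInterval | σ (σ q * σ r) ≤ x}
  rw [e1, e2, ← ENNReal.ofReal_add]
  · congr 1; ring
  · exact le_min q.2.1 x.2.1
  · rw [sub_nonneg]; exact min_le_right _ _

theorem mix_lintegral (q : unitInterval) (φ : unitInterval → ℝ≥0∞) (hφ : Measurable φ) :
    ENNReal.ofReal (q : ℝ) * ∫⁻ r : unitInterval, φ (q * r) ∂volume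
      + ENNReal.ofReal (1 - (q : ℝ)) * ∫⁻ r : unitInterval, φ (σ (σ q * σ r)) ∂volume
      = ∫⁻ r : unitInterval, φ r ∂volume := by
  have hm1 : Measurable (fun r : unitInterval => q * r) := by fun_prop
  have hm2 : Measurable (fun r : unitInterval => σ (σ q * σ r)) :=
    unitInterval.measurable_symm.comp ((measurable_const).mul unitInterval.measurable_symm)
  conv_rhs => rw [← mix q]
  rw [lintegral_add_measure, lintegral_smul_measure, lintegral_smul_measure,
    lintegral_map hφ hm1, lintegral_map hφ hm2, smul_eq_mul, smul_eq_mul]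

section

variable {E : Type*} [Countable E] {μ : Measure (Set E)} [IsProbabilityMeasure μ]
  {τ : E → ℝ} {p : E → Set E → unitInterval} (hA : Adapted μ τ p)

theorem measurableSet_mem' (g : E) : MeasurableSet {T : Set E | g ∈ T} :=
  measurableSet_setOfPred.2 (measurable_set_mem g)

include hA in
theorem cond_compl_bdd (g : E) (h : Set E → ℝ≥0∞) (hm : Measurable h)
    (hd : DependsOn' h (Iset τ g)) (hfin : ∫⁻ T, h T ∂μ ≠ ∞) :
    ∫⁻ T in {T | g ∉ T}, h T ∂μ = ∫⁻ T, h T * ENNReal.ofReal (1 - (p g T : ℝ)) ∂μ := by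
  have h1 := hA.cond g h hm hd
  have hms := measurableSet_mem' g
  have h2 : ∫⁻ T, h T ∂μ = ∫⁻ T in {T | g ∈ T}, h T ∂μ + ∫⁻ T in {T | g ∉ T}, h T ∂μ :=
    (lintegral_add_compl h hms).symm
  have hpm : Measurable (fun T => ENNReal.ofReal (p g T : ℝ)) :=
    (measurable_subtype_coe.comp (hA.meas g)).ennreal_ofReal
  have h3 : ∫⁻ T, h T ∂μ = ∫⁻ T, h T * ENNReal.ofReal (p g T) ∂μ
      + ∫⁻ T, h T * ENNReal.ofReal (1 - (p g T : ℝ)) ∂μ := by
    have hmp : Measurable (fun T => h T * ENNReal.ofReal (p g T : ℝ)) := hm.mul hpm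
    rw [← lintegral_add_left hmp]
    apply lintegral_congr
    intro T
    rw [← mul_add, ← ENNReal.ofReal_add (p g T).2.1 (by have := (p g T).2.2; linarith)]
    rw [add_sub_cancel, ENNReal.ofReal_one, mul_one]
  rw [h1] at h2
  have hfin' : ∫⁻ T, h T * ENNReal.ofReal (p g T) ∂μ ≠ ∞ := by
    intro htop
    rw [htop, top_add] at h2
    exact hfin h2
  rw [h2] at h3
  exact (ENNReal.add_right_inj hfin').1 h3

include hA in
theorem cond_compl (g : E) (h : Set E → ℝ≥0∞) (hm : Measurable h)
    (hd : DependsOn' h (Iset τ g)) :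
    ∫⁻ T in {T | g ∉ T}, h T ∂μ = ∫⁻ T, h T * ENNReal.ofReal (1 - (p g T : ℝ)) ∂μ := by
  have hsup : ∀ T, h T = ⨆ n : ℕ, min (h T) n := by
    intro T
    have h1 : (⨆ n : ℕ, min (h T) (n : ℝ≥0∞)) = min (h T) (⨆ n : ℕ, (n : ℝ≥0∞)) :=
      (inf_iSup_eq (h T) (fun n : ℕ => (n : ℝ≥0∞))).symm
    rw [h1, ENNReal.iSup_natCast, min_top_right]
  have hmono : Monotone (fun (n : ℕ) T => min (h T) (n : ℝ≥0∞)) := by
    intro m n hmn T
    exact min_le_min le_rfl (by exact_mod_cast hmn)
  have hmm : ∀ n : ℕ, Measurable (fun T => min (h T) (n : ℝ≥0∞)) :=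
    fun n => hm.min measurable_const
  have hpm : Measurable (fun T => ENNReal.ofReal (1 - (p g T : ℝ))) := by
    have := measurable_subtype_coe.comp (hA.meas g)
    exact (measurable_const.sub this).ennreal_ofReal
  have e1 : ∫⁻ T in {T | g ∉ T}, h T ∂μ = ⨆ n : ℕ, ∫⁻ T in {T | g ∉ T}, min (h T) n ∂μ := by
    rw [← lintegral_iSup hmm hmono]
    apply lintegral_congr
    intro T
    exact hsup T
  have e2 : ∫⁻ T, h T * ENNReal.ofReal (1 - (p g T : ℝ)) ∂μ
      = ⨆ n : ℕ, ∫⁻ T, min (h T) n * ENNReal.ofReal (1 - (p g T : ℝ)) ∂μ := by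
    have hmp : ∀ n : ℕ, Measurable (fun T => min (h T) (n : ℝ≥0∞)
      * ENNReal.ofReal (1 - (p g T : ℝ))) := fun n => (hmm n).mul hpm
    rw [← lintegral_iSup hmp]
    · apply lintegral_congr
      intro T
      rw [← ENNReal.iSup_mul, ← hsup T]
    · intro m n hmn T
      exact mul_le_mul_left (hmono hmn T) _
  rw [e1, e2]
  congr 1
  ext n
  apply cond_compl_bdd hA g _ (hmm n)
  · intro T T' hT
    simp only [hd T T' hT]
  · apply ne_of_lt
    calc ∫⁻ T, min (h T) n ∂μ ≤ ∫⁻ _, (n : ℝ≥0∞) ∂μ := lintegral_mono (fun T => min_le_right _ _)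
      _ < ∞ := by
        rw [lintegral_const, measure_univ, mul_one]
        exact ENNReal.natCast_lt_top n

end

end CpB

end Vale.Agent.P143
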