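import Vale.Agent.P143.Iid

open MeasureTheory ProbabilityTheory Set Filter Topology
open scoped ENNReal

namespace Vale.Agent.P143

theorem iidU_sumElim (ι κ : Type*) :
    ((iidU ι).prod (iidU κ)).map
      (fun z : (ι → unitInterval) × (κ → unitInterval) => (Sum.elim z.1 z.2 : ι ⊕ κ → unitInterval))
      = iidU (ι ⊕ κ) := by
  have hm : Measurable (fun z : (ι → unitInterval) × (κ → unitInterval) =>
      (Sum.elim z.1 z.2 : ι ⊕ κ → unitInterval)) := by
    rw [measurable_pi_iff]
    rintro (i | k)
    · simp only [Sum.elim_inl]; fun_prop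
    · simp only [Sum.elim_inr]; fun_prop
  unfold iidU
  apply Measure.eq_infinitePi
  intro s t ht
  rw [Measure.map_apply hm (.pi s.countable_toSet fun _ _ ↦ ht _)]
  have hpre : (fun z : (ι → unitInterval) × (κ → unitInterval) =>
      (Sum.elim z.1 z.2 : ι ⊕ κ → unitInterval)) ⁻¹' ((s : Set (ι ⊕ κ)).pi t)
      = ((s.toLeft : Set ι).pi (fun i => t (Sum.inl i)))
        ×ˢ ((s.toRight : Set κ).pi (fun k => t (Sum.inr k))) := by
    ext z
    simp [Set.mem_pi]
  rw [hpre, Measure.prod_prod, Measure.infinitePi_pi _ (fun i _ => ht _),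
    Measure.infinitePi_pi _ (fun i _ => ht _)]
  conv_rhs => rw [← Finset.toLeft_disjSum_toRight (u := s), Finset.prod_disjSum]

theorem iidU_sum_of_inj {ι κ L : Type*} {f : ι ⊕ κ → L} (hf : Function.Injective f) :
    (iidU L).map (fun y => ((fun i => y (f (Sum.inl i)), fun k => y (f (Sum.inr k))) :
      (ι → unitInterval) × (κ → unitInterval))) = (iidU ι).prod (iidU κ) := by
  have h1 : (iidU L).map (fun y i => y (f i)) = iidU (ι ⊕ κ) := by
    unfold iidU
    exact Measure.map_infinitePi_infinitePi_of_inj hf
  have h2 := congrArg (Measure.map (fun y : ι ⊕ κ → unitInterval =>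
    ((fun i => y (Sum.inl i), fun k => y (Sum.inr k)) :
      (ι → unitInterval) × (κ → unitInterval)))) (h1.trans (iidU_sumElim ι κ).symm)
  have hm : Measurable (fun z : (ι → unitInterval) × (κ → unitInterval) =>
      (Sum.elim z.1 z.2 : ι ⊕ κ → unitInterval)) := by
    rw [measurable_pi_iff]
    rintro (i | k)
    · simp only [Sum.elim_inl]; fun_prop
    · simp only [Sum.elim_inr]; fun_prop
  rw [Measure.map_map (by fun_prop) (by fun_prop), Measure.map_map (by fun_prop) hm] at h2
  have h3 : ((fun y : ι ⊕ κ → unitInterval =>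
    ((fun i => y (Sum.inl i), fun k => y (Sum.inr k)) :
      (ι → unitInterval) × (κ → unitInterval))) ∘
      (fun z : (ι → unitInterval) × (κ → unitInterval) =>
      (Sum.elim z.1 z.2 : ι ⊕ κ → unitInterval))) = id := by
    ext z <;> simp
  rw [h3, Measure.map_id] at h2
  exact h2

theorem iidU_inj (E : Type*) [Countable E] : ∀ᵐ x ∂(iidU E), Function.Injective x := by
  classical
  have key : ∀ e f : E, e ≠ f → ∀ᵐ x ∂(iidU E), x e ≠ x f := by
    intro e f hef
    rw [ae_iff]
    have hms : MeasurableSet {x : E → unitInterval | ¬ x e ≠ x f} := by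
      simp only [ne_eq, not_not]
      exact measurableSet_eq_fun (by fun_prop) (by fun_prop)
    rw [← iidU_update e, Measure.map_apply (measurable_update' e) hms,
      Measure.measure_prod_null (measurable_update' e hms)]
    apply Eventually.of_forall
    intro x
    show volume _ = 0
    have hsub : (Prod.mk x ⁻¹' ((fun y : (E → unitInterval) × unitInterval =>
        Function.update y.1 e y.2) ⁻¹' {x | ¬ x e ≠ x f})) ⊆ {x f} := by
      intro r hr
      simp only [mem_preimage, ne_eq, not_not, mem_ofPred_eq, Function.update_self,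
        Function.update_of_ne (Ne.symm hef)] at hr
      exact hr
    exact measure_mono_null hsub (by simp)
  have h2 : ∀ᵐ x ∂(iidU E), ∀ e f : E, e ≠ f → x e ≠ x f := by
    rw [ae_all_iff]; intro e
    rw [ae_all_iff]; intro f
    by_cases hef : e = f
    · exact Eventually.of_forall (fun x h => absurd hef h)
    · filter_upwards [key e f hef] with x hx _ using hx
  filter_upwards [h2] with x hx e f hef
  by_contra hne
  exact hx e f hne hef

theorem exists_split : ∃ s : unitInterval → (ℕ → unitInterval), Measurable s ∧
    (volume : Measure unitInterval).map s = iidU ℕ :=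
  Measure.exists_measurable_map_eq _

noncomputable def splitFn : unitInterval → (ℕ → unitInterval) := exists_split.choose

theorem measurable_splitFn : Measurable splitFn := exists_split.choose_spec.1

theorem map_splitFn : (volume : Measure unitInterval).map splitFn = iidU ℕ :=
  exists_split.choose_spec.2

noncomputable def labA (U : ℕ → unitInterval) : ℕ → unitInterval := fun v => splitFn (U v) 0

noncomputable def labR (U : ℕ → unitInterval) : ℕ × ℕ → unitInterval :=
  fun p => splitFn (U p.1) (p.2 + 1)

theorem measurable_labA : Measurable labA := by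
  unfold labA
  rw [measurable_pi_iff]
  intro v
  exact (measurable_pi_apply 0).comp (measurable_splitFn.comp (measurable_pi_apply v))

theorem measurable_labR : Measurable labR := by
  unfold labR
  rw [measurable_pi_iff]
  intro p
  exact (measurable_pi_apply (p.2 + 1)).comp (measurable_splitFn.comp (measurable_pi_apply p.1))

theorem map_split_all : (iidU ℕ).map (fun U (p : ℕ × ℕ) => splitFn (U p.1) p.2) = iidU (ℕ × ℕ) := by
  have h1 : (iidU ℕ).map (fun U v => splitFn (U v))
      = Measure.infinitePi (fun _ : ℕ => iidU ℕ) := by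
    unfold iidU
    rw [Measure.infinitePi_map_pi _ (fun _ => measurable_splitFn)]
    congr 1
    ext1 v
    exact map_splitFn
  have h2 : (Measure.infinitePi (fun _ : ℕ => iidU ℕ)).map (MeasurableEquiv.curry ℕ ℕ unitInterval).symm
      = iidU (ℕ × ℕ) := by
    unfold iidU
    exact Measure.infinitePi_map_curry_symm (fun (_ _ : ℕ) => (volume : Measure unitInterval))
  rw [← h2, ← h1, Measure.map_map (by fun_prop)]
  · rfl
  · rw [measurable_pi_iff]
    intro v
    exact measurable_splitFn.comp (measurable_pi_apply v)

theorem map_labAR : (iidU ℕ).map (fun U => (labA U, labR U)) = (iidU ℕ).prod (iidU (ℕ × ℕ)) := by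
  let f : ℕ ⊕ (ℕ × ℕ) → ℕ × ℕ := Sum.elim (fun v => (v, 0)) (fun p => (p.1, p.2 + 1))
  have hf : Function.Injective f := by
    rintro (a | a) (b | b) h
    · simp only [f, Sum.elim_inl, Prod.mk.injEq, and_true] at h
      rw [h]
    · simp [f] at h
    · simp [f] at h
    · simp only [f, Sum.elim_inr, Prod.mk.injEq, add_left_inj] at h
      rw [Prod.ext h.1 h.2]
  rw [← iidU_sum_of_inj hf, ← map_split_all, Measure.map_map (by fun_prop)]
  · rfl
  · rw [measurable_pi_iff]
    intro p
    exact (measurable_pi_apply p.2).comp (measurable_splitFn.comp (measurable_pi_apply p.1))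

end Vale.Agent.P143
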