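import Vale.Agent.P143.PhiDef
import Vale.Agent.P143.Meas

open MeasureTheory ProbabilityTheory Set Filter Topology
open scoped ENNReal

namespace Vale.Agent.P143

section General

variable {α : Type*} [MeasurableSpace α]

theorem measurable_ncard' {S : α → Set ℕ} (hS : ∀ n, MeasurableSet {a | n ∈ S a}) :
    Measurable (fun a => (S a).ncard) := by
  classical
  have h1 : ∀ a, (S a).ncard = ⌊(∑' n : ℕ, (if n ∈ S a then 1 else 0 : ℝ≥0∞)).toReal⌋₊ := by
    intro a
    have h2 : ∑' n : ℕ, (if n ∈ S a then 1 else 0 : ℝ≥0∞) = ((S a).encard : ℝ≥0∞) := by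
      rw [← ENNReal.tsum_set_one, tsum_subtype (S a) (fun _ => (1 : ℝ≥0∞))]
      congr 1
    rw [h2]
    by_cases hf : (S a).Finite
    · rw [← hf.cast_ncard_eq]
      simp
    · have hinf : (S a).Infinite := hf
      rw [hinf.encard_eq, hinf.ncard]
      simp
  simp_rw [h1]
  apply Nat.measurable_floor.comp
  apply Measurable.ennreal_toReal
  apply Measurable.tsum
  intro n
  exact Measurable.ite (hS n) measurable_const measurable_const

theorem measurable_sInf' {S : α → Set ℕ} (hS : ∀ n, MeasurableSet {a | n ∈ S a}) :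
    Measurable (fun a => sInf (S a)) := by
  apply measurable_to_countable'
  intro m
  have : (fun a => sInf (S a)) ⁻¹' {m} = ({a | m ∈ S a} ∩ ⋂ k ∈ Iio m, {a | k ∈ S a}ᶜ) ∪
      ({a | m = 0} ∩ ⋂ k : ℕ, {a | k ∈ S a}ᶜ) := by
    ext a
    simp only [mem_preimage, mem_singleton_iff, mem_union, mem_inter_iff, mem_ofPred_eq,
      mem_iInter, mem_compl_iff, mem_Iio]
    constructor
    · intro h
      rcases (S a).eq_empty_or_nonempty with he | hne
      · right
        rw [he, Nat.sInf_empty] at h
        exact ⟨h.symm, fun k => by rw [he]; simp⟩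
      · left
        rw [← h]
        exact ⟨Nat.sInf_mem hne, fun k hk => Nat.notMem_of_lt_sInf hk⟩
    · rintro (⟨h1, h2⟩ | ⟨h1, h2⟩)
      · apply le_antisymm (Nat.sInf_le h1)
        by_contra hlt
        push Not at hlt
        exact h2 _ hlt (Nat.sInf_mem ⟨m, h1⟩)
      · have : S a = ∅ := by
          ext k; simp only [mem_empty_iff_false, iff_false]; exact h2 k
        rw [this, Nat.sInf_empty, h1]
  rw [this]
  apply MeasurableSet.union
  · apply (hS m).inter
    apply MeasurableSet.biInter (Set.to_countable _)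
    intro k _
    exact (hS k).compl
  · apply MeasurableSet.inter (MeasurableSet.const _)
    exact MeasurableSet.iInter fun k => (hS k).compl

theorem measurable_of_index {β ι : Type*} [MeasurableSpace β] [Countable ι] [MeasurableSpace ι]
    [MeasurableSingletonClass ι] {F : ι → α → β} (hF : ∀ i, Measurable (F i)) {n : α → ι}
    (hn : Measurable n) : Measurable (fun a => F (n a) a) := by
  have h : Measurable (fun y : ι × α => F y.1 y.2) := measurable_from_prod_countable_right hF
  exact h.comp (hn.prodMk measurable_id)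

theorem measurableSet_of_index {ι : Type*} [Countable ι] [MeasurableSpace ι]
    [MeasurableSingletonClass ι] {F : ι → α → Prop} (hF : ∀ i, MeasurableSet {a | F i a})
    {n : α → ι} (hn : Measurable n) : MeasurableSet {a | F (n a) a} :=
  measurableSet_setOfPred.2
    (measurable_of_index (fun i => measurableSet_setOfPred.1 (hF i)) hn)

end General

section Meas

variable {α : Type*} [MeasurableSpace α] {Gm : α → SimpleGraph ℕ} (hG : Measurable Gm)
  {Am : α → ℕ → unitInterval} (hA : Measurable Am)

include hG in
theorem measurableSet_reach (n v w : ℕ) : MeasurableSet {a | reach (Gm a) n v w} := by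
  induction n generalizing w with
  | zero => simp only [reach]; exact MeasurableSet.const _
  | succ n ih =>
    simp only [reach]
    have : {a | reach (Gm a) n v w ∨ ∃ u, reach (Gm a) n v u ∧ (Gm a).Adj u w}
        = {a | reach (Gm a) n v w} ∪ ⋃ u : ℕ, ({a | reach (Gm a) n v u} ∩ {a | (Gm a).Adj u w}) := by
      ext a; simp
    rw [this]
    refine (ih w).union (MeasurableSet.iUnion fun u => (ih u).inter ?_)
    exact hG (measurableSet_adj u w)

include hG hA in
theorem measurableSet_before (v w' w : ℕ) :
    MeasurableSet {a | before (Gm a) (Am a) v w' w} := by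
  unfold before
  have hr := measurableSet_reach hG
  have : {a | (∃ n, reach (Gm a) n v w' ∧ ¬ reach (Gm a) n v w) ∨
      ((∀ n, reach (Gm a) n v w' ↔ reach (Gm a) n v w) ∧ Am a w' < Am a w)}
      = (⋃ n, ({a | reach (Gm a) n v w'} ∩ {a | reach (Gm a) n v w}ᶜ)) ∪
        ((⋂ n, {a | reach (Gm a) n v w' ↔ reach (Gm a) n v w}) ∩ {a | Am a w' < Am a w}) := by
    ext a; simp
  rw [this]
  apply MeasurableSet.union
  · exact MeasurableSet.iUnion fun n => (hr n v w').inter (hr n v w).compl
  · apply MeasurableSet.inter
    · refine MeasurableSet.iInter fun n => ?_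
      exact measurableSet_setOfPred.2 (Measurable.iff (measurableSet_setOfPred.1 (hr n v w'))
        (measurableSet_setOfPred.1 (hr n v w)))
    · exact measurableSet_lt ((measurable_pi_apply w').comp hA) ((measurable_pi_apply w).comp hA)

include hG hA in
theorem measurable_rank (v w : ℕ) : Measurable (fun a => rank (Gm a) (Am a) v w) :=
  measurable_ncard' (fun w' => measurableSet_before hG hA v w' w)

include hG hA in
theorem measurable_enm (v k : ℕ) : Measurable (fun a => enm (Gm a) (Am a) v k) :=
  measurable_sInf' (fun w => (measurable_rank hG hA v w) (measurableSet_singleton k))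

include hG hA in
theorem measurableSet_GoodA : MeasurableSet {a | GoodA (Gm a) (Am a)} := by
  have : {a | GoodA (Gm a) (Am a)}
      = (⋂ u : ℕ, ⋂ v : ℕ, ({a | Am a u = Am a v}ᶜ ∪ {_a | u = v})) ∩
        (⋂ v : ℕ, ((⋂ x : ℕ, ⋂ y : ℕ, ({a | rank (Gm a) (Am a) v x = rank (Gm a) (Am a) v y}ᶜ
          ∪ {_a | x = y})) ∩ (⋂ k : ℕ, ⋃ w : ℕ, {a | rank (Gm a) (Am a) v w = k}))) := by
    ext a
    simp only [GoodA, Function.Bijective, Function.Injective, Function.Surjective, mem_ofPred_eq,
      mem_inter_iff, mem_iInter, mem_union, mem_compl_iff, mem_iUnion, imp_iff_not_or]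
  rw [this]
  apply MeasurableSet.inter
  · refine MeasurableSet.iInter fun u => MeasurableSet.iInter fun v => MeasurableSet.union ?_
      (MeasurableSet.const _)
    exact (measurableSet_eq_fun ((measurable_pi_apply u).comp hA)
      ((measurable_pi_apply v).comp hA)).compl
  · refine MeasurableSet.iInter fun v => MeasurableSet.inter ?_ ?_
    · refine MeasurableSet.iInter fun x => MeasurableSet.iInter fun y => MeasurableSet.union ?_
        (MeasurableSet.const _)
      exact (measurableSet_eq_fun (measurable_rank hG hA v x) (measurable_rank hG hA v y)).compl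
    · exact MeasurableSet.iInter fun k => MeasurableSet.iUnion fun w =>
        measurable_rank hG hA v w (measurableSet_singleton k)

include hG hA in
theorem measurable_comap_enm (v : ℕ) :
    Measurable (fun a => (Gm a).comap (enm (Gm a) (Am a) v)) := by
  rw [SimpleGraph.measurable_iff_adj]
  intro x y
  simp only [SimpleGraph.comap_adj]
  exact measurable_of_index (F := fun (p : ℕ × ℕ) a => (Gm a).Adj p.1 p.2)
    (fun p => measurableSet_setOfPred.1 (hG (measurableSet_adj p.1 p.2)))
    ((measurable_enm hG hA v x).prodMk (measurable_enm hG hA v y))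

include hG hA in
theorem measurable_idx (x y : ℕ) : Measurable (fun a => idx (Gm a) (Am a) s(x, y)) := by
  simp only [idx_mk]
  apply Measurable.ite
  · exact measurableSet_lt ((measurable_pi_apply x).comp hA) ((measurable_pi_apply y).comp hA)
  · exact measurable_const.prodMk (measurable_rank hG hA _ _)
  · apply Measurable.ite
    · exact measurableSet_lt ((measurable_pi_apply y).comp hA) ((measurable_pi_apply x).comp hA)
    · exact measurable_const.prodMk (measurable_rank hG hA _ _)
    · exact measurable_const.prodMk (measurable_rank hG hA _ _)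

variable {Rm : α → ℕ × ℕ → unitInterval} (hR : Measurable Rm)

include hG hA hR in
theorem measurable_labX (e : Ed) : Measurable (fun a => labX (Gm a) (Am a) (Rm a) e) := by
  induction e using Sym2.ind with
  | _ x y =>
    unfold labX
    exact measurable_of_index (F := fun (p : ℕ × ℕ) a => Rm a (p.1, 2 * p.2))
      (fun p => (measurable_pi_apply _).comp hR) (measurable_idx hG hA x y)

include hG hA hR in
theorem measurable_labV (e : Ed) : Measurable (fun a => labV (Gm a) (Am a) (Rm a) e) := by
  induction e using Sym2.ind with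
  | _ x y =>
    unfold labV
    exact measurable_of_index (F := fun (p : ℕ × ℕ) a => Rm a (p.1, 2 * p.2 + 1))
      (fun p => (measurable_pi_apply _).comp hR) (measurable_idx hG hA x y)

include hG hA hR in
theorem measurable_labX_enm (v : ℕ) (e : Ed) :
    Measurable (fun a => labX (Gm a) (Am a) (Rm a) (Sym2.map (enm (Gm a) (Am a) v) e)) := by
  induction e using Sym2.ind with
  | _ x y =>
    simp only [Sym2.map_mk]
    exact measurable_of_index (F := fun (p : ℕ × ℕ) a => labX (Gm a) (Am a) (Rm a) s(p.1, p.2))
      (fun p => measurable_labX hG hA hR _)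
      ((measurable_enm hG hA v x).prodMk (measurable_enm hG hA v y))

include hG hA hR in
theorem measurable_labV_enm (v : ℕ) (e : Ed) :
    Measurable (fun a => labV (Gm a) (Am a) (Rm a) (Sym2.map (enm (Gm a) (Am a) v) e)) := by
  induction e using Sym2.ind with
  | _ x y =>
    simp only [Sym2.map_mk]
    exact measurable_of_index (F := fun (p : ℕ × ℕ) a => labV (Gm a) (Am a) (Rm a) s(p.1, p.2))
      (fun p => measurable_labV hG hA hR _)
      ((measurable_enm hG hA v x).prodMk (measurable_enm hG hA v y))

variable {Ψ : SimpleGraph ℕ → (Ed → unitInterval) → (Ed → unitInterval) → Set Ed}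
  (hΨ : Measurable (fun z : (SimpleGraph ℕ × (Ed → unitInterval)) × (Ed → unitInterval) =>
    Ψ z.1.1 z.1.2 z.2))

include hG hA hR hΨ in
theorem measurable_PhiOf : Measurable (fun a => PhiOf Ψ (Gm a) (Am a) (Rm a)) := by
  have hmain : ∀ v, Measurable (fun a => Ψ ((Gm a).comap (enm (Gm a) (Am a) v))
      (fun e' => labX (Gm a) (Am a) (Rm a) (Sym2.map (enm (Gm a) (Am a) v) e'))
      (fun e' => labV (Gm a) (Am a) (Rm a) (Sym2.map (enm (Gm a) (Am a) v) e'))) := by
    intro v
    have h1 := measurable_comap_enm hG hA v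
    have h2 : Measurable (fun a (e' : Ed) =>
        labX (Gm a) (Am a) (Rm a) (Sym2.map (enm (Gm a) (Am a) v) e')) :=
      measurable_pi_iff.2 fun e' => measurable_labX_enm hG hA hR v e'
    have h3 : Measurable (fun a (e' : Ed) =>
        labV (Gm a) (Am a) (Rm a) (Sym2.map (enm (Gm a) (Am a) v) e')) :=
      measurable_pi_iff.2 fun e' => measurable_labV_enm hG hA hR v e'
    exact hΨ.comp ((h1.prodMk h2).prodMk h3)
  rw [measurable_set_iff]
  intro e
  apply measurableSet_setOfPred.1
  unfold PhiOf
  simp only [mem_ofPred_eq]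
  have : {a | GoodA (Gm a) (Am a) ∧ ∀ v, Sym2.map (rank (Gm a) (Am a) v) e ∈
      Ψ ((Gm a).comap (enm (Gm a) (Am a) v))
      (fun e' => labX (Gm a) (Am a) (Rm a) (Sym2.map (enm (Gm a) (Am a) v) e'))
      (fun e' => labV (Gm a) (Am a) (Rm a) (Sym2.map (enm (Gm a) (Am a) v) e'))}
    = {a | GoodA (Gm a) (Am a)} ∩ ⋂ v : ℕ, {a | Sym2.map (rank (Gm a) (Am a) v) e ∈
      Ψ ((Gm a).comap (enm (Gm a) (Am a) v))
      (fun e' => labX (Gm a) (Am a) (Rm a) (Sym2.map (enm (Gm a) (Am a) v) e'))
      (fun e' => labV (Gm a) (Am a) (Rm a) (Sym2.map (enm (Gm a) (Am a) v) e'))} := by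
    ext a; simp
  rw [this]
  refine (measurableSet_GoodA hG hA).inter (MeasurableSet.iInter fun v => ?_)
  induction e using Sym2.ind with
  | _ x y =>
    simp only [Sym2.map_mk]
    exact measurableSet_of_index (F := fun (p : ℕ × ℕ) a => s(p.1, p.2) ∈
      Ψ ((Gm a).comap (enm (Gm a) (Am a) v))
      (fun e' => labX (Gm a) (Am a) (Rm a) (Sym2.map (enm (Gm a) (Am a) v) e'))
      (fun e' => labV (Gm a) (Am a) (Rm a) (Sym2.map (enm (Gm a) (Am a) v) e')))
      (fun p => measurableSet_mem_pred (hmain v) _)
      ((measurable_rank hG hA v x).prodMk (measurable_rank hG hA v y))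

end Meas

end Vale.Agent.P143
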