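import Vale.Agent.P143.Adapt
import Vale.Agent.P143.Equiv
import Vale.Agent.P143.Labels
import Vale.Agent.P143.PhiMeas
import Vale.Agent.P143.MeasB
import Vale.Agent.P143.Iso

open MeasureTheory ProbabilityTheory Set Filter Topology
open scoped ENNReal

namespace Vale.Agent.P143

section Dirac

variable {E : Type*} [Countable E]

def diracSet (η : Kernel (E → unitInterval) (Set E)) (v : E → unitInterval) : Set E :=
  {g | η v {T | g ∈ T} = 1}

theorem measurable_diracSet (η : Kernel (E → unitInterval) (Set E)) :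
    Measurable (diracSet η) := by
  rw [measurable_set_iff]
  intro g
  apply measurableSet_setOfPred.1
  exact (η.measurable_coe (measurableSet_setOfPred.2 (measurable_set_mem g)))
    (measurableSet_singleton 1)

theorem ae_dirac {η : Kernel (E → unitInterval) (Set E)} [IsMarkovKernel η]
    (h0 : ∀ g, Qc η {x | ¬ (g ∈ x.2.1 ↔ g ∈ x.2.2)} = 0) :
    ∀ᵐ x ∂((iidU E) ⊗ₘ η), x.2 = diracSet η x.1 := by
  have h1 : ∀ᵐ x ∂(Qc η), x.2.1 = x.2.2 := by
    have : ∀ᵐ x ∂(Qc η), ∀ g, (g ∈ x.2.1 ↔ g ∈ x.2.2) := by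
      rw [ae_all_iff]
      intro g
      exact h0 g
    filter_upwards [this] with x hx
    exact Set.ext hx
  have h2 : ∀ᵐ v ∂(iidU E), ∀ᵐ y ∂((η ×ₖ η) v), y.1 = y.2 := by
    unfold Qc at h1
    exact Measure.ae_ae_of_ae_compProd h1
  apply Measure.ae_compProd_of_ae_ae
  · have : {x : (E → unitInterval) × Set E | x.2 = diracSet η x.1}
        = ⋂ g : E, {x | g ∈ x.2 ↔ g ∈ diracSet η x.1} := by
      ext x
      simp only [mem_ofPred_eq, mem_iInter, Set.ext_iff]
    rw [this]
    refine MeasurableSet.iInter fun g => measurableSet_setOfPred.2 (Measurable.iff ?_ ?_)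
    · exact (measurable_set_mem g).comp measurable_snd
    · exact (measurable_set_mem g).comp ((measurable_diracSet η).comp measurable_fst)
  · filter_upwards [h2] with v hv
    rw [Kernel.prod_apply] at hv
    have h3 := Measure.ae_ae_of_ae_prod hv
    obtain ⟨T₀, hT₀⟩ := h3.exists
    have h4 : diracSet η v = T₀ := by
      ext g
      unfold diracSet
      simp only [mem_ofPred_eq]
      constructor
      · intro h
        by_contra hg
        have : η v {T | g ∈ T} = 0 := by
          rw [measure_eq_zero_iff_ae_notMem]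
          filter_upwards [hT₀] with T hT
          intro hmem
          rw [hT] at hg
          exact hg hmem
        rw [this] at h
        exact zero_ne_one h
      · intro hg
        rw [← prob_compl_eq_zero_iff (measurableSet_setOfPred.2 (measurable_set_mem g)),
          measure_eq_zero_iff_ae_notMem]
        filter_upwards [hT₀] with T hT
        intro hmem
        rw [hT] at hg
        exact hmem hg
    filter_upwards [hT₀] with T hT
    rw [h4, hT]

end Dirac

section Psi

variable (μF : Kernel (SimpleGraph ℕ) (Set Ed)) [IsMarkovKernel μF]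

noncomputable def PsiK (G : SimpleGraph ℕ) (x v : Ed → unitInterval) : Set Ed :=
  {g | etaK μF ((G, x), v) {T | g ∈ T} = 1}

theorem PsiK_eq (G : SimpleGraph ℕ) (x v : Ed → unitInterval) :
    PsiK μF G x v = diracSet (etaAt μF G x) v := rfl

theorem measurable_PsiK :
    Measurable (fun z : (SimpleGraph ℕ × (Ed → unitInterval)) × (Ed → unitInterval) =>
      PsiK μF z.1.1 z.1.2 z.2) := by
  rw [measurable_set_iff]
  intro g
  apply measurableSet_setOfPred.1
  exact ((etaK μF).measurable_coe (measurableSet_setOfPred.2 (measurable_set_mem g)))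
    (measurableSet_singleton 1)

theorem measurable_PsiK' (G : SimpleGraph ℕ) :
    Measurable (fun z : (Ed → unitInterval) × (Ed → unitInterval) => PsiK μF G z.1 z.2) :=
  (measurable_PsiK μF).comp
    ((measurable_const.prodMk measurable_fst).prodMk measurable_snd)

theorem measurable_PsiK'' (G : SimpleGraph ℕ) (x : Ed → unitInterval) :
    Measurable (PsiK μF G x) :=
  (measurable_PsiK' μF G).comp (measurable_const.prodMk measurable_id)

theorem noMis_of_mG (G : SimpleGraph ℕ) (h : ∀ t g, mG μF t G g = 0) :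
    ∀ᵐ x ∂(iidU Ed), ∀ g, QK μF (G, x) (mis g) = 0 := by
  have h1 : ∀ g, ∀ n : ℕ, ∀ᵐ x ∂(iidU Ed), tauG G x g < n → QK μF (G, x) (mis g) = 0 := by
    intro g n
    have h2 := h n g
    unfold mG at h2
    rw [lintegral_eq_zero_iff] at h2
    · filter_upwards [h2] with x hx hlt
      simp only [Pi.zero_apply] at hx
      rwa [if_pos hlt] at hx
    · exact (measurable_mFull μF g).comp
        ((measurable_const.prodMk measurable_const).prodMk measurable_id)
  have h3 : ∀ᵐ x ∂(iidU Ed), ∀ g, ∀ n : ℕ, tauG G x g < n → QK μF (G, x) (mis g) = 0 := by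
    rw [ae_all_iff]; intro g
    rw [ae_all_iff]; intro n
    exact h1 g n
  filter_upwards [h3] with x hx g
  obtain ⟨n, hn⟩ := exists_nat_gt (tauG G x g)
  exact hx g n hn

theorem kap_ae (G : SimpleGraph ℕ) (x : Ed → unitInterval)
    (hA : Adapted (μF G) (tauG G x) (pG μF G x))
    (hm : ∀ g, QK μF (G, x) (mis g) = 0) :
    ∀ᵐ y ∂(kap (μF G) (pG μF G x)), y.2 = PsiK μF G x y.1 := by
  rw [← etaAt_spec μF G x hA]
  apply ae_dirac
  intro g
  rw [← QK_apply]
  exact hm g

theorem measurable_kapFun (G : SimpleGraph ℕ) (x : Ed → unitInterval) :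
    Measurable (fun y : Set Ed × (Ed → unitInterval) => (Vmap (pG μF G x) y.1 y.2, y.1)) := by
  have h1 : Measurable (fun y : Set Ed × (Ed → unitInterval) => (((G, x), y) :
    (SimpleGraph ℕ × (Ed → unitInterval)) × (Set Ed × (Ed → unitInterval)))) :=
    measurable_prodMk_left
  have h2 : Measurable (fun y : Set Ed × (Ed → unitInterval) => kapMap μF ((G, x), y)) :=
    (measurable_kapMap μF).comp h1
  exact h2

theorem kap_snd (G : SimpleGraph ℕ) (x : Ed → unitInterval) :
    (kap (μF G) (pG μF G x)).map Prod.snd = μF G := by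
  unfold kap
  rw [Measure.map_map measurable_snd (measurable_kapFun μF G x)]
  exact Measure.map_fst_prod.trans (by simp)

theorem PsiK_law (G : SimpleGraph ℕ) (x : Ed → unitInterval)
    (hA : Adapted (μF G) (tauG G x) (pG μF G x))
    (hm : ∀ g, QK μF (G, x) (mis g) = 0) :
    (iidU Ed).map (PsiK μF G x) = μF G := by
  rw [← kap_snd μF G x, Measure.map_congr (kap_ae μF G x hA hm), ← K0 hA]
  unfold Measure.fst
  rw [Measure.map_map (measurable_PsiK'' μF G x) measurable_fst]
  rfl

theorem map_relL (σ : Equiv.Perm ℕ) : (iidU Ed).map (relL σ) = iidU Ed := by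
  unfold iidU relL
  exact Measure.map_infinitePi_infinitePi_of_inj (Sym2.map.injective σ.symm.injective)

theorem ae_relL (σ : Equiv.Perm ℕ) {p : (Ed → unitInterval) → Prop}
    (h : ∀ᵐ x ∂(iidU Ed), p x) : ∀ᵐ x ∂(iidU Ed), p (relL σ x) := by
  rw [← map_relL σ] at h
  exact ae_of_ae_map (measurable_relL σ).aemeasurable h

theorem PsiK_rel (hF : FK μF) (σ : Equiv.Perm ℕ) (G : SimpleGraph ℕ) (hG : GoodG G)
    (h : ∀ t g, mG μF t G g = 0) :
    ∀ᵐ z ∂((iidU Ed).prod (iidU Ed)),
      PsiK μF (G.map σ.toEmbedding) (relL σ z.1) (relL σ z.2) = rel σ (PsiK μF G z.1 z.2) := by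
  have hG' : GoodG (G.map σ.toEmbedding) := (goodG_map σ G).2 hG
  have h' : ∀ t g, mG μF t (G.map σ.toEmbedding) g = 0 := by
    intro t g
    have h1 := mG_rel μF hF σ G hG t (Sym2.map σ.symm g)
    rw [Sym2.map_map, Equiv.self_comp_symm, Sym2.map_id, id] at h1
    rw [h1, h]
  have hm : Measurable (fun z : (Ed → unitInterval) × (Ed → unitInterval) =>
      PsiK μF (G.map σ.toEmbedding) (relL σ z.1) (relL σ z.2)) :=
    (measurable_PsiK' μF (G.map σ.toEmbedding)).comp
      (((measurable_relL σ).comp measurable_fst).prodMk ((measurable_relL σ).comp measurable_snd))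
  have hm2 : Measurable (fun z : (Ed → unitInterval) × (Ed → unitInterval) =>
      rel σ (PsiK μF G z.1 z.2)) := (measurable_rel σ).comp (measurable_PsiK' μF G)
  have hms : MeasurableSet {z : (Ed → unitInterval) × (Ed → unitInterval) |
      PsiK μF (G.map σ.toEmbedding) (relL σ z.1) (relL σ z.2) = rel σ (PsiK μF G z.1 z.2)} :=
    measurableSet_eq_fun hm hm2
  rw [Measure.ae_prod_iff_ae_ae hms]
  filter_upwards [tau_inj G hG, noMis_of_mG μF G h, ae_relL σ (tau_inj _ hG'),
    ae_relL σ (noMis_of_mG μF _ h')] with x hx1 hx2 hx3 hx4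
  have hA := adapted μF hF G hG x hx1
  have hA' := adapted μF hF _ hG' (relL σ x) hx3
  have e1 := kap_ae μF G x hA hx2
  have e2 := kap_ae μF _ (relL σ x) hA' hx4
  rw [kap_rel σ μF hF G hG x hx1] at e2
  have hmm : Measurable (fun y : (Ed → unitInterval) × Set Ed => (relL σ y.1, rel σ y.2)) :=
    ((measurable_relL σ).comp measurable_fst).prodMk ((measurable_rel σ).comp measurable_snd)
  have e3 := ae_of_ae_map hmm.aemeasurable e2
  have e4 : ∀ᵐ y ∂(kap (μF G) (pG μF G x)),
      PsiK μF (G.map σ.toEmbedding) (relL σ x) (relL σ y.1) = rel σ (PsiK μF G x y.1) := by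
    filter_upwards [e1, e3] with y h1 h3
    rw [← h1, ← h3]
  have hms2 : MeasurableSet {v : Ed → unitInterval |
      PsiK μF (G.map σ.toEmbedding) (relL σ x) (relL σ v) = rel σ (PsiK μF G x v)} :=
    measurable_prodMk_left hms
  have e5 : ∀ᵐ v ∂((kap (μF G) (pG μF G x)).fst),
      PsiK μF (G.map σ.toEmbedding) (relL σ x) (relL σ v) = rel σ (PsiK μF G x v) := by
    unfold Measure.fst
    rw [ae_map_iff measurable_fst.aemeasurable hms2]
    exact e4
  rw [K0 hA] at e5
  exact e5

end Psi

section Main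

variable (μF : Kernel (SimpleGraph ℕ) (Set Ed)) [IsMarkovKernel μF]

theorem PsiK_law2 (hF : FK μF) (G : SimpleGraph ℕ) (hG : GoodG G)
    (h : ∀ t g, mG μF t G g = 0) :
    ((iidU Ed).prod (iidU Ed)).map (fun z => PsiK μF G z.1 z.2) = μF G := by
  ext B hB
  rw [Measure.map_apply (measurable_PsiK' μF G) hB,
    Measure.prod_apply (measurable_PsiK' μF G hB)]
  have : ∀ᵐ x ∂(iidU Ed), (iidU Ed) (Prod.mk x ⁻¹'
      ((fun z : (Ed → unitInterval) × (Ed → unitInterval) => PsiK μF G z.1 z.2) ⁻¹' B))
      = μF G B := by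
    filter_upwards [tau_inj G hG, noMis_of_mG μF G h] with x hx1 hx2
    rw [← PsiK_law μF G x (adapted μF hF G hG x hx1) hx2,
      Measure.map_apply (measurable_PsiK'' μF G x) hB]
    rfl
  rw [lintegral_congr_ae this]
  simp

theorem comap_enm_eq {G : SimpleGraph ℕ} {A : ℕ → unitInterval} (h : GoodA G A) (v : ℕ) :
    G.comap (enm G A v) = G.map (rankEquiv h v).toEmbedding := by
  ext a b
  rw [map_adj_perm']
  rfl

theorem PhiOf_ae (hF : FK μF) (G : SimpleGraph ℕ) (hG : GoodG G)
    (h : ∀ t g, mG μF t G g = 0) (A : ℕ → unitInterval) (hA : GoodA G A) :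
    ∀ᵐ R ∂(iidU (ℕ × ℕ)), PhiOf (PsiK μF) G A R = PsiK μF G (labX G A R) (labV G A R) := by
  have hlaw : (iidU (ℕ × ℕ)).map (fun R => (labX G A R, labV G A R))
      = (iidU Ed).prod (iidU Ed) := iidU_sum_of_inj (jIdx_injective hA)
  have hm : Measurable (fun R : ℕ × ℕ → unitInterval => (labX G A R, labV G A R)) := by
    apply Measurable.prodMk
    · rw [measurable_pi_iff]; intro e; exact measurable_pi_apply _
    · rw [measurable_pi_iff]; intro e; exact measurable_pi_apply _
  have h1 : ∀ᵐ R ∂(iidU (ℕ × ℕ)), ∀ v : ℕ,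
      PsiK μF (G.map (rankEquiv hA v).toEmbedding) (relL (rankEquiv hA v) (labX G A R))
        (relL (rankEquiv hA v) (labV G A R))
        = rel (rankEquiv hA v) (PsiK μF G (labX G A R) (labV G A R)) := by
    rw [ae_all_iff]
    intro v
    have h2 := PsiK_rel μF hF (rankEquiv hA v) G hG h
    rw [← hlaw] at h2
    exact ae_of_ae_map hm.aemeasurable h2
  filter_upwards [h1] with R hR
  ext e
  unfold PhiOf
  simp only [mem_ofPred_eq]
  have key : ∀ v, (Sym2.map (rank G A v) e ∈ PsiK μF (G.comap (enm G A v))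
      (fun e' => labX G A R (Sym2.map (enm G A v) e'))
      (fun e' => labV G A R (Sym2.map (enm G A v) e')))
      ↔ e ∈ PsiK μF G (labX G A R) (labV G A R) := by
    intro v
    have h3 := hR v
    rw [← comap_enm_eq hA v] at h3
    have h4 : PsiK μF (G.comap (enm G A v))
      (fun e' => labX G A R (Sym2.map (enm G A v) e'))
      (fun e' => labV G A R (Sym2.map (enm G A v) e'))
      = rel (rankEquiv hA v) (PsiK μF G (labX G A R) (labV G A R)) := h3
    rw [h4]
    exact mem_image_sym2map (rankEquiv hA v).injective _ e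
  constructor
  · rintro ⟨_, h2⟩
    exact (key 0).1 (h2 0)
  · intro h2
    exact ⟨hA, fun v => (key v).2 h2⟩

theorem exists_Phi (hF : FK μF) :
    ∃ Φ : SimpleGraph ℕ → (ℕ → unitInterval) → Set Ed,
      Measurable (Function.uncurry Φ) ∧
      (∀ (σ : Equiv.Perm ℕ) (G : SimpleGraph ℕ) (U : ℕ → unitInterval),
        Φ (G.map σ.toEmbedding) (fun v => U (σ.symm v)) = Sym2.map σ '' Φ G U) ∧
      ∀ G, GoodG G → (∀ t g, mG μF t G g = 0) → (iidLabels ℕ).map (Φ G) = μF G := by
  have hmA : Measurable (fun z : SimpleGraph ℕ × (ℕ → unitInterval) => labA z.2) :=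
    measurable_labA.comp measurable_snd
  have hmR : Measurable (fun z : SimpleGraph ℕ × (ℕ → unitInterval) => labR z.2) :=
    measurable_labR.comp measurable_snd
  refine ⟨fun G U => PhiOf (PsiK μF) G (labA U) (labR U), ?_, ?_, ?_⟩
  · exact measurable_PhiOf measurable_fst hmA hmR (measurable_PsiK μF)
  · intro σ G U
    exact PhiOf_map (PsiK μF) σ G (labA U) (labR U)
  · intro G hG h
    have hmG : Measurable (fun z : (ℕ → unitInterval) × (ℕ × ℕ → unitInterval) =>
        PhiOf (PsiK μF) G z.1 z.2) :=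
      measurable_PhiOf measurable_const measurable_fst measurable_snd (measurable_PsiK μF)
    have hlab : Measurable (fun U : ℕ → unitInterval => (labA U, labR U)) :=
      measurable_labA.prodMk measurable_labR
    have e1 : (iidLabels ℕ).map (fun U => PhiOf (PsiK μF) G (labA U) (labR U))
        = ((iidU ℕ).prod (iidU (ℕ × ℕ))).map (fun z => PhiOf (PsiK μF) G z.1 z.2) := by
      rw [← map_labAR, Measure.map_map hmG hlab]
      rfl
    rw [e1]
    ext B hB
    rw [Measure.map_apply hmG hB, Measure.prod_apply (hmG hB)]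
    have e2 : ∀ᵐ A ∂(iidU ℕ), (iidU (ℕ × ℕ)) (Prod.mk A ⁻¹'
        ((fun z : (ℕ → unitInterval) × (ℕ × ℕ → unitInterval) =>
          PhiOf (PsiK μF) G z.1 z.2) ⁻¹' B)) = μF G B := by
      filter_upwards [iidU_inj ℕ] with A hinj
      have hA : GoodA G A := goodA_of_goodG hG hinj
      have hlaw : (iidU (ℕ × ℕ)).map (fun R => (labX G A R, labV G A R))
          = (iidU Ed).prod (iidU Ed) := iidU_sum_of_inj (jIdx_injective hA)
      have hm : Measurable (fun R : ℕ × ℕ → unitInterval => (labX G A R, labV G A R)) := by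
        apply Measurable.prodMk
        · rw [measurable_pi_iff]; intro e; exact measurable_pi_apply _
        · rw [measurable_pi_iff]; intro e; exact measurable_pi_apply _
      have e3 : (iidU (ℕ × ℕ)).map (fun R => PhiOf (PsiK μF) G A R) = μF G := by
        rw [Measure.map_congr (PhiOf_ae μF hF G hG h A hA), ← PsiK_law2 μF hF G hG h, ← hlaw,
          Measure.map_map (measurable_PsiK' μF G) hm]
        rfl
      have hmB : Measurable (fun R : ℕ × ℕ → unitInterval => PhiOf (PsiK μF) G A R) :=
        hmG.comp measurable_prodMk_left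
      rw [← e3, Measure.map_apply hmB hB]
      rfl
    rw [lintegral_congr_ae e2]
    simp

end Main

end Vale.Agent.P143
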