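import Vale.Agent.P143.Enum

open MeasureTheory ProbabilityTheory Set Filter Topology
open scoped ENNReal

namespace Vale.Agent.P143

noncomputable def idx (G : SimpleGraph ℕ) (A : ℕ → unitInterval) : Ed → ℕ × ℕ :=
  Sym2.lift ⟨fun a b => if A a < A b then (a, rank G A a b) else
    if A b < A a then (b, rank G A b a) else (min a b, rank G A (min a b) (min a b)), by
    intro a b
    rcases lt_trichotomy (A a) (A b) with h | h | h
    · simp [h, not_lt.2 h.le]
    · simp [h, min_comm]
    · simp [h, not_lt.2 h.le]⟩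

noncomputable def labX (G : SimpleGraph ℕ) (A : ℕ → unitInterval) (R : ℕ × ℕ → unitInterval) :
    Ed → unitInterval := fun e => R ((idx G A e).1, 2 * (idx G A e).2)

noncomputable def labV (G : SimpleGraph ℕ) (A : ℕ → unitInterval) (R : ℕ × ℕ → unitInterval) :
    Ed → unitInterval := fun e => R ((idx G A e).1, 2 * (idx G A e).2 + 1)

noncomputable def PhiOf (Ψ : SimpleGraph ℕ → (Ed → unitInterval) → (Ed → unitInterval) → Set Ed)
    (G : SimpleGraph ℕ) (A : ℕ → unitInterval) (R : ℕ × ℕ → unitInterval) : Set Ed :=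
  {e | GoodA G A ∧ ∀ v, Sym2.map (rank G A v) e ∈ Ψ (G.comap (enm G A v))
    (fun e' => labX G A R (Sym2.map (enm G A v) e'))
    (fun e' => labV G A R (Sym2.map (enm G A v) e'))}

theorem idx_mk (G : SimpleGraph ℕ) (A : ℕ → unitInterval) (a b : ℕ) :
    idx G A s(a, b) = if A a < A b then (a, rank G A a b) else
    if A b < A a then (b, rank G A b a) else (min a b, rank G A (min a b) (min a b)) := rfl

theorem idx_spec {G : SimpleGraph ℕ} {A : ℕ → unitInterval} (h : GoodA G A) (e : Ed) :
    s((idx G A e).1, enm G A (idx G A e).1 (idx G A e).2) = e := by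
  induction e using Sym2.ind with
  | _ a b =>
    rw [idx_mk]
    rcases lt_trichotomy (A a) (A b) with h' | h' | h'
    · rw [if_pos h']
      simp only [enm_rank h]
    · have : a = b := h.1 h'
      subst this
      simp only [lt_self_iff_false, if_false, min_self, enm_rank h]
    · rw [if_neg (not_lt.2 h'.le), if_pos h']
      simp only [enm_rank h]
      exact Sym2.eq_swap

theorem idx_map (σ : Equiv.Perm ℕ) {G : SimpleGraph ℕ} {A : ℕ → unitInterval} (h : GoodA G A)
    (e : Ed) : idx (G.map σ.toEmbedding) (fun v => A (σ.symm v)) (Sym2.map σ e)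
      = (σ (idx G A e).1, (idx G A e).2) := by
  induction e using Sym2.ind with
  | _ a b =>
    rw [Sym2.map_mk, idx_mk, idx_mk]
    simp only [Equiv.symm_apply_apply]
    rcases lt_trichotomy (A a) (A b) with h' | h' | h'
    · rw [if_pos h', if_pos h', rank_map]
    · have : a = b := h.1 h'
      subst this
      simp only [lt_self_iff_false, if_false, min_self, rank_map]
    · rw [if_neg (not_lt.2 h'.le), if_pos h', if_neg (not_lt.2 h'.le), if_pos h', rank_map]

noncomputable def jIdx (G : SimpleGraph ℕ) (A : ℕ → unitInterval) : Ed ⊕ Ed → ℕ × ℕ :=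
  Sum.elim (fun e => ((idx G A e).1, 2 * (idx G A e).2))
    (fun e => ((idx G A e).1, 2 * (idx G A e).2 + 1))

theorem idx_injective {G : SimpleGraph ℕ} {A : ℕ → unitInterval} (h : GoodA G A) :
    Function.Injective (idx G A) := by
  intro e e' hee
  rw [← idx_spec h e, ← idx_spec h e', hee]

theorem jIdx_injective {G : SimpleGraph ℕ} {A : ℕ → unitInterval} (h : GoodA G A) :
    Function.Injective (jIdx G A) := by
  rintro (a | a) (b | b) hab
  · simp only [jIdx, Sum.elim_inl, Prod.mk.injEq] at hab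
    have : idx G A a = idx G A b := Prod.ext hab.1 (by omega)
    rw [idx_injective h this]
  · simp only [jIdx, Sum.elim_inl, Sum.elim_inr, Prod.mk.injEq] at hab
    omega
  · simp only [jIdx, Sum.elim_inl, Sum.elim_inr, Prod.mk.injEq] at hab
    omega
  · simp only [jIdx, Sum.elim_inr, Prod.mk.injEq] at hab
    have : idx G A a = idx G A b := Prod.ext hab.1 (by omega)
    rw [idx_injective h this]

theorem labX_map (σ : Equiv.Perm ℕ) {G : SimpleGraph ℕ} {A : ℕ → unitInterval} (h : GoodA G A)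
    (R : ℕ × ℕ → unitInterval) (e : Ed) :
    labX (G.map σ.toEmbedding) (fun v => A (σ.symm v)) (fun p => R (σ.symm p.1, p.2))
      (Sym2.map σ e) = labX G A R e := by
  unfold labX
  rw [idx_map σ h]
  simp

theorem labV_map (σ : Equiv.Perm ℕ) {G : SimpleGraph ℕ} {A : ℕ → unitInterval} (h : GoodA G A)
    (R : ℕ × ℕ → unitInterval) (e : Ed) :
    labV (G.map σ.toEmbedding) (fun v => A (σ.symm v)) (fun p => R (σ.symm p.1, p.2))
      (Sym2.map σ e) = labV G A R e := by
  unfold labV
  rw [idx_map σ h]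
  simp

theorem comap_enm_map (σ : Equiv.Perm ℕ) {G : SimpleGraph ℕ} {A : ℕ → unitInterval}
    (h : GoodA G A) (v : ℕ) :
    (G.map σ.toEmbedding).comap (enm (G.map σ.toEmbedding) (fun v => A (σ.symm v)) (σ v))
      = G.comap (enm G A v) := by
  ext a b
  simp only [SimpleGraph.comap_adj, enm_map σ G A h]
  exact map_adj_perm σ G _ _

theorem sym2_map_rank_map (σ : Equiv.Perm ℕ) (G : SimpleGraph ℕ) (A : ℕ → unitInterval)
    (v : ℕ) (e : Ed) :
    Sym2.map (rank (G.map σ.toEmbedding) (fun v => A (σ.symm v)) (σ v)) (Sym2.map σ e)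
      = Sym2.map (rank G A v) e := by
  rw [Sym2.map_map]
  congr 1
  ext w
  exact rank_map σ G A v w

theorem sym2_map_enm_map (σ : Equiv.Perm ℕ) {G : SimpleGraph ℕ} {A : ℕ → unitInterval}
    (h : GoodA G A) (v : ℕ) (e : Ed) :
    Sym2.map (enm (G.map σ.toEmbedding) (fun v => A (σ.symm v)) (σ v)) e
      = Sym2.map σ (Sym2.map (enm G A v) e) := by
  rw [Sym2.map_map]
  congr 1
  ext w
  exact enm_map σ G A h v w

theorem mem_PhiOf_map (Ψ : SimpleGraph ℕ → (Ed → unitInterval) → (Ed → unitInterval) → Set Ed)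
    (σ : Equiv.Perm ℕ) (G : SimpleGraph ℕ) (A : ℕ → unitInterval) (R : ℕ × ℕ → unitInterval)
    (e : Ed) :
    Sym2.map σ e ∈ PhiOf Ψ (G.map σ.toEmbedding) (fun v => A (σ.symm v))
      (fun p => R (σ.symm p.1, p.2)) ↔ e ∈ PhiOf Ψ G A R := by
  unfold PhiOf
  simp only [mem_ofPred_eq]
  rw [goodA_map]
  apply and_congr_right
  intro h
  rw [← Equiv.forall_congr_right σ]
  apply forall_congr'
  intro v
  rw [sym2_map_rank_map, comap_enm_map σ h]
  simp only [sym2_map_enm_map σ h, labX_map σ h, labV_map σ h]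

theorem PhiOf_map (Ψ : SimpleGraph ℕ → (Ed → unitInterval) → (Ed → unitInterval) → Set Ed)
    (σ : Equiv.Perm ℕ) (G : SimpleGraph ℕ) (A : ℕ → unitInterval) (R : ℕ × ℕ → unitInterval) :
    PhiOf Ψ (G.map σ.toEmbedding) (fun v => A (σ.symm v)) (fun p => R (σ.symm p.1, p.2))
      = Sym2.map σ '' PhiOf Ψ G A R := by
  ext e
  constructor
  · intro he
    refine ⟨Sym2.map σ.symm e, ?_, ?_⟩
    · rw [← mem_PhiOf_map Ψ σ, Sym2.map_map]
      simpa using he
    · rw [Sym2.map_map]; simp
  · rintro ⟨e, he, rfl⟩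
    exact (mem_PhiOf_map Ψ σ G A R e).2 he

end Vale.Agent.P143
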