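import Vale.Agent.P143.TimeChange

open MeasureTheory ProbabilityTheory Set Filter Topology
open scoped ENNReal

namespace Vale.Agent.P143

section

theorem lintegral_expMeasure_le {w : ℝ} (hw : 0 < w) (hw1 : w ≤ 1) (a t : ℝ) (ha : 0 ≤ a)
    (H : ℝ → ℝ≥0∞) (hH : Measurable H) (hsupp : ∀ s, 0 ≤ s → s ∉ Icc a t → H s = 0) :
    ∫⁻ s, H s ∂(expMeasure w)
      ≤ ∫⁻ s in Icc a t, H s * ENNReal.ofReal (Real.exp (-(w * s))) := by
  have h1 : expMeasure w = volume.withDensity (exponentialPDF w) := rfl
  have hm : Measurable (exponentialPDF w) := by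
    unfold exponentialPDF
    exact (measurable_exponentialPDFReal w).ennreal_ofReal
  rw [h1, lintegral_withDensity_eq_lintegral_mul _ hm hH, ← lintegral_indicator measurableSet_Icc]
  apply lintegral_mono
  intro s
  show exponentialPDF w s * H s ≤ _
  rcases lt_or_ge s 0 with hs | hs
  · rw [exponentialPDF_of_neg hs, zero_mul]; exact bot_le
  · by_cases hst : s ∈ Icc a t
    · rw [Set.indicator_of_mem hst, exponentialPDF_of_nonneg hs, mul_comm]
      gcongr
      have := Real.exp_pos (-(w * s))
      nlinarith
    · rw [hsupp s hs hst, mul_zero]; exact bot_le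

variable (μF : Kernel (SimpleGraph ℕ) (Set Ed)) [IsMarkovKernel μF]

/-- the resampled quantity -/
noncomputable def HH (G : SimpleGraph ℕ) (f : Ed) (s : ℝ) (x : Ed → unitInterval) : ℝ≥0∞ :=
  psi μF G (Function.update x f (eU (wG G f) s))
      (Jt G (Function.update x f (eU (wG G f) s)) s) f

theorem measurable_upd2 (f : Ed) (w : ℝ) :
    Measurable (fun z : ℝ × (Ed → unitInterval) => Function.update z.2 f (eU w z.1)) := by
  have := measurable_update' f
  exact this.comp (measurable_snd.prodMk ((measurable_eU w).comp measurable_fst))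

theorem measurable_HH (G : SimpleGraph ℕ) (f : Ed) :
    Measurable (fun z : ℝ × (Ed → unitInterval) => HH μF G f z.1 z.2) := by
  unfold HH
  apply measurable_psi_comp μF (Gm := fun _ => G) measurable_const
    (measurable_upd2 f (wG G f))
  exact measurable_Jt (Gm := fun _ : ℝ × (Ed → unitInterval) => G) measurable_const
    (measurable_upd2 f (wG G f)) measurable_fst

theorem HH_update (G : SimpleGraph ℕ) (f : Ed) (s : ℝ) (x : Ed → unitInterval)
    (r : unitInterval) : HH μF G f s (Function.update x f r) = HH μF G f s x := by
  unfold HH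
  rw [Function.update_idem]

open Classical in
theorem HH_weight {G : SimpleGraph ℕ} (hG : GoodG G) (f : Ed) {s : ℝ} (hs : 0 ≤ s) :
    ∫⁻ x, HH μF G f s x * ENNReal.ofReal (Real.exp (-(wG G f * s))) ∂(iidU Ed)
      = ∫⁻ x, (if s ≤ tauG G x f then HH μF G f s x else 0) ∂(iidU Ed) := by
  have hmH : Measurable (fun x => HH μF G f s x) :=
    (measurable_HH μF G f).comp (measurable_const.prodMk measurable_id)
  have hms : MeasurableSet {x | s ≤ tauG G x f} :=
    measurableSet_le measurable_const (measurable_tau_right G f)
  rw [lintegral_iidU_update f (fun x => if s ≤ tauG G x f then HH μF G f s x else 0)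
    (Measurable.ite hms hmH measurable_const)]
  apply lintegral_congr
  intro x
  rw [← vol_tau hG x f hs]
  have hms2 : MeasurableSet {r : unitInterval | s ≤ tauG G (Function.update x f r) f} :=
    ((measurable_update' f).comp (measurable_const.prodMk measurable_id)) hms
  have h1 : ∀ r : unitInterval, (if s ≤ tauG G (Function.update x f r) f
      then HH μF G f s (Function.update x f r) else 0)
      = {r : unitInterval | s ≤ tauG G (Function.update x f r) f}.indicator
        (fun _ => HH μF G f s x) r := by
    intro r
    rw [HH_update]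
    by_cases h : s ≤ tauG G (Function.update x f r) f
    · rw [if_pos h, Set.indicator_of_mem (by exact h)]
    · rw [if_neg h, Set.indicator_of_notMem (by exact h)]
  simp_rw [h1]
  rw [lintegral_indicator_const hms2]

open Classical in
theorem mG_le_aux (hF : FK μF) {G : SimpleGraph ℕ} (hG : GoodG G) (f : Ed) {a t : ℝ}
    (ha : 0 ≤ a) :
    mG μF t G f ≤ mG μF a G f
      + ∫⁻ s in Icc a t, ∫⁻ x, (if s ≤ tauG G x f then HH μF G f s x else 0) ∂(iidU Ed) := by
  have hw := wG_pos hG f
  have hw1 := wG_le_one hG f
  set K : (Ed → unitInterval) → ℝ≥0∞ := fun x =>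
    if a ≤ tauG G x f ∧ tauG G x f < t then psi μF G x (Jt G x (tauG G x f)) f else 0 with hK
  have hKm : Measurable K := by
    apply Measurable.ite _ _ measurable_const
    · exact (measurableSet_le measurable_const (measurable_tau_right G f)).inter
        (measurableSet_lt (measurable_tau_right G f) measurable_const)
    · exact measurable_psi_comp μF (Gm := fun _ => G) measurable_const measurable_id
        (measurable_Jt (Gm := fun _ : Ed → unitInterval => G) measurable_const measurable_id
          (measurable_tau_right G f)) f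
  have hA : mG μF t G f ≤ mG μF a G f + ∫⁻ x, K x ∂(iidU Ed) := by
    unfold mG
    rw [← lintegral_add_right _ hKm]
    apply lintegral_mono_ae
    filter_upwards [tau_inj G hG] with x hx
    by_cases h1 : tauG G x f < t
    · rw [if_pos h1]
      by_cases h2 : tauG G x f < a
      · rw [if_pos h2]
        exact le_self_add
      · rw [if_neg h2, zero_add, hK]
        simp only
        rw [if_pos ⟨not_lt.1 h2, h1⟩, QK_mis μF hF G hG x hx f]
        exact le_rfl
    · rw [if_neg h1]; exact bot_le
  refine le_trans hA ?_
  gcongr
  rw [lintegral_iidU_update f K hKm]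
  have hB : ∀ x : Ed → unitInterval, ∫⁻ r : unitInterval, K (Function.update x f r) ∂volume
      ≤ ∫⁻ s in Icc a t, HH μF G f s x * ENNReal.ofReal (Real.exp (-(wG G f * s))) := by
    intro x
    have hKx : Measurable (fun r : unitInterval => K (Function.update x f r)) :=
      hKm.comp ((measurable_update' f).comp (measurable_const.prodMk measurable_id))
    rw [lintegral_exp (wG G f) hw (fun r => K (Function.update x f r)) hKx]
    refine le_trans (lintegral_expMeasure_le hw hw1 a t ha _
      (hKx.comp (measurable_eU _)) ?_) ?_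
    · intro s hs hst
      show K (Function.update x f (eU (wG G f) s)) = 0
      rw [hK]
      simp only
      rw [tauG_update_self hG x f hs, if_neg]
      rintro ⟨h1, h2⟩
      exact hst ⟨h1, h2.le⟩
    · apply setLIntegral_mono' measurableSet_Icc
      intro s hs
      gcongr
      show K (Function.update x f (eU (wG G f) s)) ≤ _
      rw [hK]
      simp only
      rw [tauG_update_self hG x f (ha.trans hs.1)]
      split_ifs
      · exact le_rfl
      · exact bot_le
  refine le_trans (lintegral_mono hB) ?_
  rw [lintegral_lintegral_swap]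
  · apply setLIntegral_mono' measurableSet_Icc
    intro s hs
    rw [HH_weight μF hG f (ha.trans hs.1)]
  · apply Measurable.aemeasurable
    apply Measurable.mul
    · exact (measurable_HH μF G f).comp measurable_swap
    · fun_prop

theorem ae_tau_ne (G : SimpleGraph ℕ) (x : Ed → unitInterval) :
    ∀ᵐ s : ℝ ∂volume, ∀ g, tauG G x g ≠ s := by
  rw [ae_all_iff]
  intro g
  have : ∀ᵐ s : ℝ ∂volume, s ≠ tauG G x g := by
    rw [ae_iff]; simp
  filter_upwards [this] with s hs using hs.symm

open Classical in
theorem mG_le_aux2 (hF : FK μF) {G : SimpleGraph ℕ} (hG : GoodG G) (f : Ed) {a t : ℝ}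
    (ha : 0 ≤ a) :
    mG μF t G f ≤ mG μF a G f
      + ∫⁻ s in Icc a t, ∫⁻ x, (if s ≤ tauG G x f then psi μF G x (Jt G x s) f else 0)
        ∂(iidU Ed) := by
  refine le_trans (mG_le_aux μF hF hG f ha) ?_
  gcongr 1
  have hm1 : Measurable (fun z : ℝ × (Ed → unitInterval) =>
      if z.1 ≤ tauG G z.2 f then HH μF G f z.1 z.2 else 0) := by
    apply Measurable.ite _ (measurable_HH μF G f) measurable_const
    exact measurableSet_le measurable_fst ((measurable_tau_right G f).comp measurable_snd)
  have hm2 : Measurable (fun z : ℝ × (Ed → unitInterval) =>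
      if z.1 ≤ tauG G z.2 f then psi μF G z.2 (Jt G z.2 z.1) f else 0) := by
    apply Measurable.ite _ _ measurable_const
    · exact measurableSet_le measurable_fst ((measurable_tau_right G f).comp measurable_snd)
    · exact measurable_psi_comp μF (Gm := fun _ => G) measurable_const measurable_snd
        (measurable_Jt (Gm := fun _ : ℝ × (Ed → unitInterval) => G) measurable_const
          measurable_snd measurable_fst) f
  rw [lintegral_lintegral_swap (f := fun (s : ℝ) (x : Ed → unitInterval) =>
      if s ≤ tauG G x f then HH μF G f s x else 0) hm1.aemeasurable,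
    lintegral_lintegral_swap (f := fun (s : ℝ) (x : Ed → unitInterval) =>
      if s ≤ tauG G x f then psi μF G x (Jt G x s) f else 0) hm2.aemeasurable]
  apply lintegral_mono_ae
  filter_upwards [tau_inj G hG] with x hx
  apply lintegral_mono_ae
  filter_upwards [ae_restrict_of_ae (ae_tau_ne G x), ae_restrict_mem measurableSet_Icc] with s hs hs2
  by_cases h : s ≤ tauG G x f
  · rw [if_pos h, if_pos h]
    unfold HH
    rw [psi_update μF hF hG x hx f (ha.trans hs2.1) hs h]
  · rw [if_neg h, if_neg h]

theorem mG_le (hF : FK μF) {G : SimpleGraph ℕ} (hG : GoodG G) (f : Ed) {a t : ℝ}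
    (ha : 0 ≤ a)
    (hfin : ∀ᵐ s ∂((volume : Measure ℝ).restrict (Icc a t)), ∑' g, aG μF s G g f ≠ ∞) :
    mG μF t G f ≤ mG μF a G f + ∫⁻ s in Icc a t, ∑' g, bG μF s G g f := by
  classical
  refine le_trans (mG_le_aux2 μF hF hG f ha) ?_
  gcongr 1
  apply lintegral_mono_ae
  filter_upwards [hfin] with s hs
  have hfin2 : ∀ᵐ x ∂(iidU Ed),
      ∑' g, (if tauG G x g < s ∧ s ≤ tauG G x f then aI μF s G x g f else 0) ≠ ∞ := by
    have hmeas : ∀ g, Measurable (fun x => (if tauG G x g < s ∧ s ≤ tauG G x f then
        aI μF s G x g f else 0)) := fun g => (measurable_aFull μF g f).comp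
      (by fun_prop : Measurable (fun x : Ed → unitInterval => ((s, G), x)))
    have h1 : ∫⁻ x, ∑' g, (if tauG G x g < s ∧ s ≤ tauG G x f then aI μF s G x g f else 0)
        ∂(iidU Ed) ≠ ∞ := by
      rw [lintegral_tsum (fun g => (hmeas g).aemeasurable)]
      exact hs
    have h2 := ae_lt_top (Measurable.ennreal_tsum hmeas) h1
    filter_upwards [h2] with x hx using hx.ne
  unfold bG
  rw [← lintegral_tsum]
  · apply lintegral_mono_ae
    filter_upwards [tau_inj G hG, hfin2] with x hx hx2
    by_cases h : s ≤ tauG G x f
    · rw [if_pos h]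
      simp only [h, and_true] at hx2 ⊢
      have e1 : ∑' g, (if tauG G x g < s then aI μF s G x g f else 0)
          = ∑' g : Jt G x s, aI μF s G x g f := by
        rw [tsum_subtype (Jt G x s) (fun g => aI μF s G x g f)]
        congr 1
      have e2 : ∑' g, (if tauG G x g < s then bI μF s G x g f else 0)
          = ∑' g : Jt G x s, bI μF s G x g f := by
        rw [tsum_subtype (Jt G x s) (fun g => bI μF s G x g f)]
        congr 1
      rw [e1] at hx2
      refine le_trans (psi_le μF hF hG x hx f h hx2) ?_
      rw [← e2]
      exact le_rfl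
    · rw [if_neg h]; exact bot_le
  · intro g
    apply Measurable.aemeasurable
    exact (measurable_bFull μF g f).comp
      (by fun_prop : Measurable (fun x : Ed → unitInterval => ((s, G), x)))

end

end Vale.Agent.P143
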