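import Vale.Agent.P143.StaticB

open MeasureTheory ProbabilityTheory Set Filter Topology
open scoped ENNReal

namespace Vale.Agent.P143

section NetMart

variable {E : Type*} [DecidableEq E]

structure NM (μ : Measure (Set E)) (J : Set E) (S0 : Finset E)
    (X : Finset E → Set E → ℝ) : Prop where
  dep : ∀ S, DependsOn' (X S) (S : Set E)
  bdd : ∀ S : Finset E, (S : Set E) ⊆ J → ∀ T, |X S T| ≤ 1
  mart : ∀ S S' : Finset E, S0 ⊆ S → S ⊆ S' → (S' : Set E) ⊆ J → ∀ A,
    ∫ T in cyl S A, X S' T ∂μ = X S A * μ.real (cyl S A)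

theorem exists_JW_sup {W : ℕ → Finset E} (hW : IsWin W) {J : Set E} {S : Finset E}
    (hS : (S : Set E) ⊆ J) : ∃ n, S ⊆ JW W J n := by
  classical
  induction S using Finset.induction_on with
  | empty => exact ⟨0, by simp⟩
  | insert a S ha ih =>
    obtain ⟨n, hn⟩ := ih (fun e he => hS (by
      have : e ∈ S := by simpa using he
      simp [this]))
    obtain ⟨m, hm⟩ := JW_exh hW (hS (show a ∈ ((insert a S : Finset E) : Set E) by simp))
    refine ⟨max n m, ?_⟩
    intro e he
    rcases Finset.mem_insert.1 he with rfl | he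
    · exact JW_mono hW J (le_max_right n m) hm
    · exact JW_mono hW J (le_max_left n m) (hn he)

theorem IsWin.shift {W : ℕ → Finset E} (hW : IsWin W) (k : ℕ) : IsWin (fun n => W (n + k)) where
  mono := fun _ _ h => hW.mono (by omega)
  exh := fun e => by
    obtain ⟨n, hn⟩ := hW.exh e
    exact ⟨n, hW.mono (Nat.le_add_right n k) hn⟩

variable {μ : Measure (Set E)} [IsProbabilityMeasure μ] {J : Set E} {S0 : Finset E}
  {X : Finset E → Set E → ℝ}

theorem NM.integrable (hX : NM μ J S0 X) {S : Finset E} (hS : (S : Set E) ⊆ J) :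
    Integrable (X S) μ :=
  Integrable.of_bound (measurable_of_dep _ _ (hX.dep S)).aestronglyMeasurable 1
    (ae_of_all _ fun T => by simpa using hX.bdd S hS T)

theorem NM.exists_lim_win (hX : NM μ J S0 X) (hS0 : (S0 : Set E) ⊆ J) {W : ℕ → Finset E}
    (hW : IsWin W) :
    ∃ L : Set E → ℝ, Measurable[FI J] L ∧ (∀ T, |L T| ≤ 1) ∧
      (∀ᵐ T ∂μ, Tendsto (fun n => X (JW W J n) T) atTop (𝓝 (L T))) ∧
      ∀ S : Finset E, S0 ⊆ S → (S : Set E) ⊆ J → ∀ A,
        ∫ T in cyl S A, L T ∂μ = X S A * μ.real (cyl S A) := by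
  obtain ⟨k, hk⟩ := exists_JW_sup hW hS0
  obtain ⟨L, h1, h2, h3, h4⟩ := exists_lim (hW.shift k) J μ (fun n => X (JW W J (n + k)))
    (fun n => hX.dep _) (fun n T => hX.bdd _ (JW_sub J _) T)
    (fun n m hnm A => hX.mart _ _ (hk.trans (JW_mono hW J (Nat.le_add_left k n)))
      (JW_mono hW J (by omega)) (JW_sub J _) A)
  have hLint : Integrable L μ :=
    Integrable.of_bound (h1.mono (FI_le J) le_rfl).aestronglyMeasurable 1
      (ae_of_all _ fun T => by simpa using h2 T)
  refine ⟨L, h1, h2, ?_, ?_⟩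
  · filter_upwards [h3] with T hT
    exact (tendsto_add_atTop_iff_nat k).1 hT
  · intro S hS hSJ A
    obtain ⟨n, hn⟩ := exists_JW_sup hW hSJ
    have hn' : S ⊆ JW W J (n + k) := hn.trans (JW_mono hW J (Nat.le_add_right n k))
    have h5 : ∫ T in cyl S A, L T ∂μ = ∫ T in cyl S A, X (JW W J (n + k)) T ∂μ := by
      refine setIntegral_eq_of_cyl (JW W J (n + k)) hLint (hX.integrable (JW_sub J _)) ?_ ?_
      · intro B
        rw [setIntegral_cyl_of_dep _ _ _ _ (hX.dep _)]
        exact h4 n B
      · exact FI_mono (by exact_mod_cast hn') _ (measurableSet_FI_cyl A)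
    rw [h5, hX.mart S _ hS hn' (JW_sub J _)]

theorem ae_eq_of_cyl {W : ℕ → Finset E} (hW : IsWin W) {L L' : Set E → ℝ}
    (hL : Measurable[FI J] L) (hL' : Measurable[FI J] L') (hi : Integrable L μ)
    (hi' : Integrable L' μ) (h : ∀ n A, ∫ T in cyl (JW W J n) A, L T ∂μ
      = ∫ T in cyl (JW W J n) A, L' T ∂μ) : ∀ᵐ T ∂μ, L T = L' T := by
  have hm : StronglyMeasurable[⨆ n, (filt hW J) n] L := by
    rw [iSup_filt hW J]; exact hL.stronglyMeasurable
  have hm' : StronglyMeasurable[⨆ n, (filt hW J) n] L' := by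
    rw [iSup_filt hW J]; exact hL'.stronglyMeasurable
  have t1 := hi.tendsto_ae_condExp hm
  have t2 := hi'.tendsto_ae_condExp hm'
  have heq : ∀ n, ∀ᵐ T ∂μ, (μ[L | (filt hW J) n]) T = (μ[L' | (filt hW J) n]) T := by
    intro n
    refine ae_eq_condExp_of_forall_setIntegral_eq ((filt hW J).le n) hi'
      (fun s _ _ => integrable_condExp.integrableOn) ?_
      stronglyMeasurable_condExp.aestronglyMeasurable
    intro s hs _
    rw [setIntegral_condExp ((filt hW J).le n) hi hs]
    exact setIntegral_eq_of_cyl (JW W J n) hi hi' (h n) hs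
  rw [← ae_all_iff] at heq
  filter_upwards [t1, t2, heq] with T h1 h2 h3
  exact tendsto_nhds_unique h1 (h2.congr fun n => (h3 n).symm)

theorem NM.exists_lim (hX : NM μ J S0 X) (hS0 : (S0 : Set E) ⊆ J) {W : ℕ → Finset E}
    (hW : IsWin W) :
    ∃ L : Set E → ℝ, Measurable[FI J] L ∧ (∀ T, |L T| ≤ 1) ∧
      (∀ W' : ℕ → Finset E, IsWin W' →
        ∀ᵐ T ∂μ, Tendsto (fun n => X (JW W' J n) T) atTop (𝓝 (L T))) ∧
      ∀ S : Finset E, S0 ⊆ S → (S : Set E) ⊆ J → ∀ A,
        ∫ T in cyl S A, L T ∂μ = X S A * μ.real (cyl S A) := by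
  obtain ⟨L, h1, h2, h3, h4⟩ := hX.exists_lim_win hS0 hW
  refine ⟨L, h1, h2, ?_, h4⟩
  intro W' hW'
  obtain ⟨L', g1, g2, g3, g4⟩ := hX.exists_lim_win hS0 hW'
  obtain ⟨k, hk⟩ := exists_JW_sup hW hS0
  have hLint : Integrable L μ :=
    Integrable.of_bound (h1.mono (FI_le J) le_rfl).aestronglyMeasurable 1
      (ae_of_all _ fun T => by simpa using h2 T)
  have hLint' : Integrable L' μ :=
    Integrable.of_bound (g1.mono (FI_le J) le_rfl).aestronglyMeasurable 1
      (ae_of_all _ fun T => by simpa using g2 T)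
  have h5 : ∀ᵐ T ∂μ, L T = L' T := by
    refine ae_eq_of_cyl (hW.shift k) h1 g1 hLint hLint' fun n A => ?_
    have hs : S0 ⊆ JW (fun n => W (n + k)) J n :=
      hk.trans (JW_mono hW J (Nat.le_add_left k n))
    rw [h4 _ hs (JW_sub J _) A, g4 _ hs (JW_sub J _) A]
  filter_upwards [g3, h5] with T hT hT'
  rw [hT']
  exact hT

end NetMart

section Instances

variable {E : Type*} [DecidableEq E] {μ : Measure (Set E)} [IsProbabilityMeasure μ]

theorem cyl_insert_mem {S : Finset E} {A : Set E} {f : E} (hf : f ∉ S) :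
    cyl (insert f S) (insert f A) = cyl S A ∩ {T | f ∈ T} := by
  ext T
  constructor
  · intro h
    refine ⟨fun e he => ?_, ?_⟩
    · have := h e (Finset.mem_insert_of_mem he)
      have hne : e ≠ f := fun h => hf (h ▸ he)
      simpa [hne] using this
    · exact (h f (Finset.mem_insert_self _ _)).2 (Set.mem_insert _ _)
  · rintro ⟨h1, h2⟩ e he
    rcases Finset.mem_insert.1 he with rfl | he
    · simpa using h2
    · have hne : e ≠ f := fun h => hf (h ▸ he)
      simpa [hne] using h1 e he

theorem cyl_insert_notMem {S : Finset E} {A : Set E} {f : E} (hf : f ∉ S) :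
    cyl (insert f S) (A \ {f}) = cyl S A ∩ {T | f ∉ T} := by
  ext T
  constructor
  · intro h
    refine ⟨fun e he => ?_, ?_⟩
    · have := h e (Finset.mem_insert_of_mem he)
      have hne : e ≠ f := fun h => hf (h ▸ he)
      simpa [hne] using this
    · intro hfT
      have := (h f (Finset.mem_insert_self _ _)).1 hfT
      simp at this
  · rintro ⟨h1, h2⟩ e he
    rcases Finset.mem_insert.1 he with rfl | he
    · constructor
      · intro h; exact absurd h h2
      · intro h; simp at h
    · have hne : e ≠ f := fun h => hf (h ▸ he)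
      simpa [hne] using h1 e he

theorem pr_dep (S : Finset E) (f : E) :
    DependsOn' (fun T => pr (Pm μ) S T f) (S : Set E) := by
  intro T T' h
  have h1 : cyl S T = cyl S T' := cyl_congr fun e he => h e (by simpa using he)
  have h2 : cyl (insert f S) (insert f T) = cyl (insert f S) (insert f T') := by
    refine cyl_congr fun e he => ?_
    rcases Finset.mem_insert.1 he with rfl | he
    · simp
    · have := h e (by simpa using he)
      simp [this]
  simp only [pr, Pm, h1, h2]

theorem pr_mem_Icc {S : Finset E} {f : E} (hf : f ∉ S) (T : Set E) :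
    pr (Pm μ) S T f ∈ Icc (0:ℝ) 1 := by
  constructor
  · exact div_nonneg measureReal_nonneg measureReal_nonneg
  · refine div_le_one_of_le₀ ?_ measureReal_nonneg
    unfold Pm
    rw [cyl_insert_mem hf]
    exact measureReal_mono Set.inter_subset_left

theorem pr_mul {S : Finset E} {f : E} (hf : f ∉ S) (A : Set E) :
    pr (Pm μ) S A f * μ.real (cyl S A) = μ.real (cyl S A ∩ {T | f ∈ T}) := by
  unfold pr Pm
  rw [cyl_insert_mem hf]
  by_cases h : μ.real (cyl S A) = 0
  · rw [h, mul_zero]
    exact (le_antisymm ((measureReal_mono Set.inter_subset_left).trans h.le)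
      measureReal_nonneg).symm
  · field_simp

theorem setIntegral_pr {S : Finset E} {f : E} (hf : f ∉ S) {s : Set (Set E)}
    (hs : MeasurableSet[FI (S : Set E)] s) :
    ∫ T in s, pr (Pm μ) S T f ∂μ = μ.real (s ∩ {T | f ∈ T}) := by
  have hm : MeasurableSet {T : Set E | f ∈ T} := measurableSet_mem f
  have h1 : ∫ T in s, pr (Pm μ) S T f ∂μ = ∫ T in s, ({T : Set E | f ∈ T}.indicator 1 T : ℝ) ∂μ := by
    refine setIntegral_eq_of_cyl S ?_ ?_ ?_ hs
    · exact Integrable.of_bound (measurable_of_dep _ _ (pr_dep S f)).aestronglyMeasurable 1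
        (ae_of_all _ fun T => by
          have := pr_mem_Icc (μ := μ) hf T
          rw [Real.norm_eq_abs, abs_of_nonneg this.1]
          exact this.2)
    · exact (integrable_const (1:ℝ)).indicator hm
    · intro A
      rw [setIntegral_cyl_of_dep _ _ _ _ (pr_dep S f), pr_mul hf, integral_indicator hm]
      simp [measureReal_def, Measure.restrict_restrict hm, Set.inter_comm,
        Measure.restrict_apply hm]
  rw [h1, integral_indicator hm]
  simp [measureReal_def, Set.inter_comm, Measure.restrict_apply hm]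

theorem nm_pr {J : Set E} {f : E} (hf : f ∉ J) : NM μ J ∅ (fun S T => pr (Pm μ) S T f) where
  dep := fun S => pr_dep S f
  bdd := fun S hS T => by
    have := pr_mem_Icc (μ := μ) (f := f) (S := S) (fun h => hf (hS (by simpa using h))) T
    rw [abs_of_nonneg this.1]
    exact this.2
  mart := fun S S' _ hSS' hS' A => by
    have h1 : f ∉ S' := fun h => hf (hS' (by simpa using h))
    have h2 : f ∉ S := fun h => h1 (hSS' h)
    rw [setIntegral_pr h1 (FI_mono (by exact_mod_cast hSS') _ (measurableSet_FI_cyl A)),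
      pr_mul h2]

variable {u : Finset E → Set E → E → E → ℝ}

theorem u_dep (hG : Good (Pm μ) u) (S : Finset E) (g f : E) :
    DependsOn' (fun T => u S T g f) (S : Set E) := by
  intro T T' h
  exact hG.u_congr S T T' g f fun e he => h e (by simpa using he)

theorem u_integrable (hG : Good (Pm μ) u) (S : Finset E) (g f : E) :
    Integrable (fun T => u S T g f) μ :=
  Integrable.of_bound (measurable_of_dep _ _ (u_dep hG S g f)).aestronglyMeasurable 1
    (ae_of_all _ fun T => by simpa using hG.u_abs S T g f)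

theorem u_mart_step (hG : Good (Pm μ) u) {S : Finset E} {g f h : E} (hg : g ∈ S) (hf : f ∉ S)
    (hh : h ∉ S) (hhf : h ≠ f) (A : Set E) :
    ∫ T in cyl S A, u (insert h S) T g f ∂μ = ∫ T in cyl S A, u S T g f ∂μ := by
  have hm : MeasurableSet {T : Set E | h ∈ T} := measurableSet_mem h
  rw [setIntegral_cyl_of_dep _ _ _ _ (u_dep hG S g f)]
  have h1 := hG.mart S A g f h hg hf hh hhf
  unfold Pm at h1
  rw [mul_comm (u S A g f), h1, ← integral_add_compl hm ((u_integrable hG _ g f).integrableOn),
    Measure.restrict_restrict hm, Measure.restrict_restrict hm.compl, Set.inter_comm,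
    Set.inter_comm _ (cyl S A)]
  have h2 : {T : Set E | h ∈ T}ᶜ = {T | h ∉ T} := rfl
  rw [h2, ← cyl_insert_mem hh, ← cyl_insert_notMem hh,
    setIntegral_cyl_of_dep _ _ _ _ (u_dep hG (insert h S) g f),
    setIntegral_cyl_of_dep _ _ _ _ (u_dep hG (insert h S) g f)]
  ring

theorem u_mart (hG : Good (Pm μ) u) {S S' : Finset E} {g f : E} (hg : g ∈ S) (hf : f ∉ S')
    (hSS' : S ⊆ S') (A : Set E) :
    ∫ T in cyl S A, u S' T g f ∂μ = u S A g f * μ.real (cyl S A) := by
  have key : ∀ D : Finset E, f ∉ S ∪ D → Disjoint S D → ∫ T in cyl S A, u (S ∪ D) T g f ∂μ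
      = u S A g f * μ.real (cyl S A) := by
    intro D
    induction D using Finset.induction_on with
    | empty =>
      intro _ _
      rw [Finset.union_empty, setIntegral_cyl_of_dep _ _ _ _ (u_dep hG S g f)]
    | insert h D hh ih =>
      intro hf' hdis
      rw [Finset.disjoint_insert_right] at hdis
      have hhS : h ∉ S ∪ D := by simp [hdis.1, hh]
      have e1 : S ∪ insert h D = insert h (S ∪ D) := by simp
      rw [e1] at hf' ⊢
      have hf'' : f ∉ S ∪ D := fun h' => hf' (Finset.mem_insert_of_mem h')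
      have hhf : h ≠ f := by
        rintro rfl
        exact hf' (Finset.mem_insert_self _ _)
      rw [← ih hf'' hdis.2]
      refine setIntegral_eq_of_cyl (S ∪ D) (u_integrable hG _ g f) (u_integrable hG _ g f) ?_ ?_
      · intro B
        exact u_mart_step hG (Finset.mem_union_left _ hg) hf'' hhS hhf B
      · exact FI_mono (by simp) _ (measurableSet_FI_cyl A)
  have h1 := key (S' \ S) (by rw [Finset.union_sdiff_of_subset hSS']; exact hf)
    Finset.disjoint_sdiff
  rwa [Finset.union_sdiff_of_subset hSS'] at h1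

theorem nm_u (hG : Good (Pm μ) u) {J : Set E} {g f : E} (hf : f ∉ J) :
    NM μ J {g} (fun S T => u S T g f) where
  dep := fun S => u_dep hG S g f
  bdd := fun S _ T => hG.u_abs S T g f
  mart := fun S S' hS hSS' hS' A => by
    have h1 : f ∉ S' := fun h => hf (hS' (by simpa using h))
    exact u_mart hG (hS (by simp)) h1 hSS' A

theorem ae_pos (μ : Measure (Set E)) [IsProbabilityMeasure μ] (S : Finset E) :
    ∀ᵐ T ∂μ, 0 < Pm μ S T := by
  have h : μ {T | ¬ 0 < Pm μ S T} = 0 := by
    rw [measure_eq_sum_cyl μ S]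
    refine Finset.sum_eq_zero fun A _ => ?_
    by_cases hA : 0 < Pm μ S (A : Set E)
    · have : {T | ¬ 0 < Pm μ S T} ∩ cyl S (A : Set E) = ∅ := by
        rw [Set.eq_empty_iff_forall_notMem]
        rintro T ⟨h1, h2⟩
        apply h1
        unfold Pm at hA ⊢
        rw [cyl_eq_of_mem h2]
        exact hA
      rw [this]; simp
    · have h1 : Pm μ S (A : Set E) = 0 := le_antisymm (not_lt.1 hA) measureReal_nonneg
      have h2 : μ (cyl S (A : Set E)) = 0 := by
        unfold Pm at h1
        rw [measureReal_def, ENNReal.toReal_eq_zero_iff] at h1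
        exact h1.resolve_right (measure_ne_top _ _)
      exact measure_mono_null Set.inter_subset_right h2
  exact h

theorem CW_eq (hG : Good (Pm μ) u) {S : Finset E} {T : Set E} {g f : E} (hg : g ∈ S) (hf : f ∉ S)
    (hP : 0 < Pm μ S T) : CW (Pm μ) S T g f = (u S T g f) ^ 2 := by
  unfold CW
  rw [← hG.usq S T g f hg hf]
  field_simp

end Instances

end Vale.Agent.P143
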