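import Vale.Agent.P143.StaticC

open MeasureTheory ProbabilityTheory Set Filter Topology
open scoped ENNReal

namespace Vale.Agent.P143

section Lim

variable {E : Type*} [DecidableEq E] {W : ℕ → Finset E}
  {μ : Measure (Set E)} [IsProbabilityMeasure μ] {u : Finset E → Set E → E → E → ℝ}

theorem CW_dep (S : Finset E) (g f : E) :
    DependsOn' (fun T => CW (Pm μ) S T g f) (S : Set E) := by
  intro T T' h
  have h' : ∀ e ∈ S, (e ∈ T ↔ e ∈ T') := fun e he => h e (by simpa using he)
  have h0 : cyl S T = cyl S T' := cyl_congr h'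
  have h1 : cyl (insert f S) (insert g (T \ {f})) = cyl (insert f S) (insert g (T' \ {f})) := by
    refine cyl_congr fun e he => ?_
    rcases Finset.mem_insert.1 he with rfl | he
    · simp
    · simp [h' e he]
  have h2 : cyl (insert f S) (insert f (T \ {g})) = cyl (insert f S) (insert f (T' \ {g})) := by
    refine cyl_congr fun e he => ?_
    rcases Finset.mem_insert.1 he with rfl | he
    · simp
    · simp [h' e he]
  have h3 : cyl (insert f S) (insert g (insert f T)) = cyl (insert f S) (insert g (insert f T')) := by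
    refine cyl_congr fun e he => ?_
    rcases Finset.mem_insert.1 he with rfl | he
    · simp
    · simp [h' e he]
  have h4 : cyl (insert f S) ((T \ {f}) \ {g}) = cyl (insert f S) ((T' \ {f}) \ {g}) := by
    refine cyl_congr fun e he => ?_
    rcases Finset.mem_insert.1 he with rfl | he
    · simp
    · simp [h' e he]
  simp only [CW, Pm, h0, h1, h2, h3, h4]

theorem pJ_lim (hW : IsWin W) {J : Set E} {f : E} (hf : f ∉ J) :
    ∃ L : Set E → ℝ, Measurable[FI J] L ∧ (∀ T, |L T| ≤ 1) ∧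
      (∀ W' : ℕ → Finset E, IsWin W' →
        ∀ᵐ T ∂μ, Tendsto (fun n => pr (Pm μ) (JW W' J n) T f) atTop (𝓝 (L T))) ∧
      (∀ S : Finset E, (S : Set E) ⊆ J → ∀ A,
        ∫ T in cyl S A, L T ∂μ = μ.real (cyl S A ∩ {T | f ∈ T})) ∧
      (∀ W' : ℕ → Finset E, IsWin W' → ∀ᵐ T ∂μ, pJ (Pm μ) W' J T f = L T) ∧
      (∀ᵐ T ∂μ, 0 ≤ L T) := by
  obtain ⟨L, h1, h2, h3, h4⟩ := (nm_pr (μ := μ) hf).exists_lim (by simp) hW
  refine ⟨L, h1, h2, h3, ?_, ?_, ?_⟩
  · intro S hS A
    rw [h4 S (by simp) hS A, pr_mul fun h => hf (hS (by simpa using h))]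
  · intro W' hW'
    filter_upwards [h3 W' hW'] with T hT
    exact hT.limsup_eq
  · filter_upwards [h3 W hW] with T hT
    exact ge_of_tendsto' hT fun n =>
      (pr_mem_Icc (μ := μ) (fun h => hf (mem_JW.1 h).2) T).1

theorem CJ_lim (hW : IsWin W) (hG : Good (Pm μ) u) {J : Set E} {g f : E} (hg : g ∈ J)
    (hf : f ∉ J) :
    ∃ U : Set E → ℝ, Measurable[FI J] U ∧ (∀ T, |U T| ≤ 1) ∧
      (∀ W' : ℕ → Finset E, IsWin W' →
        ∀ᵐ T ∂μ, Tendsto (fun n => u (JW W' J n) T g f) atTop (𝓝 (U T))) ∧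
      (∀ S : Finset E, g ∈ S → (S : Set E) ⊆ J → ∀ A,
        ∫ T in cyl S A, U T ∂μ = u S A g f * μ.real (cyl S A)) ∧
      (∀ W' : ℕ → Finset E, IsWin W' → ∀ᵐ T ∂μ,
        CJ (Pm μ) W' J T g f = ENNReal.ofReal ((U T) ^ 2)) := by
  obtain ⟨U, h1, h2, h3, h4⟩ := (nm_u hG (J := J) (g := g) hf).exists_lim (by simpa using hg) hW
  refine ⟨U, h1, h2, h3, ?_, ?_⟩
  · intro S hgS hS A
    exact h4 S (by simpa using hgS) hS A
  · intro W' hW'
    have hpos : ∀ᵐ T ∂μ, ∀ n, 0 < Pm μ (JW W' J n) T := ae_all_iff.2 fun n => ae_pos μ _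
    obtain ⟨k, hk⟩ := JW_exh hW' hg
    filter_upwards [h3 W' hW', hpos] with T hT hP
    have h5 : Tendsto (fun n => ENNReal.ofReal (CW (Pm μ) (JW W' J n) T g f)) atTop
        (𝓝 (ENNReal.ofReal ((U T) ^ 2))) := by
      refine ENNReal.tendsto_ofReal ((hT.pow 2).congr' ?_)
      filter_upwards [eventually_ge_atTop k] with n hn
      exact (CW_eq hG (JW_mono hW' J hn hk) (fun h => hf (mem_JW.1 h).2) (hP n)).symm
    exact h5.limsup_eq

theorem J3a_fin (hG : Good (Pm μ) u) {S : Finset E} {g : E} (hg : g ∈ S) (F : Finset E)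
    (hF : Disjoint F S) (h : Set E → ℝ≥0∞) (hd : DependsOn' h ((S : Set E) \ {g})) :
    ∫⁻ T in {T | g ∈ T}, h T * ∑ f ∈ F, ENNReal.ofReal ((u S T g f) ^ 2) ∂μ
      ≤ ∫⁻ T in {T | g ∉ T}, h T ∂μ := by
  have hm : MeasurableSet {T : Set E | g ∈ T} := measurableSet_mem g
  have hm' : MeasurableSet {T : Set E | g ∉ T} := measurableSet_notMem g
  have hS : insert g (S.erase g) = S := Finset.insert_erase hg
  have hge : g ∉ S.erase g := Finset.notMem_erase g S
  rw [lintegral_eq_sum_cyl _ (S.erase g), lintegral_eq_sum_cyl (μ.restrict {T | g ∉ T}) (S.erase g)]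
  refine Finset.sum_le_sum fun A _ => ?_
  rw [Measure.restrict_restrict (measurableSet_cyl _ _),
    Measure.restrict_restrict (measurableSet_cyl _ _), ← cyl_insert_mem hge,
    ← cyl_insert_notMem hge, hS]
  have hd1 : DependsOn' (fun T => h T * ∑ f ∈ F, ENNReal.ofReal ((u S T g f) ^ 2)) (S : Set E) := by
    intro T T' hT
    have e1 : h T = h T' := hd T T' fun e he => hT e he.1
    have e2 : ∀ f, u S T g f = u S T' g f := fun f => u_dep hG S g f T T' hT
    simp only [e1, e2]
  have hd2 : DependsOn' h (S : Set E) := fun T T' hT => hd T T' fun e he => hT e he.1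
  rw [setLIntegral_cyl_of_dep _ _ _ _ hd1, setLIntegral_cyl_of_dep _ _ _ _ hd2]
  have e1 : h (insert g (A : Set E)) = h ((A : Set E) \ {g}) := by
    refine hd _ _ fun e he => ?_
    have : e ≠ g := he.2
    simp [this]
  rw [e1, mul_assoc]
  gcongr
  rw [← ENNReal.ofReal_sum_of_nonneg (fun f _ => sq_nonneg _)]
  by_cases hP : 0 < Pm μ S (insert g (A : Set E))
  · have h1 := hG.sumrule S (insert g (A : Set E)) g hg hP F hF
    have h2 : symmDiff (insert g (A : Set E)) {g} = (A : Set E) \ {g} := by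
      ext e
      by_cases he : e = g
      · simp [Set.mem_symmDiff, he]
      · simp [Set.mem_symmDiff, he]
    rw [h2] at h1
    unfold Pm at h1
    rw [← ofReal_measureReal (measure_ne_top _ _), ← ofReal_measureReal (measure_ne_top _ _),
      ← ENNReal.ofReal_mul (Finset.sum_nonneg fun f _ => sq_nonneg _)]
    exact ENNReal.ofReal_le_ofReal h1
  · have h1 : Pm μ S (insert g (A : Set E)) = 0 := le_antisymm (not_lt.1 hP) measureReal_nonneg
    unfold Pm at h1
    rw [measureReal_def, ENNReal.toReal_eq_zero_iff] at h1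
    rw [h1.resolve_right (measure_ne_top _ _)]
    simp

theorem J3b_fin (hG : Good (Pm μ) u) {S : Finset E} {g : E} (hg : g ∈ S) (F : Finset E)
    (hF : Disjoint F S) (h : Set E → ℝ≥0∞) (hd : DependsOn' h ((S : Set E) \ {g})) :
    ∫⁻ T in {T | g ∉ T}, h T * ∑ f ∈ F, ENNReal.ofReal ((u S T g f) ^ 2) ∂μ
      ≤ ∫⁻ T in {T | g ∈ T}, h T ∂μ := by
  have hm : MeasurableSet {T : Set E | g ∈ T} := measurableSet_mem g
  have hm' : MeasurableSet {T : Set E | g ∉ T} := measurableSet_notMem g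
  have hS : insert g (S.erase g) = S := Finset.insert_erase hg
  have hge : g ∉ S.erase g := Finset.notMem_erase g S
  rw [lintegral_eq_sum_cyl _ (S.erase g), lintegral_eq_sum_cyl (μ.restrict {T | g ∈ T}) (S.erase g)]
  refine Finset.sum_le_sum fun A _ => ?_
  rw [Measure.restrict_restrict (measurableSet_cyl _ _),
    Measure.restrict_restrict (measurableSet_cyl _ _), ← cyl_insert_mem hge,
    ← cyl_insert_notMem hge, hS]
  have hd1 : DependsOn' (fun T => h T * ∑ f ∈ F, ENNReal.ofReal ((u S T g f) ^ 2)) (S : Set E) := by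
    intro T T' hT
    have e1 : h T = h T' := hd T T' fun e he => hT e he.1
    have e2 : ∀ f, u S T g f = u S T' g f := fun f => u_dep hG S g f T T' hT
    simp only [e1, e2]
  have hd2 : DependsOn' h (S : Set E) := fun T T' hT => hd T T' fun e he => hT e he.1
  rw [setLIntegral_cyl_of_dep _ _ _ _ hd1, setLIntegral_cyl_of_dep _ _ _ _ hd2]
  have e1 : h ((A : Set E) \ {g}) = h (insert g (A : Set E)) := by
    refine hd _ _ fun e he => ?_
    have : e ≠ g := he.2
    simp [this]
  rw [e1, mul_assoc]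
  gcongr
  rw [← ENNReal.ofReal_sum_of_nonneg (fun f _ => sq_nonneg _)]
  by_cases hP : 0 < Pm μ S ((A : Set E) \ {g})
  · have h1 := hG.sumrule S ((A : Set E) \ {g}) g hg hP F hF
    have h2 : symmDiff ((A : Set E) \ {g}) {g} = insert g (A : Set E) := by
      ext e
      by_cases he : e = g
      · simp [he]
      · simp [he]
    rw [h2] at h1
    unfold Pm at h1
    rw [← ofReal_measureReal (measure_ne_top _ _), ← ofReal_measureReal (measure_ne_top _ _),
      ← ENNReal.ofReal_mul (Finset.sum_nonneg fun f _ => sq_nonneg _)]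
    exact ENNReal.ofReal_le_ofReal h1
  · have h1 : Pm μ S ((A : Set E) \ {g}) = 0 := le_antisymm (not_lt.1 hP) measureReal_nonneg
    unfold Pm at h1
    rw [measureReal_def, ENNReal.toReal_eq_zero_iff] at h1
    rw [h1.resolve_right (measure_ne_top _ _)]
    simp

end Lim

end Vale.Agent.P143
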