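import Vale.Agent.P143.StaticD

open MeasureTheory ProbabilityTheory Set Filter Topology
open scoped ENNReal

namespace Vale.Agent.P143

section J3

variable {E : Type*} [Countable E] [DecidableEq E] {W : ℕ → Finset E}
  {μ : Measure (Set E)} [IsProbabilityMeasure μ] {u : Finset E → Set E → E → E → ℝ}

omit [Countable E] in
theorem CJ_meas_aux (J : Set E) (g f : E) : Measurable (fun T => CJ (Pm μ) W J T g f) := by
  unfold CJ
  refine Measurable.limsup fun n => ?_
  exact ((measurable_of_dep _ _ (CW_dep (μ := μ) (JW W J n) g f))).ennreal_ofReal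

omit [Countable E] in
theorem J3_step1 (hW : IsWin W) (hG : Good (Pm μ) u) {J : Set E} {g : E} (hg : g ∈ J)
    {I₀ : Set E} (hI : I₀ ⊆ J \ {g}) {B B' : Set (Set E)}
    (hfin : ∀ S : Finset E, g ∈ S → ∀ F : Finset E, Disjoint F S → ∀ h : Set E → ℝ≥0∞,
      DependsOn' h ((S : Set E) \ {g}) →
      ∫⁻ T in B, h T * ∑ f ∈ F, ENNReal.ofReal ((u S T g f) ^ 2) ∂μ ≤ ∫⁻ T in B', h T ∂μ)
    (F : Finset E) (hF : ∀ f ∈ F, f ∉ J) (k : ℕ) (h : Set E → ℝ) 
    (hd : DependsOn' h (JW W I₀ k : Set E)) :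
    ∫⁻ T in B, ENNReal.ofReal (h T) * ∑ f ∈ F, CJ (Pm μ) W J T g f ∂μ
      ≤ ∫⁻ T in B', ENNReal.ofReal (h T) ∂μ := by
  obtain ⟨n₀, hn₀⟩ := JW_exh hW hg
  have hgI : g ∉ I₀ := fun h => (hI h).2 rfl
  have hlim : ∀ᵐ T ∂(μ.restrict B), Tendsto (fun n => ENNReal.ofReal (h T) *
      ∑ f ∈ F, ENNReal.ofReal ((u (JW W J n) T g f) ^ 2)) atTop
      (𝓝 (ENNReal.ofReal (h T) * ∑ f ∈ F, CJ (Pm μ) W J T g f)) := by
    refine ae_restrict_of_ae ?_
    have h1 : ∀ᵐ T ∂μ, ∀ f ∈ F, Tendsto (fun n => ENNReal.ofReal ((u (JW W J n) T g f) ^ 2)) atTop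
        (𝓝 (CJ (Pm μ) W J T g f)) := by
      rw [Finset.eventually_all]
      intro f hf
      obtain ⟨U, _, _, h3, _, h5⟩ := CJ_lim hW hG hg (hF f hf)
      filter_upwards [h3 W hW, h5 W hW] with T hT1 hT2
      rw [hT2]
      exact ENNReal.tendsto_ofReal (hT1.pow 2)
    filter_upwards [h1] with T hT
    exact ENNReal.Tendsto.const_mul (tendsto_finsetSum _ hT) (Or.inr ENNReal.ofReal_ne_top)
  have hmeas : ∀ n, Measurable (fun T => ENNReal.ofReal (h T) *
      ∑ f ∈ F, ENNReal.ofReal ((u (JW W J n) T g f) ^ 2)) := by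
    intro n
    refine (measurable_of_dep _ _ hd).ennreal_ofReal.mul ?_
    refine Finset.measurable_sum _ fun f _ => ?_
    exact ((measurable_of_dep _ _ (u_dep hG (JW W J n) g f)).pow_const 2).ennreal_ofReal
  calc ∫⁻ T in B, ENNReal.ofReal (h T) * ∑ f ∈ F, CJ (Pm μ) W J T g f ∂μ
      = ∫⁻ T in B, liminf (fun n => ENNReal.ofReal (h T) *
          ∑ f ∈ F, ENNReal.ofReal ((u (JW W J n) T g f) ^ 2)) atTop ∂μ := by
        refine lintegral_congr_ae ?_
        filter_upwards [hlim] with T hT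
        exact hT.liminf_eq.symm
    _ ≤ liminf (fun n => ∫⁻ T in B, ENNReal.ofReal (h T) *
          ∑ f ∈ F, ENNReal.ofReal ((u (JW W J n) T g f) ^ 2) ∂μ) atTop :=
        lintegral_liminf_le hmeas
    _ ≤ ∫⁻ T in B', ENNReal.ofReal (h T) ∂μ := by
        refine liminf_le_of_frequently_le' (Eventually.frequently ?_)
        filter_upwards [eventually_ge_atTop n₀, eventually_ge_atTop k] with n hn hk
        refine hfin (JW W J n) (JW_mono hW J hn hn₀) F ?_ _ ?_
        · rw [Finset.disjoint_left]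
          intro f hf hf'
          exact hF f hf (mem_JW.1 hf').2
        · intro T T' hT
          refine congrArg ENNReal.ofReal (hd T T' fun e he => hT e ⟨?_, ?_⟩)
          · have he' : e ∈ JW W I₀ k := by simpa using he
            have : e ∈ JW W J n := mem_JW.2 ⟨hW.mono hk (mem_JW.1 he').1, (hI (mem_JW.1 he').2).1⟩
            simpa using this
          · have he' : e ∈ JW W I₀ k := by simpa using he
            rintro rfl
            exact hgI (mem_JW.1 he').2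

omit [Countable E] in
theorem J3_step2 (hW : IsWin W) (hG : Good (Pm μ) u) {J : Set E} {g : E} (hg : g ∈ J)
    {I₀ : Set E} (hI : I₀ ⊆ J \ {g}) {B B' : Set (Set E)} 
    (hfin : ∀ S : Finset E, g ∈ S → ∀ F : Finset E, Disjoint F S → ∀ h : Set E → ℝ≥0∞,
      DependsOn' h ((S : Set E) \ {g}) →
      ∫⁻ T in B, h T * ∑ f ∈ F, ENNReal.ofReal ((u S T g f) ^ 2) ∂μ ≤ ∫⁻ T in B', h T ∂μ)
    (F : Finset E) (hF : ∀ f ∈ F, f ∉ J) (h : Set E → ℝ) (hm : Measurable h) (M : ℝ)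
    (hM : ∀ T, h T ≤ M) (h0 : ∀ T, 0 ≤ h T) (hd : DependsOn' h I₀) :
    ∫⁻ T in B, ENNReal.ofReal (h T) * ∑ f ∈ F, CJ (Pm μ) W J T g f ∂μ
      ≤ ∫⁻ T in B', ENNReal.ofReal (h T) ∂μ := by
  have hi : Integrable h μ := Integrable.of_bound hm.aestronglyMeasurable M
    (ae_of_all _ fun T => by rw [Real.norm_eq_abs, abs_of_nonneg (h0 T)]; exact hM T)
  have hsm : StronglyMeasurable[⨆ n, (filt hW I₀) n] h := by
    rw [iSup_filt hW I₀]
    exact (measurable_FI_of_dep hm hd).stronglyMeasurable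
  have t1 := hi.tendsto_ae_condExp hsm
  let hn : ℕ → Set E → ℝ := fun n T => min ((μ[h | (filt hW I₀) n]) T) M
  have hnd : ∀ n, DependsOn' (hn n) (JW W I₀ n : Set E) := by
    intro n T T' hT
    have : Measurable[(filt hW I₀) n] (μ[h | (filt hW I₀) n]) :=
      stronglyMeasurable_condExp.measurable
    have h1 := dep_of_measurable_FI this T T' hT
    simp only [hn, h1]
  have hnt : ∀ᵐ T ∂μ, Tendsto (fun n => ENNReal.ofReal (hn n T)) atTop
      (𝓝 (ENNReal.ofReal (h T))) := by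
    filter_upwards [t1] with T hT
    have h2 := hT.min (tendsto_const_nhds (x := M))
    rw [min_eq_left (hM T)] at h2
    exact ENNReal.tendsto_ofReal h2
  have hstep : ∀ n, ∫⁻ T in B, ENNReal.ofReal (hn n T) * ∑ f ∈ F, CJ (Pm μ) W J T g f ∂μ
      ≤ ∫⁻ T in B', ENNReal.ofReal (hn n T) ∂μ := fun n =>
    J3_step1 hW hG hg hI hfin F hF n (hn n) (hnd n)
  have hCfin : ∀ᵐ T ∂μ, ∑ f ∈ F, CJ (Pm μ) W J T g f ≠ ∞ := by
    have h1 : ∀ᵐ T ∂μ, ∀ f ∈ F, CJ (Pm μ) W J T g f ≠ ∞ := by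
      rw [Finset.eventually_all]
      intro f hf
      obtain ⟨U, _, _, _, _, h5⟩ := CJ_lim hW hG hg (hF f hf)
      filter_upwards [h5 W hW] with T hT
      rw [hT]
      exact ENNReal.ofReal_ne_top
    filter_upwards [h1] with T hT
    exact (ENNReal.sum_lt_top.2 fun f hf => lt_top_iff_ne_top.2 (hT f hf)).ne
  have hright : Tendsto (fun n => ∫⁻ T in B', ENNReal.ofReal (hn n T) ∂μ) atTop
      (𝓝 (∫⁻ T in B', ENNReal.ofReal (h T) ∂μ)) := by
    refine tendsto_lintegral_of_dominated_convergence (fun _ => ENNReal.ofReal M)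
      (fun n => (measurable_of_dep _ _ (hnd n)).ennreal_ofReal)
      (fun n => ae_of_all _ fun T => ENNReal.ofReal_le_ofReal (min_le_right _ _)) ?_
      (ae_restrict_of_ae hnt)
    rw [setLIntegral_const]
    exact ENNReal.mul_ne_top ENNReal.ofReal_ne_top (measure_ne_top _ _)
  calc ∫⁻ T in B, ENNReal.ofReal (h T) * ∑ f ∈ F, CJ (Pm μ) W J T g f ∂μ
      = ∫⁻ T in B, liminf (fun n => ENNReal.ofReal (hn n T) *
          ∑ f ∈ F, CJ (Pm μ) W J T g f) atTop ∂μ := by
        refine lintegral_congr_ae (ae_restrict_of_ae ?_)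
        filter_upwards [hnt, hCfin] with T hT hC
        exact (ENNReal.Tendsto.mul_const hT (Or.inr hC)).liminf_eq.symm
    _ ≤ liminf (fun n => ∫⁻ T in B, ENNReal.ofReal (hn n T) *
          ∑ f ∈ F, CJ (Pm μ) W J T g f ∂μ) atTop :=
        lintegral_liminf_le fun n => (measurable_of_dep _ _ (hnd n)).ennreal_ofReal.mul
          (Finset.measurable_sum _ fun f _ => CJ_meas_aux J g f)
    _ ≤ liminf (fun n => ∫⁻ T in B', ENNReal.ofReal (hn n T) ∂μ) atTop :=
        liminf_le_liminf (Eventually.of_forall hstep)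
    _ = ∫⁻ T in B', ENNReal.ofReal (h T) ∂μ := hright.liminf_eq

theorem J3_gen (hW : IsWin W) (hG : Good (Pm μ) u) {J : Set E} {g : E} (hg : g ∈ J)
    {I₀ : Set E} (hI : I₀ ⊆ J \ {g}) {B B' : Set (Set E)} 
    (hfin : ∀ S : Finset E, g ∈ S → ∀ F : Finset E, Disjoint F S → ∀ h : Set E → ℝ≥0∞,
      DependsOn' h ((S : Set E) \ {g}) →
      ∫⁻ T in B, h T * ∑ f ∈ F, ENNReal.ofReal ((u S T g f) ^ 2) ∂μ ≤ ∫⁻ T in B', h T ∂μ)
    (h : Set E → ℝ≥0∞) (hm : Measurable h) (hd : DependsOn' h I₀) :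
    ∫⁻ T in B, h T * (∑' f : (Jᶜ : Set E), CJ (Pm μ) W J T g f) ∂μ
      ≤ ∫⁻ T in B', h T ∂μ := by
  have step3 : ∀ (N : ℕ) (F : Finset E), (∀ f ∈ F, f ∉ J) →
      ∫⁻ T in B, min (h T) N * ∑ f ∈ F, CJ (Pm μ) W J T g f ∂μ ≤ ∫⁻ T in B', h T ∂μ := by
    intro N F hF
    have h1 : ∀ T, min (h T) (N : ℝ≥0∞) = ENNReal.ofReal ((min (h T) (N : ℝ≥0∞)).toReal) := by
      intro T
      rw [ENNReal.ofReal_toReal]
      exact ne_top_of_le_ne_top (ENNReal.natCast_ne_top N) (min_le_right _ _)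
    have h2 := J3_step2 hW hG hg hI hfin F hF (fun T => (min (h T) (N : ℝ≥0∞)).toReal)
      (hm.min measurable_const).ennreal_toReal N ?_ (fun T => ENNReal.toReal_nonneg) ?_
    · refine (le_of_eq ?_).trans (h2.trans ?_)
      · simp_rw [← h1]
      · simp_rw [← h1]
        exact lintegral_mono fun T => min_le_left _ _
    · intro T
      refine ENNReal.toReal_le_of_le_ofReal (by positivity) ?_
      rw [ENNReal.ofReal_natCast]
      exact min_le_right _ _
    · intro T T' hT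
      simp only [hd T T' hT]
  have step4 : ∀ (F : Finset E), (∀ f ∈ F, f ∉ J) →
      ∫⁻ T in B, h T * ∑ f ∈ F, CJ (Pm μ) W J T g f ∂μ ≤ ∫⁻ T in B', h T ∂μ := by
    intro F hF
    have h1 : ∀ T, h T * ∑ f ∈ F, CJ (Pm μ) W J T g f
        = ⨆ N : ℕ, min (h T) N * ∑ f ∈ F, CJ (Pm μ) W J T g f := by
      intro T
      rw [← ENNReal.iSup_mul]
      congr 1
      rw [← inf_iSup_eq, ENNReal.iSup_natCast, inf_top_eq]
    simp_rw [h1]
    rw [lintegral_iSup]
    · exact iSup_le fun N => step3 N F hF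
    · intro N
      exact (hm.min measurable_const).mul (Finset.measurable_sum _ fun f _ => CJ_meas_aux J g f)
    · intro N N' hN T
      dsimp only
      gcongr
  have h5 : ∀ T, h T * (∑' f : (Jᶜ : Set E), CJ (Pm μ) W J T g f)
      = ∑' f : (Jᶜ : Set E), h T * CJ (Pm μ) W J T g f := fun T => ENNReal.tsum_mul_left.symm
  simp_rw [h5]
  have hmf : ∀ f : (Jᶜ : Set E), Measurable (fun T => h T * CJ (Pm μ) W J T g f) :=
    fun f => hm.mul (CJ_meas_aux J g f)
  rw [lintegral_tsum fun f => (hmf f).aemeasurable, ENNReal.tsum_eq_iSup_sum]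
  refine iSup_le fun F => ?_
  rw [← lintegral_finsetSum _ fun f _ => hmf f]
  have h6 := step4 (F.map (Function.Embedding.subtype _)) (by
    intro f hf
    obtain ⟨f', _, rfl⟩ := Finset.mem_map.1 hf
    exact f'.2)
  simp only [Finset.sum_map, Function.Embedding.subtype_apply, Finset.mul_sum] at h6
  exact h6

end J3

end Vale.Agent.P143
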