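import Vale.Agent.P143.Ineq

open MeasureTheory ProbabilityTheory Set Filter Topology
open scoped ENNReal

namespace Vale.Agent.P143

section

noncomputable def eU (w s : ℝ) : unitInterval := Set.projIcc 0 1 zero_le_one (Real.exp (-(w * s)))

theorem eU_coe {w s : ℝ} (hw : 0 < w) (hs : 0 ≤ s) : ((eU w s : unitInterval) : ℝ) = Real.exp (-(w * s)) := by
  unfold eU
  rw [Set.projIcc_of_mem zero_le_one ⟨(Real.exp_pos _).le, by
    rw [Real.exp_le_one_iff]; nlinarith⟩]

theorem measurable_eU (w : ℝ) : Measurable (eU w) := by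
  unfold eU
  exact continuous_projIcc.measurable.comp (by fun_prop)

theorem eU_log {w : ℝ} (hw : 0 < w) {r : unitInterval} (hr : r ≠ 0) :
    eU w (- Real.log (r : ℝ) / w) = r := by
  have hr' : (0 : ℝ) < (r : ℝ) := by
    rcases lt_or_eq_of_le r.2.1 with h | h
    · exact h
    · exact absurd (Subtype.ext h.symm) hr
  apply Subtype.ext
  rw [eU_coe hw]
  · rw [mul_div_cancel₀ _ hw.ne', neg_neg, Real.exp_log hr']
  · apply div_nonneg _ hw.le
    rw [neg_nonneg]
    exact Real.log_nonpos r.2.1 r.2.2

theorem ae_ne_zero : ∀ᵐ r : unitInterval ∂volume, r ≠ 0 := by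
  rw [ae_iff]; simp

theorem lintegral_exp (w : ℝ) (hw : 0 < w) (H : unitInterval → ℝ≥0∞) (hH : Measurable H) :
    ∫⁻ r : unitInterval, H r ∂volume = ∫⁻ s, H (eU w s) ∂(expMeasure w) := by
  have h1 : ∫⁻ s, H (eU w s) ∂((volume : Measure unitInterval).map
      (fun r : unitInterval => - Real.log (r : ℝ) / w))
      = ∫⁻ r : unitInterval, H (eU w (- Real.log (r : ℝ) / w)) ∂volume :=
    lintegral_map (hH.comp (measurable_eU w)) (by fun_prop)
  rw [← map_log_eq_exp w hw, h1]
  apply lintegral_congr_ae
  filter_upwards [ae_ne_zero] with r hr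
  rw [eU_log hw hr]

theorem tauG_update_self {G : SimpleGraph ℕ} (hG : GoodG G) (x : Ed → unitInterval) (f : Ed)
    {s : ℝ} (hs : 0 ≤ s) : tauG G (Function.update x f (eU (wG G f) s)) f = s := by
  have hw := wG_pos hG f
  unfold tauG
  rw [Function.update_self, eU_coe hw hs, Real.log_exp, neg_neg, mul_div_cancel_left₀ _ hw.ne']

theorem tauG_update_ne (G : SimpleGraph ℕ) (x : Ed → unitInterval) {f g : Ed} (h : g ≠ f)
    (r : unitInterval) : tauG G (Function.update x f r) g = tauG G x g := by
  unfold tauG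
  rw [Function.update_of_ne h]

theorem tauG_nonneg {G : SimpleGraph ℕ} (hG : GoodG G) (x : Ed → unitInterval) (f : Ed) :
    0 ≤ tauG G x f := by
  unfold tauG
  apply div_nonneg _ (wG_pos hG f).le
  rw [neg_nonneg]
  exact Real.log_nonpos (x f).2.1 (x f).2.2

variable (μF : Kernel (SimpleGraph ℕ) (Set Ed)) [IsMarkovKernel μF]

/-- expected discrepancy of the conditional probability of `f` given a deterministic region -/
noncomputable def psi (G : SimpleGraph ℕ) (x : Ed → unitInterval) (J : Set Ed) (f : Ed) : ℝ≥0∞ :=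
  ∫⁻ y, ENNReal.ofReal |pJ (Pm (μF G)) WE J y.2.1 f - pJ (Pm (μF G)) WE J y.2.2 f| ∂(QK μF (G, x))

theorem measurable_psi_comp {α : Type*} [MeasurableSpace α] {Gm : α → SimpleGraph ℕ}
    (hG : Measurable Gm) {X : α → (Ed → unitInterval)} (hX : Measurable X) {J : α → Set Ed}
    (hJ : Measurable J) (f : Ed) : Measurable (fun a => psi μF (Gm a) (X a) (J a) f) := by
  unfold psi
  have hk : Measurable (fun a => (Gm a, X a)) := hG.prodMk hX
  have h1 : Measurable (fun w : α × ((Ed → unitInterval) × (Set Ed × Set Ed)) =>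
      ENNReal.ofReal |pJ (Pm (μF (Gm w.1))) WE (J w.1) w.2.2.1 f
        - pJ (Pm (μF (Gm w.1))) WE (J w.1) w.2.2.2 f|) := by
    apply Measurable.ennreal_ofReal
    have e1 := measurable_pJ_comp μF (hG.comp measurable_fst) (hJ.comp measurable_fst)
      (by fun_prop : Measurable (fun w : α × ((Ed → unitInterval) × (Set Ed × Set Ed)) => w.2.2.1)) f
    have e2 := measurable_pJ_comp μF (hG.comp measurable_fst) (hJ.comp measurable_fst)
      (by fun_prop : Measurable (fun w : α × ((Ed → unitInterval) × (Set Ed × Set Ed)) => w.2.2.2)) f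
    exact (e1.sub e2).abs
  exact Measurable.lintegral_kernel_prod_right' (κ := (QK μF).comap _ hk) h1

theorem QK_mis (hF : FK μF) (G : SimpleGraph ℕ) (hG : GoodG G) (x : Ed → unitInterval)
    (hx : Function.Injective (tauG G x)) (f : Ed) :
    QK μF (G, x) (mis f) = psi μF G x (Iset (tauG G x) f) f := by
  have hA := adapted μF hF G hG x hx
  have hspec := etaAt_spec μF G x hA
  have h3a := K3a hA hspec f
  have h3b := K3b hA hspec f
  unfold psi
  rw [QK_apply]
  have hm1 : MeasurableSet {y : (Ed → unitInterval) × (Set Ed × Set Ed) | f ∈ y.2.1} :=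
    measurableSet_mem_pred (measurable_fst.comp measurable_snd) f
  have hm2 : MeasurableSet {y : (Ed → unitInterval) × (Set Ed × Set Ed) | f ∈ y.2.2} :=
    measurableSet_mem_pred (measurable_snd.comp measurable_snd) f
  have hsplit : mis f = {y | f ∈ y.2.1 ∧ f ∉ y.2.2} ∪ {y | f ∉ y.2.1 ∧ f ∈ y.2.2} := by
    ext y
    unfold mis
    simp only [Set.mem_ofPred_eq, mem_union]
    tauto
  have hdisj : Disjoint {y : (Ed → unitInterval) × (Set Ed × Set Ed) | f ∈ y.2.1 ∧ f ∉ y.2.2}
      {y | f ∉ y.2.1 ∧ f ∈ y.2.2} := by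
    rw [Set.disjoint_left]
    rintro y ⟨h1, _⟩ ⟨h2, _⟩
    exact h2 h1
  rw [hsplit, measure_union hdisj (hm1.compl.inter hm2), h3a, h3b, ← lintegral_add_left]
  · apply lintegral_congr
    intro y
    rw [pG_coe, pG_coe]
    set a := pJ (Pm (μF G)) WE (Iset (tauG G x) f) y.2.1 f
    set b := pJ (Pm (μF G)) WE (Iset (tauG G x) f) y.2.2 f
    rcases le_total a b with h | h
    · rw [ENNReal.ofReal_of_nonpos (sub_nonpos.2 h), zero_add, abs_sub_comm, abs_of_nonneg (sub_nonneg.2 h)]
    · rw [ENNReal.ofReal_of_nonpos (sub_nonpos.2 h), add_zero, abs_of_nonneg (sub_nonneg.2 h)]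
  · have hp := hA.meas f
    apply Measurable.ennreal_ofReal
    apply Measurable.sub
    · exact measurable_subtype_coe.comp (hp.comp (by fun_prop))
    · exact measurable_subtype_coe.comp (hp.comp (by fun_prop))

theorem Iset_update {G : SimpleGraph ℕ} (hG : GoodG G) (x : Ed → unitInterval) (f : Ed)
    {s : ℝ} (hs : 0 ≤ s) :
    Iset (tauG G (Function.update x f (eU (wG G f) s))) f
      = Jt G (Function.update x f (eU (wG G f) s)) s := by
  unfold Iset Jt
  rw [tauG_update_self hG x f hs]

theorem Jt_update {G : SimpleGraph ℕ} (hG : GoodG G) (x : Ed → unitInterval) (f : Ed)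
    {s : ℝ} (hs : 0 ≤ s) (hsf : s ≤ tauG G x f) :
    Jt G (Function.update x f (eU (wG G f) s)) s = Jt G x s := by
  ext e
  unfold Jt
  simp only [Set.mem_ofPred_eq]
  by_cases h : e = f
  · subst h
    rw [tauG_update_self hG x e hs]
    constructor
    · intro h; exact absurd h (lt_irrefl _)
    · intro h; exact absurd h (not_lt.2 hsf)
  · rw [tauG_update_ne G x h]

theorem vol_tau {G : SimpleGraph ℕ} (hG : GoodG G) (x : Ed → unitInterval) (f : Ed)
    {s : ℝ} (hs : 0 ≤ s) :
    volume {r : unitInterval | s ≤ tauG G (Function.update x f r) f}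
      = ENNReal.ofReal (Real.exp (-(wG G f * s))) := by
  have hw := wG_pos hG f
  have h1 : {r : unitInterval | s ≤ tauG G (Function.update x f r) f}
      =ᵐ[volume] Iic (eU (wG G f) s) := by
    filter_upwards [ae_ne_zero] with r hr
    have hr' : (0 : ℝ) < (r : ℝ) := by
      rcases lt_or_eq_of_le r.2.1 with h | h
      · exact h
      · exact absurd (Subtype.ext h.symm) hr
    apply propext
    show (s ≤ tauG G (Function.update x f r) f) ↔ r ≤ eU (wG G f) s
    unfold tauG
    rw [Function.update_self, ← Subtype.coe_le_coe, eU_coe hw hs, le_div_iff₀ hw, le_neg,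
      ← Real.log_le_log_iff hr' (Real.exp_pos _), Real.log_exp, mul_comm]
  rw [measure_congr h1, unitInterval.volume_Iic, eU_coe hw hs]

theorem inj_update {G : SimpleGraph ℕ} (hG : GoodG G) (x : Ed → unitInterval)
    (hx : Function.Injective (tauG G x)) (f : Ed) {s : ℝ} (hs : 0 ≤ s)
    (hne : ∀ g, tauG G x g ≠ s) :
    Function.Injective (tauG G (Function.update x f (eU (wG G f) s))) := by
  intro a b hab
  by_cases ha : a = f
  · by_cases hb : b = f
    · rw [ha, hb]
    · subst ha
      rw [tauG_update_self hG x a hs, tauG_update_ne G x hb] at hab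
      exact absurd hab.symm (hne b)
  · by_cases hb : b = f
    · subst hb
      rw [tauG_update_self hG x b hs, tauG_update_ne G x ha] at hab
      exact absurd hab (hne a)
    · rw [tauG_update_ne G x ha, tauG_update_ne G x hb] at hab
      exact hx hab

theorem psi_update (hF : FK μF) {G : SimpleGraph ℕ} (hG : GoodG G) (x : Ed → unitInterval)
    (hx : Function.Injective (tauG G x)) (f : Ed) {s : ℝ} (hs : 0 ≤ s)
    (hne : ∀ g, tauG G x g ≠ s) (hsf : s ≤ tauG G x f) :
    psi μF G (Function.update x f (eU (wG G f) s))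
      (Jt G (Function.update x f (eU (wG G f) s)) s) f = psi μF G x (Jt G x s) f := by
  rw [Jt_update hG x f hs hsf]
  set x' := Function.update x f (eU (wG G f) s) with hx'def
  have hx' : Function.Injective (tauG G x') := inj_update hG x hx f hs hne
  have hA := adapted μF hF G hG x hx
  have hA' := adapted μF hF G hG x' hx'
  have hspec := etaAt_spec μF G x hA
  have hspec' := etaAt_spec μF G x' hA'
  have hJ : {e | tauG G x' e < s} = {e | tauG G x e < s} := Jt_update hG x f hs hsf
  have hp : ∀ g, tauG G x' g < s → pG μF G x' g = pG μF G x g := by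
    intro g hg
    have hgf : g ≠ f := by
      rintro rfl
      rw [hx'def, tauG_update_self hG x g hs] at hg
      exact lt_irrefl _ hg
    have hI : Iset (tauG G x') g = Iset (tauG G x) g := by
      ext e
      unfold Iset
      simp only [Set.mem_ofPred_eq]
      have hg' : tauG G x' g = tauG G x g := tauG_update_ne G x hgf _
      by_cases h : e = f
      · subst h
        have e1 : tauG G x' e = s := tauG_update_self hG x e hs
        rw [e1]
        constructor
        · intro h2; exact absurd (lt_trans h2 hg) (lt_irrefl _)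
        · intro h2
          have : tauG G x g < s := hg' ▸ hg
          exact absurd (lt_of_le_of_lt hsf (lt_trans h2 this)) (lt_irrefl _)
      · rw [show tauG G x' e = tauG G x e from tauG_update_ne G x h _, hg']
    funext T
    unfold pG
    rw [hI]
  unfold psi
  rw [QK_apply, QK_apply]
  have hm : Measurable (fun z : Set Ed × Set Ed =>
      ENNReal.ofReal |pJ (Pm (μF G)) WE (Jt G x s) z.1 f - pJ (Pm (μF G)) WE (Jt G x s) z.2 f|) := by
    apply Measurable.ennreal_ofReal
    exact (((pJ_meas (μ := μF G) (W := WE) (Jt G x s) f).comp measurable_fst).sub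
      ((pJ_meas (μ := μF G) (W := WE) (Jt G x s) f).comp measurable_snd)).abs
  have key := K4 hA' hspec' hA hspec s s hJ hp _ hm ?_
  · exact key
  · intro A A' B B' h1 h2
    have e1 := pJ_dep (μ := μF G) (W := WE) (Jt G x s) f A A' (fun e he => h1 e (by
      have : e ∈ {e | tauG G x' e < s} := by rw [hJ]; exact he
      exact this))
    have e2 := pJ_dep (μ := μF G) (W := WE) (Jt G x s) f B B' (fun e he => h2 e (by
      have : e ∈ {e | tauG G x' e < s} := by rw [hJ]; exact he
      exact this))
    simp only at e1 e2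
    simp only [e1, e2]

theorem psi_le (hF : FK μF) {G : SimpleGraph ℕ} (hG : GoodG G) (x : Ed → unitInterval)
    (hx : Function.Injective (tauG G x)) (f : Ed) {s : ℝ}
    (hsf : s ≤ tauG G x f)
    (hfin : ∑' g : Jt G x s, aI μF s G x g f ≠ ∞) :
    psi μF G x (Jt G x s) f ≤ ∑' g : Jt G x s, bI μF s G x g f := by
  have hA := adapted μF hF G hG x hx
  obtain ⟨u, hu⟩ := hF.good G hG.1
  have hspec := etaAt_spec μF G x hA
  have hf : f ∉ Jt G x s := by
    unfold Jt
    simp only [Set.mem_ofPred_eq, not_lt]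
    exact hsf
  have h := J4 WE_isWin hu (QK μF (G, x)) (fun y => y.2.1) (fun y => y.2.2) (by fun_prop)
    (by fun_prop) (by rw [QK_apply]; exact K1a hA hspec) (by rw [QK_apply]; exact K1b hA hspec)
    (Jt G x s) f hf hfin
  exact h

end

end Vale.Agent.P143
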