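import Vale.Agent.P143.Base

open Set Filter

namespace Vale.Agent.P143

structure TreeFam {E : Type*} [DecidableEq E] (F : Finset E) (𝒯 : Finset (Finset E))
    (X : Finset E → E → E → ℝ) : Prop where
  nonempty : 𝒯.Nonempty
  sub : ∀ T ∈ 𝒯, T ⊆ F
  zl : ∀ T ∈ 𝒯, ∀ e f, e ∉ T → X T e f = 0
  zr : ∀ T ∈ 𝒯, ∀ e f, f ∉ F → X T e f = 0
  diag : ∀ T ∈ 𝒯, ∀ e f, f ∈ T → X T e f = if e = f then 1 else 0
  abs : ∀ T ∈ 𝒯, ∀ e f, |X T e f| ≤ 1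
  mul : ∀ T ∈ 𝒯, ∀ T' ∈ 𝒯, ∀ e f, ∑ g ∈ F, X T e g * X T' g f = X T e f
  swap : ∀ T ∈ 𝒯, ∀ e f, e ≠ f → X T e f ≠ 0 →
    insert f (T.erase e) ∈ 𝒯 ∧ X (insert f (T.erase e)) f e = X T e f

open Classical in
noncomputable def cnt {E : Type*} (𝒯 : Finset (Finset E)) (S : Finset E) (A : Set E) : ℕ :=
  (𝒯.filter (fun T => ∀ e ∈ S, (e ∈ T ↔ e ∈ A))).card

end Vale.Agent.P143
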