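import Vale.Agent.P143.Base

open Set Filter

namespace Vale.Agent.P143

abbrev MT (T : Set (Sym2 ℕ)) : SimpleGraph ℕ := SimpleGraph.fromEdgeSet T

theorem reach_induce {T : Set (Sym2 ℕ)} {VS : Set ℕ} (hT : ∀ e ∈ T, ∀ v ∈ e, v ∈ VS) {x y : ℕ}
    (hx : x ∈ VS) (hy : y ∈ VS) :
    (MT T).Reachable x y ↔ ((MT T).induce VS).Reachable ⟨x, hx⟩ ⟨y, hy⟩ := by
  constructor
  · have key : ∀ {u v : ℕ} (_ : (MT T).Walk u v) (hu : u ∈ VS) (hv : v ∈ VS),
        ((MT T).induce VS).Reachable ⟨u, hu⟩ ⟨v, hv⟩ := by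
      intro u v p
      induction p with
      | nil => intro hu hv; exact SimpleGraph.Reachable.refl _
      | @cons a b c h p ih =>
        intro ha hc
        have hab := h
        rw [SimpleGraph.fromEdgeSet_adj] at hab
        have hb : b ∈ VS := hT _ hab.1 b (by simp)
        refine SimpleGraph.Reachable.trans (SimpleGraph.Adj.reachable (v := ⟨b, hb⟩) ?_) (ih hb hc)
        exact h
    rintro ⟨p⟩
    exact key p hx hy
  · intro h
    exact h.map (SimpleGraph.Embedding.induce VS).toHom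

theorem MT_deleteEdges (T s : Set (Sym2 ℕ)) : (MT T).deleteEdges s = MT (T \ s) := by
  ext a b
  simp only [SimpleGraph.deleteEdges_adj, SimpleGraph.fromEdgeSet_adj, Set.mem_sdiff]
  tauto

theorem isAcyclic_of_induce {T : Set (Sym2 ℕ)} {VS : Set ℕ} (hT : ∀ e ∈ T, ∀ v ∈ e, v ∈ VS)
    (h : ((MT T).induce VS).IsAcyclic) : (MT T).IsAcyclic := by
  rw [SimpleGraph.isAcyclic_iff_forall_adj_isBridge] at *
  intro v w hvw
  have hvw' := hvw
  rw [SimpleGraph.fromEdgeSet_adj] at hvw'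
  have hv : v ∈ VS := hT _ hvw'.1 v (by simp)
  have hw : w ∈ VS := hT _ hvw'.1 w (by simp)
  have h1 := @h ⟨v, hv⟩ ⟨w, hw⟩ hvw
  rw [SimpleGraph.isBridge_iff] at *
  intro h2
  apply h1
  rw [MT_deleteEdges, reach_induce (fun e he => hT e he.1) hv hw] at h2
  have h3 : ((MT T).induce VS).deleteEdges {s(⟨v, hv⟩, ⟨w, hw⟩)}
      = (MT (T \ {s(v, w)})).induce VS := by
    ext a b
    simp only [SimpleGraph.deleteEdges_adj, SimpleGraph.comap_adj, SimpleGraph.fromEdgeSet_adj,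
      Function.Embedding.subtype_apply, Set.mem_sdiff, Set.mem_singleton_iff, Sym2.eq_iff,
      Subtype.ext_iff]
    tauto
  rw [h3]
  exact h2

theorem ST_iff {T : Set (Sym2 ℕ)} {VS : Set ℕ} (hT : ∀ e ∈ T, ∀ v ∈ e, v ∈ VS) :
    ST VS T ↔ VS.Nonempty ∧ (∀ x ∈ VS, ∀ y ∈ VS, (MT T).Reachable x y) ∧ (MT T).IsAcyclic := by
  unfold ST
  rw [SimpleGraph.isTree_iff, SimpleGraph.connected_iff]
  constructor
  · rintro ⟨⟨h1, h2⟩, h3⟩
    refine ⟨Set.nonempty_coe_sort.1 h2, ?_, isAcyclic_of_induce hT h3⟩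
    intro x hx y hy
    exact (reach_induce hT hx hy).2 (h1 ⟨x, hx⟩ ⟨y, hy⟩)
  · rintro ⟨h1, h2, h3⟩
    refine ⟨⟨?_, Set.nonempty_coe_sort.2 h1⟩, h3.induce _⟩
    rintro ⟨x, hx⟩ ⟨y, hy⟩
    exact (reach_induce hT hx hy).1 (h2 x hx y hy)

theorem reach_erase {T : Set (Sym2 ℕ)} {t h x : ℕ} (hr : (MT T).Reachable x h) :
    (MT (T \ {s(t, h)})).Reachable x h ∨ (MT (T \ {s(t, h)})).Reachable x t := by
  obtain ⟨p⟩ := hr
  induction p with
  | nil => exact Or.inl (SimpleGraph.Reachable.refl _)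
  | @cons a b c hab p ih =>
    by_cases he : s(a, b) = s(t, c)
    · rw [Sym2.eq_iff] at he
      rcases he with ⟨rfl, rfl⟩ | ⟨rfl, rfl⟩
      · exact Or.inr (SimpleGraph.Reachable.refl _)
      · exact Or.inl (SimpleGraph.Reachable.refl _)
    · have h1 : (MT (T \ {s(t, c)})).Adj a b := by
        rw [SimpleGraph.fromEdgeSet_adj] at *
        exact ⟨⟨hab.1, he⟩, hab.2⟩
      rcases ih with h | h
      · exact Or.inl (h1.reachable.trans h)
      · exact Or.inr (h1.reachable.trans h)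

theorem sym2_eq_inf_sup (e : Sym2 ℕ) : s(e.inf, e.sup) = e := by
  induction e using Sym2.ind with
  | _ a b =>
    rw [Sym2.inf_mk, Sym2.sup_mk]
    rcases le_total a b with h | h
    · rw [inf_eq_left.2 h, sup_eq_right.2 h]
    · rw [inf_eq_right.2 h, sup_eq_left.2 h, Sym2.eq_swap]

theorem inf_ne_sup {e : Sym2 ℕ} (h : ¬ e.IsDiag) : e.inf ≠ e.sup := by
  intro h'
  apply h
  rw [← sym2_eq_inf_sup e, h']
  simp

theorem inf_mem (e : Sym2 ℕ) : e.inf ∈ e := by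
  have h : e.inf ∈ s(e.inf, e.sup) := Sym2.mem_mk_left _ _
  rwa [sym2_eq_inf_sup] at h

theorem sup_mem (e : Sym2 ℕ) : e.sup ∈ e := by
  have h : e.sup ∈ s(e.inf, e.sup) := Sym2.mem_mk_right _ _
  rwa [sym2_eq_inf_sup] at h

open Classical in
noncomputable def XT (F T : Finset (Sym2 ℕ)) (e f : Sym2 ℕ) : ℝ :=
  if e ∈ T ∧ f ∈ F then
    (if (MT ((T.erase e : Finset (Sym2 ℕ)) : Set (Sym2 ℕ))).Reachable e.sup f.sup then 1 else 0)
    - (if (MT ((T.erase e : Finset (Sym2 ℕ)) : Set (Sym2 ℕ))).Reachable e.sup f.inf then 1 else 0)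
  else 0

section Facts

variable {VS : Set ℕ} {F : Finset (Sym2 ℕ)} (hF : ∀ e ∈ F, ¬ e.IsDiag ∧ ∀ v ∈ e, v ∈ VS)

theorem XT_zl (T : Finset (Sym2 ℕ)) (e f : Sym2 ℕ) (he : e ∉ T) : XT F T e f = 0 := by
  unfold XT; rw [if_neg (fun h => he h.1)]

theorem XT_zr (T : Finset (Sym2 ℕ)) (e f : Sym2 ℕ) (hf : f ∉ F) : XT F T e f = 0 := by
  unfold XT; rw [if_neg (fun h => hf h.2)]

theorem XT_abs (T : Finset (Sym2 ℕ)) (e f : Sym2 ℕ) : |XT F T e f| ≤ 1 := by
  unfold XT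
  split_ifs <;> norm_num

theorem bridge {T : Finset (Sym2 ℕ)}
    (hac : (MT (T : Set (Sym2 ℕ))).IsAcyclic) {e : Sym2 ℕ} (he : e ∈ T)
    (hnd : ¬ e.IsDiag) :
    ¬ (MT ((T.erase e : Finset (Sym2 ℕ)) : Set (Sym2 ℕ))).Reachable e.sup e.inf := by
  rw [SimpleGraph.isAcyclic_iff_forall_adj_isBridge] at hac
  have h1 : (MT (T : Set (Sym2 ℕ))).Adj e.sup e.inf := by
    rw [SimpleGraph.fromEdgeSet_adj, Sym2.eq_swap, sym2_eq_inf_sup]
    exact ⟨he, (inf_ne_sup hnd).symm⟩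
  have h2 := hac h1
  rw [SimpleGraph.isBridge_iff, MT_deleteEdges] at h2
  rw [Finset.coe_erase]
  rw [Sym2.eq_swap, sym2_eq_inf_sup] at h2
  exact h2

include hF in
theorem XT_diag {T : Finset (Sym2 ℕ)} (hTF : T ⊆ F)
    (hac : (MT (T : Set (Sym2 ℕ))).IsAcyclic) (e f : Sym2 ℕ) (hf : f ∈ T) :
    XT F T e f = if e = f then 1 else 0 := by
  classical
  by_cases he : e ∈ T
  · unfold XT
    rw [if_pos ⟨he, hTF hf⟩]
    by_cases hef : e = f
    · subst hef
      rw [if_pos (SimpleGraph.Reachable.refl _),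
        if_neg (bridge hac he (hF _ (hTF he)).1), if_pos rfl]
      norm_num
    · rw [if_neg hef]
      have hadj : (MT ((T.erase e : Finset (Sym2 ℕ)) : Set (Sym2 ℕ))).Adj f.inf f.sup := by
        rw [SimpleGraph.fromEdgeSet_adj, sym2_eq_inf_sup]
        refine ⟨?_, inf_ne_sup (hF _ (hTF hf)).1⟩
        simp [hf, Ne.symm hef]
      have hiff : (MT ((T.erase e : Finset (Sym2 ℕ)) : Set (Sym2 ℕ))).Reachable e.sup f.sup ↔
          (MT ((T.erase e : Finset (Sym2 ℕ)) : Set (Sym2 ℕ))).Reachable e.sup f.inf :=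
        ⟨fun h => h.trans hadj.symm.reachable, fun h => h.trans hadj.reachable⟩
      simp only [hiff, sub_self]
  · rw [XT_zl T e f he, if_neg]
    rintro rfl
    exact he hf

include hF in
theorem XT_swap {T : Finset (Sym2 ℕ)} (hTF : T ⊆ F) (hST : ST VS (T : Set (Sym2 ℕ)))
    (e f : Sym2 ℕ) (hef : e ≠ f) (hX : XT F T e f ≠ 0) :
    (insert f (T.erase e) ⊆ F ∧ ST VS ((insert f (T.erase e) : Finset (Sym2 ℕ)) : Set (Sym2 ℕ))) ∧
      XT F (insert f (T.erase e)) f e = XT F T e f := by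
  classical
  have hTVS : ∀ e ∈ (T : Set (Sym2 ℕ)), ∀ v ∈ e, v ∈ VS := fun e he => (hF e (hTF he)).2
  obtain ⟨hne, hconn, hac⟩ := (ST_iff hTVS).1 hST
  have he : e ∈ T := by
    by_contra h; exact hX (XT_zl T e f h)
  have hfF : f ∈ F := by
    by_contra h; exact hX (XT_zr T e f h)
  have hfT : f ∉ T := by
    intro h
    apply hX
    rw [XT_diag hF hTF hac e f h, if_neg hef]
  have hfe : f ∉ T.erase e := fun h => hfT (Finset.mem_of_mem_erase h)
  set T₀ : Finset (Sym2 ℕ) := T.erase e with hT₀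
  have hcoe : ((T₀ : Finset (Sym2 ℕ)) : Set (Sym2 ℕ)) = (T : Set (Sym2 ℕ)) \ {s(e.inf, e.sup)} := by
    rw [hT₀, Finset.coe_erase, sym2_eq_inf_sup]
  have hbr := bridge hac he (hF e (hTF he)).1
  rw [← hT₀] at hbr
  -- every vertex is reachable from one of the two ends of `e`
  have hcomp : ∀ x ∈ VS, (MT (T₀ : Set (Sym2 ℕ))).Reachable x e.sup ∨
      (MT (T₀ : Set (Sym2 ℕ))).Reachable x e.inf := by
    intro x hx
    have h1 := hconn x hx e.sup (hTVS e he _ (sup_mem e))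
    have h2 := reach_erase (t := e.inf) h1
    rwa [← hcoe] at h2
  have hfs : f.sup ∈ VS := (hF f hfF).2 _ (sup_mem f)
  have hfi : f.inf ∈ VS := (hF f hfF).2 _ (inf_mem f)
  have hXe : XT F T e f =
    (if (MT (T₀ : Set (Sym2 ℕ))).Reachable e.sup f.sup then 1 else 0)
    - (if (MT (T₀ : Set (Sym2 ℕ))).Reachable e.sup f.inf then 1 else 0) := by
    unfold XT; rw [if_pos ⟨he, hfF⟩]
  have herase : (insert f T₀).erase f = T₀ := Finset.erase_insert hfe
  have hXf : XT F (insert f T₀) f e =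
    (if (MT (T₀ : Set (Sym2 ℕ))).Reachable f.sup e.sup then 1 else 0)
    - (if (MT (T₀ : Set (Sym2 ℕ))).Reachable f.sup e.inf then 1 else 0) := by
    unfold XT
    rw [if_pos ⟨Finset.mem_insert_self _ _, hTF he⟩, herase]
  -- dichotomy
  have hdich : ((MT (T₀ : Set (Sym2 ℕ))).Reachable e.sup f.sup ∧
      (MT (T₀ : Set (Sym2 ℕ))).Reachable e.inf f.inf) ∨
      ((MT (T₀ : Set (Sym2 ℕ))).Reachable e.sup f.inf ∧
      (MT (T₀ : Set (Sym2 ℕ))).Reachable e.inf f.sup) := by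
    by_cases h1 : (MT (T₀ : Set (Sym2 ℕ))).Reachable e.sup f.sup
    · by_cases h2 : (MT (T₀ : Set (Sym2 ℕ))).Reachable e.sup f.inf
      · exfalso; apply hX; rw [hXe, if_pos h1, if_pos h2]; norm_num
      · left
        refine ⟨h1, ?_⟩
        rcases hcomp f.inf hfi with h | h
        · exact absurd h.symm h2
        · exact h.symm
    · by_cases h2 : (MT (T₀ : Set (Sym2 ℕ))).Reachable e.sup f.inf
      · right
        refine ⟨h2, ?_⟩
        rcases hcomp f.sup hfs with h | h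
        · exact absurd h.symm h1
        · exact h.symm
      · exfalso; apply hX; rw [hXe, if_neg h1, if_neg h2]; norm_num
  have hnf : ¬ (MT (T₀ : Set (Sym2 ℕ))).Reachable f.inf f.sup := by
    intro h
    rcases hdich with ⟨h1, h2⟩ | ⟨h1, h2⟩
    · exact hbr ((h1.trans h.symm).trans h2.symm)
    · exact hbr ((h1.trans h).trans h2.symm)
  have hsub : insert f T₀ ⊆ F := by
    intro g hg
    rw [Finset.mem_insert] at hg
    rcases hg with rfl | hg
    · exact hfF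
    · exact hTF (Finset.mem_of_mem_erase hg)
  have hMT : MT ((insert f T₀ : Finset (Sym2 ℕ)) : Set (Sym2 ℕ))
      = MT (T₀ : Set (Sym2 ℕ)) ⊔ SimpleGraph.edge f.inf f.sup := by
    ext a b
    rw [SimpleGraph.sup_adj, SimpleGraph.edge_adj, SimpleGraph.fromEdgeSet_adj,
      SimpleGraph.fromEdgeSet_adj, Finset.coe_insert, Set.mem_insert_iff]
    have : s(a, b) = f ↔ (a = f.inf ∧ b = f.sup ∨ a = f.sup ∧ b = f.inf) := by
      conv_lhs => rw [← sym2_eq_inf_sup f]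
      rw [Sym2.eq_iff]
    rw [this]
    tauto
  have hle : MT (T₀ : Set (Sym2 ℕ)) ≤ MT ((insert f T₀ : Finset (Sym2 ℕ)) : Set (Sym2 ℕ)) := by
    rw [hMT]; exact le_sup_left
  have hfadj : (MT ((insert f T₀ : Finset (Sym2 ℕ)) : Set (Sym2 ℕ))).Adj f.inf f.sup := by
    rw [SimpleGraph.fromEdgeSet_adj, sym2_eq_inf_sup]
    exact ⟨by simp, inf_ne_sup (hF f hfF).1⟩
  refine ⟨⟨hsub, ?_⟩, ?_⟩
  · rw [ST_iff (fun g hg => (hF g (hsub hg)).2)]
    refine ⟨hne, ?_, ?_⟩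
    · have hei : (MT ((insert f T₀ : Finset (Sym2 ℕ)) : Set (Sym2 ℕ))).Reachable e.inf e.sup := by
        rcases hdich with ⟨h1, h2⟩ | ⟨h1, h2⟩
        · exact ((h2.mono hle).trans hfadj.reachable).trans (h1.mono hle).symm
        · exact ((h2.mono hle).trans hfadj.symm.reachable).trans (h1.mono hle).symm
      have hall : ∀ x ∈ VS, (MT ((insert f T₀ : Finset (Sym2 ℕ)) : Set (Sym2 ℕ))).Reachable x e.sup := by
        intro x hx
        rcases hcomp x hx with h | h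
        · exact h.mono hle
        · exact (h.mono hle).trans hei
      intro x hx y hy
      exact (hall x hx).trans (hall y hy).symm
    · rw [hMT, SimpleGraph.isAcyclic_add_edge_iff_of_not_reachable _ _ hnf]
      refine hac.anti ?_
      apply SimpleGraph.fromEdgeSet_mono
      exact_mod_cast Finset.erase_subset e T
  · rw [hXf, hXe]
    rcases hdich with ⟨h1, h2⟩ | ⟨h1, h2⟩
    · have h3 : ¬ (MT (T₀ : Set (Sym2 ℕ))).Reachable e.sup f.inf := fun h =>
        hbr (h.trans h2.symm)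
      have h4 : ¬ (MT (T₀ : Set (Sym2 ℕ))).Reachable f.sup e.inf := fun h =>
        hbr (h1.trans h)
      rw [if_pos h1, if_pos h1.symm, if_neg h3, if_neg h4]
    · have h3 : ¬ (MT (T₀ : Set (Sym2 ℕ))).Reachable e.sup f.sup := fun h =>
        hbr (h.trans h2.symm)
      have h4 : ¬ (MT (T₀ : Set (Sym2 ℕ))).Reachable f.sup e.sup := fun h => h3 h.symm
      rw [if_neg h3, if_neg h4, if_pos h1, if_pos h2.symm]

end Facts

end Vale.Agent.P143
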